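/-
S0453 blueprint (helper25): lambda_2(L) >= 1 (in fact 2) for ALL degree sequences.
Definitions shared by all pieces.  See msgs topic S0453 (msg 310) and Blueprint.md.

Notation: Ω = realizations d.  For vertices a ≠ b:  `Same a b G G'` = G,G' agree on all slots not touching a,b.
`fib d a b G` = the (a,b)-fibre of G in Ω.   `E d a b f` = fibre average, `K d a b f = f - E d a b f`.
`ip d g h` = ∑_{G∈Ω} g G * h G.
For four distinct vertices a b c e: `isD a b c e G` : G has exactly one of the two matchings {ac,be}, {ae,bc} and none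
of the other (an alternating 4-cycle with diagonals {a,b},{c,e});  `swD a b c e G` = G with the 4 slots flipped (the switch).
`Dset d a b c e` = {G ∈ Ω | isD}.  `Aop d a b c e f G` = (mean of f over D-states of the (a,b)-fibre of G) - (mean of f on the fibre).
-/
import Mathlib
import Crest.Prelude.Def_SwitchChain

set_option autoImplicit false
open Finset Crest.SwitchChain
open scoped Classical

namespace Crest.Agent.Lib.S0453

variable {n : ℕ}

/-- Graphs on `Fin n`, as in the Prelude. -/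
abbrev Gr (n : ℕ) := Finset (Edge n)

/-- Adjacency. -/
def Adj (G : Gr n) (u v : Fin n) : Prop := ∃ x ∈ G, x.1 = s(u, v)

/-- `G`, `G'` agree on all slots not touching `a` or `b`. -/
def Same (a b : Fin n) (G G' : Gr n) : Prop :=
  ∀ u v, u ≠ a → u ≠ b → v ≠ a → v ≠ b → (Adj G u v ↔ Adj G' u v)

/-- The `(a,b)`-fibre of `G` inside the realizations of `d`. -/
noncomputable def fib (d : Fin n → ℕ) (a b : Fin n) (G : Gr n) : Finset (Gr n) :=
  (realizations d).filter (Same a b G)

/-- Average of `f` over a finite set (0 on the empty set). -/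
noncomputable def avg {β : Type*} (S : Finset β) (f : β → ℝ) : ℝ := (∑ x ∈ S, f x) / (S.card : ℝ)

/-- Fibre average `E_{ab} f`. -/
noncomputable def E (d : Fin n → ℕ) (a b : Fin n) (f : Gr n → ℝ) (G : Gr n) : ℝ :=
  avg (fib d a b G) f

/-- `K_{ab} f = f - E_{ab} f`. -/
noncomputable def K (d : Fin n → ℕ) (a b : Fin n) (f : Gr n → ℝ) (G : Gr n) : ℝ :=
  f G - E d a b f G

/-- Inner product on functions restricted to the realizations. -/
noncomputable def ip (d : Fin n → ℕ) (g h : Gr n → ℝ) : ℝ :=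
  ∑ G ∈ realizations d, g G * h G

/-- Alternating 4-cycle with diagonals `{a,b}`, `{c,e}`: `G` contains exactly one of the matchings
`{ac, be}`, `{ae, bc}` and no edge of the other. -/
def isD (a b c e : Fin n) (G : Gr n) : Prop :=
  (Adj G a c ∧ Adj G b e ∧ ¬ Adj G a e ∧ ¬ Adj G b c) ∨
  (Adj G a e ∧ Adj G b c ∧ ¬ Adj G a c ∧ ¬ Adj G b e)

/-- The four slots of the 4-cycle with diagonals `{a,b}`, `{c,e}`. -/
noncomputable def slots4 (a b c e : Fin n) : Finset (Edge n) :=
  univ.filter fun x => x.1 = s(a, c) ∨ x.1 = s(b, e) ∨ x.1 = s(a, e) ∨ x.1 = s(b, c)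

/-- The switch: flip the four slots. -/
noncomputable def swD (a b c e : Fin n) (G : Gr n) : Gr n := symmDiff G (slots4 a b c e)

/-- D-states of `Ω`. -/
noncomputable def Dset (d : Fin n → ℕ) (a b c e : Fin n) : Finset (Gr n) :=
  (realizations d).filter (isD a b c e)

/-- D-states of the `(a,b)`-fibre of `G`. -/
noncomputable def Dfib (d : Fin n → ℕ) (a b c e : Fin n) (G : Gr n) : Finset (Gr n) :=
  (fib d a b G).filter (isD a b c e)

/-- `A_{ab;ce} f (G)`: D-mean on the `(a,b)`-fibre of `G` minus the fibre mean. -/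
noncomputable def Aop (d : Fin n → ℕ) (a b c e : Fin n) (f : Gr n → ℝ) (G : Gr n) : ℝ :=
  avg (Dfib d a b c e G) f - E d a b f G

/-- Four pairwise distinct vertices. -/
def Dist4 (a b c e : Fin n) : Prop := a ≠ b ∧ a ≠ c ∧ a ≠ e ∧ b ≠ c ∧ b ≠ e ∧ c ≠ e

/-- Energy of `f` in the Johnson graph of the pair `(a,b)`:
`EnG = ∑_{(c,e)} ∑_{G ∈ Dset} (f G - f (swD G))^2 / 4`; each edge of `J_{ab}` counts once. -/
noncomputable def EnG (d : Fin n → ℕ) (a b : Fin n) (f : Gr n → ℝ) : ℝ :=
  ∑ c, ∑ e, if Dist4 a b c e then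
    ∑ G ∈ Dset d a b c e, (f G - f (swD a b c e G)) ^ 2 / 4 else 0

/-- `∑_{(c,e)} ∑_{G∈Dset} A^2`, twice the Johnson-Bessel quantity ξ. -/
noncomputable def XiG (d : Fin n → ℕ) (a b : Fin n) (f : Gr n → ℝ) : ℝ :=
  ∑ c, ∑ e, if Dist4 a b c e then
    ∑ G ∈ Dset d a b c e, (Aop d a b c e f G) ^ 2 else 0

/-- Total energy `= 4 E_L`: each switch (unordered pair of adjacent graphs) counts 4 times in `∑_{a,b} EnG`
(16 times in the sum of squares before the factor 1/4). -/
noncomputable def TotEn (d : Fin n → ℕ) (f : Gr n → ℝ) : ℝ :=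
  ∑ a, ∑ b, if a ≠ b then EnG d a b f else 0

/-- The operator `KK f = (1/2) ∑_{a ≠ b} K_{ab} f` (each unordered pair once). -/
noncomputable def KK (d : Fin n → ℕ) (f : Gr n → ℝ) (G : Gr n) : ℝ :=
  (1 / 2 : ℝ) * ∑ a, ∑ b, if a ≠ b then K d a b f G else 0

/-- Dirichlet form of the chain on `Ω`. -/
noncomputable def Dir (d : Fin n → ℕ) (f : Gr n → ℝ) : ℝ :=
  ∑ G ∈ realizations d, f G * (f G - ∑ G' ∈ realizations d, kernel n G G' * f G')

/-- Counting variance `∑ (f - mean)^2 = ∑ f^2 - (∑ f)^2 / N`. -/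
noncomputable def VarC (d : Fin n → ℕ) (f : Gr n → ℝ) : ℝ :=
  ∑ G ∈ realizations d, (f G - avg (realizations d) f) ^ 2

end Crest.Agent.Lib.S0453
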