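/-
S0453 task API: graph API.  The central fact: the (a,b)-fibre of G is in bijection with the slice
powersetCard p (excl G a b), via G' ↦ nb G' a b = N_{G'}(a) ∩ excl, p = |nb G a b|.
Also isD/swD read on the slice.
-/
import Crest.Agent.Lib.S0453.Defs

set_option autoImplicit false
open Finset Crest.SwitchChain
open scoped Classical

namespace Crest.Agent.Lib.S0453

variable {n : ℕ}

theorem Adj_comm (G : Gr n) (u v : Fin n) : Adj G u v ↔ Adj G v u := by
  unfold Adj
  rw [Sym2.eq_swap]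

theorem not_Adj_self (G : Gr n) (u : Fin n) : ¬ Adj G u u := by
  rintro ⟨x, -, hx⟩
  exact x.2 (by rw [hx]; simp)

theorem gr_ext {G G' : Gr n} (h : ∀ u v, Adj G u v ↔ Adj G' u v) : G = G' := by
  ext ⟨x, hx⟩
  induction x using Sym2.ind with
  | _ u v =>
    constructor
    · intro hm
      obtain ⟨y, hy, hyx⟩ := (h u v).1 ⟨_, hm, rfl⟩
      have : y = ⟨s(u, v), hx⟩ := Subtype.ext hyx
      exact this ▸ hy
    · intro hm
      obtain ⟨y, hy, hyx⟩ := (h u v).2 ⟨_, hm, rfl⟩
      have : y = ⟨s(u, v), hx⟩ := Subtype.ext hyx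
      exact this ▸ hy

/-- Degree in terms of `Adj`. -/
theorem deg_eq_card (G : Gr n) (v : Fin n) : deg G v = (univ.filter (Adj G v)).card := by
  unfold deg
  symm
  have hch : ∀ u, u ∈ univ.filter (Adj G v) → ∃ x ∈ G, x.1 = s(v, u) := fun u hu =>
    (mem_filter.1 hu).2
  refine Finset.card_bij (fun u hu => Classical.choose (hch u hu)) ?_ ?_ ?_
  · intro u hu
    have := Classical.choose_spec (hch u hu)
    refine mem_filter.2 ⟨this.1, ?_⟩
    rw [this.2]; simp
  · intro u hu u' hu' heq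
    have h1 := (Classical.choose_spec (hch u hu)).2
    have h2 := (Classical.choose_spec (hch u' hu')).2
    rw [heq] at h1
    rw [h1] at h2
    exact Sym2.congr_right.1 h2
  · intro e he
    obtain ⟨heG, hv⟩ := mem_filter.1 he
    obtain ⟨w, hw⟩ := hv
    have hmem : w ∈ univ.filter (Adj G v) := mem_filter.2 ⟨mem_univ _, e, heG, hw⟩
    refine ⟨w, hmem, ?_⟩
    have h1 := (Classical.choose_spec (hch w hmem)).2
    exact Subtype.ext (h1.trans hw.symm)

/-- Build a graph from a symmetric irreflexive relation. -/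
theorem exists_ofAdj (R : Fin n → Fin n → Prop) (hs : ∀ u v, R u v → R v u) (hi : ∀ u, ¬ R u u) :
    ∃ G : Gr n, ∀ u v, Adj G u v ↔ R u v := by
  refine ⟨univ.filter (fun x => ∃ u v, x.1 = s(u, v) ∧ R u v), fun u v => ?_⟩
  constructor
  · rintro ⟨x, hx, hxuv⟩
    obtain ⟨-, u', v', h, hR⟩ := mem_filter.1 hx
    rw [hxuv] at h
    rcases Sym2.eq_iff.1 h with ⟨rfl, rfl⟩ | ⟨rfl, rfl⟩
    · exact hR
    · exact hs _ _ hR
  · intro hR
    have huv : u ≠ v := by rintro rfl; exact hi _ hR
    exact ⟨⟨s(u, v), by simpa using huv⟩, mem_filter.2 ⟨mem_univ _, u, v, rfl, hR⟩, rfl⟩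

/-- Exclusive neighbours of the pair `(a,b)`. -/
noncomputable def excl (G : Gr n) (a b : Fin n) : Finset (Fin n) :=
  univ.filter fun w => w ≠ a ∧ w ≠ b ∧ ¬ (Adj G a w ↔ Adj G b w)

/-- Exclusive neighbours on `a`'s side. -/
noncomputable def nb (G : Gr n) (a b : Fin n) : Finset (Fin n) :=
  (excl G a b).filter (Adj G a)

theorem Same_comm (a b : Fin n) (G G' : Gr n) : Same a b G G' ↔ Same b a G G' := by
  constructor <;> exact fun h u v h1 h2 h3 h4 => h u v h2 h1 h4 h3

theorem Same_refl (a b : Fin n) (G : Gr n) : Same a b G G := fun _ _ _ _ _ _ => Iff.rfl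

theorem Same_symm {a b : Fin n} {G G' : Gr n} (h : Same a b G G') : Same a b G' G :=
  fun u v h1 h2 h3 h4 => (h u v h1 h2 h3 h4).symm

theorem Same_trans {a b : Fin n} {G G' G'' : Gr n} (h : Same a b G G') (h' : Same a b G' G'') :
    Same a b G G'' :=
  fun u v h1 h2 h3 h4 => (h u v h1 h2 h3 h4).trans (h' u v h1 h2 h3 h4)

/-! ### Bits and degree splitting -/

/-- The bit of a slot. -/
noncomputable def bit (G : Gr n) (u v : Fin n) : ℕ := if Adj G u v then 1 else 0

theorem bit_comm (G : Gr n) (u v : Fin n) : bit G u v = bit G v u := by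
  unfold bit; simp only [Adj_comm G u v]

theorem bit_self (G : Gr n) (u : Fin n) : bit G u u = 0 := by
  unfold bit; simp [not_Adj_self]

theorem deg_eq_sum (G : Gr n) (v : Fin n) : deg G v = ∑ u, bit G v u := by
  rw [deg_eq_card, card_filter]; rfl

/-- The vertices outside `{a,b}`. -/
noncomputable def rest (a b : Fin n) : Finset (Fin n) := (univ.erase a).erase b

theorem mem_rest {a b w : Fin n} : w ∈ rest a b ↔ w ≠ a ∧ w ≠ b := by
  simp [rest, and_comm]

theorem deg_split {a b : Fin n} (hab : a ≠ b) (G : Gr n) (v : Fin n) :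
    deg G v = bit G v a + bit G v b + ∑ u ∈ rest a b, bit G v u := by
  rw [deg_eq_sum, ← Finset.add_sum_erase univ _ (mem_univ a),
    ← Finset.add_sum_erase (univ.erase a) _ (mem_erase.2 ⟨hab.symm, mem_univ b⟩), add_assoc]
  rfl

theorem rest_sum_eq_of_same {a b v : Fin n} {G G' : Gr n} (h : Same a b G G') (hva : v ≠ a)
    (hvb : v ≠ b) : ∑ u ∈ rest a b, bit G v u = ∑ u ∈ rest a b, bit G' v u := by
  refine Finset.sum_congr rfl fun u hu => ?_
  obtain ⟨h1, h2⟩ := mem_rest.1 hu
  unfold bit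
  simp only [h v u hva hvb h1 h2]

/-- `x_aw + x_bw` is invariant on fibres (in `ℕ`). -/
theorem t_invar {d : Fin n → ℕ} {a b w : Fin n} (hab : a ≠ b) {G G' : Gr n}
    (hG : G ∈ realizations d) (hG' : G' ∈ realizations d) (h : Same a b G G') (hwa : w ≠ a)
    (hwb : w ≠ b) : bit G a w + bit G b w = bit G' a w + bit G' b w := by
  have h1 := deg_split hab G w
  have h2 := deg_split hab G' w
  have h3 := rest_sum_eq_of_same h hwa hwb
  have h4 := (mem_filter.1 hG).2 w
  have h5 := (mem_filter.1 hG').2 w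
  rw [bit_comm G a w, bit_comm G b w, bit_comm G' a w, bit_comm G' b w]
  omega

theorem mem_excl {G : Gr n} {a b w : Fin n} :
    w ∈ excl G a b ↔ w ≠ a ∧ w ≠ b ∧ ¬ (Adj G a w ↔ Adj G b w) := by
  simp [excl]

theorem mem_nb {G : Gr n} {a b w : Fin n} : w ∈ nb G a b ↔ w ∈ excl G a b ∧ Adj G a w := by
  simp [nb]

theorem excl_subset_rest (G : Gr n) (a b : Fin n) : excl G a b ⊆ rest a b := fun w hw => by
  obtain ⟨h1, h2, -⟩ := mem_excl.1 hw
  exact mem_rest.2 ⟨h1, h2⟩

theorem bit_add_eq_one_of_mem_excl {G : Gr n} {a b w : Fin n} (hw : w ∈ excl G a b) :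
    bit G a w + bit G b w = 1 := by
  obtain ⟨-, -, h⟩ := mem_excl.1 hw
  unfold bit
  by_cases h1 : Adj G a w <;> by_cases h2 : Adj G b w <;> simp_all

theorem mem_excl_of_bit {G : Gr n} {a b w : Fin n} (hwa : w ≠ a) (hwb : w ≠ b)
    (h : bit G a w + bit G b w = 1) : w ∈ excl G a b := by
  refine mem_excl.2 ⟨hwa, hwb, ?_⟩
  unfold bit at h
  by_cases h1 : Adj G a w <;> by_cases h2 : Adj G b w <;> simp_all

theorem bit_eq_of_not_mem_excl {G G' : Gr n} {a b w : Fin n} (hwa : w ≠ a) (hwb : w ≠ b)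
    (hw : w ∉ excl G a b) (h : bit G a w + bit G b w = bit G' a w + bit G' b w) :
    (Adj G' a w ↔ Adj G a w) ∧ (Adj G' b w ↔ Adj G b w) := by
  have h0 : (Adj G a w ↔ Adj G b w) := by
    by_contra hc
    exact hw (mem_excl.2 ⟨hwa, hwb, hc⟩)
  unfold bit at h
  by_cases h1 : Adj G a w <;> by_cases h2 : Adj G b w <;>
    by_cases h3 : Adj G' a w <;> by_cases h4 : Adj G' b w <;> simp_all

/-- Sum over the rest splits into the exclusive part and the others. -/
theorem rest_sum_split (G : Gr n) (a b _v : Fin n) (φ : Fin n → ℕ) :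
    ∑ u ∈ rest a b, φ u = ∑ u ∈ excl G a b, φ u + ∑ u ∈ rest a b \ excl G a b, φ u := by
  rw [add_comm, Finset.sum_sdiff (excl_subset_rest G a b)]

theorem sum_bit_excl_a (G : Gr n) (a b : Fin n) :
    ∑ u ∈ excl G a b, bit G a u = (nb G a b).card := by
  unfold nb bit
  rw [card_filter]

/-- Fibre invariants. -/
theorem fib_invariants {d : Fin n → ℕ} {a b : Fin n} (hab : a ≠ b) {G G' : Gr n}
    (hG : G ∈ realizations d) (hG' : G' ∈ fib d a b G) :
    excl G' a b = excl G a b ∧ (nb G' a b).card = (nb G a b).card ∧ (Adj G' a b ↔ Adj G a b) ∧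
    ∀ w, w ≠ a → w ≠ b → w ∉ excl G a b →
      ((Adj G' a w ↔ Adj G a w) ∧ (Adj G' b w ↔ Adj G b w)) := by
  obtain ⟨hR, hS⟩ := mem_filter.1 hG'
  have ht : ∀ w, w ≠ a → w ≠ b → bit G a w + bit G b w = bit G' a w + bit G' b w :=
    fun w h1 h2 => t_invar hab hG hR hS h1 h2
  have hex : excl G' a b = excl G a b := by
    ext w
    constructor
    · intro hw
      obtain ⟨h1, h2, -⟩ := mem_excl.1 hw
      exact mem_excl_of_bit h1 h2 ((ht w h1 h2).trans (bit_add_eq_one_of_mem_excl hw))
    · intro hw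
      obtain ⟨h1, h2, -⟩ := mem_excl.1 hw
      exact mem_excl_of_bit h1 h2 ((ht w h1 h2).symm.trans (bit_add_eq_one_of_mem_excl hw))
  have hother : ∀ w, w ≠ a → w ≠ b → w ∉ excl G a b →
      ((Adj G' a w ↔ Adj G a w) ∧ (Adj G' b w ↔ Adj G b w)) :=
    fun w h1 h2 h3 => bit_eq_of_not_mem_excl h1 h2 h3 (ht w h1 h2)
  -- degrees of `a`, `b`
  have da := deg_split hab G a
  have db := deg_split hab G b
  have da' := deg_split hab G' a
  have db' := deg_split hab G' b
  have e1 := (mem_filter.1 hG).2 a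
  have e2 := (mem_filter.1 hG).2 b
  have e3 := (mem_filter.1 hR).2 a
  have e4 := (mem_filter.1 hR).2 b
  rw [bit_self] at da da'
  rw [bit_self] at db db'
  rw [bit_comm G b a] at db
  rw [bit_comm G' b a] at db'
  have hsum : ∑ u ∈ rest a b, (bit G a u + bit G b u)
      = ∑ u ∈ rest a b, (bit G' a u + bit G' b u) :=
    Finset.sum_congr rfl fun u hu => by
      obtain ⟨h1, h2⟩ := mem_rest.1 hu
      exact ht u h1 h2
  rw [Finset.sum_add_distrib, Finset.sum_add_distrib] at hsum
  have hbit : bit G a b = bit G' a b := by omega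
  have hadj : (Adj G' a b ↔ Adj G a b) := by
    unfold bit at hbit
    by_cases h1 : Adj G a b <;> by_cases h2 : Adj G' a b <;> simp_all
  have hnb : (nb G' a b).card = (nb G a b).card := by
    have s1 := rest_sum_split G a b a (bit G a)
    have s2 := rest_sum_split G' a b a (bit G' a)
    rw [sum_bit_excl_a] at s1 s2
    have s3 : ∑ u ∈ rest a b \ excl G' a b, bit G' a u = ∑ u ∈ rest a b \ excl G a b, bit G a u := by
      rw [hex]
      refine Finset.sum_congr rfl fun u hu => ?_
      obtain ⟨h1, h2⟩ := mem_sdiff.1 hu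
      obtain ⟨h3, h4⟩ := mem_rest.1 h1
      unfold bit
      simp only [(hother u h3 h4 h2).1]
    omega
  exact ⟨hex, hnb, hadj, hother⟩

/-- A fibre element is determined by `nb`. -/
theorem fib_inj {d : Fin n → ℕ} {a b : Fin n} (hab : a ≠ b) {G G' G'' : Gr n}
    (hG : G ∈ realizations d) (hG' : G' ∈ fib d a b G) (hG'' : G'' ∈ fib d a b G)
    (h : nb G' a b = nb G'' a b) : G' = G'' := by
  obtain ⟨ex1, -, ab1, ot1⟩ := fib_invariants hab hG hG'
  obtain ⟨ex2, -, ab2, ot2⟩ := fib_invariants hab hG hG''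
  have hS1 := (mem_filter.1 hG').2
  have hS2 := (mem_filter.1 hG'').2
  have key : ∀ w, w ≠ a → w ≠ b → (Adj G' a w ↔ Adj G'' a w) ∧ (Adj G' b w ↔ Adj G'' b w) := by
    intro w h1 h2
    by_cases hw : w ∈ excl G a b
    · have w1 : w ∈ excl G' a b := ex1 ▸ hw
      have w2 : w ∈ excl G'' a b := ex2 ▸ hw
      have e1 : Adj G' a w ↔ Adj G'' a w := by
        constructor
        · intro hh
          have : w ∈ nb G' a b := mem_nb.2 ⟨w1, hh⟩
          rw [h] at this
          exact (mem_nb.1 this).2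
        · intro hh
          have : w ∈ nb G'' a b := mem_nb.2 ⟨w2, hh⟩
          rw [← h] at this
          exact (mem_nb.1 this).2
      obtain ⟨-, -, n1⟩ := mem_excl.1 w1
      obtain ⟨-, -, n2⟩ := mem_excl.1 w2
      refine ⟨e1, ?_⟩
      by_cases h3 : Adj G' a w <;> by_cases h4 : Adj G' b w <;>
        by_cases h5 : Adj G'' a w <;> by_cases h6 : Adj G'' b w <;> simp_all
    · obtain ⟨p1, p2⟩ := ot1 w h1 h2 hw
      obtain ⟨q1, q2⟩ := ot2 w h1 h2 hw
      exact ⟨p1.trans q1.symm, p2.trans q2.symm⟩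
  apply gr_ext
  intro u v
  by_cases hua : u = a
  · subst hua
    by_cases hvb : v = b
    · subst hvb; exact ab1.trans ab2.symm
    by_cases hva : v = u
    · subst hva
      simp [not_Adj_self]
    · exact (key v hva hvb).1
  by_cases hub : u = b
  · subst hub
    by_cases hva : v = a
    · subst hva
      rw [Adj_comm G' u v, Adj_comm G'' u v]
      exact ab1.trans ab2.symm
    by_cases hvb : v = u
    · subst hvb
      simp [not_Adj_self]
    · exact (key v hva hvb).2
  by_cases hva : v = a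
  · subst hva
    rw [Adj_comm G' u v, Adj_comm G'' u v]
    exact (key u hua hub).1
  by_cases hvb : v = b
  · subst hvb
    rw [Adj_comm G' u v, Adj_comm G'' u v]
    exact (key u hua hub).2
  exact (hS1 u v hua hub hva hvb).symm.trans (hS2 u v hua hub hva hvb)

/-- Every member of the slice is realised in the fibre. -/
theorem fib_surj {d : Fin n → ℕ} {a b : Fin n} (hab : a ≠ b) {G : Gr n}
    (hG : G ∈ realizations d) {A : Finset (Fin n)} (hA : A ⊆ excl G a b)
    (hcard : A.card = (nb G a b).card) :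
    ∃ G' ∈ fib d a b G, nb G' a b = A := by
  -- the new slots
  let Ta : Fin n → Prop := fun w => if w ∈ excl G a b then w ∈ A else Adj G a w
  let Tb : Fin n → Prop := fun w => if w ∈ excl G a b then w ∉ A else Adj G b w
  let R : Fin n → Fin n → Prop := fun u v =>
    if u = a then Ta v else if v = a then Ta u else if u = b then Tb v else if v = b then Tb u
    else Adj G u v
  have hTaa : ¬ Ta a := by
    have : a ∉ excl G a b := fun h => (mem_excl.1 h).1 rfl
    simp only [Ta, if_neg this]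
    exact not_Adj_self G a
  have hTbb : ¬ Tb b := by
    have : b ∉ excl G a b := fun h => (mem_excl.1 h).2.1 rfl
    simp only [Tb, if_neg this]
    exact not_Adj_self G b
  have hTab : Ta b ↔ Adj G a b := by
    have : b ∉ excl G a b := fun h => (mem_excl.1 h).2.1 rfl
    simp only [Ta, if_neg this]
  have hs : ∀ u v, R u v → R v u := by
    intro u v h
    simp only [R] at h ⊢
    by_cases h1 : u = a
    · subst h1
      by_cases h2 : v = u
      · subst h2; simpa using h
      · simpa [h2] using h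
    · by_cases h2 : v = a
      · subst h2; simpa [h1] using h
      · by_cases h3 : u = b
        · subst h3
          by_cases h4 : v = u
          · subst h4; simpa [h1, h2] using h
          · simpa [h1, h2, h4] using h
        · by_cases h4 : v = b
          · subst h4; simpa [h1, h2, h3] using h
          · simp only [h1, h2, h3, h4, if_false] at h ⊢
            exact (Adj_comm G u v).1 h
  have hi : ∀ u, ¬ R u u := by
    intro u h
    simp only [R] at h
    by_cases h1 : u = a
    · subst h1; simp only [if_true] at h; exact hTaa h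
    · by_cases h3 : u = b
      · subst h3; simp only [h1, if_false, if_true] at h; exact hTbb h
      · simp only [h1, h3, if_false] at h; exact not_Adj_self G u h
  obtain ⟨G', hG'⟩ := exists_ofAdj R hs hi
  -- the characterisation
  have c1 : ∀ w, Adj G' a w ↔ Ta w := fun w => by
    rw [hG']; simp only [R, if_true]
  have c2 : ∀ w, w ≠ a → (Adj G' b w ↔ Tb w) := fun w hw => by
    rw [hG']; simp only [R, hab.symm, hw, if_false, if_true]
  have c3 : ∀ u v, u ≠ a → u ≠ b → v ≠ a → v ≠ b → (Adj G' u v ↔ Adj G u v) := by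
    intro u v h1 h2 h3 h4
    rw [hG']; simp only [R, h1, h2, h3, h4, if_false]
  have hS : Same a b G G' := fun u v h1 h2 h3 h4 => (c3 u v h1 h2 h3 h4).symm
  have c1e : ∀ w ∈ excl G a b, (Adj G' a w ↔ w ∈ A) := fun w hw => by
    rw [c1]; simp only [Ta, if_pos hw]
  have c2e : ∀ w ∈ excl G a b, (Adj G' b w ↔ w ∉ A) := fun w hw => by
    rw [c2 w (mem_excl.1 hw).1]; simp only [Tb, if_pos hw]
  have c1n : ∀ w, w ∉ excl G a b → (Adj G' a w ↔ Adj G a w) := fun w hw => by
    rw [c1]; simp only [Ta, if_neg hw]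
  have c2n : ∀ w, w ≠ a → w ∉ excl G a b → (Adj G' b w ↔ Adj G b w) := fun w hwa hw => by
    rw [c2 w hwa]; simp only [Tb, if_neg hw]
  have cab : Adj G' a b ↔ Adj G a b := by
    rw [c1 b]; exact hTab
  -- degrees
  have hAsum : ∑ u ∈ excl G a b, bit G' a u = A.card := by
    have : ∑ u ∈ excl G a b, bit G' a u = ((excl G a b).filter (Adj G' a)).card := by
      rw [card_filter]; rfl
    rw [this]
    congr 1
    ext w
    simp only [mem_filter]
    constructor
    · rintro ⟨h3, h4⟩; exact (c1e w h3).1 h4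
    · intro h3; exact ⟨hA h3, (c1e w (hA h3)).2 h3⟩
  have hdeg : ∀ v, deg G' v = deg G v := by
    intro v
    by_cases hva : v = a
    · subst hva
      rw [deg_split hab G', deg_split hab G, bit_self, bit_self,
        rest_sum_split G v b v (bit G' v), rest_sum_split G v b v (bit G v), sum_bit_excl_a]
      have h1 : bit G' v b = bit G v b := by
        unfold bit; simp only [cab]
      have h3 : ∑ u ∈ rest v b \ excl G v b, bit G' v u = ∑ u ∈ rest v b \ excl G v b, bit G v u := by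
        refine Finset.sum_congr rfl fun u hu => ?_
        unfold bit
        simp only [c1n u (mem_sdiff.1 hu).2]
      rw [h1, hAsum, h3, hcard]
    by_cases hvb : v = b
    · subst hvb
      rw [deg_split hab G', deg_split hab G, bit_self, bit_self,
        rest_sum_split G a v v (bit G' v), rest_sum_split G a v v (bit G v)]
      have h1 : bit G' v a = bit G v a := by
        rw [bit_comm, bit_comm G v a]
        unfold bit; simp only [cab]
      have h3 : ∑ u ∈ rest a v \ excl G a v, bit G' v u = ∑ u ∈ rest a v \ excl G a v, bit G v u := by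
        refine Finset.sum_congr rfl fun u hu => ?_
        obtain ⟨h4, h5⟩ := mem_sdiff.1 hu
        unfold bit
        simp only [c2n u (mem_rest.1 h4).1 h5]
      have h4 : ∑ u ∈ excl G a v, bit G v u + (nb G a v).card = (excl G a v).card := by
        rw [← sum_bit_excl_a, ← Finset.sum_add_distrib, card_eq_sum_ones]
        refine Finset.sum_congr rfl fun u hu => ?_
        have := bit_add_eq_one_of_mem_excl hu
        omega
      have h5 : ∑ u ∈ excl G a v, bit G' v u + A.card = (excl G a v).card := by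
        rw [← hAsum, ← Finset.sum_add_distrib, card_eq_sum_ones]
        refine Finset.sum_congr rfl fun u hu => ?_
        unfold bit
        by_cases hh : u ∈ A
        · simp [c1e u hu, c2e u hu, hh]
        · simp [c1e u hu, c2e u hu, hh]
      have h6 : ∑ u ∈ excl G a v, bit G' v u = ∑ u ∈ excl G a v, bit G v u := by omega
      rw [h1, h3, h6]
    · rw [deg_split hab G', deg_split hab G, ← rest_sum_eq_of_same hS hva hvb,
        bit_comm G' v a, bit_comm G' v b, bit_comm G v a, bit_comm G v b]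
      have : bit G' a v + bit G' b v = bit G a v + bit G b v := by
        by_cases hv : v ∈ excl G a b
        · rw [bit_add_eq_one_of_mem_excl hv]
          unfold bit
          by_cases hh : v ∈ A
          · simp [c1e v hv, c2e v hv, hh]
          · simp [c1e v hv, c2e v hv, hh]
        · unfold bit
          simp only [c1n v hv, c2n v hva hv]
      omega
  have hR : G' ∈ realizations d := mem_filter.2 ⟨mem_univ _, fun v => by
    rw [hdeg v]; exact (mem_filter.1 hG).2 v⟩
  have hF : G' ∈ fib d a b G := mem_filter.2 ⟨hR, hS⟩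
  refine ⟨G', hF, ?_⟩
  obtain ⟨hex, -, -, -⟩ := fib_invariants hab hG hF
  ext w
  rw [mem_nb, hex]
  constructor
  · rintro ⟨h1, h2⟩; exact (c1e w h1).1 h2
  · intro h1; exact ⟨hA h1, (c1e w (hA h1)).2 h1⟩

/-- `isD` read on the slice. -/
theorem isD_iff {a b c e : Fin n} (h : Dist4 a b c e) (G : Gr n) :
    isD a b c e G ↔ c ∈ excl G a b ∧ e ∈ excl G a b ∧
      ((c ∈ nb G a b ∧ e ∉ nb G a b) ∨ (e ∈ nb G a b ∧ c ∉ nb G a b)) := by
  obtain ⟨h1, h2, h3, h4, h5, h6⟩ := h
  simp only [isD, mem_nb, mem_excl]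
  have n1 : c ≠ a := h2.symm
  have n2 : c ≠ b := h4.symm
  have n3 : e ≠ a := h3.symm
  have n4 : e ≠ b := h5.symm
  simp only [n1, n2, n3, n4, ne_eq, not_false_eq_true, true_and]
  tauto

theorem isD_comm {a b c e : Fin n} (G : Gr n) : isD a b c e G ↔ isD c e a b G := by
  unfold isD
  rw [Adj_comm G c a, Adj_comm G e b, Adj_comm G c b, Adj_comm G e a]
  tauto

theorem slots4_comm (a b c e : Fin n) : slots4 a b c e = slots4 c e a b := by
  unfold slots4
  ext x
  simp only [mem_filter, mem_univ, true_and]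
  rw [Sym2.eq_swap (a := c) (b := a), Sym2.eq_swap (a := e) (b := b),
    Sym2.eq_swap (a := c) (b := b), Sym2.eq_swap (a := e) (b := a)]
  tauto

theorem swD_comm (a b c e : Fin n) (G : Gr n) : swD a b c e G = swD c e a b G := by
  unfold swD
  rw [slots4_comm]

theorem slots4_swap (a b c e : Fin n) : slots4 a b c e = slots4 a b e c := by
  unfold slots4
  ext x
  simp only [mem_filter, mem_univ, true_and]
  tauto

theorem swD_swap (a b c e : Fin n) (G : Gr n) : swD a b c e G = swD a b e c G := by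
  unfold swD
  rw [slots4_swap]

/-- The slot predicate of the switch. -/
def Slot (a b c e u v : Fin n) : Prop :=
  s(u, v) = s(a, c) ∨ s(u, v) = s(b, e) ∨ s(u, v) = s(a, e) ∨ s(u, v) = s(b, c)

theorem Adj_swD {a b c e : Fin n} (h : Dist4 a b c e) (G : Gr n) (u v : Fin n) :
    Adj (swD a b c e G) u v ↔ (Adj G u v ↔ ¬ Slot a b c e u v) := by
  obtain ⟨h1, h2, h3, h4, h5, h6⟩ := h
  by_cases huv : u = v
  · subst huv
    have : ¬ Slot a b c e u u := by
      simp only [Slot, Sym2.eq_iff]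
      rintro ((⟨p, q⟩ | ⟨p, q⟩) | (⟨p, q⟩ | ⟨p, q⟩) | (⟨p, q⟩ | ⟨p, q⟩) | (⟨p, q⟩ | ⟨p, q⟩)) <;>
        simp_all
    simp only [this, not_false_eq_true, iff_true]
    simp [not_Adj_self]
  · have hx : ¬ (s(u, v)).IsDiag := by simpa using huv
    have key : ∀ H : Gr n, Adj H u v ↔ (⟨s(u, v), hx⟩ : Edge n) ∈ H := by
      intro H
      constructor
      · rintro ⟨y, hy, hyx⟩
        have : y = ⟨s(u, v), hx⟩ := Subtype.ext hyx
        exact this ▸ hy
      · intro hm
        exact ⟨_, hm, rfl⟩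
    rw [key, key]
    unfold swD
    have hS : (⟨s(u, v), hx⟩ : Edge n) ∈ slots4 a b c e ↔ Slot a b c e u v := by
      simp [slots4, Slot]
    rw [Finset.mem_symmDiff, hS]
    tauto

theorem slot_not_of_ne_ab {a b c e u v : Fin n} (h1 : u ≠ a) (h2 : u ≠ b) (h3 : v ≠ a)
    (h4 : v ≠ b) : ¬ Slot a b c e u v := by
  simp only [Slot, Sym2.eq_iff]
  rintro ((⟨p, q⟩ | ⟨p, q⟩) | (⟨p, q⟩ | ⟨p, q⟩) | (⟨p, q⟩ | ⟨p, q⟩) | (⟨p, q⟩ | ⟨p, q⟩)) <;>
    simp_all

theorem slot_not_of_ne_ce {a b c e u v : Fin n} (h1 : u ≠ c) (h2 : u ≠ e) (h3 : v ≠ c)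
    (h4 : v ≠ e) : ¬ Slot a b c e u v := by
  simp only [Slot, Sym2.eq_iff]
  rintro ((⟨p, q⟩ | ⟨p, q⟩) | (⟨p, q⟩ | ⟨p, q⟩) | (⟨p, q⟩ | ⟨p, q⟩) | (⟨p, q⟩ | ⟨p, q⟩)) <;>
    simp_all

theorem slot_a {a b c e w : Fin n} (h : Dist4 a b c e) :
    Slot a b c e a w ↔ (w = c ∨ w = e) := by
  obtain ⟨h1, h2, h3, h4, h5, h6⟩ := h
  simp only [Slot, Sym2.eq_iff]
  constructor
  · rintro ((⟨p, q⟩ | ⟨p, q⟩) | (⟨p, q⟩ | ⟨p, q⟩) | (⟨p, q⟩ | ⟨p, q⟩) | (⟨p, q⟩ | ⟨p, q⟩)) <;> simp_all
  · rintro (rfl | rfl) <;> simp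

theorem slot_b {a b c e w : Fin n} (h : Dist4 a b c e) :
    Slot a b c e b w ↔ (w = c ∨ w = e) := by
  obtain ⟨h1, h2, h3, h4, h5, h6⟩ := h
  simp only [Slot, Sym2.eq_iff]
  constructor
  · rintro ((⟨p, q⟩ | ⟨p, q⟩) | (⟨p, q⟩ | ⟨p, q⟩) | (⟨p, q⟩ | ⟨p, q⟩) | (⟨p, q⟩ | ⟨p, q⟩)) <;> simp_all
  · rintro (rfl | rfl) <;> simp

/-- Exchange lemma for degrees. -/
theorem deg_eq_of_exchange {G G' : Gr n} {v x y : Fin n} (hxy : x ≠ y) (h1 : Adj G v x)
    (h2 : ¬ Adj G v y) (h3 : Adj G' v y) (h4 : ¬ Adj G' v x)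
    (h5 : ∀ z, z ≠ x → z ≠ y → (Adj G' v z ↔ Adj G v z)) : deg G' v = deg G v := by
  rw [deg_eq_card, deg_eq_card]
  have : univ.filter (Adj G' v) = insert y ((univ.filter (Adj G v)).erase x) := by
    ext z
    simp only [mem_filter, mem_univ, true_and, mem_insert, mem_erase]
    by_cases hzx : z = x
    · subst hzx; simp [h4, hxy]
    by_cases hzy : z = y
    · subst hzy; simp [h3]
    simp [hzx, hzy, h5 z hzx hzy]
  rw [this, card_insert_of_notMem (by simp [h2]), card_erase_of_mem (by simp [h1])]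
  have : 0 < (univ.filter (Adj G v)).card := card_pos.2 ⟨x, by simp [h1]⟩
  omega

/-- Core of `swD_spec`, first alternative of `isD`. -/
theorem swD_spec_aux {d : Fin n → ℕ} {a b c e : Fin n} (h : Dist4 a b c e) {G : Gr n}
    (hG : G ∈ realizations d)
    (hi : Adj G a c ∧ Adj G b e ∧ ¬ Adj G a e ∧ ¬ Adj G b c) :
    swD a b c e G ∈ realizations d ∧
      (Adj (swD a b c e G) a e ∧ Adj (swD a b c e G) b c ∧ ¬ Adj (swD a b c e G) a c ∧
        ¬ Adj (swD a b c e G) b e) := by
  obtain ⟨i1, i2, i3, i4⟩ := hi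
  have hh := h
  obtain ⟨h1, h2, h3, h4, h5, h6⟩ := hh
  set G' := swD a b c e G with hG'
  have A := Adj_swD h G
  have sa : ∀ w, Slot a b c e a w ↔ (w = c ∨ w = e) := fun w => slot_a h
  have sb : ∀ w, Slot a b c e b w ↔ (w = c ∨ w = e) := fun w => slot_b h
  have ac' : ¬ Adj G' a c := by rw [A, sa]; simp [i1]
  have ae' : Adj G' a e := by rw [A, sa]; simp [i3]
  have bc' : Adj G' b c := by rw [A, sb]; simp [i4]
  have be' : ¬ Adj G' b e := by rw [A, sb]; simp [i2]
  refine ⟨mem_filter.2 ⟨mem_univ _, fun v => ?_⟩, ae', bc', ac', be'⟩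
  rw [← (mem_filter.1 hG).2 v]
  by_cases va : v = a
  · subst va
    refine deg_eq_of_exchange h6 i1 i3 ae' ac' fun z h7 h8 => ?_
    rw [A, sa]; simp [h7, h8]
  by_cases vb : v = b
  · subst vb
    refine deg_eq_of_exchange h6.symm i2 i4 bc' be' fun z h7 h8 => ?_
    rw [A, sb]; simp [h7, h8]
  by_cases vc : v = c
  · subst vc
    refine deg_eq_of_exchange h1 ((Adj_comm _ _ _).1 i1) (fun hc => i4 ((Adj_comm _ _ _).1 hc))
      ((Adj_comm _ _ _).1 bc') (fun hc => ac' ((Adj_comm _ _ _).1 hc)) fun z h7 h8 => ?_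
    rw [A]
    have : ¬ Slot a b v e v z := by
      intro hc
      rw [Slot, Sym2.eq_iff, Sym2.eq_iff, Sym2.eq_iff, Sym2.eq_iff] at hc
      simp_all
    simp [this]
  by_cases ve : v = e
  · subst ve
    refine deg_eq_of_exchange h1.symm ((Adj_comm _ _ _).1 i2) (fun hc => i3 ((Adj_comm _ _ _).1 hc))
      ((Adj_comm _ _ _).1 ae') (fun hc => be' ((Adj_comm _ _ _).1 hc)) fun z h7 h8 => ?_
    rw [A]
    have : ¬ Slot a b c v v z := by
      intro hc
      rw [Slot, Sym2.eq_iff, Sym2.eq_iff, Sym2.eq_iff, Sym2.eq_iff] at hc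
      simp_all
    simp [this]
  · have hfun : univ.filter (Adj G' v) = univ.filter (Adj G v) := by
      ext z
      simp only [mem_filter, mem_univ, true_and]
      rw [A]
      have : ¬ Slot a b c e v z := by
        intro hc
        rw [Slot, Sym2.eq_iff, Sym2.eq_iff, Sym2.eq_iff, Sym2.eq_iff] at hc
        simp_all
      simp [this]
    rw [deg_eq_card, deg_eq_card, hfun]

/-- The switch stays in the realizations, in the fibre, preserves `isD`, is an involution, and acts on `nb` by exchanging `c,e`. -/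
theorem swD_spec {d : Fin n → ℕ} {a b c e : Fin n} (h : Dist4 a b c e) {G : Gr n}
    (hG : G ∈ Dset d a b c e) :
    swD a b c e G ∈ Dset d a b c e ∧ swD a b c e G ∈ fib d a b G ∧ swD a b c e G ∈ fib d c e G ∧
    swD a b c e (swD a b c e G) = G ∧ swD a b c e G ≠ G ∧
    nb (swD a b c e G) a b = symmDiff (nb G a b) {c, e} := by
  obtain ⟨hR, hD⟩ := mem_filter.1 hG
  have hh := h
  obtain ⟨h1, h2, h3, h4, h5, h6⟩ := hh
  have A := Adj_swD h G
  have sa : ∀ w, Slot a b c e a w ↔ (w = c ∨ w = e) := fun w => slot_a h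
  have sb : ∀ w, Slot a b c e b w ↔ (w = c ∨ w = e) := fun w => slot_b h
  have hsa : Same a b G (swD a b c e G) := fun u v q1 q2 q3 q4 => by
    rw [A]; simp [slot_not_of_ne_ab q1 q2 q3 q4]
  have hsb : Same c e G (swD a b c e G) := fun u v q1 q2 q3 q4 => by
    rw [A]; simp [slot_not_of_ne_ce q1 q2 q3 q4]
  have hr : swD a b c e G ∈ realizations d ∧ isD a b c e (swD a b c e G) := by
    rcases hD with hi | hi
    · obtain ⟨q1, q2⟩ := swD_spec_aux h hR hi
      exact ⟨q1, Or.inr q2⟩
    · have h' : Dist4 a b e c := ⟨h1, h3, h2, h5, h4, h6.symm⟩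
      obtain ⟨q1, q2⟩ := swD_spec_aux h' hR hi
      rw [← swD_swap] at q1 q2
      exact ⟨q1, Or.inl q2⟩
  refine ⟨mem_filter.2 hr, mem_filter.2 ⟨hr.1, hsa⟩, mem_filter.2 ⟨hr.1, hsb⟩, ?_, ?_, ?_⟩
  · unfold swD
    exact symmDiff_symmDiff_cancel_right _ _
  · intro heq
    have q : Adj (swD a b c e G) a c ↔ Adj G a c := by rw [heq]
    rw [A, sa] at q
    simp at q
  · ext w
    have hcD := (isD_iff h G).1 hD
    obtain ⟨hc, he, -⟩ := hcD
    rw [Finset.mem_symmDiff, mem_nb, mem_nb, mem_excl, mem_excl]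
    simp only [A, sa, sb, mem_insert, mem_singleton]
    by_cases w1 : w = c
    · subst w1
      obtain ⟨-, -, q⟩ := mem_excl.1 hc
      have : w ≠ a := h2.symm
      have : w ≠ b := h4.symm
      simp_all
      tauto
    by_cases w2 : w = e
    · subst w2
      obtain ⟨-, -, q⟩ := mem_excl.1 he
      have : w ≠ a := h3.symm
      have : w ≠ b := h5.symm
      simp_all
      tauto
    · simp [w1, w2]

end Crest.Agent.Lib.S0453
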