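/-
Numeric core of the 3-row lemma: log-concave product weights on the simplex
`n₀+n₁+n₂ = Q`; the "max ratio" (Perron) argument of helper4/helper24.
-/
import Mathlib

set_option autoImplicit false

open Finset BigOperators

namespace Crest.Agent.Lib.S0453.AuxAbel3

/-- Abel summation in the form used below. -/
lemma abel_sum (ρ φ : ℕ → ℝ) (Q : ℕ) :
    ∑ s ∈ range (Q + 1), ρ s * φ s =
      φ 0 * ∑ s ∈ range (Q + 1), ρ s +
        ∑ j ∈ range Q, (φ (j + 1) - φ j) * ∑ s ∈ Ico (j + 1) (Q + 1), ρ s := by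
  induction Q with
  | zero => simp [mul_comm]
  | succ Q ih =>
    rw [sum_range_succ, ih, sum_range_succ (fun j => (φ (j + 1) - φ j) * ∑ s ∈ Ico (j + 1) (Q + 1 + 1), ρ s)]
    have h1 : ∑ s ∈ range (Q + 1 + 1), ρ s = ∑ s ∈ range (Q + 1), ρ s + ρ (Q + 1) :=
      sum_range_succ _ _
    have h2 : ∀ j ∈ range Q, ∑ s ∈ Ico (j + 1) (Q + 1 + 1), ρ s =
        ∑ s ∈ Ico (j + 1) (Q + 1), ρ s + ρ (Q + 1) := by
      intro j hj
      rw [mem_range] at hj
      rw [sum_Ico_succ_top (by omega)]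
    have h3 : ∑ j ∈ range Q, (φ (j + 1) - φ j) * ∑ s ∈ Ico (j + 1) (Q + 1 + 1), ρ s =
        ∑ j ∈ range Q, (φ (j + 1) - φ j) * ∑ s ∈ Ico (j + 1) (Q + 1), ρ s +
          (∑ j ∈ range Q, (φ (j + 1) - φ j)) * ρ (Q + 1) := by
      rw [sum_mul, ← sum_add_distrib]
      apply sum_congr rfl
      intro j hj
      rw [h2 j hj]; ring
    rw [h3, sum_range_sub, h1]
    have h4 : ∑ s ∈ Ico (Q + 1) (Q + 1 + 1), ρ s = ρ (Q + 1) := by simp
    rw [h4]; ring

/-- tail sums determine the sequence. -/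
lemma eq_zero_of_tails (ρ : ℕ → ℝ) (Q : ℕ)
    (h : ∀ j ≤ Q, ∑ s ∈ Ico j (Q + 1), ρ s = 0) : ∀ s ≤ Q, ρ s = 0 := by
  intro s hs
  have h1 := h s hs
  by_cases hsQ : s = Q
  · subst hsQ
    simpa using h1
  · have h2 := h (s + 1) (by omega)
    rw [sum_eq_sum_Ico_succ_bot (by omega), h2] at h1
    simpa using h1

section Main

variable (Q : ℕ) (Δ : Finset (Fin 3 → ℕ)) (μ : (Fin 3 → ℕ) → ℝ)

/-- `C i H j = ∑ₙ μ n H(nᵢ) 1(j ≤ nᵢ)`. -/
noncomputable def tailC (i : Fin 3) (H : ℕ → ℝ) (j : ℕ) : ℝ :=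
  ∑ n ∈ Δ, μ n * H (n i) * (if j ≤ n i then 1 else 0)

/-- marginal mass of `nᵢ = s`. -/
noncomputable def marg (i : Fin 3) (s : ℕ) : ℝ :=
  ∑ n ∈ Δ.filter (fun n => n i = s), μ n

/-- mass of `nᵢ = s, k ≤ n_l`. -/
noncomputable def margUp (i l : Fin 3) (k s : ℕ) : ℝ :=
  ∑ n ∈ Δ.filter (fun n => n i = s ∧ k ≤ n l), μ n

/-- conditional probability of `k ≤ n_l` given `nᵢ = s`. -/
noncomputable def condP (i l : Fin 3) (k s : ℕ) : ℝ :=
  margUp Δ μ i l k s / marg Δ μ i s

variable {Q Δ μ}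

lemma sum_fiber (hΔ : ∀ n ∈ Δ, ∀ i, n i ≤ Q) (i : Fin 3) (F : (Fin 3 → ℕ) → ℝ) :
    ∑ n ∈ Δ, F n = ∑ s ∈ range (Q + 1), ∑ n ∈ Δ.filter (fun n => n i = s), F n := by
  rw [sum_fiberwise_of_maps_to]
  intro n hn
  rw [mem_range]
  have := hΔ n hn i
  omega

lemma tailC_eq (hΔ : ∀ n ∈ Δ, ∀ i, n i ≤ Q) (i : Fin 3) (H : ℕ → ℝ) (j : ℕ) :
    tailC Δ μ i H j = ∑ s ∈ Ico j (Q + 1), H s * marg Δ μ i s := by
  unfold tailC
  rw [sum_fiber hΔ i]
  have : ∀ s ∈ range (Q + 1), ∑ n ∈ Δ.filter (fun n => n i = s),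
        μ n * H (n i) * (if j ≤ n i then 1 else 0) =
      (if j ≤ s then H s * marg Δ μ i s else 0) := by
    intro s _
    unfold marg
    rw [mul_sum]
    split_ifs with hjs
    · apply sum_congr rfl
      intro n hn
      rw [mem_filter] at hn
      rw [hn.2, if_pos hjs]; ring
    · apply sum_eq_zero
      intro n hn
      rw [mem_filter] at hn
      rw [hn.2, if_neg hjs]; ring
  rw [sum_congr rfl this, ← sum_filter]
  apply sum_congr _ (fun _ _ => rfl)
  ext s
  simp only [mem_filter, mem_range, mem_Ico]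
  omega

lemma cross_eq (hΔ : ∀ n ∈ Δ, ∀ i, n i ≤ Q) (i l : Fin 3) (H : ℕ → ℝ) (k : ℕ) :
    ∑ n ∈ Δ, μ n * H (n i) * (if k ≤ n l then 1 else 0) =
      ∑ s ∈ range (Q + 1), H s * margUp Δ μ i l k s := by
  rw [sum_fiber hΔ i]
  apply sum_congr rfl
  intro s _
  unfold margUp
  conv_rhs => rw [← filter_filter, mul_sum, sum_filter]
  apply sum_congr rfl
  intro n hn
  rw [mem_filter] at hn
  rw [hn.2]
  split_ifs <;> ring

lemma slice_eq (hΔ : ∀ n ∈ Δ, ∀ i, n i ≤ Q) (i l : Fin 3) (H : ℕ → ℝ) (k : ℕ)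
    (hm : ∀ s ≤ Q, 0 < marg Δ μ i s) (h0 : tailC Δ μ i H 0 = 0) :
    ∑ n ∈ Δ, μ n * H (n i) * (if k ≤ n l then 1 else 0) =
      - ∑ j ∈ range Q, (condP Δ μ i l k j - condP Δ μ i l k (j + 1)) * tailC Δ μ i H (j + 1) := by
  rw [cross_eq hΔ]
  have h1 : ∑ s ∈ range (Q + 1), H s * margUp Δ μ i l k s =
      ∑ s ∈ range (Q + 1), (H s * marg Δ μ i s) * condP Δ μ i l k s := by
    apply sum_congr rfl
    intro s hs
    rw [mem_range] at hs
    have := hm s (by omega)
    unfold condP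
    field_simp
  rw [h1, abel_sum]
  have h2 : ∑ s ∈ range (Q + 1), H s * marg Δ μ i s = 0 := by
    rw [← h0, tailC_eq hΔ, Nat.Ico_zero_eq_range]
  rw [h2, mul_zero, zero_add, ← sum_neg_distrib]
  apply sum_congr rfl
  intro j _
  rw [tailC_eq hΔ]
  ring

/-- The max-ratio argument: an eigen-system with `t > 2` vanishes. -/
theorem main_vanish (hQ : ∀ n ∈ Δ, ∑ i, n i = Q)
    (hm : ∀ i, ∀ s ≤ Q, 0 < marg Δ μ i s)
    (hM : ∀ i l, i ≠ l → ∀ k s, s < Q → condP Δ μ i l k (s + 1) ≤ condP Δ μ i l k s)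
    (G : Fin 3 → ℕ → ℝ) (t : ℝ) (ht : 2 < t)
    (h0 : ∀ i, tailC Δ μ i (G i) 0 = 0)
    (heig : ∀ l k, (t - 1) * tailC Δ μ l (G l) k =
      ∑ i ∈ univ.erase l, ∑ n ∈ Δ, μ n * G i (n i) * (if k ≤ n l then 1 else 0)) :
    ∀ i, ∀ s ≤ Q, G i s = 0 := by
  classical
  have hΔ : ∀ n ∈ Δ, ∀ i, n i ≤ Q := by
    intro n hn i
    rw [← hQ n hn]
    exact single_le_sum (f := n) (fun _ _ => Nat.zero_le _) (mem_univ i)
  -- total mass
  set Z : ℝ := ∑ n ∈ Δ, μ n with hZ
  have hZpos : 0 < Z := by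
    have h1 : Z = ∑ s ∈ range (Q + 1), marg Δ μ 0 s := by
      rw [hZ, sum_fiber hΔ 0]; rfl
    rw [h1]
    apply sum_pos
    · intro s hs
      rw [mem_range] at hs
      exact hm 0 s (by omega)
    · exact ⟨0, by simp⟩
  -- means
  set nb : Fin 3 → ℝ := fun i => (∑ n ∈ Δ, μ n * (n i : ℝ)) / Z with hnb
  set H : Fin 3 → ℕ → ℝ := fun i s => (s : ℝ) - nb i with hH
  have hnbsum : ∑ i, nb i = Q := by
    simp only [hnb]
    rw [← sum_div, sum_comm]
    have : ∀ n ∈ Δ, ∑ i, μ n * (n i : ℝ) = μ n * Q := by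
      intro n hn
      rw [← mul_sum, ← Nat.cast_sum, hQ n hn]
    rw [sum_congr rfl this, ← sum_mul, ← hZ]
    field_simp
  have hHzero : ∀ n ∈ Δ, ∑ i, H i (n i) = 0 := by
    intro n hn
    simp only [hH]
    rw [sum_sub_distrib, hnbsum, ← Nat.cast_sum, hQ n hn]; ring
  have hH0 : ∀ i, tailC Δ μ i (H i) 0 = 0 := by
    intro i
    unfold tailC
    simp only [hH, Nat.zero_le, if_true, mul_one]
    have : ∀ n ∈ Δ, μ n * ((n i : ℝ) - nb i) = μ n * (n i : ℝ) - nb i * μ n := by
      intro n _; ring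
    rw [sum_congr rfl this, sum_sub_distrib, ← mul_sum, ← hZ]
    simp only [hnb]
    field_simp
    ring
  -- positivity of c0
  have hc0pos : ∀ i, ∀ j, 1 ≤ j → j ≤ Q → 0 < tailC Δ μ i (H i) j := by
    intro i j hj1 hjQ
    have hB := tailC_eq (Δ := Δ) (μ := μ) hΔ i (H i) j
    have h0' := tailC_eq (Δ := Δ) (μ := μ) hΔ i (H i) 0
    rw [hH0 i, Nat.Ico_zero_eq_range] at h0'
    have hsplit : ∑ s ∈ range (Q + 1), H i s * marg Δ μ i s =
        ∑ s ∈ range j, H i s * marg Δ μ i s + ∑ s ∈ Ico j (Q + 1), H i s * marg Δ μ i s :=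
      (sum_range_add_sum_Ico _ (by omega)).symm
    rw [hB]
    set B := ∑ s ∈ Ico j (Q + 1), H i s * marg Δ μ i s with hBdef
    set x := H i j with hx
    have hA : 0 < ∑ s ∈ Ico j (Q + 1), marg Δ μ i s := by
      apply sum_pos
      · intro s hs
        rw [mem_Ico] at hs
        exact hm i s (by omega)
      · exact ⟨j, by rw [mem_Ico]; omega⟩
    have hA' : 0 < ∑ s ∈ range j, marg Δ μ i s := by
      apply sum_pos
      · intro s hs
        rw [mem_range] at hs
        exact hm i s (by omega)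
      · exact ⟨0, by rw [mem_range]; omega⟩
    have h1 : x * ∑ s ∈ Ico j (Q + 1), marg Δ μ i s ≤ B := by
      rw [mul_sum, hBdef]
      apply sum_le_sum
      intro s hs
      rw [mem_Ico] at hs
      have hms := (hm i s (by omega)).le
      apply mul_le_mul_of_nonneg_right _ hms
      simp only [hx, hH]
      have : (j : ℝ) ≤ s := by exact_mod_cast hs.1
      linarith
    have h2 : (1 - x) * ∑ s ∈ range j, marg Δ μ i s ≤ B := by
      have h3 : B = - ∑ s ∈ range j, H i s * marg Δ μ i s := by linarith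
      rw [h3, mul_sum, ← sum_neg_distrib]
      apply sum_le_sum
      intro s hs
      rw [mem_range] at hs
      have hms := (hm i s (by omega)).le
      have h4 : (1 - x) ≤ - H i s := by
        simp only [hx, hH]
        have : (s : ℝ) + 1 ≤ j := by exact_mod_cast hs
        linarith
      nlinarith
    by_cases hxpos : 0 < x
    · nlinarith [mul_pos hxpos hA]
    · have : 0 < 1 - x := by linarith
      nlinarith [mul_pos this hA']
  -- identity for c0
  have hc0id : ∀ l k, tailC Δ μ l (H l) k =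
      ∑ i ∈ univ.erase l, ∑ j ∈ range Q,
        (condP Δ μ i l k j - condP Δ μ i l k (j + 1)) * tailC Δ μ i (H i) (j + 1) := by
    intro l k
    have h1 : ∀ i ∈ (univ : Finset (Fin 3)).erase l,
        ∑ j ∈ range Q, (condP Δ μ i l k j - condP Δ μ i l k (j + 1)) * tailC Δ μ i (H i) (j + 1) =
        - ∑ n ∈ Δ, μ n * H i (n i) * (if k ≤ n l then 1 else 0) := by
      intro i _
      rw [slice_eq hΔ i l (H i) k (hm i) (hH0 i), neg_neg]
    rw [sum_congr rfl h1, sum_neg_distrib, sum_comm]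
    unfold tailC
    rw [← sum_neg_distrib]
    apply sum_congr rfl
    intro n hn
    have h2 := hHzero n hn
    rw [← add_sum_erase _ _ (mem_univ l)] at h2
    rw [← sum_mul, ← mul_sum]
    have h3 : ∑ i ∈ (univ : Finset (Fin 3)).erase l, H i (n i) = - H l (n l) := by linarith
    rw [h3]; ring
  -- the tails of G vanish
  have htail : ∀ i, ∀ j, j ≤ Q → tailC Δ μ i (G i) j = 0 := by
    by_cases hQ0 : Q = 0
    · intro i j hj
      have : j = 0 := by omega
      rw [this]; exact h0 i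
    · set X : Finset (Fin 3 × ℕ) := univ ×ˢ Ico 1 (Q + 1) with hX
      have hXne : X.Nonempty := ⟨(0, 1), by simp [hX]; omega⟩
      obtain ⟨⟨l, k⟩, hlk, hmax⟩ := exists_max_image X
        (fun p => |tailC Δ μ p.1 (G p.1) p.2| / tailC Δ μ p.1 (H p.1) p.2) hXne
      have hlk' : 1 ≤ k ∧ k ≤ Q := by
        simp only [hX, mem_product, mem_Ico, mem_univ, true_and] at hlk
        omega
      set m : ℝ := |tailC Δ μ l (G l) k| / tailC Δ μ l (H l) k with hmdef
      have hc0lk := hc0pos l k hlk'.1 hlk'.2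
      have hm0 : 0 ≤ m := div_nonneg (abs_nonneg _) hc0lk.le
      have hbd : ∀ i, ∀ j, 1 ≤ j → j ≤ Q →
          |tailC Δ μ i (G i) j| ≤ m * tailC Δ μ i (H i) j := by
        intro i j hj1 hjQ
        have h1 := hmax (i, j) (by simp [hX]; omega)
        have h2 := hc0pos i j hj1 hjQ
        simp only at h1
        rwa [div_le_iff₀ h2] at h1
      have hC : |tailC Δ μ l (G l) k| = m * tailC Δ μ l (H l) k := by
        rw [hmdef]; field_simp
      -- the main estimate
      have hest : (t - 1) * |tailC Δ μ l (G l) k| ≤ m * tailC Δ μ l (H l) k := by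
        have h1 : (t - 1) * |tailC Δ μ l (G l) k| = |(t - 1) * tailC Δ μ l (G l) k| := by
          rw [abs_mul, abs_of_pos (by linarith : (0:ℝ) < t - 1)]
        rw [h1, heig l k]
        have h2 : ∀ i ∈ (univ : Finset (Fin 3)).erase l,
            ∑ n ∈ Δ, μ n * G i (n i) * (if k ≤ n l then 1 else 0) =
            - ∑ j ∈ range Q, (condP Δ μ i l k j - condP Δ μ i l k (j + 1)) *
              tailC Δ μ i (G i) (j + 1) := by
          intro i _
          exact slice_eq hΔ i l (G i) k (hm i) (h0 i)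
        rw [sum_congr rfl h2, sum_neg_distrib, abs_neg, hc0id l k, mul_sum]
        refine (abs_sum_le_sum_abs _ _).trans (sum_le_sum ?_)
        intro i hi
        rw [mul_sum]
        refine (abs_sum_le_sum_abs _ _).trans (sum_le_sum ?_)
        intro j hj
        rw [mem_range] at hj
        have hil : i ≠ l := ne_of_mem_erase hi
        have hD : 0 ≤ condP Δ μ i l k j - condP Δ μ i l k (j + 1) :=
          sub_nonneg.mpr (hM i l hil k j hj)
        rw [abs_mul, abs_of_nonneg hD]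
        have := hbd i (j + 1) (by omega) (by omega)
        nlinarith
      have hm_le : m ≤ 0 := by
        rw [hC] at hest
        have h2 : (t - 2) * (m * tailC Δ μ l (H l) k) ≤ 0 := by nlinarith
        have h3 : 0 < (t - 2) * tailC Δ μ l (H l) k := mul_pos (by linarith) hc0lk
        nlinarith
      have hm_eq : m = 0 := le_antisymm hm_le hm0
      intro i j hj
      by_cases hj0 : j = 0
      · rw [hj0]; exact h0 i
      · have := hbd i j (by omega) hj
        rw [hm_eq, zero_mul] at this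
        exact abs_nonpos_iff.mp this
  intro i s hs
  have h1 : ∀ j ≤ Q, ∑ s ∈ Ico j (Q + 1), G i s * marg Δ μ i s = 0 := by
    intro j hj
    rw [← tailC_eq hΔ]
    exact htail i j hj
  have h2 := eq_zero_of_tails _ Q h1 s hs
  have h3 := hm i s hs
  exact (mul_eq_zero.mp h2).resolve_right h3.ne'

end Main

/-! ### Product weights -/

section Product

variable (w : Fin 3 → ℕ → ℝ) (Q : ℕ)

/-- The simplex. -/
def simplex (Q : ℕ) : Finset (Fin 3 → ℕ) := piAntidiag univ Q

lemma mem_simplex {Q : ℕ} {n : Fin 3 → ℕ} : n ∈ simplex Q ↔ ∑ i, n i = Q := by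
  simp [simplex, mem_piAntidiag]

/-- Product weight. -/
def pw (n : Fin 3 → ℕ) : ℝ := ∏ i, w i (n i)

variable {w Q}

/-- enumerate a slice `n i = s`, with `l`, `j` the two other rows. -/
def mk3 (i l : Fin 3) (s r t : ℕ) : Fin 3 → ℕ := fun x => if x = i then s else if x = l then r else t

lemma fin3_sum (i l j : Fin 3) (hil : i ≠ l) (hij : i ≠ j) (hlj : l ≠ j) (F : Fin 3 → ℕ) :
    ∑ x, F x = F i + F l + F j := by
  have : (univ : Finset (Fin 3)) = {i, l, j} := by
    revert i l j; decide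
  rw [this, sum_insert (by simp [hil, hij]), sum_insert (by simp [hlj]), sum_singleton]
  ring

lemma fin3_prod (i l j : Fin 3) (hil : i ≠ l) (hij : i ≠ j) (hlj : l ≠ j) (F : Fin 3 → ℝ) :
    ∏ x, F x = F i * F l * F j := by
  have : (univ : Finset (Fin 3)) = {i, l, j} := by
    revert i l j; decide
  rw [this, prod_insert (by simp [hil, hij]), prod_insert (by simp [hlj]), prod_singleton]
  ring

lemma fin3_third (i l j x : Fin 3) (h1 : i ≠ l) (h2 : i ≠ j) (h3 : l ≠ j) (h4 : x ≠ i)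
    (h5 : x ≠ l) : x = j := by
  simp only [ne_eq, Fin.ext_iff] at *
  have := i.isLt; have := l.isLt; have := j.isLt; have := x.isLt
  omega

lemma mk3_i (i l : Fin 3) (s r t : ℕ) : mk3 i l s r t i = s := by simp [mk3]
lemma mk3_l (i l : Fin 3) (hil : i ≠ l) (s r t : ℕ) : mk3 i l s r t l = r := by
  simp [mk3, hil.symm]
lemma mk3_j (i l j : Fin 3) (hij : i ≠ j) (hlj : l ≠ j) (s r t : ℕ) : mk3 i l s r t j = t := by
  simp [mk3, hij.symm, hlj.symm]

/-- The slice sum. -/
lemma slice_sum (i l j : Fin 3) (hil : i ≠ l) (hij : i ≠ j) (hlj : l ≠ j) {s : ℕ} (hs : s ≤ Q)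
    (P : ℕ → Prop) [DecidablePred P] (F : (Fin 3 → ℕ) → ℝ) :
    ∑ n ∈ (simplex Q).filter (fun n => n i = s ∧ P (n l)), F n =
      ∑ r ∈ (range (Q - s + 1)).filter P, F (mk3 i l s r (Q - s - r)) := by
  symm
  apply sum_bij (fun r _ => mk3 i l s r (Q - s - r))
  · intro r hr
    simp only [mem_filter, mem_range] at hr
    simp only [mem_filter, mem_simplex]
    rw [mk3_i, mk3_l i l hil]
    refine ⟨?_, rfl, hr.2⟩
    rw [fin3_sum i l j hil hij hlj, mk3_i, mk3_l i l hil, mk3_j i l j hij hlj]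
    omega
  · intro r _ r' _ h
    have := congrFun h l
    rwa [mk3_l i l hil, mk3_l i l hil] at this
  · intro n hn
    simp only [mem_filter, mem_simplex] at hn
    obtain ⟨hsum, hni, hP⟩ := hn
    rw [fin3_sum i l j hil hij hlj] at hsum
    refine ⟨n l, ?_, ?_⟩
    · simp only [mem_filter, mem_range]
      exact ⟨by omega, hP⟩
    · funext x
      simp only [mk3]
      split_ifs with h1 h2
      · rw [h1, hni]
      · rw [h2]
      · have hx : x = j := fin3_third i l j x hil hij hlj h1 h2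
        rw [hx]; omega
  · intro r _; rfl

lemma marg_eq (i l j : Fin 3) (hil : i ≠ l) (hij : i ≠ j) (hlj : l ≠ j) {s : ℕ} (hs : s ≤ Q) :
    marg (simplex Q) (pw w) i s =
      w i s * ∑ r ∈ range (Q - s + 1), w l r * w j (Q - s - r) := by
  unfold marg
  have h := slice_sum (Q := Q) i l j hil hij hlj hs (fun _ => True) (pw w)
  simp only [and_true, filter_true] at h
  rw [h, mul_sum]
  apply sum_congr rfl
  intro r _
  unfold pw
  rw [fin3_prod i l j hil hij hlj, mk3_i, mk3_l i l hil, mk3_j i l j hij hlj]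
  ring

lemma margUp_eq (i l j : Fin 3) (hil : i ≠ l) (hij : i ≠ j) (hlj : l ≠ j) {s : ℕ} (hs : s ≤ Q)
    (k : ℕ) :
    margUp (simplex Q) (pw w) i l k s =
      w i s * ∑ r ∈ (range (Q - s + 1)).filter (fun r => k ≤ r), w l r * w j (Q - s - r) := by
  unfold margUp
  rw [slice_sum (Q := Q) i l j hil hij hlj hs (fun r => k ≤ r) (pw w), mul_sum]
  apply sum_congr rfl
  intro r _
  unfold pw
  rw [fin3_prod i l j hil hij hlj, mk3_i, mk3_l i l hil, mk3_j i l j hij hlj]
  ring

/-- `third i l` : the third row. -/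
lemma exists_third (i l : Fin 3) (hil : i ≠ l) : ∃ j, i ≠ j ∧ l ≠ j := by
  revert i l; decide

lemma marg_pos (hw : ∀ i n, 0 < w i n) (i : Fin 3) {s : ℕ} (hs : s ≤ Q) :
    0 < marg (simplex Q) (pw w) i s := by
  obtain ⟨l, hil⟩ : ∃ l, i ≠ l := by revert i; decide
  obtain ⟨j, hij, hlj⟩ := exists_third i l hil
  rw [marg_eq i l j hil hij hlj hs]
  apply mul_pos (hw _ _)
  apply sum_pos
  · intro r _
    exact mul_pos (hw _ _) (hw _ _)
  · exact ⟨0, by simp⟩

/-- The TP2 monotonicity of `P(k ≤ n_l | n_i = s)` in `s`. -/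
lemma condP_mono (hw : ∀ i n, 0 < w i n)
    (hlc : ∀ i u v, u < v → w i u * w i (v + 1) ≤ w i (u + 1) * w i v)
    (i l : Fin 3) (hil : i ≠ l) (k s : ℕ) (hs : s < Q) :
    condP (simplex Q) (pw w) i l k (s + 1) ≤ condP (simplex Q) (pw w) i l k s := by
  classical
  obtain ⟨j, hij, hlj⟩ := exists_third i l hil
  unfold condP
  rw [marg_eq i l j hil hij hlj hs.le, marg_eq i l j hil hij hlj hs,
    margUp_eq i l j hil hij hlj hs.le, margUp_eq i l j hil hij hlj hs]
  set W : ℕ → ℕ → ℝ := fun s r => w l r * w j (Q - s - r) with hW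
  have hWpos : ∀ s r, 0 < W s r := fun s r => mul_pos (hw _ _) (hw _ _)
  have hQs : Q - (s + 1) + 1 = Q - s := by omega
  rw [hQs]
  have hcancel : ∀ (a x y : ℝ), 0 < a → a * x / (a * y) = x / y := by
    intro a x y ha
    rw [mul_div_mul_left _ _ ha.ne']
  rw [hcancel _ _ _ (hw _ _), hcancel _ _ _ (hw _ _)]
  -- split into P and R
  set A := (range (Q - s)).filter (fun r => k ≤ r) with hA
  set A' := (range (Q - s + 1)).filter (fun r => k ≤ r) with hA'
  set B := (range (Q - s)).filter (fun r => ¬ k ≤ r) with hB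
  set B' := (range (Q - s + 1)).filter (fun r => ¬ k ≤ r) with hB'
  have hT1 : ∑ r ∈ range (Q - s), W (s + 1) r =
      ∑ r ∈ A, W (s + 1) r + ∑ r ∈ B, W (s + 1) r := (sum_filter_add_sum_filter_not _ _ _).symm
  have hT2 : ∑ r ∈ range (Q - s + 1), W s r =
      ∑ r ∈ A', W s r + ∑ r ∈ B', W s r := (sum_filter_add_sum_filter_not _ _ _).symm
  have hdenom1 : 0 < ∑ r ∈ range (Q - s), W (s + 1) r := by
    apply sum_pos (fun r _ => hWpos _ _)
    exact ⟨0, by rw [mem_range]; omega⟩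
  have hdenom2 : 0 < ∑ r ∈ range (Q - s + 1), W s r := by
    apply sum_pos (fun r _ => hWpos _ _)
    exact ⟨0, by rw [mem_range]; omega⟩
  change (∑ r ∈ A, W (s + 1) r) / (∑ r ∈ range (Q - s), W (s + 1) r) ≤
    (∑ r ∈ A', W s r) / (∑ r ∈ range (Q - s + 1), W s r)
  rw [div_le_div_iff₀ hdenom1 hdenom2, hT1, hT2]
  -- reduce to the cross inequality
  have hcross : (∑ r ∈ A, W (s + 1) r) * (∑ r ∈ B', W s r) ≤
      (∑ r ∈ A', W s r) * (∑ r ∈ B, W (s + 1) r) := by
    rcases A.eq_empty_or_nonempty with hAe | ⟨r0, hr0⟩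
    · rw [hAe]
      simp only [sum_empty, zero_mul]
      exact mul_nonneg (sum_nonneg fun r _ => (hWpos _ _).le) (sum_nonneg fun r _ => (hWpos _ _).le)
    · have hr0' : k ≤ r0 ∧ r0 < Q - s := by
        simp only [hA, mem_filter, mem_range] at hr0
        omega
      have hBB : B' = B := by
        ext r
        simp only [hB, hB', mem_filter, mem_range]
        constructor
        · rintro ⟨_, h2⟩; exact ⟨by omega, h2⟩
        · rintro ⟨h1, h2⟩; exact ⟨by omega, h2⟩
      rw [hBB, sum_mul_sum, sum_mul_sum]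
      have hAA : A ⊆ A' := by
        intro r hr
        simp only [hA, hA', mem_filter, mem_range] at hr ⊢
        exact ⟨by omega, hr.2⟩
      calc ∑ r ∈ A, ∑ r' ∈ B, W (s + 1) r * W s r'
          ≤ ∑ r ∈ A, ∑ r' ∈ B, W s r * W (s + 1) r' := by
            apply sum_le_sum
            intro r hr
            apply sum_le_sum
            intro r' hr'
            simp only [hA, hB, mem_filter, mem_range] at hr hr'
            have hrr : r' < r := by omega
            simp only [hW]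
            obtain ⟨u, hu⟩ : ∃ u, Q - (s + 1) - r = u := ⟨_, rfl⟩
            obtain ⟨v, hv⟩ : ∃ v, Q - (s + 1) - r' = v := ⟨_, rfl⟩
            have h1 : Q - s - r = u + 1 := by omega
            have h2 : Q - s - r' = v + 1 := by omega
            rw [hu, hv, h1, h2]
            have huv : u < v := by omega
            have := hlc j u v huv
            have hpos : 0 ≤ w l r * w l r' := (mul_pos (hw _ _) (hw _ _)).le
            nlinarith [mul_le_mul_of_nonneg_left this hpos]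
        _ ≤ ∑ r ∈ A', ∑ r' ∈ B, W s r * W (s + 1) r' := by
            apply sum_le_sum_of_subset_of_nonneg hAA
            intro r _ _
            exact sum_nonneg fun r' _ => (mul_pos (hWpos _ _) (hWpos _ _)).le
  nlinarith

/-- Packaged form: the eigen-system on a log-concave product simplex vanishes. -/
theorem product_vanish (hw : ∀ i n, 0 < w i n)
    (hlc : ∀ i u v, u < v → w i u * w i (v + 1) ≤ w i (u + 1) * w i v)
    (G : Fin 3 → ℕ → ℝ) (t : ℝ) (ht : 2 < t)
    (h0 : ∀ i, ∑ n ∈ simplex Q, pw w n * G i (n i) = 0)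
    (heig : ∀ l k, (t - 1) * ∑ n ∈ simplex Q, pw w n * G l (n l) * (if k ≤ n l then 1 else 0) =
      ∑ i ∈ univ.erase l, ∑ n ∈ simplex Q, pw w n * G i (n i) * (if k ≤ n l then 1 else 0)) :
    ∀ i, ∀ s ≤ Q, G i s = 0 := by
  apply main_vanish (Q := Q) (Δ := simplex Q) (μ := pw w) _ _ _ G t ht _ _
  · intro n hn; exact mem_simplex.mp hn
  · intro i s hs; exact marg_pos hw i hs
  · intro i l hil k s hs; exact condP_mono hw hlc i l hil k s hs
  · intro i
    unfold tailC
    simpa using h0 i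
  · intro l k
    exact heig l k

end Product

end Crest.Agent.Lib.S0453.AuxAbel3
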