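import Crest.Agent.Lib.S0453.AuxJohnsonGap

/-!
# Johnson-Bessel inequality (elementary).

For mean-zero `f` on `J(E,p)`, with `b c e = ∑_A f A χ_{ce}(A)`:
`∑_{c,e} (b c e)² ≤ (T-2) N₁ ∑ f²`, where `N₁ = #{A : exactly one of c,e in A}`.
Duality with `g = ∑ b_{ce} χ_{ce}`; the Gram matrix of the `χ_{ce}` is explicit.
-/

set_option autoImplicit false
open Finset

namespace Crest.Agent.Lib.S0453.AuxJ

variable {α : Type*} [DecidableEq α]

/-- Membership indicator. -/
noncomputable def xi (c : α) (A : Finset α) : ℝ := if c ∈ A then 1 else 0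

/-- Indicator that exactly one of `c, e` is in `A`. -/
noncomputable def chi (c e : α) (A : Finset α) : ℝ := xi c A + xi e A - 2 * (xi c A * xi e A)

lemma xi_sq (c : α) (A : Finset α) : xi c A * xi c A = xi c A := by
  unfold xi; split_ifs <;> simp

lemma chi_comm (c e : α) (A : Finset α) : chi c e A = chi e c A := by unfold chi; ring

lemma chi_self (c : α) (A : Finset α) : chi c c A = 0 := by
  unfold chi; rw [xi_sq]; ring

lemma chi_sq (c e : α) (A : Finset α) : chi c e A * chi c e A = chi c e A := by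
  unfold chi xi; split_ifs <;> norm_num

lemma chi_nonneg (c e : α) (A : Finset α) : 0 ≤ chi c e A := by
  unfold chi xi; split_ifs <;> norm_num

lemma chi_le_one (c e : α) (A : Finset α) : chi c e A ≤ 1 := by
  unfold chi xi; split_ifs <;> norm_num

/-- Number of members of the slice containing a prescribed `k`-set. -/
noncomputable def jM (T p k : ℕ) : ℝ := if k ≤ p then (((T - k).choose (p - k) : ℕ) : ℝ) else 0

lemma sum_ind (E : Finset α) (p : ℕ) (I : Finset α) (hI : I ⊆ E) :
    ∑ A ∈ E.powersetCard p, (if I ⊆ A then (1 : ℝ) else 0) = jM E.card p I.card := by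
  rw [Finset.sum_boole]
  unfold jM
  by_cases hk : I.card ≤ p
  · rw [if_pos hk]
    congr 1
    have : ((E.powersetCard p).filter (fun A => I ⊆ A)).card =
        ((E \ I).powersetCard (p - I.card)).card := by
      refine Finset.card_nbij' (fun A => A \ I) (fun B => B ∪ I) ?_ ?_ ?_ ?_
      · intro A hA
        have hA' := mem_filter.mp (mem_coe.mp hA)
        obtain ⟨h1, h2⟩ := hA'
        obtain ⟨h3, h4⟩ := mem_powersetCard.mp h1
        refine mem_coe.mpr (mem_powersetCard.mpr ⟨sdiff_subset_sdiff h3 (Subset.refl _), ?_⟩)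
        rw [card_sdiff_of_subset h2, h4]
      · intro B hB
        have hB' : B ∈ (E \ I).powersetCard (p - I.card) := mem_coe.mp hB
        obtain ⟨h3, h4⟩ := mem_powersetCard.mp hB'
        have hdis : Disjoint B I := by
          rw [Finset.disjoint_left]
          intro x hx hxI
          exact (mem_sdiff.mp (h3 hx)).2 hxI
        refine mem_coe.mpr (mem_filter.mpr ⟨mem_powersetCard.mpr
          ⟨union_subset (h3.trans sdiff_subset) hI, ?_⟩, subset_union_right⟩)
        rw [card_union_of_disjoint hdis, h4]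
        omega
      · intro A hA
        have hA' := mem_filter.mp (mem_coe.mp hA)
        simp only [sdiff_union_of_subset hA'.2]
      · intro B hB
        have hB' : B ∈ (E \ I).powersetCard (p - I.card) := mem_coe.mp hB
        obtain ⟨h3, _⟩ := mem_powersetCard.mp hB'
        have hdis : Disjoint B I := by
          rw [Finset.disjoint_left]
          intro x hx hxI
          exact (mem_sdiff.mp (h3 hx)).2 hxI
        simp only [union_sdiff_right, hdis.sdiff_eq_left]
    rw [this, card_powersetCard, card_sdiff_of_subset hI]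
  · rw [if_neg hk]
    have : (E.powersetCard p).filter (fun A => I ⊆ A) = ∅ := by
      rw [filter_eq_empty_iff]
      intro A hA hIA
      exact hk (by have := card_le_card hIA; rwa [(mem_powersetCard.mp hA).2] at this)
    rw [this]; simp

lemma m1 (E : Finset α) (p : ℕ) {c : α} (hc : c ∈ E) :
    ∑ A ∈ E.powersetCard p, xi c A = jM E.card p 1 := by
  have := sum_ind E p {c} (by simpa using hc)
  rw [card_singleton] at this
  rw [← this]
  refine Finset.sum_congr rfl fun A _ => ?_
  simp [xi]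

lemma m2 (E : Finset α) (p : ℕ) {c e : α} (hc : c ∈ E) (he : e ∈ E) (h : c ≠ e) :
    ∑ A ∈ E.powersetCard p, xi c A * xi e A = jM E.card p 2 := by
  have := sum_ind E p {c, e} (by simp [insert_subset_iff, hc, he])
  rw [card_pair h] at this
  rw [← this]
  refine Finset.sum_congr rfl fun A _ => ?_
  by_cases h1 : c ∈ A <;> by_cases h2 : e ∈ A <;> simp [xi, insert_subset_iff, h1, h2]

lemma m3 (E : Finset α) (p : ℕ) {c e g : α} (hc : c ∈ E) (he : e ∈ E) (hg : g ∈ E)
    (h1 : c ≠ e) (h2 : c ≠ g) (h3 : e ≠ g) :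
    ∑ A ∈ E.powersetCard p, xi c A * xi e A * xi g A = jM E.card p 3 := by
  have := sum_ind E p {c, e, g} (by simp [insert_subset_iff, hc, he, hg])
  rw [card_eq_three.mpr ⟨c, e, g, h1, h2, h3, rfl⟩] at this
  rw [← this]
  refine Finset.sum_congr rfl fun A _ => ?_
  by_cases h1 : c ∈ A <;> by_cases h2 : e ∈ A <;> by_cases h3 : g ∈ A <;>
    simp [xi, insert_subset_iff, h1, h2, h3]

lemma m4 (E : Finset α) (p : ℕ) {c e g h : α} (hc : c ∈ E) (he : e ∈ E) (hg : g ∈ E) (hh : h ∈ E)
    (h1 : c ≠ e) (h2 : c ≠ g) (h3 : c ≠ h) (h4 : e ≠ g) (h5 : e ≠ h) (h6 : g ≠ h) :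
    ∑ A ∈ E.powersetCard p, xi c A * xi e A * xi g A * xi h A = jM E.card p 4 := by
  have := sum_ind E p {c, e, g, h} (by simp [insert_subset_iff, hc, he, hg, hh])
  have hcard : ({c, e, g, h} : Finset α).card = 4 := by
    rw [card_insert_of_notMem (by simp [h1, h2, h3]), card_insert_of_notMem (by simp [h4, h5]),
      card_pair h6]
  rw [hcard] at this
  rw [← this]
  refine Finset.sum_congr rfl fun A _ => ?_
  by_cases h1 : c ∈ A <;> by_cases h2 : e ∈ A <;> by_cases h3 : g ∈ A <;> by_cases h4 : h ∈ A <;>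
    simp [xi, insert_subset_iff, h1, h2, h3, h4]

/-- `N₁`: the size of `{A : exactly one of c,e}`. -/
noncomputable def jN1 (T p : ℕ) : ℝ := 2 * (jM T p 1 - jM T p 2)

/-- The overlap-free correlation `∑ χ_{ce} χ_{gh}` (conventionally 0 if `T < 4`). -/
noncomputable def jn0 (T p : ℕ) : ℝ :=
  if 4 ≤ T then 4 * jM T p 2 - 8 * jM T p 3 + 4 * jM T p 4 else 0

lemma sum_chi (E : Finset α) (p : ℕ) {c e : α} (hc : c ∈ E) (he : e ∈ E) (h : c ≠ e) :
    ∑ A ∈ E.powersetCard p, chi c e A = jN1 E.card p := by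
  unfold chi jN1
  rw [Finset.sum_sub_distrib, Finset.sum_add_distrib, ← Finset.mul_sum, m1 E p hc, m1 E p he,
    m2 E p hc he h]
  ring

lemma n2 (E : Finset α) (p : ℕ) {c e : α} (hc : c ∈ E) (he : e ∈ E) (h : c ≠ e) :
    ∑ A ∈ E.powersetCard p, chi c e A * chi c e A = jN1 E.card p := by
  simp only [chi_sq]
  exact sum_chi E p hc he h

lemma n1 (E : Finset α) (p : ℕ) {c e g : α} (hc : c ∈ E) (he : e ∈ E) (hg : g ∈ E)
    (h1 : c ≠ e) (h2 : c ≠ g) (h3 : e ≠ g) :
    ∑ A ∈ E.powersetCard p, chi c e A * chi c g A = jN1 E.card p / 2 := by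
  have key : ∀ A : Finset α, chi c e A * chi c g A =
      xi c A - xi c A * xi g A - xi c A * xi e A + xi e A * xi g A := by
    intro A
    unfold chi xi
    split_ifs <;> norm_num
  simp only [key]
  rw [Finset.sum_add_distrib, Finset.sum_sub_distrib, Finset.sum_sub_distrib, m1 E p hc,
    m2 E p hc hg h2, m2 E p hc he h1, m2 E p he hg h3]
  unfold jN1
  ring

lemma n0 (E : Finset α) (p : ℕ) {c e g h : α} (hc : c ∈ E) (he : e ∈ E) (hg : g ∈ E) (hh : h ∈ E)
    (h1 : c ≠ e) (h2 : c ≠ g) (h3 : c ≠ h) (h4 : e ≠ g) (h5 : e ≠ h) (h6 : g ≠ h) :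
    ∑ A ∈ E.powersetCard p, chi c e A * chi g h A = jn0 E.card p := by
  have hT : 4 ≤ E.card := by
    have hsub : ({c, e, g, h} : Finset α) ⊆ E := by simp [insert_subset_iff, hc, he, hg, hh]
    have hcard : ({c, e, g, h} : Finset α).card = 4 := by
      rw [card_insert_of_notMem (by simp [h1, h2, h3]), card_insert_of_notMem (by simp [h4, h5]),
        card_pair h6]
    rw [← hcard]
    exact card_le_card hsub
  have key : ∀ A : Finset α, chi c e A * chi g h A =
      xi c A * xi g A + xi c A * xi h A + xi e A * xi g A + xi e A * xi h A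
      - 2 * (xi c A * xi g A * xi h A) - 2 * (xi e A * xi g A * xi h A)
      - 2 * (xi c A * xi e A * xi g A) - 2 * (xi c A * xi e A * xi h A)
      + 4 * (xi c A * xi e A * xi g A * xi h A) := by
    intro A
    unfold chi
    ring
  simp only [key]
  simp only [Finset.sum_add_distrib, Finset.sum_sub_distrib, ← Finset.mul_sum]
  rw [m2 E p hc hg h2, m2 E p hc hh h3, m2 E p he hg h4, m2 E p he hh h5,
    m3 E p hc hg hh h2 h3 h6, m3 E p he hg hh h4 h5 h6, m3 E p hc he hg h1 h2 h4,
    m3 E p hc he hh h1 h3 h5, m4 E p hc he hg hh h1 h2 h3 h4 h5 h6]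
  unfold jn0
  rw [if_pos hT]
  ring

/-- Kronecker delta. -/
noncomputable def kd (c g : α) : ℝ := if c = g then 1 else 0

lemma corr_eq (E : Finset α) (p : ℕ) {c e g h : α} (hc : c ∈ E) (he : e ∈ E) (hg : g ∈ E)
    (hh : h ∈ E) (hce : c ≠ e) (hgh : g ≠ h) :
    ∑ A ∈ E.powersetCard p, chi c e A * chi g h A =
      jn0 E.card p + (jN1 E.card p / 2 - jn0 E.card p) * (kd c g + kd c h + kd e g + kd e h)
        + jn0 E.card p * (kd c g * kd e h + kd c h * kd e g) := by
  by_cases h1 : c = g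
  · subst h1
    by_cases h2 : e = h
    · subst h2
      rw [n2 E p hc he hce]
      simp [kd, hce, hce.symm]
      ring
    · rw [n1 E p hc he hh hce hgh h2]
      simp [kd, h2, hgh, hce.symm]
  · by_cases h3 : c = h
    · subst h3
      by_cases h2 : e = g
      · subst h2
        have : ∀ A : Finset α, chi c e A * chi e c A = chi c e A * chi c e A := by
          intro A; rw [chi_comm e c]
        simp only [this]
        rw [n2 E p hc he hce]
        simp [kd, hce, hce.symm]
        ring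
      · have : ∀ A : Finset α, chi c e A * chi g c A = chi c e A * chi c g A := by
          intro A; rw [chi_comm g c]
        simp only [this]
        rw [n1 E p hc he hg hce h1 h2]
        simp [kd, h2, h1, hce.symm]
    · by_cases h4 : e = g
      · subst h4
        have : ∀ A : Finset α, chi c e A * chi e h A = chi e c A * chi e h A := by
          intro A; rw [chi_comm c e]
        simp only [this]
        rw [n1 E p he hc hh hce.symm hgh h3]
        simp [kd, h3, h1, hgh]
      · by_cases h5 : e = h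
        · subst h5
          have : ∀ A : Finset α, chi c e A * chi g e A = chi e c A * chi e g A := by
            intro A; rw [chi_comm c e, chi_comm g e]
          simp only [this]
          rw [n1 E p he hc hg hce.symm h4 h1]
          simp [kd, h1, h3, h4]
        · rw [n0 E p hc he hg hh hce h1 h3 h4 h5 hgh]
          simp [kd, h1, h3, h4, h5]

/-- Partial contractions of a Kronecker delta. -/
lemma sum_kd_left (E : Finset α) {c : α} (hc : c ∈ E) (F : α → ℝ) :
    ∑ g ∈ E, kd c g * F g = F c := by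
  unfold kd
  simp only [ite_mul, one_mul, zero_mul]
  rw [Finset.sum_ite_eq, if_pos hc]

section quad

variable (E : Finset α) (b : α → α → ℝ)

/-- Row sums. -/
noncomputable def rowS (c : α) : ℝ := ∑ e ∈ E, b c e

lemma quad_const :
    ∑ c ∈ E, ∑ e ∈ E, ∑ g ∈ E, ∑ h ∈ E, b c e * b g h = (∑ c ∈ E, ∑ e ∈ E, b c e) ^ 2 := by
  rw [sq, Finset.sum_mul]
  refine Finset.sum_congr rfl fun c _ => ?_
  rw [Finset.sum_mul]
  refine Finset.sum_congr rfl fun e _ => ?_
  rw [Finset.mul_sum]
  refine Finset.sum_congr rfl fun g _ => ?_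
  rw [Finset.mul_sum]

lemma quad_cg :
    ∑ c ∈ E, ∑ e ∈ E, ∑ g ∈ E, ∑ h ∈ E, b c e * b g h * kd c g = ∑ c ∈ E, rowS E b c ^ 2 := by
  refine Finset.sum_congr rfl fun c hc => ?_
  have : ∀ e ∈ E, ∑ g ∈ E, ∑ h ∈ E, b c e * b g h * kd c g = b c e * rowS E b c := by
    intro e _
    have : ∀ g ∈ E, ∑ h ∈ E, b c e * b g h * kd c g = kd c g * (b c e * rowS E b g) := by
      intro g _
      unfold rowS
      rw [Finset.mul_sum, Finset.mul_sum]
      refine Finset.sum_congr rfl fun h _ => ?_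
      ring
    rw [Finset.sum_congr rfl this, sum_kd_left E hc]
  rw [Finset.sum_congr rfl this, ← Finset.sum_mul, sq]
  rfl

lemma quad_ch (hs : ∀ c e, b c e = b e c) :
    ∑ c ∈ E, ∑ e ∈ E, ∑ g ∈ E, ∑ h ∈ E, b c e * b g h * kd c h = ∑ c ∈ E, rowS E b c ^ 2 := by
  rw [← quad_cg E b]
  refine Finset.sum_congr rfl fun c _ => Finset.sum_congr rfl fun e _ => ?_
  rw [Finset.sum_comm]
  refine Finset.sum_congr rfl fun g _ => Finset.sum_congr rfl fun h _ => ?_
  rw [hs h g]

lemma quad_eg (hs : ∀ c e, b c e = b e c) :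
    ∑ c ∈ E, ∑ e ∈ E, ∑ g ∈ E, ∑ h ∈ E, b c e * b g h * kd e g = ∑ c ∈ E, rowS E b c ^ 2 := by
  rw [← quad_cg E b, Finset.sum_comm]
  refine Finset.sum_congr rfl fun c _ => Finset.sum_congr rfl fun e _ => ?_
  refine Finset.sum_congr rfl fun g _ => Finset.sum_congr rfl fun h _ => ?_
  rw [hs e c]

lemma quad_eh (hs : ∀ c e, b c e = b e c) :
    ∑ c ∈ E, ∑ e ∈ E, ∑ g ∈ E, ∑ h ∈ E, b c e * b g h * kd e h = ∑ c ∈ E, rowS E b c ^ 2 := by
  rw [← quad_ch E b hs, Finset.sum_comm]
  refine Finset.sum_congr rfl fun c _ => Finset.sum_congr rfl fun e _ => ?_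
  refine Finset.sum_congr rfl fun g _ => Finset.sum_congr rfl fun h _ => ?_
  rw [hs e c]

lemma quad_cgeh :
    ∑ c ∈ E, ∑ e ∈ E, ∑ g ∈ E, ∑ h ∈ E, b c e * b g h * (kd c g * kd e h) =
      ∑ c ∈ E, ∑ e ∈ E, b c e ^ 2 := by
  refine Finset.sum_congr rfl fun c hc => Finset.sum_congr rfl fun e he => ?_
  have : ∀ g ∈ E, ∑ h ∈ E, b c e * b g h * (kd c g * kd e h) =
      kd c g * (∑ h ∈ E, kd e h * (b c e * b g h)) := by
    intro g _
    rw [Finset.mul_sum]
    refine Finset.sum_congr rfl fun h _ => ?_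
    ring
  rw [Finset.sum_congr rfl this, sum_kd_left E hc, sum_kd_left E he, sq]

lemma quad_cheg (hs : ∀ c e, b c e = b e c) :
    ∑ c ∈ E, ∑ e ∈ E, ∑ g ∈ E, ∑ h ∈ E, b c e * b g h * (kd c h * kd e g) =
      ∑ c ∈ E, ∑ e ∈ E, b c e ^ 2 := by
  rw [← quad_cgeh E b]
  refine Finset.sum_congr rfl fun c _ => Finset.sum_congr rfl fun e _ => ?_
  rw [Finset.sum_comm]
  refine Finset.sum_congr rfl fun g _ => Finset.sum_congr rfl fun h _ => ?_
  rw [hs h g]

/-- Bound for row sums. -/
lemma row_bound (h0 : ∀ c, b c c = 0) (hs : ∀ c e, b c e = b e c)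
    (hS : ∑ c ∈ E, ∑ e ∈ E, b c e = 0) (hT : 2 ≤ E.card) :
    2 * ∑ c ∈ E, rowS E b c ^ 2 ≤ ((E.card : ℝ) - 2) * ∑ c ∈ E, ∑ e ∈ E, b c e ^ 2 := by
  have hB : 0 ≤ ∑ c ∈ E, ∑ e ∈ E, b c e ^ 2 :=
    Finset.sum_nonneg fun _ _ => Finset.sum_nonneg fun _ _ => sq_nonneg _
  by_cases hT2 : E.card = 2
  · obtain ⟨x, y, hxy, rfl⟩ := card_eq_two.mp hT2
    have hyx : y ≠ x := hxy.symm
    simp only [Finset.sum_pair hxy, h0, zero_add, add_zero] at hS
    have hbxy : b x y = 0 := by
      have := hs x y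
      linarith
    have hbyx : b y x = 0 := by rw [← hs x y]; exact hbxy
    unfold rowS
    simp [Finset.sum_pair hxy, h0, hbxy, hbyx]
  · have hT3 : (3 : ℝ) ≤ (E.card : ℝ) := by
      have : 3 ≤ E.card := by omega
      exact_mod_cast this
    have hpos : (0 : ℝ) < (E.card : ℝ) - 2 := by linarith
    set τ : ℝ := (E.card : ℝ) - 2 with hτ
    set u : α → ℝ := fun c => rowS E b c / τ with hu
    have hsumR : ∑ c ∈ E, rowS E b c = 0 := hS
    have hsumu : ∑ c ∈ E, u c = 0 := by
      rw [hu]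
      simp only
      rw [← Finset.sum_div, hsumR, zero_div]
    -- pointwise nonnegativity
    have hnn : 0 ≤ ∑ c ∈ E, ∑ e ∈ E, ((b c e - u c - u e) ^ 2 - kd c e * (4 * u c ^ 2)) := by
      refine Finset.sum_nonneg fun c _ => Finset.sum_nonneg fun e _ => ?_
      by_cases hce : c = e
      · subst hce
        simp [kd, h0]
        nlinarith [sq_nonneg (u c)]
      · simp [kd, hce]
        positivity
    -- expand
    have hexp : ∑ c ∈ E, ∑ e ∈ E, ((b c e - u c - u e) ^ 2 - kd c e * (4 * u c ^ 2)) =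
        (∑ c ∈ E, ∑ e ∈ E, b c e ^ 2) - 4 * (∑ c ∈ E, rowS E b c * u c)
          + 2 * (E.card : ℝ) * (∑ c ∈ E, u c ^ 2) + 2 * (∑ c ∈ E, u c) ^ 2
          - 4 * ∑ c ∈ E, u c ^ 2 := by
      have h1 : ∀ c ∈ E, ∑ e ∈ E, ((b c e - u c - u e) ^ 2 - kd c e * (4 * u c ^ 2)) =
          (∑ e ∈ E, b c e ^ 2) - 2 * (rowS E b c * u c) - 2 * (∑ e ∈ E, b c e * u e)
            + (E.card : ℝ) * u c ^ 2 + 2 * (u c * ∑ e ∈ E, u e) + (∑ e ∈ E, u e ^ 2)
            - 4 * u c ^ 2 := by
        intro c hc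
        have h2 : ∑ e ∈ E, kd c e * (4 * u c ^ 2) = 4 * u c ^ 2 := sum_kd_left E hc _
        rw [Finset.sum_sub_distrib, h2]
        have h3 : ∀ e ∈ E, (b c e - u c - u e) ^ 2 =
            b c e ^ 2 - 2 * (b c e * u c) - 2 * (b c e * u e) + u c ^ 2 + 2 * (u c * u e) + u e ^ 2 := by
          intro e _; ring
        rw [Finset.sum_congr rfl h3]
        simp only [Finset.sum_add_distrib, Finset.sum_sub_distrib, ← Finset.mul_sum, ← Finset.sum_mul,
          Finset.sum_const, nsmul_eq_mul]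
        unfold rowS
        ring
      rw [Finset.sum_congr rfl h1]
      simp only [Finset.sum_add_distrib, Finset.sum_sub_distrib, ← Finset.mul_sum, ← Finset.sum_mul,
        Finset.sum_const, nsmul_eq_mul]
      -- cross term `∑ b c e * u e = ∑ R e * u e`
      have h4 : ∑ c ∈ E, ∑ e ∈ E, b c e * u e = ∑ c ∈ E, rowS E b c * u c := by
        rw [Finset.sum_comm]
        refine Finset.sum_congr rfl fun e _ => ?_
        unfold rowS
        rw [Finset.sum_mul]
        refine Finset.sum_congr rfl fun c _ => ?_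
        rw [hs c e]
      rw [h4]
      ring
    rw [hexp, hsumu] at hnn
    have hRu : ∑ c ∈ E, rowS E b c * u c = (∑ c ∈ E, rowS E b c ^ 2) / τ := by
      rw [Finset.sum_div]
      refine Finset.sum_congr rfl fun c _ => ?_
      rw [hu]
      simp only
      ring
    have huu : ∑ c ∈ E, u c ^ 2 = (∑ c ∈ E, rowS E b c ^ 2) / τ ^ 2 := by
      rw [Finset.sum_div]
      refine Finset.sum_congr rfl fun c _ => ?_
      rw [hu]
      simp only
      rw [div_pow]
    rw [hRu, huu] at hnn
    set Rr : ℝ := ∑ c ∈ E, rowS E b c ^ 2 with hRr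
    set B : ℝ := ∑ c ∈ E, ∑ e ∈ E, b c e ^ 2 with hBdef
    have hfin : 0 ≤ B - 2 * Rr / τ := by
      have hcard : (E.card : ℝ) = τ + 2 := by rw [hτ]; ring
      have : B - 4 * (Rr / τ) + 2 * (E.card : ℝ) * (Rr / τ ^ 2) + 2 * 0 ^ 2 - 4 * (Rr / τ ^ 2)
          = B - 2 * Rr / τ := by
        rw [hcard]
        field_simp
        ring
      linarith
    have : 2 * Rr / τ ≤ B := by linarith
    rw [div_le_iff₀ hpos] at this
    linarith

end quad

/-- **Johnson Bessel** (ordered pairs). -/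
theorem johnson_bessel (E : Finset α) (p : ℕ) (f : Finset α → ℝ)
    (hf : ∑ A ∈ E.powersetCard p, f A = 0) (hT : 2 ≤ E.card) :
    ∑ c ∈ E, ∑ e ∈ E, (∑ A ∈ E.powersetCard p, f A * chi c e A) ^ 2 ≤
      ((E.card : ℝ) - 2) * jN1 E.card p * ∑ A ∈ E.powersetCard p, f A ^ 2 := by
  set F := E.powersetCard p with hF
  set b : α → α → ℝ := fun c e => ∑ A ∈ F, f A * chi c e A with hb
  have hb0 : ∀ c, b c c = 0 := by
    intro c
    simp [hb, chi_self]
  have hbs : ∀ c e, b c e = b e c := by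
    intro c e
    simp only [hb]
    refine Finset.sum_congr rfl fun A _ => ?_
    rw [chi_comm]
  set B : ℝ := ∑ c ∈ E, ∑ e ∈ E, b c e ^ 2 with hBdef
  have hB0 : 0 ≤ B := Finset.sum_nonneg fun _ _ => Finset.sum_nonneg fun _ _ => sq_nonneg _
  -- total of `χ` over ordered pairs is constant on the slice
  have hchisum : ∀ A ∈ F, ∑ c ∈ E, ∑ e ∈ E, chi c e A =
      2 * (p : ℝ) * ((E.card : ℝ) - p) := by
    intro A hA
    obtain ⟨hs, hc⟩ := mem_powersetCard.mp hA
    have hx : ∑ c ∈ E, xi c A = p := by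
      unfold xi
      rw [Finset.sum_boole]
      have : E.filter (fun c => c ∈ A) = A := by
        ext x
        simp only [mem_filter]
        exact ⟨fun h => h.2, fun h => ⟨hs h, h⟩⟩
      rw [this, hc]
    unfold chi
    have : ∀ c ∈ E, ∑ e ∈ E, (xi c A + xi e A - 2 * (xi c A * xi e A)) =
        (E.card : ℝ) * xi c A + p - 2 * (xi c A * p) := by
      intro c _
      rw [Finset.sum_sub_distrib, Finset.sum_add_distrib, ← Finset.mul_sum, ← Finset.mul_sum, hx,
        Finset.sum_const, nsmul_eq_mul]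
    rw [Finset.sum_congr rfl this, Finset.sum_sub_distrib, Finset.sum_add_distrib, ← Finset.mul_sum,
      hx, Finset.sum_const, nsmul_eq_mul, ← Finset.mul_sum, ← Finset.sum_mul, hx]
    ring
  have hS : ∑ c ∈ E, ∑ e ∈ E, b c e = 0 := by
    have h1 : ∑ c ∈ E, ∑ e ∈ E, b c e = ∑ A ∈ F, f A * ∑ c ∈ E, ∑ e ∈ E, chi c e A := by
      simp only [hb, Finset.mul_sum]
      calc _ = ∑ c ∈ E, ∑ A ∈ F, ∑ e ∈ E, f A * chi c e A :=
            Finset.sum_congr rfl (fun c _ => Finset.sum_comm)
        _ = _ := Finset.sum_comm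
    rw [h1, Finset.sum_congr rfl fun A hA => by rw [hchisum A hA], ← Finset.sum_mul, hf, zero_mul]
  set g : Finset α → ℝ := fun A => ∑ c ∈ E, ∑ e ∈ E, b c e * chi c e A with hg
  have hBg : B = ∑ A ∈ F, f A * g A := by
    have h1 : ∀ c ∈ E, ∀ e ∈ E, b c e ^ 2 = ∑ A ∈ F, f A * (b c e * chi c e A) := by
      intro c _ e _
      rw [sq]
      conv_lhs => enter [2]; rw [hb]
      simp only
      rw [Finset.mul_sum]
      refine Finset.sum_congr rfl fun A _ => ?_
      ring
    rw [hBdef, Finset.sum_congr rfl fun c hc => Finset.sum_congr rfl (h1 c hc)]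
    simp only [hg, Finset.mul_sum]
    calc _ = ∑ c ∈ E, ∑ A ∈ F, ∑ e ∈ E, f A * (b c e * chi c e A) :=
          Finset.sum_congr rfl (fun c _ => Finset.sum_comm)
      _ = _ := Finset.sum_comm
  set N : ℝ := jN1 E.card p with hN
  set z : ℝ := jn0 E.card p with hz
  have hg2 : ∑ A ∈ F, g A ^ 2 =
      ∑ c ∈ E, ∑ e ∈ E, ∑ u ∈ E, ∑ h ∈ E, b c e * b u h * ∑ A ∈ F, chi c e A * chi u h A := by
    have h1 : ∀ A ∈ F, g A ^ 2 =
        ∑ c ∈ E, ∑ e ∈ E, ∑ u ∈ E, ∑ h ∈ E, b c e * b u h * (chi c e A * chi u h A) := by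
      intro A _
      rw [sq, hg]
      simp only
      rw [Finset.sum_mul]
      refine Finset.sum_congr rfl fun c _ => ?_
      rw [Finset.sum_mul]
      refine Finset.sum_congr rfl fun e _ => ?_
      rw [Finset.mul_sum]
      refine Finset.sum_congr rfl fun u _ => ?_
      rw [Finset.mul_sum]
      refine Finset.sum_congr rfl fun h _ => ?_
      ring
    rw [Finset.sum_congr rfl h1]
    simp only [Finset.mul_sum]
    rw [Finset.sum_comm]
    refine Finset.sum_congr rfl fun c _ => ?_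
    rw [Finset.sum_comm]
    refine Finset.sum_congr rfl fun e _ => ?_
    rw [Finset.sum_comm]
    refine Finset.sum_congr rfl fun u _ => ?_
    rw [Finset.sum_comm]
  have hterm : ∀ c ∈ E, ∀ e ∈ E, ∀ u ∈ E, ∀ h ∈ E,
      b c e * b u h * ∑ A ∈ F, chi c e A * chi u h A =
        z * (b c e * b u h) + (N / 2 - z) * (b c e * b u h * kd c u + b c e * b u h * kd c h
          + b c e * b u h * kd e u + b c e * b u h * kd e h)
        + z * (b c e * b u h * (kd c u * kd e h) + b c e * b u h * (kd c h * kd e u)) := by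
    intro c hc e he u hu h hh
    by_cases hce : c = e
    · subst hce; simp [hb0]
    by_cases huh : u = h
    · subst huh; simp [hb0]
    rw [corr_eq E p hc he hu hh hce huh]
    ring
  have hg2' : ∑ A ∈ F, g A ^ 2 =
      (N / 2 - z) * (4 * ∑ c ∈ E, rowS E b c ^ 2) + 2 * z * B := by
    rw [hg2]
    rw [Finset.sum_congr rfl fun c hc => Finset.sum_congr rfl fun e he =>
      Finset.sum_congr rfl fun u hu => Finset.sum_congr rfl fun h hh => hterm c hc e he u hu h hh]
    simp only [Finset.sum_add_distrib, ← Finset.mul_sum]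
    rw [quad_cg, quad_ch E b hbs, quad_eg E b hbs, quad_eh E b hbs, quad_cgeh,
      quad_cheg E b hbs, ← hBdef]
    have hzz : ∑ i ∈ E, ∑ j ∈ E, ∑ k ∈ E, ∑ l ∈ E, b i j * b k l = 0 := by
      rw [quad_const, hS]; simp
    simp only [Finset.mul_sum] at hzz ⊢
    simp only [← Finset.mul_sum, ← Finset.sum_mul] at hzz ⊢
    rw [hS]
    ring
  -- the constants
  have hTR : (2 : ℝ) ≤ (E.card : ℝ) := by exact_mod_cast hT
  have hN0 : 0 ≤ N := by
    obtain ⟨c, hc, e, he, hce⟩ := one_lt_card.mp (by omega : 1 < E.card)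
    rw [hN, ← sum_chi E p hc he hce]
    exact Finset.sum_nonneg fun _ _ => chi_nonneg _ _ _
  have hRb := row_bound E b hb0 hbs hS hT
  set Rr : ℝ := ∑ c ∈ E, rowS E b c ^ 2 with hRr
  have hRr0 : 0 ≤ Rr := Finset.sum_nonneg fun _ _ => sq_nonneg _
  have hbound : ∑ A ∈ F, g A ^ 2 ≤ ((E.card : ℝ) - 2) * N * B := by
    rw [hg2']
    by_cases hT4 : 4 ≤ E.card
    · have hT4R : (4 : ℝ) ≤ (E.card : ℝ) := by exact_mod_cast hT4
      obtain ⟨c, hc⟩ := card_pos.mp (by omega : 0 < E.card)
      have hcard : 2 < (E.erase c).card := by rw [card_erase_of_mem hc]; omega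
      obtain ⟨e, he, u, hu, h, hh, h1, h2, h3⟩ := two_lt_card.mp hcard
      have he' := mem_erase.mp he
      have hu' := mem_erase.mp hu
      have hh' := mem_erase.mp hh
      have hzeq := n0 E p hc he'.2 hu'.2 hh'.2 he'.1.symm hu'.1.symm hh'.1.symm h1 h2 h3
      have hz0 : 0 ≤ z := by
        rw [hz, ← hzeq]
        exact Finset.sum_nonneg fun _ _ => mul_nonneg (chi_nonneg _ _ _) (chi_nonneg _ _ _)
      have hzN : z ≤ N := by
        rw [hz, ← hzeq, hN, ← sum_chi E p hc he'.2 he'.1.symm]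
        refine Finset.sum_le_sum fun A _ => ?_
        have := chi_le_one u h A
        have := chi_nonneg c e A
        nlinarith
      by_cases hcase : 2 * z ≤ N
      · have h5 : (N - 2 * z) * (2 * Rr) ≤ (N - 2 * z) * (((E.card : ℝ) - 2) * B) :=
          mul_le_mul_of_nonneg_left hRb (by linarith)
        have h6 : 2 * z * B ≤ 2 * z * (((E.card : ℝ) - 2) * B) := by
          apply mul_le_mul_of_nonneg_left _ (by linarith)
          nlinarith
        nlinarith
      · have h5 : (N - 2 * z) * (2 * Rr) ≤ 0 :=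
          mul_nonpos_of_nonpos_of_nonneg (by linarith) (by linarith)
        have h6 : 2 * z * B ≤ 2 * N * B :=
          mul_le_mul_of_nonneg_right (by linarith) hB0
        have h7 : 2 * N * B ≤ ((E.card : ℝ) - 2) * N * B := by
          apply mul_le_mul_of_nonneg_right _ hB0
          nlinarith
        nlinarith
    · have hz0 : z = 0 := by rw [hz]; unfold jn0; rw [if_neg hT4]
      rw [hz0]
      have := mul_le_mul_of_nonneg_left hRb hN0
      nlinarith
  have hCS : B ^ 2 ≤ (∑ A ∈ F, f A ^ 2) * (((E.card : ℝ) - 2) * N * B) := by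
    have h1 := Finset.sum_mul_sq_le_sq_mul_sq F f g
    rw [← hBg] at h1
    refine h1.trans ?_
    exact mul_le_mul_of_nonneg_left hbound (Finset.sum_nonneg fun _ _ => sq_nonneg _)
  have hf2 : 0 ≤ ∑ A ∈ F, f A ^ 2 := Finset.sum_nonneg fun _ _ => sq_nonneg _
  by_cases hB : B = 0
  · rw [hB]
    have : 0 ≤ (E.card : ℝ) - 2 := by linarith
    positivity
  · have hpos : 0 < B := lt_of_le_of_ne hB0 (Ne.symm hB)
    have : B * B ≤ (((E.card : ℝ) - 2) * N * ∑ A ∈ F, f A ^ 2) * B := by nlinarith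
    exact le_of_mul_le_mul_right this hpos

end Crest.Agent.Lib.S0453.AuxJ
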