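import Mathlib

/-!
# Johnson graph: spectral gap `T` by elementary up/down operator induction.

`J(E,p)` = `E.powersetCard p`, `T = |E|`.  No spectral theorem is used.
-/

set_option autoImplicit false
open Finset

namespace Crest.Agent.Lib.S0453.AuxJ

variable {α : Type*} [DecidableEq α]

/-- Reindexing pairs `(A', u)` (`A'` a `p`-subset, `u ∉ A'`) as pairs `(A, u)` (`A` a `p+1`-subset, `u ∈ A`). -/
lemma sum_up_down (E : Finset α) (p : ℕ) (φ : Finset α → α → ℝ) :
    ∑ A' ∈ E.powersetCard p, ∑ u ∈ E \ A', φ A' u =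
      ∑ A ∈ E.powersetCard (p + 1), ∑ u ∈ A, φ (A.erase u) u := by
  rw [Finset.sum_sigma', Finset.sum_sigma']
  refine Finset.sum_nbij' (fun x => ⟨insert x.2 x.1, x.2⟩) (fun y => ⟨y.1.erase y.2, y.2⟩)
    ?_ ?_ ?_ ?_ ?_
  · rintro ⟨A', u⟩ h
    simp only [mem_sigma, mem_powersetCard, mem_sdiff] at h ⊢
    obtain ⟨⟨hA, hc⟩, hu, hn⟩ := h
    refine ⟨⟨insert_subset hu hA, ?_⟩, mem_insert_self _ _⟩
    rw [card_insert_of_notMem hn, hc]
  · rintro ⟨A, u⟩ h
    simp only [mem_sigma, mem_powersetCard, mem_sdiff] at h ⊢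
    obtain ⟨⟨hA, hc⟩, hu⟩ := h
    refine ⟨⟨(erase_subset _ _).trans hA, ?_⟩, hA hu, notMem_erase _ _⟩
    rw [card_erase_of_mem hu, hc]; rfl
  · rintro ⟨A', u⟩ h
    simp only [mem_sigma, mem_powersetCard, mem_sdiff] at h
    obtain ⟨⟨hA, hc⟩, hu, hn⟩ := h
    simp [erase_insert hn]
  · rintro ⟨A, u⟩ h
    simp only [mem_sigma, mem_powersetCard] at h
    obtain ⟨⟨hA, hc⟩, hu⟩ := h
    simp [insert_erase hu]
  · rintro ⟨A', u⟩ h
    simp only [mem_sigma, mem_powersetCard, mem_sdiff] at h
    obtain ⟨⟨hA, hc⟩, hu, hn⟩ := h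
    simp [erase_insert hn]

/-- Squared norm on the `p`-slice. -/
noncomputable def jsq (E : Finset α) (p : ℕ) (f : Finset α → ℝ) : ℝ :=
  ∑ A ∈ E.powersetCard p, f A ^ 2

/-- Johnson adjacency form on the `p`-slice. -/
noncomputable def jadj (E : Finset α) (p : ℕ) (f : Finset α → ℝ) : ℝ :=
  ∑ A ∈ E.powersetCard p, ∑ u ∈ A, ∑ v ∈ E \ A, f A * f (insert v (A.erase u))

/-- Johnson energy: the sum over unordered edges of the Johnson graph, written with both
orientations and a factor `1/2`. -/
noncomputable def jen (E : Finset α) (p : ℕ) (f : Finset α → ℝ) : ℝ :=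
  (1 / 2) * ∑ A ∈ E.powersetCard p, ∑ u ∈ A, ∑ v ∈ E \ A, (f A - f (insert v (A.erase u))) ^ 2

/-- Down operator from the `p+1`-slice to the `p`-slice. -/
noncomputable def jdown (E : Finset α) (f : Finset α → ℝ) (A' : Finset α) : ℝ :=
  ∑ u ∈ E \ A', f (insert u A')

/-- Up operator from the `p`-slice to the `p+1`-slice. -/
noncomputable def jup (h : Finset α → ℝ) (A : Finset α) : ℝ :=
  ∑ u ∈ A, h (A.erase u)

lemma sum_mem_card (E : Finset α) (p : ℕ) (g : Finset α → ℝ) :
    ∑ A ∈ E.powersetCard p, ∑ _u ∈ A, g A = (p : ℝ) * ∑ A ∈ E.powersetCard p, g A := by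
  rw [Finset.mul_sum]
  refine Finset.sum_congr rfl fun A hA => ?_
  rw [Finset.sum_const, (mem_powersetCard.mp hA).2, nsmul_eq_mul]

lemma card_sdiff_of_mem {E A : Finset α} {p : ℕ} (hA : A ∈ E.powersetCard p) :
    ((E \ A).card : ℝ) = (E.card : ℝ) - p := by
  obtain ⟨hs, hc⟩ := mem_powersetCard.mp hA
  have : (E \ A).card = E.card - A.card := card_sdiff_of_subset hs
  rw [this, Nat.cast_sub (card_le_card hs), hc]

/-- `‖down f‖² = (p+1)‖f‖² + adj_{p+1}(f)`. -/
lemma norm_down (E : Finset α) (p : ℕ) (f : Finset α → ℝ) :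
    ∑ A' ∈ E.powersetCard p, jdown E f A' ^ 2 =
      ((p : ℝ) + 1) * jsq E (p + 1) f + jadj E (p + 1) f := by
  have key : ∀ A' ∈ E.powersetCard p, jdown E f A' ^ 2 =
      ∑ u ∈ E \ A', (f (insert u A') ^ 2 +
        ∑ v ∈ E \ insert u A', f (insert u A') * f (insert v A')) := by
    intro A' _
    unfold jdown
    rw [sq, Finset.sum_mul]
    refine Finset.sum_congr rfl fun u hu => ?_
    rw [Finset.mul_sum]
    have hu' := (mem_sdiff.mp hu)
    have : E \ A' = insert u (E \ insert u A') := by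
      ext w
      simp only [mem_sdiff, mem_insert, not_or]
      constructor
      · rintro ⟨h1, h2⟩
        by_cases hw : w = u
        · exact Or.inl hw
        · exact Or.inr ⟨h1, hw, h2⟩
      · rintro (rfl | ⟨h1, _, h3⟩)
        · exact hu'
        · exact ⟨h1, h3⟩
    conv_lhs => rw [this]
    rw [Finset.sum_insert (by simp), sq]
  rw [Finset.sum_congr rfl key, sum_up_down E p (fun A' u => f (insert u A') ^ 2 +
        ∑ v ∈ E \ insert u A', f (insert u A') * f (insert v A'))]
  have : ∀ A ∈ E.powersetCard (p + 1), ∀ u ∈ A,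
      (f (insert u (A.erase u)) ^ 2 + ∑ v ∈ E \ insert u (A.erase u),
          f (insert u (A.erase u)) * f (insert v (A.erase u))) =
      f A ^ 2 + ∑ v ∈ E \ A, f A * f (insert v (A.erase u)) := by
    intro A _ u hu
    rw [insert_erase hu]
  rw [Finset.sum_congr rfl fun A hA => Finset.sum_congr rfl (this A hA)]
  unfold jsq jadj
  simp only [Finset.sum_add_distrib]
  rw [sum_mem_card]
  push_cast
  ring

/-- `‖up h‖² = (T-p)‖h‖² + adj_p(h)`. -/
lemma norm_up (E : Finset α) (p : ℕ) (h : Finset α → ℝ) :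
    ∑ A ∈ E.powersetCard (p + 1), jup h A ^ 2 =
      ((E.card : ℝ) - p) * jsq E p h + jadj E p h := by
  have key : ∀ A ∈ E.powersetCard (p + 1), jup h A ^ 2 =
      ∑ u ∈ A, h (A.erase u) * jup h (insert u (A.erase u)) := by
    intro A _
    rw [sq]
    conv_lhs => enter [1]; unfold jup
    rw [Finset.sum_mul]
    refine Finset.sum_congr rfl fun u hu => ?_
    rw [insert_erase hu]
  rw [Finset.sum_congr rfl key,
    ← sum_up_down E p (fun A' u => h A' * jup h (insert u A'))]
  have step : ∀ A' ∈ E.powersetCard p, ∀ u ∈ E \ A', h A' * jup h (insert u A') =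
      h A' ^ 2 + ∑ w ∈ A', h A' * h (insert u (A'.erase w)) := by
    intro A' _ u hu
    have hn := (mem_sdiff.mp hu).2
    unfold jup
    rw [Finset.sum_insert hn, erase_insert hn, mul_add, Finset.mul_sum, sq]
    congr 1
    refine Finset.sum_congr rfl fun w hw => ?_
    have hne : w ≠ u := fun e => hn (e ▸ hw)
    rw [erase_insert_of_ne hne.symm]
  rw [Finset.sum_congr rfl fun A' hA' => Finset.sum_congr rfl (step A' hA')]
  simp only [Finset.sum_add_distrib, Finset.sum_const, nsmul_eq_mul]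
  unfold jsq jadj
  rw [Finset.mul_sum]
  rw [← Finset.sum_add_distrib]
  rw [← Finset.sum_add_distrib]
  refine Finset.sum_congr rfl fun A' hA' => ?_
  rw [card_sdiff_of_mem hA']
  congr 1
  exact Finset.sum_comm

lemma sum_down (E : Finset α) (p : ℕ) (f : Finset α → ℝ) :
    ∑ A' ∈ E.powersetCard p, jdown E f A' =
      ((p : ℝ) + 1) * ∑ A ∈ E.powersetCard (p + 1), f A := by
  unfold jdown
  rw [sum_up_down E p (fun A' u => f (insert u A'))]
  have : ∀ A ∈ E.powersetCard (p + 1), ∀ u ∈ A, f (insert u (A.erase u)) = f A := by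
    intro A _ u hu
    rw [insert_erase hu]
  rw [Finset.sum_congr rfl fun A hA => Finset.sum_congr rfl (this A hA), sum_mem_card]
  push_cast
  ring

lemma adjoint_down_up (E : Finset α) (p : ℕ) (f h : Finset α → ℝ) :
    ∑ A' ∈ E.powersetCard p, h A' * jdown E f A' =
      ∑ A ∈ E.powersetCard (p + 1), f A * jup h A := by
  unfold jdown jup
  simp only [Finset.mul_sum]
  rw [sum_up_down E p (fun A' u => h A' * f (insert u A'))]
  refine Finset.sum_congr rfl fun A _ => Finset.sum_congr rfl fun u hu => ?_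
  rw [insert_erase hu, mul_comm]

/-- `en = p(T-p)‖f‖² - adj`. -/
lemma jen_eq (E : Finset α) (p : ℕ) (f : Finset α → ℝ) :
    jen E p f = (p : ℝ) * ((E.card : ℝ) - p) * jsq E p f - jadj E p f := by
  cases p with
  | zero =>
    simp [jen, jsq, jadj, powersetCard_zero]
  | succ p =>
    -- the squares of the far endpoints
    have hfar : ∑ A ∈ E.powersetCard (p + 1), ∑ u ∈ A, ∑ v ∈ E \ A,
        f (insert v (A.erase u)) ^ 2 =
        ((p + 1 : ℕ) : ℝ) * ((E.card : ℝ) - (p + 1 : ℕ)) * jsq E (p + 1) f := by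
      have h1 := sum_up_down E p (fun A' u => ∑ v ∈ E \ insert u A', f (insert v A') ^ 2)
      have h2 : ∀ A ∈ E.powersetCard (p + 1), ∀ u ∈ A,
          (∑ v ∈ E \ insert u (A.erase u), f (insert v (A.erase u)) ^ 2) =
            ∑ v ∈ E \ A, f (insert v (A.erase u)) ^ 2 := by
        intro A _ u hu
        rw [insert_erase hu]
      rw [Finset.sum_congr rfl fun A hA => Finset.sum_congr rfl (h2 A hA)] at h1
      rw [← h1]
      have h3 : ∀ A' ∈ E.powersetCard p, ∑ u ∈ E \ A', ∑ v ∈ E \ insert u A',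
          f (insert v A') ^ 2 = ((E.card : ℝ) - (p + 1 : ℕ)) * ∑ v ∈ E \ A', f (insert v A') ^ 2 := by
        intro A' hA'
        have h4 : ∀ u ∈ E \ A', ∑ v ∈ E \ insert u A', f (insert v A') ^ 2 =
            ∑ v ∈ E \ A', if v = u then 0 else f (insert v A') ^ 2 := by
          intro u hu
          have : E \ insert u A' = (E \ A').filter (fun v => v ≠ u) := by
            ext w
            simp only [mem_sdiff, mem_insert, not_or, mem_filter, ne_eq]
            tauto
          rw [this, Finset.sum_filter]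
          refine Finset.sum_congr rfl fun v _ => ?_
          by_cases hv : v = u <;> simp [hv]
        rw [Finset.sum_congr rfl h4, Finset.sum_comm, Finset.mul_sum]
        refine Finset.sum_congr rfl fun v hv => ?_
        have h5 : ∑ u ∈ E \ A', (if v = u then (0 : ℝ) else f (insert v A') ^ 2) =
            ((E \ A').card - 1 : ℝ) * f (insert v A') ^ 2 := by
          have : ∀ u ∈ E \ A', (if v = u then (0 : ℝ) else f (insert v A') ^ 2) =
              f (insert v A') ^ 2 - (if v = u then f (insert v A') ^ 2 else 0) := by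
            intro u _
            by_cases hvu : v = u <;> simp [hvu]
          rw [Finset.sum_congr rfl this, Finset.sum_sub_distrib, Finset.sum_const,
            Finset.sum_ite_eq, if_pos hv, nsmul_eq_mul]
          ring
        rw [h5, card_sdiff_of_mem hA']
        push_cast
        ring
      rw [Finset.sum_congr rfl h3, ← Finset.mul_sum,
        sum_up_down E p (fun A' u => f (insert u A') ^ 2)]
      have h6 : ∀ A ∈ E.powersetCard (p + 1), ∀ u ∈ A, f (insert u (A.erase u)) ^ 2 = f A ^ 2 := by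
        intro A _ u hu
        rw [insert_erase hu]
      rw [Finset.sum_congr rfl fun A hA => Finset.sum_congr rfl (h6 A hA), sum_mem_card]
      unfold jsq
      ring
    have hnear : ∑ A ∈ E.powersetCard (p + 1), ∑ u ∈ A, ∑ _v ∈ E \ A, f A ^ 2 =
        ((p + 1 : ℕ) : ℝ) * ((E.card : ℝ) - (p + 1 : ℕ)) * jsq E (p + 1) f := by
      have : ∀ A ∈ E.powersetCard (p + 1), ∑ u ∈ A, ∑ _v ∈ E \ A, f A ^ 2 =
          ((p + 1 : ℕ) : ℝ) * ((E.card : ℝ) - (p + 1 : ℕ)) * f A ^ 2 := by
        intro A hA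
        rw [Finset.sum_const, Finset.sum_const, nsmul_eq_mul, nsmul_eq_mul,
          card_sdiff_of_mem hA, (mem_powersetCard.mp hA).2]
        ring
      rw [Finset.sum_congr rfl this, jsq, Finset.mul_sum]
    unfold jen jadj
    have hexp : ∑ A ∈ E.powersetCard (p + 1), ∑ u ∈ A, ∑ v ∈ E \ A,
        (f A - f (insert v (A.erase u))) ^ 2 =
        (∑ A ∈ E.powersetCard (p + 1), ∑ u ∈ A, ∑ _v ∈ E \ A, f A ^ 2) +
        (∑ A ∈ E.powersetCard (p + 1), ∑ u ∈ A, ∑ v ∈ E \ A, f (insert v (A.erase u)) ^ 2) -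
        2 * ∑ A ∈ E.powersetCard (p + 1), ∑ u ∈ A, ∑ v ∈ E \ A,
          f A * f (insert v (A.erase u)) := by
      simp only [Finset.mul_sum, ← Finset.sum_add_distrib, ← Finset.sum_sub_distrib]
      refine Finset.sum_congr rfl fun A _ => Finset.sum_congr rfl fun u _ =>
        Finset.sum_congr rfl fun v _ => ?_
      ring
    rw [hexp, hnear, hfar]
    ring

/-- The induction behind the gap: on the mean-zero functions of the `p`-slice,
`adj ≤ (p(T-p) - T) ‖f‖²`. -/
lemma jadj_le (E : Finset α) (p : ℕ) :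
    ∀ f : Finset α → ℝ, ∑ A ∈ E.powersetCard p, f A = 0 →
      jadj E p f ≤ ((p : ℝ) * ((E.card : ℝ) - p) - E.card) * jsq E p f := by
  induction p with
  | zero =>
    intro f hf
    have h0 : f ∅ = 0 := by simpa [powersetCard_zero] using hf
    simp [jadj, jsq, powersetCard_zero, h0]
  | succ p ih =>
    intro f hf
    by_cases hp : p + 1 ≤ E.card
    · have hTp : (0 : ℝ) ≤ (E.card : ℝ) - (p + 1) := by
        have : ((p + 1 : ℕ) : ℝ) ≤ (E.card : ℝ) := by exact_mod_cast hp
        push_cast at this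
        linarith
      -- `h = down f` is mean zero
      set h : Finset α → ℝ := jdown E f with hh
      have hh0 : ∑ A' ∈ E.powersetCard p, h A' = 0 := by
        rw [hh, sum_down, hf, mul_zero]
      have hihh := ih h hh0
      set κ : ℝ := ((p : ℝ) + 1) * ((E.card : ℝ) - p) - E.card with hκ
      have hκ0 : 0 ≤ κ := by
        have : κ = (p : ℝ) * ((E.card : ℝ) - (p + 1)) := by rw [hκ]; ring
        rw [this]
        positivity
      have hup : ∑ A ∈ E.powersetCard (p + 1), jup h A ^ 2 ≤ κ * jsq E p h := by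
        rw [norm_up]
        have : κ = ((E.card : ℝ) - p) + ((p : ℝ) * ((E.card : ℝ) - p) - E.card) := by
          rw [hκ]; ring
        rw [this, add_mul]
        linarith
      set Nh : ℝ := jsq E p h with hNh
      have hNh0 : 0 ≤ Nh := Finset.sum_nonneg fun _ _ => sq_nonneg _
      have hf0 : 0 ≤ jsq E (p + 1) f := Finset.sum_nonneg fun _ _ => sq_nonneg _
      have hNh_eq : Nh = ∑ A ∈ E.powersetCard (p + 1), f A * jup h A := by
        rw [← adjoint_down_up, hNh, jsq]
        refine Finset.sum_congr rfl fun A _ => ?_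
        rw [sq]
      have hCS : Nh ^ 2 ≤ jsq E (p + 1) f * (κ * Nh) := by
        rw [hNh_eq]
        rw [← hNh_eq]
        have := Finset.sum_mul_sq_le_sq_mul_sq (E.powersetCard (p + 1)) f (jup h)
        rw [← hNh_eq] at this
        refine this.trans ?_
        exact mul_le_mul_of_nonneg_left hup hf0
      have hNκ : Nh ≤ κ * jsq E (p + 1) f := by
        by_cases hN : Nh = 0
        · rw [hN]; positivity
        · have hpos : 0 < Nh := lt_of_le_of_ne hNh0 (Ne.symm hN)
          have : Nh * Nh ≤ (κ * jsq E (p + 1) f) * Nh := by nlinarith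
          exact le_of_mul_le_mul_right this hpos
      have hnd := norm_down E p f
      have hNh2 : Nh = ((p : ℝ) + 1) * jsq E (p + 1) f + jadj E (p + 1) f := by
        rw [← hnd]
        rfl
      have : jadj E (p + 1) f = Nh - ((p : ℝ) + 1) * jsq E (p + 1) f := by linarith
      rw [this]
      push_cast
      have hκ' : κ - ((p : ℝ) + 1) = ((p : ℝ) + 1) * ((E.card : ℝ) - ((p : ℝ) + 1)) - E.card := by
        rw [hκ]; ring
      rw [← hκ']
      rw [sub_mul]
      linarith
    · have : E.powersetCard (p + 1) = ∅ := powersetCard_eq_empty.mpr (by omega)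
      simp [jadj, jsq, this]

/-- **Johnson gap.**  For mean-zero `f` on `J(E,p)`: `T ‖f‖² ≤ En(f)`. -/
theorem johnson_gap_meanzero (E : Finset α) (p : ℕ) (f : Finset α → ℝ)
    (hf : ∑ A ∈ E.powersetCard p, f A = 0) :
    (E.card : ℝ) * jsq E p f ≤ jen E p f := by
  rw [jen_eq]
  have := jadj_le E p f hf
  rw [sub_mul] at this
  linarith

/-- Centered version. -/
theorem johnson_gap (E : Finset α) (p : ℕ) (f : Finset α → ℝ) (m : ℝ)
    (hm : ∑ A ∈ E.powersetCard p, (f A - m) = 0) :
    (E.card : ℝ) * ∑ A ∈ E.powersetCard p, (f A - m) ^ 2 ≤ jen E p f := by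
  have h := johnson_gap_meanzero E p (fun A => f A - m) hm
  have h2 : jen E p (fun A => f A - m) = jen E p f := by
    unfold jen
    congr 1
    refine Finset.sum_congr rfl fun A _ => Finset.sum_congr rfl fun u _ =>
      Finset.sum_congr rfl fun v _ => ?_
    ring
  rw [h2] at h
  exact h

end Crest.Agent.Lib.S0453.AuxJ
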