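/-
S0453 (helper16): abstract spectral step without the spectral theorem.
`A` symmetric PSD on functions on a finite set `Ω`, `A² ≥ A`, kernel = constants ⇒ `Var ≤ ⟨A f, f⟩`.
Proof: a mean-zero `f₀` is in the range of `A` (duality); for `f₀ = A g`, Cauchy-Schwarz for the PSD form
`B(u,v) = ⟨A u, v⟩` gives `‖f₀‖⁴ = B(g,f₀)² ≤ B(g,g) B(f₀,f₀) ≤ ‖A g‖² B(f₀,f₀) = ‖f₀‖² B(f₀,f₀)`.
-/
import Crest.Agent.Lib.S0453.Defs

set_option autoImplicit false
open Finset Crest.SwitchChain
open scoped Classical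

namespace Crest.Agent.Lib.S0453

section abstract

variable {α : Type*} (Ω : Finset α) (A : (α → ℝ) → (α → ℝ))

/-- The abstract hypotheses on the operator `A`. -/
structure SpecOp : Prop where
  hadd : ∀ f g x, x ∈ Ω → A (fun y => f y + g y) x = A f x + A g x
  hsmul : ∀ (c : ℝ) f x, x ∈ Ω → A (fun y => c * f y) x = c * A f x
  hloc : ∀ f g, (∀ x ∈ Ω, f x = g x) → ∀ x ∈ Ω, A f x = A g x
  hconst : ∀ (c : ℝ) x, x ∈ Ω → A (fun _ => c) x = 0
  hsym : ∀ f g, ∑ x ∈ Ω, A f x * g x = ∑ x ∈ Ω, f x * A g x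
  hpsd : ∀ f, 0 ≤ ∑ x ∈ Ω, A f x * f x
  hsq : ∀ f, ∑ x ∈ Ω, A f x * f x ≤ ∑ x ∈ Ω, A f x * A f x
  hker : ∀ f, (∀ x ∈ Ω, A f x = 0) → ∀ x ∈ Ω, ∀ y ∈ Ω, f x = f y

variable {Ω A}

/-- extension by zero from the subtype -/
private noncomputable def ext0 (u : Ω → ℝ) : α → ℝ := fun x => if h : x ∈ Ω then u ⟨x, h⟩ else 0

private lemma ext0_coe (u : Ω → ℝ) (i : Ω) : ext0 u i.1 = u i := by
  simp [ext0]

private lemma sum_coe_eq (F : α → ℝ) : ∑ i : Ω, F i.1 = ∑ x ∈ Ω, F x :=
  Finset.sum_coe_sort Ω F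

/-- A function with zero sum is in the range of `A`. -/
private lemma exists_preimage (hA : SpecOp Ω A) (f : α → ℝ) (hf : ∑ x ∈ Ω, f x = 0) :
    ∃ g : α → ℝ, ∀ x ∈ Ω, A g x = f x := by
  -- the linear operator on the subtype
  let T : (Ω → ℝ) →ₗ[ℝ] (Ω → ℝ) :=
    { toFun := fun u i => A (ext0 u) i.1
      map_add' := by
        intro u v
        funext i
        have h1 : ∀ x ∈ Ω, ext0 (u + v) x = ext0 u x + ext0 v x := by
          intro x hx
          simp [ext0, hx]
        have := hA.hloc (ext0 (u + v)) (fun y => ext0 u y + ext0 v y) h1 i.1 i.2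
        simp only [Pi.add_apply]
        rw [this, hA.hadd _ _ _ i.2]
      map_smul' := by
        intro c u
        funext i
        have h1 : ∀ x ∈ Ω, ext0 (c • u) x = c * ext0 u x := by
          intro x hx
          simp [ext0, hx]
        have := hA.hloc (ext0 (c • u)) (fun y => c * ext0 u y) h1 i.1 i.2
        simp only [Pi.smul_apply, RingHom.id_apply, smul_eq_mul]
        rw [this, hA.hsmul _ _ _ i.2] }
  have hT : ∀ u i, T u i = A (ext0 u) i.1 := fun _ _ => rfl
  -- symmetry on the subtype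
  have hsym : ∀ u v : Ω → ℝ, ∑ i, T u i * v i = ∑ i, u i * T v i := by
    intro u v
    have h := hA.hsym (ext0 u) (ext0 v)
    have e1 : ∑ x ∈ Ω, A (ext0 u) x * ext0 v x = ∑ i : Ω, T u i * v i := by
      rw [← Finset.sum_coe_sort Ω]
      exact Finset.sum_congr rfl (fun i _ => by rw [ext0_coe, hT])
    have e2 : ∑ x ∈ Ω, ext0 u x * A (ext0 v) x = ∑ i : Ω, u i * T v i := by
      rw [← Finset.sum_coe_sort Ω]
      exact Finset.sum_congr rfl (fun i _ => by rw [ext0_coe, hT])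
    rw [← e1, ← e2, h]
  let f' : Ω → ℝ := fun i => f i.1
  have hmem : f' ∈ LinearMap.range T := by
    by_contra hn
    obtain ⟨φ, hφ1, hφ2⟩ := Submodule.exists_dual_map_eq_bot_of_notMem hn inferInstance
    have hφ0 : ∀ u, φ (T u) = 0 := by
      intro u
      have hm : φ (T u) ∈ (LinearMap.range T).map φ := ⟨T u, ⟨u, rfl⟩, rfl⟩
      rw [hφ2] at hm
      simpa using hm
    -- the representing vector
    let h : Ω → ℝ := fun i => φ (fun j => if i = j then 1 else 0)
    have hrep : ∀ u : Ω → ℝ, φ u = ∑ i, u i * h i := by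
      intro u
      rw [LinearMap.pi_apply_eq_sum_univ φ u]
      simp only [smul_eq_mul, h]
    have hzero : ∀ u : Ω → ℝ, ∑ i, T h i * u i = 0 := by
      intro u
      rw [hsym, ← hφ0 u, hrep]
      exact Finset.sum_congr rfl (fun i _ => mul_comm _ _)
    have hTh : ∀ i, T h i = 0 := by
      have h0 := hzero (T h)
      have h1 : ∀ i ∈ (univ : Finset Ω), T h i * T h i = 0 :=
        (Finset.sum_eq_zero_iff_of_nonneg (fun i _ => mul_self_nonneg _)).1 h0
      intro i
      exact mul_self_eq_zero.1 (h1 i (mem_univ i))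
    have hconst : ∀ x ∈ Ω, ∀ y ∈ Ω, ext0 h x = ext0 h y :=
      hA.hker (ext0 h) (fun x hx => hTh ⟨x, hx⟩)
    apply hφ1
    rw [hrep]
    rcases isEmpty_or_nonempty Ω with hE | ⟨⟨i0⟩⟩
    · exact Fintype.sum_empty _
    · have hc : ∀ i : Ω, h i = h i0 := by
        intro i
        have := hconst i.1 i.2 i0.1 i0.2
        rwa [ext0_coe, ext0_coe] at this
      have e : ∑ i : Ω, f' i * h i = (∑ i : Ω, f i.1) * h i0 := by
        rw [Finset.sum_mul]
        exact Finset.sum_congr rfl (fun i _ => by rw [hc i])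
      rw [e, Finset.sum_coe_sort Ω f, hf, zero_mul]
  obtain ⟨u, hu⟩ := hmem
  refine ⟨ext0 u, fun x hx => ?_⟩
  have := congrFun hu ⟨x, hx⟩
  simpa [hT, f'] using this

/-- Cauchy-Schwarz for the PSD form. -/
private lemma form_cs (hA : SpecOp Ω A) (u v : α → ℝ) :
    (∑ x ∈ Ω, A u x * v x) ^ 2 ≤ (∑ x ∈ Ω, A u x * u x) * (∑ x ∈ Ω, A v x * v x) := by
  set a := ∑ x ∈ Ω, A v x * v x with ha
  set b := ∑ x ∈ Ω, A u x * v x with hb
  set c := ∑ x ∈ Ω, A u x * u x with hc
  have hvu : ∑ x ∈ Ω, A v x * u x = b := by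
    rw [hb, hA.hsym]
    exact Finset.sum_congr rfl (fun i _ => mul_comm _ _)
  have key : ∀ t : ℝ, 0 ≤ a * (t * t) + (2 * b) * t + c := by
    intro t
    have h0 := hA.hpsd (fun y => u y + (fun y => t * v y) y)
    have e : ∑ x ∈ Ω, A (fun y => u y + (fun y => t * v y) y) x * (u x + t * v x)
        = a * (t * t) + (2 * b) * t + c := by
      have e1 : ∀ x ∈ Ω, A (fun y => u y + (fun y => t * v y) y) x * (u x + t * v x)
          = A u x * u x + t * (A u x * v x) + t * (A v x * u x) + t * t * (A v x * v x) := by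
        intro x hx
        rw [hA.hadd _ _ _ hx, hA.hsmul _ _ _ hx]
        ring
      rw [Finset.sum_congr rfl e1, Finset.sum_add_distrib, Finset.sum_add_distrib,
        Finset.sum_add_distrib, ← Finset.mul_sum, ← Finset.mul_sum, ← Finset.mul_sum, hvu]
      rw [← ha, ← hb, ← hc]
      ring
    simpa only [e] using h0
  have hd := discrim_le_zero key
  unfold discrim at hd
  nlinarith

/-- The abstract spectral step. -/
theorem var_le_of_specOp (hA : SpecOp Ω A) (f : α → ℝ) :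
    ∑ x ∈ Ω, (f x - avg Ω f) ^ 2 ≤ ∑ x ∈ Ω, A f x * f x := by
  set m := avg Ω f with hm
  set f0 : α → ℝ := fun x => f x - m with hf0
  have hsum : ∑ x ∈ Ω, f0 x = 0 := by
    rw [hf0, Finset.sum_sub_distrib, Finset.sum_const, hm]
    unfold avg
    by_cases hΩ : (Ω.card : ℝ) = 0
    · have : Ω = ∅ := by
        rw [← Finset.card_eq_zero]
        exact_mod_cast hΩ
      simp [this]
    · rw [nsmul_eq_mul]
      field_simp
      ring
  -- `A f = A f0` on `Ω`
  have hAf : ∀ x ∈ Ω, A f x = A f0 x := by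
    intro x hx
    have h1 : ∀ y ∈ Ω, f y = f0 y + m := fun y _ => by simp [hf0]
    have h2 := hA.hloc f (fun y => f0 y + (fun _ => m) y) h1 x hx
    rw [h2, hA.hadd _ _ _ hx, hA.hconst _ _ hx, add_zero]
  have hmain : ∑ x ∈ Ω, A f x * f x = ∑ x ∈ Ω, A f0 x * f0 x := by
    have e1 : ∀ x ∈ Ω, A f x * f x = A f0 x * f0 x + m * (A f0 x * 1) := by
      intro x hx
      rw [hAf x hx]
      simp only [hf0]
      ring
    rw [Finset.sum_congr rfl e1, Finset.sum_add_distrib, ← Finset.mul_sum]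
    have e2 : ∑ x ∈ Ω, A f0 x * 1 = 0 := by
      have := hA.hsym f0 (fun _ => 1)
      rw [this]
      exact Finset.sum_eq_zero (fun x hx => by rw [hA.hconst _ _ hx, mul_zero])
    rw [e2, mul_zero, add_zero]
  rw [hmain]
  have hlhs : ∑ x ∈ Ω, (f x - m) ^ 2 = ∑ x ∈ Ω, f0 x * f0 x :=
    Finset.sum_congr rfl (fun x _ => by simp only [hf0]; ring)
  rw [hlhs]
  set N := ∑ x ∈ Ω, f0 x * f0 x with hN
  have hN0 : 0 ≤ N := Finset.sum_nonneg (fun x _ => mul_self_nonneg _)
  have hB0 := hA.hpsd f0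
  rcases eq_or_lt_of_le hN0 with hz | hpos
  · rw [← hz]
    exact hB0
  obtain ⟨g, hg⟩ := exists_preimage hA f0 hsum
  have h1 : ∑ x ∈ Ω, A g x * f0 x = N :=
    Finset.sum_congr rfl (fun x hx => by rw [hg x hx])
  have h2 : ∑ x ∈ Ω, A g x * A g x = N :=
    Finset.sum_congr rfl (fun x hx => by rw [hg x hx])
  have h3 := form_cs hA g f0
  rw [h1] at h3
  have h4 := hA.hsq g
  rw [h2] at h4
  have h5 : N ^ 2 ≤ N * ∑ x ∈ Ω, A f0 x * f0 x :=
    h3.trans (mul_le_mul_of_nonneg_right h4 hB0)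
  have h6 : N * N ≤ N * ∑ x ∈ Ω, A f0 x * f0 x := by nlinarith
  exact le_of_mul_le_mul_left h6 hpos

end abstract

section concrete

variable {n : ℕ}

lemma avg_add {β : Type*} (S : Finset β) (f g : β → ℝ) :
    avg S (fun y => f y + g y) = avg S f + avg S g := by
  unfold avg
  rw [Finset.sum_add_distrib, add_div]

lemma avg_smul {β : Type*} (S : Finset β) (c : ℝ) (f : β → ℝ) :
    avg S (fun y => c * f y) = c * avg S f := by
  unfold avg
  rw [← Finset.mul_sum, mul_div_assoc]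

lemma avg_congr {β : Type*} (S : Finset β) {f g : β → ℝ} (h : ∀ x ∈ S, f x = g x) :
    avg S f = avg S g := by
  unfold avg
  rw [Finset.sum_congr rfl h]

lemma K_add (d : Fin n → ℕ) (a b : Fin n) (f g : Gr n → ℝ) (G : Gr n) :
    K d a b (fun y => f y + g y) G = K d a b f G + K d a b g G := by
  unfold K E
  rw [avg_add]
  ring

lemma K_smul (d : Fin n → ℕ) (a b : Fin n) (c : ℝ) (f : Gr n → ℝ) (G : Gr n) :
    K d a b (fun y => c * f y) G = c * K d a b f G := by
  unfold K E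
  rw [avg_smul]
  ring

lemma K_loc (d : Fin n → ℕ) (a b : Fin n) (f g : Gr n → ℝ) (h : ∀ x ∈ realizations d, f x = g x)
    (G : Gr n) (hG : G ∈ realizations d) : K d a b f G = K d a b g G := by
  unfold K E
  have e : avg (fib d a b G) f = avg (fib d a b G) g :=
    avg_congr _ (fun x hx => h x (Finset.mem_filter.1 hx).1)
  rw [h G hG, e]

lemma mem_fib_self {d : Fin n → ℕ} {a b : Fin n} {G : Gr n} (hG : G ∈ realizations d) :
    G ∈ fib d a b G :=
  Finset.mem_filter.2 ⟨hG, fun _ _ _ _ _ _ => Iff.rfl⟩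

lemma K_const (d : Fin n → ℕ) (a b : Fin n) (c : ℝ) (G : Gr n) (hG : G ∈ realizations d) :
    K d a b (fun _ => c) G = 0 := by
  unfold K E avg
  have hc : ((fib d a b G).card : ℝ) ≠ 0 := by
    have : 0 < (fib d a b G).card := Finset.card_pos.2 ⟨G, mem_fib_self hG⟩
    exact_mod_cast this.ne'
  rw [Finset.sum_const, nsmul_eq_mul]
  field_simp
  ring

lemma KK_add (d : Fin n → ℕ) (f g : Gr n → ℝ) (G : Gr n) :
    KK d (fun y => f y + g y) G = KK d f G + KK d g G := by
  unfold KK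
  rw [← mul_add, ← Finset.sum_add_distrib]
  congr 1
  refine Finset.sum_congr rfl fun a _ => ?_
  rw [← Finset.sum_add_distrib]
  refine Finset.sum_congr rfl fun b _ => ?_
  split_ifs
  · exact K_add d a b f g G
  · simp

lemma KK_smul (d : Fin n → ℕ) (c : ℝ) (f : Gr n → ℝ) (G : Gr n) :
    KK d (fun y => c * f y) G = c * KK d f G := by
  unfold KK
  rw [mul_left_comm]
  congr 1
  rw [Finset.mul_sum]
  refine Finset.sum_congr rfl fun a _ => ?_
  rw [Finset.mul_sum]
  refine Finset.sum_congr rfl fun b _ => ?_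
  split_ifs
  · exact K_smul d a b c f G
  · simp

lemma KK_loc (d : Fin n → ℕ) (f g : Gr n → ℝ) (h : ∀ x ∈ realizations d, f x = g x)
    (G : Gr n) (hG : G ∈ realizations d) : KK d f G = KK d g G := by
  unfold KK
  congr 1
  refine Finset.sum_congr rfl fun a _ => Finset.sum_congr rfl fun b _ => ?_
  split_ifs
  · exact K_loc d a b f g h G hG
  · rfl

lemma KK_const (d : Fin n → ℕ) (c : ℝ) (G : Gr n) (hG : G ∈ realizations d) :
    KK d (fun _ => c) G = 0 := by
  unfold KK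
  rw [Finset.sum_eq_zero, mul_zero]
  refine fun a _ => Finset.sum_eq_zero fun b _ => ?_
  split_ifs
  · exact K_const d a b c G hG
  · rfl

/-- Expansion of `⟨KK f, g⟩`. -/
lemma ip_KK_left (d : Fin n → ℕ) (f g : Gr n → ℝ) :
    ip d (KK d f) g =
      (1 / 2 : ℝ) * ∑ a, ∑ b, if a ≠ b then ip d (K d a b f) g else 0 := by
  unfold ip KK
  have e : ∀ G, (1 / 2 : ℝ) * (∑ a, ∑ b, if a ≠ b then K d a b f G else 0) * g G =
      (1 / 2 : ℝ) * ∑ a, ∑ b, if a ≠ b then K d a b f G * g G else 0 := by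
    intro G
    rw [mul_assoc, Finset.sum_mul]
    congr 2
    funext a
    rw [Finset.sum_mul]
    refine Finset.sum_congr rfl fun b _ => ?_
    split_ifs <;> simp
  simp only [e]
  rw [← Finset.mul_sum]
  congr 1
  rw [Finset.sum_comm]
  refine Finset.sum_congr rfl fun a _ => ?_
  rw [Finset.sum_comm]
  refine Finset.sum_congr rfl fun b _ => ?_
  split_ifs
  · rfl
  · simp

/-- `⟨KK f, f⟩ = 0` for symmetric idempotent `K`: each `K f` vanishes. -/
lemma K_eq_zero_of_KK (d : Fin n → ℕ) (f : Gr n → ℝ)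
    (hKK : ip d (KK d f) f = (1 / 2 : ℝ) * ∑ a, ∑ b, if a ≠ b then ip d (K d a b f) (K d a b f) else 0)
    (h0 : ∀ G ∈ realizations d, KK d f G = 0) :
    ∀ a b, a ≠ b → ∀ G ∈ realizations d, K d a b f G = 0 := by
  have hzero : ∑ a, ∑ b, (if a ≠ b then ip d (K d a b f) (K d a b f) else 0) = 0 := by
    have : ip d (KK d f) f = 0 :=
      Finset.sum_eq_zero fun G hG => by rw [h0 G hG, zero_mul]
    rw [this] at hKK
    linarith
  have hip : ∀ a b : Fin n, 0 ≤ (if a ≠ b then ip d (K d a b f) (K d a b f) else 0) := by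
    intro a b
    split_ifs
    · exact Finset.sum_nonneg fun G _ => mul_self_nonneg _
    · exact le_rfl
  intro a b hab G hG
  have h1 := (Finset.sum_eq_zero_iff_of_nonneg
    (fun a _ => Finset.sum_nonneg fun b _ => hip a b)).1 hzero a (mem_univ a)
  have h2 := (Finset.sum_eq_zero_iff_of_nonneg (fun b _ => hip a b)).1 h1 b (mem_univ b)
  rw [if_pos hab] at h2
  have h3 := (Finset.sum_eq_zero_iff_of_nonneg (fun G _ => mul_self_nonneg _)).1 h2 G hG
  exact mul_self_eq_zero.1 h3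

end concrete

end Crest.Agent.Lib.S0453
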