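/-
S0453 task BLOCK: abstract block lemma (no graphs).
Finite set S, maps y, y'.  E₁ = average over fibres of y' ; E₂ = average over fibres of y.
Shape of the count matrix n(v,v') = #{s : y s = v, y' s = v'}: 𝒴 = Rc ⊔ Lc, 𝒴' = Cc ⊔ Lc'; n = 1 on Rc × Lc', 1 on Lc × Cc, 2 on Lc × Lc', 0 on Rc × Cc.
D = {y ∈ Lc, y' ∈ Lc'} ; `sw` exchanges the two elements of each 2-element fibre.
Statement:  ∑_{s∈D} [ (f s - f (sw s))²/4 + A₁ s * A₂ s ] ≤ ∑_{s∈S} (f s - E₁ f s)(f s - E₂ f s)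
where A₁ s = (mean of f over D ∩ {y' = y' s}) - E₁ f s, A₂ s = (mean over D ∩ {y = y s}) - E₂ f s.
(With Lc = ∅, Cc = ∅ this is the commuting product case: 0 ≤ ⟨K₁f,K₂f⟩.)
PROOF.  Let h(v,v') = mean of f on the fibre (v,v').  ∑_s f² = ∑ n h² + (1/2) ∑_{s∈D}... (f s - f (sw s))²/2 per 2-element fibre, and ∑_s (f-E₁f)(f-E₂f)=∑f²-∑_{y'} N' m₁²-∑_y N m₂²+∑ n m₁ m₂
(m₁ = E₁f as function of y', m₂ = E₂f as function of y; N', N fibre sizes).  So it reduces to the matrix inequality for h.  Sectors (ANOVA, helper7 msg 314):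
⟨K₁f,K₂f⟩ = μ_D θ_R θ_C (q_D-q_R)(q_D-q_C) + ∑_{v,v'}½(Δf)² + ‖g‖²+‖h‖²+‖k‖²+ 2|U|θ_R∑_{v'}(h_{v'}-g_{v'})² + 2|V|θ_C∑_v(k_v-g_v)²  [double-centred remainders on R̃×L', L×C̃, L×L'; sector Y'⁰ and sector Y⁰].
Cleaner: let f₀ = q_R 1_R + q_D 1_D + q_C 1_C, g = f - f₀.  E₁,E₂ preserve span(1_R,1_D,1_C) and E₁E₂ g = 0 = E₂E₁ g, so ⟨K₁g,K₂g⟩ = ‖g - E₁g - E₂g‖² ≥ ∑_{s∈D}(g s - g (sw s))²/4 (pointwise on 2-element fibres);
⟨K₁f₀,K₂g⟩ = 0 = ⟨K₁g,K₂f₀⟩;  ⟨K₁f₀,K₂f₀⟩ = ∑_{s∈D}(K₁f₀ s)(K₂f₀ s) [K₁f₀ vanishes on C, K₂f₀ vanishes on R], and ∑_{s∈D} A₁A₂ = ∑_{s∈D}(-K₁f₀... ) since A₁ on D is a function of y', A₂ on D a function of y: factorises to block means.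
Numerics: chk4.py (helper25) all tuples PSD.
-/
import Crest.Agent.Lib.S0453.Defs

set_option autoImplicit false
open Finset
open scoped Classical

namespace Crest.Agent.Lib.S0453.Block

variable {β 𝒴 𝒴' : Type*}

lemma card_mul_avg {α : Type*} (S : Finset α) (f : α → ℝ) :
    (S.card : ℝ) * avg S f = ∑ x ∈ S, f x := by
  unfold avg
  by_cases h : S = ∅
  · subst h; simp
  · have : (S.card : ℝ) ≠ 0 := by
      have := Finset.card_pos.mpr (Finset.nonempty_iff_ne_empty.mpr h)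
      positivity
    field_simp

/-- General quadratic lemma on a product block. -/
lemma glq (A : Finset 𝒴) (B : Finset 𝒴') (c : 𝒴 → 𝒴' → ℝ) (M1 : 𝒴' → ℝ) (M2 : 𝒴 → ℝ)
    (γ : 𝒴' → ℝ) (δ : 𝒴 → ℝ) (q : ℝ)
    (hγ : ∀ v' ∈ B, (A.card : ℝ) * γ v' = ∑ v ∈ A, c v v')
    (hδ : ∀ v ∈ A, (B.card : ℝ) * δ v = ∑ v' ∈ B, c v v')
    (hq : ((A.card : ℝ) * B.card) * q = ∑ v ∈ A, ∑ v' ∈ B, c v v') :
    ∑ v ∈ A, ∑ v' ∈ B, (γ v' - M1 v') * (δ v - M2 v)
      + (B.card : ℝ) * ∑ v ∈ A, (δ v - q) * (δ v - M2 v)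
      + (A.card : ℝ) * ∑ v' ∈ B, (γ v' - q) * (γ v' - M1 v')
    ≤ ∑ v ∈ A, ∑ v' ∈ B, (c v v' - M1 v') * (c v v' - M2 v) := by
  by_cases hA : A = ∅
  · subst hA; simp
  by_cases hB : B = ∅
  · subst hB; simp
  have hAc : (A.card : ℝ) ≠ 0 := by
    have := Finset.card_pos.mpr (Finset.nonempty_iff_ne_empty.mpr hA)
    positivity
  have hBc : (B.card : ℝ) ≠ 0 := by
    have := Finset.card_pos.mpr (Finset.nonempty_iff_ne_empty.mpr hB)
    positivity
  -- sums of δ, γ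
  have hδs : ∑ v ∈ A, δ v = (A.card : ℝ) * q := by
    have h1 : (B.card : ℝ) * ∑ v ∈ A, δ v = ∑ v ∈ A, ∑ v' ∈ B, c v v' := by
      rw [Finset.mul_sum]; exact Finset.sum_congr rfl hδ
    have h2 : (B.card : ℝ) * ∑ v ∈ A, δ v = (B.card : ℝ) * ((A.card : ℝ) * q) := by
      rw [h1, ← hq]; ring
    exact mul_left_cancel₀ hBc h2
  have hγs : ∑ v' ∈ B, γ v' = (B.card : ℝ) * q := by
    have h1 : (A.card : ℝ) * ∑ v' ∈ B, γ v' = ∑ v ∈ A, ∑ v' ∈ B, c v v' := by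
      rw [Finset.mul_sum, Finset.sum_comm]; exact Finset.sum_congr rfl hγ
    have h2 : (A.card : ℝ) * ∑ v' ∈ B, γ v' = (A.card : ℝ) * ((B.card : ℝ) * q) := by
      rw [h1, ← hq]; ring
    exact mul_left_cancel₀ hAc h2
  set w : 𝒴 → 𝒴' → ℝ := fun v v' => c v v' - γ v' - δ v + q with hw
  -- column and row sums of w vanish
  have hw1 : ∀ v' ∈ B, ∑ v ∈ A, w v v' = 0 := by
    intro v' hv'
    simp only [hw, Finset.sum_add_distrib, Finset.sum_sub_distrib, Finset.sum_const, nsmul_eq_mul]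
    rw [hδs, ← hγ v' hv']; ring
  have hw2 : ∀ v ∈ A, ∑ v' ∈ B, w v v' = 0 := by
    intro v hv
    simp only [hw, Finset.sum_add_distrib, Finset.sum_sub_distrib, Finset.sum_const, nsmul_eq_mul]
    rw [hγs, ← hδ v hv]; ring
  have key : ∀ v v', (c v v' - M1 v') * (c v v' - M2 v)
      = (γ v' - M1 v') * (δ v - M2 v) + (δ v - q) * (δ v - M2 v) + (γ v' - q) * (γ v' - M1 v')
        + (w v v') ^ 2 + w v v' * ((γ v' - q) + (γ v' - M1 v'))
        + w v v' * ((δ v - M2 v) + (δ v - q)) + (δ v - q) * (γ v' - q) := by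
    intro v v'; simp only [hw]; ring
  have t1 : ∑ v ∈ A, ∑ v' ∈ B, w v v' * ((γ v' - q) + (γ v' - M1 v')) = 0 := by
    rw [Finset.sum_comm]
    apply Finset.sum_eq_zero
    intro v' hv'
    rw [← Finset.sum_mul, hw1 v' hv', zero_mul]
  have t2 : ∑ v ∈ A, ∑ v' ∈ B, w v v' * ((δ v - M2 v) + (δ v - q)) = 0 := by
    apply Finset.sum_eq_zero
    intro v hv
    rw [← Finset.sum_mul, hw2 v hv, zero_mul]
  have t3 : ∑ v ∈ A, ∑ v' ∈ B, (δ v - q) * (γ v' - q) = 0 := by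
    have : ∑ v' ∈ B, (γ v' - q) = 0 := by
      rw [Finset.sum_sub_distrib, hγs]; simp
    apply Finset.sum_eq_zero
    intro v _
    rw [← Finset.mul_sum, this, mul_zero]
  have t4 : ∑ v ∈ A, ∑ v' ∈ B, (δ v - q) * (δ v - M2 v)
      = (B.card : ℝ) * ∑ v ∈ A, (δ v - q) * (δ v - M2 v) := by
    rw [Finset.mul_sum]; apply Finset.sum_congr rfl; intro v _; simp
  have t5 : ∑ v ∈ A, ∑ v' ∈ B, (γ v' - q) * (γ v' - M1 v')
      = (A.card : ℝ) * ∑ v' ∈ B, (γ v' - q) * (γ v' - M1 v') := by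
    rw [Finset.sum_comm, Finset.mul_sum]; apply Finset.sum_congr rfl; intro v _; simp
  have t6 : 0 ≤ ∑ v ∈ A, ∑ v' ∈ B, (w v v') ^ 2 :=
    Finset.sum_nonneg fun v _ => Finset.sum_nonneg fun v' _ => sq_nonneg _
  have expand : ∑ v ∈ A, ∑ v' ∈ B, (c v v' - M1 v') * (c v v' - M2 v)
      = ∑ v ∈ A, ∑ v' ∈ B, (γ v' - M1 v') * (δ v - M2 v)
        + ∑ v ∈ A, ∑ v' ∈ B, (δ v - q) * (δ v - M2 v)
        + ∑ v ∈ A, ∑ v' ∈ B, (γ v' - q) * (γ v' - M1 v')
        + ∑ v ∈ A, ∑ v' ∈ B, (w v v') ^ 2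
        + ∑ v ∈ A, ∑ v' ∈ B, w v v' * ((γ v' - q) + (γ v' - M1 v'))
        + ∑ v ∈ A, ∑ v' ∈ B, w v v' * ((δ v - M2 v) + (δ v - q))
        + ∑ v ∈ A, ∑ v' ∈ B, (δ v - q) * (γ v' - q) := by
    simp only [← Finset.sum_add_distrib]
    apply Finset.sum_congr rfl; intro v _
    apply Finset.sum_congr rfl; intro v' _
    exact key v v'
  rw [expand, t1, t2, t3, t4, t5]
  linarith

/-- Column lemma. -/
lemma col_lemma {ι : Type*} (B : Finset ι) (α γ M : ι → ℝ) (p r qa qb : ℝ)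
    (hp : 0 ≤ p) (hr : 0 ≤ r)
    (hqa : p ≠ 0 → (B.card : ℝ) * qa = ∑ x ∈ B, α x)
    (hqb : r ≠ 0 → (B.card : ℝ) * qb = ∑ x ∈ B, γ x)
    (hM : ∀ x ∈ B, (p + r) * M x = p * α x + r * γ x) :
    0 ≤ p * ∑ x ∈ B, (α x - qa) * (α x - M x) + r * ∑ x ∈ B, (γ x - qb) * (γ x - M x) := by
  by_cases hp0 : p = 0
  · subst hp0
    by_cases hr0 : r = 0
    · subst hr0; simp
    · have : ∀ x ∈ B, γ x - M x = 0 := by
        intro x hx
        have := hM x hx
        have h2 : r * (γ x - M x) = 0 := by linarith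
        exact (mul_eq_zero.mp h2).resolve_left hr0
      have h3 : ∑ x ∈ B, (γ x - qb) * (γ x - M x) = 0 := by
        apply Finset.sum_eq_zero; intro x hx; rw [this x hx, mul_zero]
      rw [h3]; simp
  by_cases hr0 : r = 0
  · subst hr0
    have : ∀ x ∈ B, α x - M x = 0 := by
      intro x hx
      have := hM x hx
      have h2 : p * (α x - M x) = 0 := by linarith
      exact (mul_eq_zero.mp h2).resolve_left hp0
    have h3 : ∑ x ∈ B, (α x - qa) * (α x - M x) = 0 := by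
      apply Finset.sum_eq_zero; intro x hx; rw [this x hx, mul_zero]
    rw [h3]; simp
  have hpos : 0 < p + r := by
    have : 0 < p := lt_of_le_of_ne hp (Ne.symm hp0)
    linarith
  have hM' : ∀ x ∈ B, M x = (p * α x + r * γ x) / (p + r) := by
    intro x hx
    rw [eq_div_iff hpos.ne']
    linarith [hM x hx]
  have h1 : ∀ x ∈ B, p * ((α x - qa) * (α x - M x)) + r * ((γ x - qb) * (γ x - M x))
      = (p * r / (p + r)) * ((α x - γ x) ^ 2 - (qa - qb) * (α x - γ x)) := by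
    intro x hx
    rw [hM' x hx]
    field_simp
    ring
  have hsum : p * ∑ x ∈ B, (α x - qa) * (α x - M x) + r * ∑ x ∈ B, (γ x - qb) * (γ x - M x)
      = (p * r / (p + r)) * (∑ x ∈ B, (α x - γ x) ^ 2 - (qa - qb) * ∑ x ∈ B, (α x - γ x)) := by
    rw [Finset.mul_sum, Finset.mul_sum, ← Finset.sum_add_distrib, Finset.sum_congr rfl h1,
      ← Finset.mul_sum, Finset.sum_sub_distrib, Finset.mul_sum]
  rw [hsum]
  have hS : ∑ x ∈ B, (α x - γ x) = (B.card : ℝ) * (qa - qb) := by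
    rw [Finset.sum_sub_distrib, ← hqa hp0, ← hqb hr0]; ring
  apply mul_nonneg (by positivity)
  rw [hS]
  have hCS : (∑ x ∈ B, (α x - γ x)) ^ 2 ≤ (B.card : ℝ) * ∑ x ∈ B, (α x - γ x) ^ 2 :=
    sq_sum_le_card_mul_sum_sq
  rw [hS] at hCS
  by_cases hB : B = ∅
  · subst hB; simp
  have hc : (0 : ℝ) < (B.card : ℝ) := by
    have := Finset.card_pos.mpr (Finset.nonempty_iff_ne_empty.mpr hB)
    positivity
  have : (B.card : ℝ) * ((B.card : ℝ) * (qa - qb) ^ 2) ≤ (B.card : ℝ) * ∑ x ∈ B, (α x - γ x) ^ 2 := by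
    calc _ = ((B.card : ℝ) * (qa - qb)) ^ 2 := by ring
      _ ≤ _ := hCS
  have h5 := le_of_mul_le_mul_left this hc
  nlinarith

/-- The matrix inequality of the L-shape. -/
theorem mat_ineq (Rc Lc : Finset 𝒴) (Cc Lc' : Finset 𝒴') (h : 𝒴 → 𝒴' → ℝ)
    (M₁ : 𝒴' → ℝ) (M₂ : 𝒴 → ℝ) (d₁ : 𝒴' → ℝ) (d₂ : 𝒴 → ℝ)
    (hM1L : ∀ v' ∈ Lc', ((Rc.card : ℝ) + 2 * Lc.card) * M₁ v'
        = ∑ v ∈ Rc, h v v' + 2 * ∑ v ∈ Lc, h v v')
    (hM1C : ∀ v' ∈ Cc, (Lc.card : ℝ) * M₁ v' = ∑ v ∈ Lc, h v v')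
    (hM2L : ∀ v ∈ Lc, ((Cc.card : ℝ) + 2 * Lc'.card) * M₂ v
        = ∑ v' ∈ Cc, h v v' + 2 * ∑ v' ∈ Lc', h v v')
    (hM2R : ∀ v ∈ Rc, (Lc'.card : ℝ) * M₂ v = ∑ v' ∈ Lc', h v v')
    (hd1 : ∀ v' ∈ Lc', (Lc.card : ℝ) * d₁ v' = ∑ v ∈ Lc, h v v')
    (hd2 : ∀ v ∈ Lc, (Lc'.card : ℝ) * d₂ v = ∑ v' ∈ Lc', h v v') :
    2 * ∑ v ∈ Lc, ∑ v' ∈ Lc', (d₁ v' - M₁ v') * (d₂ v - M₂ v)
    ≤ ∑ v ∈ Rc, ∑ v' ∈ Lc', (h v v' - M₁ v') * (h v v' - M₂ v)
      + ∑ v ∈ Lc, ∑ v' ∈ Cc, (h v v' - M₁ v') * (h v v' - M₂ v)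
      + 2 * ∑ v ∈ Lc, ∑ v' ∈ Lc', (h v v' - M₁ v') * (h v v' - M₂ v) := by
  set α : 𝒴' → ℝ := fun v' => avg Rc (fun v => h v v') with hα
  set β' : 𝒴 → ℝ := fun v => avg Cc (fun v' => h v v') with hβ'
  set qR : ℝ := avg Lc' α with hqR
  set qC : ℝ := avg Lc β' with hqC
  set qD : ℝ := avg Lc' d₁ with hqD
  have hαc : ∀ v', (Rc.card : ℝ) * α v' = ∑ v ∈ Rc, h v v' := fun v' => card_mul_avg _ _
  have hβc : ∀ v, (Cc.card : ℝ) * β' v = ∑ v' ∈ Cc, h v v' := fun v => card_mul_avg _ _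
  have hqRc : (Lc'.card : ℝ) * qR = ∑ v' ∈ Lc', α v' := card_mul_avg _ _
  have hqCc : (Lc.card : ℝ) * qC = ∑ v ∈ Lc, β' v := card_mul_avg _ _
  have hqDc : (Lc'.card : ℝ) * qD = ∑ v' ∈ Lc', d₁ v' := card_mul_avg _ _
  -- the three GL
  have G1 := glq Rc Lc' h M₁ M₂ α M₂ qR (fun v' _ => hαc v') hM2R (by
    calc ((Rc.card : ℝ) * Lc'.card) * qR = (Rc.card : ℝ) * ((Lc'.card : ℝ) * qR) := by ring
      _ = ∑ v' ∈ Lc', (Rc.card : ℝ) * α v' := by rw [hqRc, Finset.mul_sum]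
      _ = ∑ v' ∈ Lc', ∑ v ∈ Rc, h v v' := Finset.sum_congr rfl fun v' _ => hαc v'
      _ = _ := Finset.sum_comm)
  have G2 := glq Lc Cc h M₁ M₂ M₁ β' qC hM1C (fun v _ => hβc v) (by
    calc ((Lc.card : ℝ) * Cc.card) * qC = (Cc.card : ℝ) * ((Lc.card : ℝ) * qC) := by ring
      _ = ∑ v ∈ Lc, (Cc.card : ℝ) * β' v := by rw [hqCc, Finset.mul_sum]
      _ = ∑ v ∈ Lc, ∑ v' ∈ Cc, h v v' := Finset.sum_congr rfl fun v _ => hβc v)
  have hDD : ((Lc.card : ℝ) * Lc'.card) * qD = ∑ v ∈ Lc, ∑ v' ∈ Lc', h v v' := by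
    calc ((Lc.card : ℝ) * Lc'.card) * qD = (Lc.card : ℝ) * ((Lc'.card : ℝ) * qD) := by ring
      _ = ∑ v' ∈ Lc', (Lc.card : ℝ) * d₁ v' := by rw [hqDc, Finset.mul_sum]
      _ = ∑ v' ∈ Lc', ∑ v ∈ Lc, h v v' := Finset.sum_congr rfl hd1
      _ = _ := Finset.sum_comm
  have G3 := glq Lc Lc' h M₁ M₂ d₁ d₂ qD hd1 hd2 hDD
  -- simplify G1, G2
  have G1' : (Rc.card : ℝ) * ∑ v' ∈ Lc', (α v' - qR) * (α v' - M₁ v')
      ≤ ∑ v ∈ Rc, ∑ v' ∈ Lc', (h v v' - M₁ v') * (h v v' - M₂ v) := by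
    simpa using G1
  have G2' : (Cc.card : ℝ) * ∑ v ∈ Lc, (β' v - qC) * (β' v - M₂ v)
      ≤ ∑ v ∈ Lc, ∑ v' ∈ Cc, (h v v' - M₁ v') * (h v v' - M₂ v) := by
    simpa using G2
  -- columns
  have C1 := col_lemma Lc' α d₁ M₁ (Rc.card : ℝ) (2 * (Lc.card : ℝ)) qR qD (by positivity) (by positivity)
    (fun _ => hqRc) (fun _ => hqDc) (by
      intro v' hv'
      have := hM1L v' hv'
      rw [this, ← hαc v', ← hd1 v' hv']; ring)
  have C2 := col_lemma Lc β' d₂ M₂ (Cc.card : ℝ) (2 * (Lc'.card : ℝ)) qC qD (by positivity) (by positivity)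
    (fun _ => hqCc) (by
      intro hne
      have hne' : (Lc'.card : ℝ) ≠ 0 := by
        intro h0; apply hne; rw [h0]; ring
      have h1 : (Lc'.card : ℝ) * ∑ v ∈ Lc, d₂ v = ∑ v ∈ Lc, ∑ v' ∈ Lc', h v v' := by
        rw [Finset.mul_sum]; exact Finset.sum_congr rfl hd2
      have h2 : (Lc'.card : ℝ) * ∑ v ∈ Lc, d₂ v = (Lc'.card : ℝ) * ((Lc.card : ℝ) * qD) := by
        rw [h1, ← hDD]; ring
      exact (mul_left_cancel₀ hne' h2).symm) (by
      intro v hv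
      have := hM2L v hv
      rw [this, ← hβc v, ← hd2 v hv]; ring)
  nlinarith [G1', G2', G3, C1, C2]


lemma fib_quad (F : Finset β) (f : β → ℝ) (A B : ℝ) :
    ∑ s ∈ F, (f s - A) * (f s - B)
      = (F.card : ℝ) * ((avg F f - A) * (avg F f - B)) + ∑ s ∈ F, (f s - avg F f) ^ 2 := by
  set m := avg F f with hm
  have h0 : ∑ s ∈ F, (f s - m) = 0 := by
    rw [Finset.sum_sub_distrib, ← card_mul_avg F f]; simp [hm]
  have h1 : ∀ s ∈ F, (f s - A) * (f s - B)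
      = (m - A) * (m - B) + (f s - m) ^ 2 + (f s - m) * (2 * m - A - B) := by
    intro s _; ring
  have h2 : ∑ s ∈ F, (f s - m) * (2 * m - A - B) = 0 := by
    rw [← Finset.sum_mul, h0, zero_mul]
  rw [Finset.sum_congr rfl h1, Finset.sum_add_distrib, Finset.sum_add_distrib, h2]
  simp

lemma avg_of_card_one (F : Finset β) (f : β → ℝ) (h : F.card = 1) :
    ∑ s ∈ F, (f s - avg F f) ^ 2 = 0 := by
  obtain ⟨a, rfl⟩ := Finset.card_eq_one.mp h
  simp [avg]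

lemma avg_of_pair (F : Finset β) (f : β → ℝ) (h : F.card = 2) (a b : β) (ha : a ∈ F) (hb : b ∈ F)
    (hab : b ≠ a) : avg F f = (f a + f b) / 2 := by
  have hF : F = {a, b} := by
    symm
    apply Finset.eq_of_subset_of_card_le
    · intro x hx
      simp only [Finset.mem_insert, Finset.mem_singleton] at hx
      rcases hx with rfl | rfl <;> assumption
    · rw [h, Finset.card_pair (Ne.symm hab)]
  subst hF
  unfold avg
  rw [Finset.sum_pair (Ne.symm hab), h]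
  norm_num

/-- Abstract block lemma. -/
theorem block_ineq (S : Finset β) (y : β → 𝒴) (y' : β → 𝒴')
    (Rc Lc : Finset 𝒴) (Cc Lc' : Finset 𝒴')
    (hRL : Disjoint Rc Lc) (hCL : Disjoint Cc Lc')
    (hS : ∀ s ∈ S, (y s ∈ Rc ∧ y' s ∈ Lc') ∨ (y s ∈ Lc ∧ y' s ∈ Cc) ∨ (y s ∈ Lc ∧ y' s ∈ Lc'))
    (hR : ∀ v ∈ Rc, ∀ v' ∈ Lc', (S.filter fun s => y s = v ∧ y' s = v').card = 1)
    (hC : ∀ v ∈ Lc, ∀ v' ∈ Cc, (S.filter fun s => y s = v ∧ y' s = v').card = 1)
    (hD : ∀ v ∈ Lc, ∀ v' ∈ Lc', (S.filter fun s => y s = v ∧ y' s = v').card = 2)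
    (sw : β → β)
    (hsw : ∀ s ∈ S, y s ∈ Lc → y' s ∈ Lc' → sw s ∈ S ∧ sw s ≠ s ∧ y (sw s) = y s ∧ y' (sw s) = y' s)
    (f : β → ℝ) :
    ∑ s ∈ S.filter (fun s => y s ∈ Lc ∧ y' s ∈ Lc'),
        ((f s - f (sw s)) ^ 2 / 4 +
          (avg ((S.filter (fun s => y s ∈ Lc ∧ y' s ∈ Lc')).filter fun t => y' t = y' s) f
              - avg (S.filter fun t => y' t = y' s) f) *
          (avg ((S.filter (fun s => y s ∈ Lc ∧ y' s ∈ Lc')).filter fun t => y t = y s) f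
              - avg (S.filter fun t => y t = y s) f))
      ≤ ∑ s ∈ S, (f s - avg (S.filter fun t => y' t = y' s) f) *
                 (f s - avg (S.filter fun t => y t = y s) f) := by
  set D := S.filter (fun s => y s ∈ Lc ∧ y' s ∈ Lc') with hDdef
  set F : 𝒴 → 𝒴' → Finset β := fun v v' => S.filter fun s => y s = v ∧ y' s = v' with hF
  set h : 𝒴 → 𝒴' → ℝ := fun v v' => avg (F v v') f with hh
  set M₁ : 𝒴' → ℝ := fun v' => avg (S.filter fun t => y' t = v') f with hM₁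
  set M₂ : 𝒴 → ℝ := fun v => avg (S.filter fun t => y t = v) f with hM₂
  set d₁ : 𝒴' → ℝ := fun v' => avg (D.filter fun t => y' t = v') f with hd₁
  set d₂ : 𝒴 → ℝ := fun v => avg (D.filter fun t => y t = v) f with hd₂
  have dRL : ∀ v, v ∈ Rc → v ∉ Lc := fun v h1 h2 => (Finset.disjoint_left.mp hRL h1) h2
  have dCL : ∀ v, v ∈ Cc → v ∉ Lc' := fun v h1 h2 => (Finset.disjoint_left.mp hCL h1) h2
  have memF : ∀ {v v' s}, s ∈ F v v' ↔ s ∈ S ∧ y s = v ∧ y' s = v' := by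
    intro v v' s; simp [hF]
  -- decompositions
  have rowR : ∀ v ∈ Rc, ∀ φ : β → ℝ, ∑ s ∈ S.filter (fun t => y t = v), φ s
      = ∑ v' ∈ Lc', ∑ s ∈ F v v', φ s := by
    intro v hv φ
    have hm : ∀ s ∈ S.filter (fun t => y t = v), y' s ∈ Lc' := by
      intro s hs
      rw [Finset.mem_filter] at hs
      obtain ⟨hs1, rfl⟩ := hs
      rcases hS s hs1 with h1 | h1 | h1
      · exact h1.2
      · exact absurd h1.1 (dRL _ hv)
      · exact absurd h1.1 (dRL _ hv)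
    rw [← Finset.sum_fiberwise_of_maps_to hm φ]
    apply Finset.sum_congr rfl; intro v' _
    rw [Finset.filter_filter]
  have rowL : ∀ v ∈ Lc, ∀ φ : β → ℝ, ∑ s ∈ S.filter (fun t => y t = v), φ s
      = ∑ v' ∈ Cc, ∑ s ∈ F v v', φ s + ∑ v' ∈ Lc', ∑ s ∈ F v v', φ s := by
    intro v hv φ
    have hm : ∀ s ∈ S.filter (fun t => y t = v), y' s ∈ Cc ∪ Lc' := by
      intro s hs
      rw [Finset.mem_filter] at hs
      obtain ⟨hs1, rfl⟩ := hs
      rcases hS s hs1 with h1 | h1 | h1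
      · exact absurd hv (dRL _ h1.1)
      · exact Finset.mem_union_left _ h1.2
      · exact Finset.mem_union_right _ h1.2
    rw [← Finset.sum_fiberwise_of_maps_to hm φ, Finset.sum_union hCL]
    congr 1 <;> (apply Finset.sum_congr rfl; intro v' _; rw [Finset.filter_filter])
  have colL : ∀ v' ∈ Lc', ∀ φ : β → ℝ, ∑ s ∈ S.filter (fun t => y' t = v'), φ s
      = ∑ v ∈ Rc, ∑ s ∈ F v v', φ s + ∑ v ∈ Lc, ∑ s ∈ F v v', φ s := by
    intro v' hv' φ
    have hm : ∀ s ∈ S.filter (fun t => y' t = v'), y s ∈ Rc ∪ Lc := by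
      intro s hs
      rw [Finset.mem_filter] at hs
      obtain ⟨hs1, rfl⟩ := hs
      rcases hS s hs1 with h1 | h1 | h1
      · exact Finset.mem_union_left _ h1.1
      · exact absurd hv' (dCL _ h1.2)
      · exact Finset.mem_union_right _ h1.1
    have hfil : ∀ v, (S.filter (fun t => y' t = v')).filter (fun t => y t = v) = F v v' := by
      intro v; ext s; simp only [Finset.mem_filter, memF]; tauto
    rw [← Finset.sum_fiberwise_of_maps_to hm φ, Finset.sum_union hRL]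
    congr 1 <;> (apply Finset.sum_congr rfl; intro v _; rw [hfil])
  have colC : ∀ v' ∈ Cc, ∀ φ : β → ℝ, ∑ s ∈ S.filter (fun t => y' t = v'), φ s
      = ∑ v ∈ Lc, ∑ s ∈ F v v', φ s := by
    intro v' hv' φ
    have hm : ∀ s ∈ S.filter (fun t => y' t = v'), y s ∈ Lc := by
      intro s hs
      rw [Finset.mem_filter] at hs
      obtain ⟨hs1, rfl⟩ := hs
      rcases hS s hs1 with h1 | h1 | h1
      · exact absurd h1.2 (dCL _ hv')
      · exact h1.1
      · exact h1.1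
    have hfil : ∀ v, (S.filter (fun t => y' t = v')).filter (fun t => y t = v) = F v v' := by
      intro v; ext s; simp only [Finset.mem_filter, memF]; tauto
    rw [← Finset.sum_fiberwise_of_maps_to hm φ]
    apply Finset.sum_congr rfl; intro v _; rw [hfil]
  have Drow : ∀ v ∈ Lc, ∀ φ : β → ℝ, ∑ s ∈ D.filter (fun t => y t = v), φ s
      = ∑ v' ∈ Lc', ∑ s ∈ F v v', φ s := by
    intro v hv φ
    have hm : ∀ s ∈ D.filter (fun t => y t = v), y' s ∈ Lc' := by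
      intro s hs
      simp only [hDdef, Finset.mem_filter] at hs
      exact hs.1.2.2
    rw [← Finset.sum_fiberwise_of_maps_to hm φ]
    apply Finset.sum_congr rfl; intro v' hv'
    apply Finset.sum_congr _ (fun _ _ => rfl)
    ext s
    simp only [hDdef, Finset.mem_filter, memF]
    constructor
    · rintro ⟨⟨⟨h1, _⟩, h3⟩, h4⟩; exact ⟨h1, h3, h4⟩
    · rintro ⟨h1, rfl, rfl⟩; exact ⟨⟨⟨h1, hv, hv'⟩, rfl⟩, rfl⟩
  have Dcol : ∀ v' ∈ Lc', ∀ φ : β → ℝ, ∑ s ∈ D.filter (fun t => y' t = v'), φ s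
      = ∑ v ∈ Lc, ∑ s ∈ F v v', φ s := by
    intro v' hv' φ
    have hm : ∀ s ∈ D.filter (fun t => y' t = v'), y s ∈ Lc := by
      intro s hs
      simp only [hDdef, Finset.mem_filter] at hs
      exact hs.1.2.1
    rw [← Finset.sum_fiberwise_of_maps_to hm φ]
    apply Finset.sum_congr rfl; intro v hv
    apply Finset.sum_congr _ (fun _ _ => rfl)
    ext s
    simp only [hDdef, Finset.mem_filter, memF]
    constructor
    · rintro ⟨⟨⟨h1, _⟩, h3⟩, h4⟩; exact ⟨h1, h4, h3⟩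
    · rintro ⟨h1, rfl, rfl⟩; exact ⟨⟨⟨h1, hv, hv'⟩, rfl⟩, rfl⟩
  have Dsum : ∀ φ : β → ℝ, ∑ s ∈ D, φ s = ∑ v ∈ Lc, ∑ v' ∈ Lc', ∑ s ∈ F v v', φ s := by
    intro φ
    have hm : ∀ s ∈ D, y s ∈ Lc := by
      intro s hs
      simp only [hDdef, Finset.mem_filter] at hs
      exact hs.2.1
    rw [← Finset.sum_fiberwise_of_maps_to hm φ]
    apply Finset.sum_congr rfl; intro v hv
    exact Drow v hv φ
  have Ssum : ∀ φ : β → ℝ, ∑ s ∈ S, φ s
      = ∑ v ∈ Rc, ∑ v' ∈ Lc', ∑ s ∈ F v v', φ s + ∑ v ∈ Lc, ∑ v' ∈ Cc, ∑ s ∈ F v v', φ s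
        + ∑ v ∈ Lc, ∑ v' ∈ Lc', ∑ s ∈ F v v', φ s := by
    intro φ
    have hm : ∀ s ∈ S, y s ∈ Rc ∪ Lc := by
      intro s hs
      rcases hS s hs with h1 | h1 | h1
      · exact Finset.mem_union_left _ h1.1
      · exact Finset.mem_union_right _ h1.1
      · exact Finset.mem_union_right _ h1.1
    rw [← Finset.sum_fiberwise_of_maps_to hm φ, Finset.sum_union hRL, Finset.sum_congr rfl
      (fun v hv => rowR v hv φ), Finset.sum_congr rfl (fun v hv => rowL v hv φ),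
      Finset.sum_add_distrib, add_assoc]
  -- fibre sums of f
  have hH : ∀ v v', ∑ s ∈ F v v', f s = ((F v v').card : ℝ) * h v v' :=
    fun v v' => (card_mul_avg (F v v') f).symm
  have cardF : ∀ T : Finset β, (T.card : ℝ) = ∑ _s ∈ T, (1 : ℝ) := by intro T; simp
  -- the hypotheses of mat_ineq
  have hM1L : ∀ v' ∈ Lc', ((Rc.card : ℝ) + 2 * Lc.card) * M₁ v'
      = ∑ v ∈ Rc, h v v' + 2 * ∑ v ∈ Lc, h v v' := by
    intro v' hv'
    have hc : ((S.filter (fun t => y' t = v')).card : ℝ) = (Rc.card : ℝ) + 2 * Lc.card := by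
      rw [cardF, colL v' hv']
      congr 1
      · rw [Finset.sum_congr rfl (fun v hv => by rw [← cardF, hR v hv v' hv'])]; simp
      · rw [Finset.sum_congr rfl (fun v hv => by rw [← cardF, hD v hv v' hv'])]; simp; ring
    rw [← hc, hM₁]
    show ((S.filter (fun t => y' t = v')).card : ℝ) * avg (S.filter fun t => y' t = v') f = _
    rw [card_mul_avg, colL v' hv' f]
    congr 1
    · apply Finset.sum_congr rfl; intro v hv; rw [hH, hR v hv v' hv']; simp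
    · rw [Finset.mul_sum]; apply Finset.sum_congr rfl; intro v hv; rw [hH, hD v hv v' hv']; simp
  have hM1C : ∀ v' ∈ Cc, (Lc.card : ℝ) * M₁ v' = ∑ v ∈ Lc, h v v' := by
    intro v' hv'
    have hc : ((S.filter (fun t => y' t = v')).card : ℝ) = (Lc.card : ℝ) := by
      rw [cardF, colC v' hv']
      rw [Finset.sum_congr rfl (fun v hv => by rw [← cardF, hC v hv v' hv'])]; simp
    rw [← hc, hM₁]
    show ((S.filter (fun t => y' t = v')).card : ℝ) * avg (S.filter fun t => y' t = v') f = _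
    rw [card_mul_avg, colC v' hv' f]
    apply Finset.sum_congr rfl; intro v hv; rw [hH, hC v hv v' hv']; simp
  have hM2L : ∀ v ∈ Lc, ((Cc.card : ℝ) + 2 * Lc'.card) * M₂ v
      = ∑ v' ∈ Cc, h v v' + 2 * ∑ v' ∈ Lc', h v v' := by
    intro v hv
    have hc : ((S.filter (fun t => y t = v)).card : ℝ) = (Cc.card : ℝ) + 2 * Lc'.card := by
      rw [cardF, rowL v hv]
      congr 1
      · rw [Finset.sum_congr rfl (fun v' hv' => by rw [← cardF, hC v hv v' hv'])]; simp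
      · rw [Finset.sum_congr rfl (fun v' hv' => by rw [← cardF, hD v hv v' hv'])]; simp; ring
    rw [← hc, hM₂]
    show ((S.filter (fun t => y t = v)).card : ℝ) * avg (S.filter fun t => y t = v) f = _
    rw [card_mul_avg, rowL v hv f]
    congr 1
    · apply Finset.sum_congr rfl; intro v' hv'; rw [hH, hC v hv v' hv']; simp
    · rw [Finset.mul_sum]; apply Finset.sum_congr rfl; intro v' hv'; rw [hH, hD v hv v' hv']; simp
  have hM2R : ∀ v ∈ Rc, (Lc'.card : ℝ) * M₂ v = ∑ v' ∈ Lc', h v v' := by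
    intro v hv
    have hc : ((S.filter (fun t => y t = v)).card : ℝ) = (Lc'.card : ℝ) := by
      rw [cardF, rowR v hv]
      rw [Finset.sum_congr rfl (fun v' hv' => by rw [← cardF, hR v hv v' hv'])]; simp
    rw [← hc, hM₂]
    show ((S.filter (fun t => y t = v)).card : ℝ) * avg (S.filter fun t => y t = v) f = _
    rw [card_mul_avg, rowR v hv f]
    apply Finset.sum_congr rfl; intro v' hv'; rw [hH, hR v hv v' hv']; simp
  have hd1 : ∀ v' ∈ Lc', (Lc.card : ℝ) * d₁ v' = ∑ v ∈ Lc, h v v' := by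
    intro v' hv'
    have hc : ((D.filter (fun t => y' t = v')).card : ℝ) = 2 * (Lc.card : ℝ) := by
      rw [cardF, Dcol v' hv']
      rw [Finset.sum_congr rfl (fun v hv => by rw [← cardF, hD v hv v' hv'])]; simp; ring
    have h2 : (2 * (Lc.card : ℝ)) * d₁ v' = 2 * ∑ v ∈ Lc, h v v' := by
      rw [← hc, hd₁]
      show ((D.filter (fun t => y' t = v')).card : ℝ) * avg (D.filter fun t => y' t = v') f = _
      rw [card_mul_avg, Dcol v' hv' f, Finset.mul_sum]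
      apply Finset.sum_congr rfl; intro v hv; rw [hH, hD v hv v' hv']; simp
    linarith
  have hd2 : ∀ v ∈ Lc, (Lc'.card : ℝ) * d₂ v = ∑ v' ∈ Lc', h v v' := by
    intro v hv
    have hc : ((D.filter (fun t => y t = v)).card : ℝ) = 2 * (Lc'.card : ℝ) := by
      rw [cardF, Drow v hv]
      rw [Finset.sum_congr rfl (fun v' hv' => by rw [← cardF, hD v hv v' hv'])]; simp; ring
    have h2 : (2 * (Lc'.card : ℝ)) * d₂ v = 2 * ∑ v' ∈ Lc', h v v' := by
      rw [← hc, hd₂]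
      show ((D.filter (fun t => y t = v)).card : ℝ) * avg (D.filter fun t => y t = v) f = _
      rw [card_mul_avg, Drow v hv f, Finset.mul_sum]
      apply Finset.sum_congr rfl; intro v' hv'; rw [hH, hD v hv v' hv']; simp
    linarith
  have hmat := mat_ineq Rc Lc Cc Lc' h M₁ M₂ d₁ d₂ hM1L hM1C hM2L hM2R hd1 hd2
  -- right-hand side
  have hRHS : ∑ s ∈ S, (f s - avg (S.filter fun t => y' t = y' s) f) *
                 (f s - avg (S.filter fun t => y t = y s) f)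
      = ∑ v ∈ Rc, ∑ v' ∈ Lc', (h v v' - M₁ v') * (h v v' - M₂ v)
        + ∑ v ∈ Lc, ∑ v' ∈ Cc, (h v v' - M₁ v') * (h v v' - M₂ v)
        + (2 * ∑ v ∈ Lc, ∑ v' ∈ Lc', (h v v' - M₁ v') * (h v v' - M₂ v)
          + ∑ v ∈ Lc, ∑ v' ∈ Lc', ∑ s ∈ F v v', (f s - h v v') ^ 2) := by
    rw [Ssum]
    have hfib : ∀ v v', ∑ s ∈ F v v', (f s - avg (S.filter fun t => y' t = y' s) f) *
                 (f s - avg (S.filter fun t => y t = y s) f)
        = ((F v v').card : ℝ) * ((h v v' - M₁ v') * (h v v' - M₂ v))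
          + ∑ s ∈ F v v', (f s - h v v') ^ 2 := by
      intro v v'
      rw [← fib_quad (F v v') f (M₁ v') (M₂ v)]
      apply Finset.sum_congr rfl
      intro s hs
      obtain ⟨_, rfl, rfl⟩ := memF.mp hs
      rfl
    congr 1
    · congr 1
      · apply Finset.sum_congr rfl; intro v hv
        apply Finset.sum_congr rfl; intro v' hv'
        rw [hfib, hR v hv v' hv', avg_of_card_one _ _ (hR v hv v' hv')]; simp
      · apply Finset.sum_congr rfl; intro v hv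
        apply Finset.sum_congr rfl; intro v' hv'
        rw [hfib, hC v hv v' hv', avg_of_card_one _ _ (hC v hv v' hv')]; simp
    · rw [Finset.mul_sum, ← Finset.sum_add_distrib]
      apply Finset.sum_congr rfl; intro v hv
      rw [Finset.mul_sum, ← Finset.sum_add_distrib]
      apply Finset.sum_congr rfl; intro v' hv'
      rw [hfib, hD v hv v' hv']; simp
  -- left-hand side
  have hLHS : ∑ s ∈ D, ((f s - f (sw s)) ^ 2 / 4 +
          (avg (D.filter fun t => y' t = y' s) f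
              - avg (S.filter fun t => y' t = y' s) f) *
          (avg (D.filter fun t => y t = y s) f
              - avg (S.filter fun t => y t = y s) f))
      = 2 * ∑ v ∈ Lc, ∑ v' ∈ Lc', (d₁ v' - M₁ v') * (d₂ v - M₂ v)
        + ∑ v ∈ Lc, ∑ v' ∈ Lc', ∑ s ∈ F v v', (f s - h v v') ^ 2 := by
    rw [Dsum, Finset.mul_sum, ← Finset.sum_add_distrib]
    apply Finset.sum_congr rfl; intro v hv
    rw [Finset.mul_sum, ← Finset.sum_add_distrib]
    apply Finset.sum_congr rfl; intro v' hv'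
    have hpt : ∀ s ∈ F v v', ((f s - f (sw s)) ^ 2 / 4 +
          (avg (D.filter fun t => y' t = y' s) f
              - avg (S.filter fun t => y' t = y' s) f) *
          (avg (D.filter fun t => y t = y s) f
              - avg (S.filter fun t => y t = y s) f))
        = (f s - h v v') ^ 2 + (d₁ v' - M₁ v') * (d₂ v - M₂ v) := by
      intro s hs
      obtain ⟨hsS, hy, hy'⟩ := memF.mp hs
      obtain ⟨h1, h2, h3, h4⟩ := hsw s hsS (by rw [hy]; exact hv) (by rw [hy']; exact hv')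
      have hsw' : sw s ∈ F v v' := memF.mpr ⟨h1, by rw [h3, hy], by rw [h4, hy']⟩
      have hav : h v v' = (f s + f (sw s)) / 2 :=
        avg_of_pair (F v v') f (hD v hv v' hv') s (sw s) hs hsw' h2
      rw [hav, hy, hy']
      show _ = _ + (avg (D.filter fun t => y' t = v') f - avg (S.filter fun t => y' t = v') f) *
          (avg (D.filter fun t => y t = v) f - avg (S.filter fun t => y t = v) f)
      ring
    rw [Finset.sum_congr rfl hpt, Finset.sum_add_distrib]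
    simp only [Finset.sum_const, nsmul_eq_mul]
    rw [hD v hv v' hv']
    push_cast
    ring
  rw [hRHS, hLHS]
  linarith

end Crest.Agent.Lib.S0453.Block
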