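/-
S0453 task CONN: switch connectivity in the form: all K_{ab} f = 0 on Ω ⇒ f constant on Ω.
The connectivity itself is `Crest.Agent.SW.const_of_switch` (Lib/SW/Connect.lean).
-/
import Crest.Agent.Lib.S0453.Api
import Crest.Agent.Lib.SW.Connect

set_option autoImplicit false
open Finset Crest.SwitchChain
open scoped Classical

namespace Crest.Agent.Lib.S0453

variable {n : ℕ}

private lemma adj_iff_sw (G : Gr n) (u v : Fin n) : Adj G u v ↔ Crest.Agent.SW.Adj G u v := by
  constructor
  · rintro ⟨x, hx, hxe⟩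
    have huv : u ≠ v := by
      have h2 := x.2
      rw [hxe, Sym2.mk_isDiag_iff] at h2
      exact h2
    refine ⟨huv, ?_⟩
    have : Crest.Agent.SW.mkEdge u v huv = x := Subtype.ext hxe.symm
    rw [this]
    exact hx
  · rintro ⟨huv, hm⟩
    exact ⟨_, hm, rfl⟩

private lemma same_symm {a b : Fin n} {G G' : Gr n} (h : Same a b G G') : Same a b G' G :=
  fun u v h1 h2 h3 h4 => (h u v h1 h2 h3 h4).symm

private lemma same_trans {a b : Fin n} {G G' G'' : Gr n} (h : Same a b G G') (h' : Same a b G' G'') :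
    Same a b G G'' :=
  fun u v h1 h2 h3 h4 => (h u v h1 h2 h3 h4).trans (h' u v h1 h2 h3 h4)

private lemma fib_eq_of_same {d : Fin n → ℕ} {a b : Fin n} {G G' : Gr n} (h : Same a b G G') :
    fib d a b G = fib d a b G' := by
  unfold fib
  refine Finset.filter_congr fun H _ => ?_
  exact ⟨fun hh => same_trans (same_symm h) hh, fun hh => same_trans h hh⟩

private lemma same_of_swap {G G' : Gr n} (h : Crest.Agent.SW.SwapStep G G') :
    ∃ a b : Fin n, a ≠ b ∧ Same a b G G' := by
  obtain ⟨a, b, c, e, hab, hac, hae, hbc, hbe, hce, _, _, _, _, hG'⟩ := h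
  refine ⟨a, b, hab, fun u v h1 h2 h3 h4 => ?_⟩
  rw [adj_iff_sw, adj_iff_sw, hG']
  simp [Crest.Agent.SW.IsPair, h1, h2, h3, h4]

/-- (CONN) -/
theorem conn_const (d : Fin n → ℕ) (f : Gr n → ℝ)
    (h : ∀ a b, a ≠ b → ∀ G ∈ realizations d, K d a b f G = 0) :
    ∀ G ∈ realizations d, ∀ G' ∈ realizations d, f G = f G' := by
  intro G hG G' hG'
  refine Crest.Agent.SW.const_of_switch f (fun A B hA hB hs => ?_) hG hG'
  obtain ⟨a, b, hab, hS⟩ := same_of_swap hs
  have h1 := h a b hab A hA
  have h2 := h a b hab B hB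
  unfold K E at h1 h2
  rw [fib_eq_of_same hS] at h1
  linarith

end Crest.Agent.Lib.S0453
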