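/-
S0453 task SLICE: Johnson slices (abstract, no graphs).  `Sl = E.powersetCard p`, T = |E|, q = T - p.
x_c(A) = 1 if c ∈ A.  Johnson Laplacian (L g)(A) = ∑_{c∈A, z∉A} (g A - g (A-c+z)).  Facts: L x_c = T x_c - p,
L (x_c x_e) = 2(T-1) x_c x_e - (p-1)(x_c + x_e) (c ≠ e).
`En E p f` = ∑_{ordered (c,e), c≠e} ∑_{A : exactly one of c,e in A} (f A - f (A △ {c,e}))²/4 = ∑_{edges of J(T,p)} (df)².

(J1) 2 Var ≤ En.   True: En ≥ T·Var.  Proof options: (i) Garland induction on T: ∑_e L^{(e)} = (T-2) L, L^{(e)} on the two fibres of x_e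
 is Johnson on E-e, and ∑_e ‖E[f|x_e]‖² ≤ (T/(T-1))‖f‖² for mean-zero f (Cauchy-Schwarz with h = ∑_e g_e y_e, g_e=⟨f,x_e⟩, ∑g_e=0,
 ⟨y_e,y_e'⟩ = -‖y‖²/(T-1)).  (ii) Bochner ‖Lf‖² ≥ T E(f) + spectral.
(J2) Johnson-Bessel.  Let f mean zero, μ = |{A: exactly one of c,e}| = 2 C(T-2,p-1), g_c = ∑_{A∋c} f A, g_ce = ∑_{A∋c,e} f A, C_ce = g_c+g_e-2g_ce
 = ∑_A f(A)χ_ce(A).  LHS of J2 = ∑_{c≠e} C_ce²/μ.  With ∑_c g_c = 0 and ∑_{e≠c} g_ce=(p-1) g_c put γ=(p-1)/(T-2), h_ce = g_ce-γ(g_c+g_e): then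
 ∑_{e≠c} h_ce = 0, C_ce = ((q-p)/(T-2)) (g_c+g_e) - 2 h_ce and
   ∑_{c<e} C_ce² = ((q-p)²/(T-2)) ∑_c g_c² + 4 ∑_{c<e} h_ce².
 Test functions φ = ∑ g_c x_c /(μ/2) (L φ = T φ, ‖φ‖² = ∑g²/(μ/2), ⟨f,φ⟩=‖φ‖²), ψ = ∑_{c<e} h_ce x_c x_e / κ (L ψ = 2(T-1) ψ, κ = #{A∋c,e; ∌c',e'} for 4 distinct
 elements, ‖ψ‖² = ∑h²/κ, ⟨f,ψ⟩ = ‖ψ‖², ⟨φ,ψ⟩=0): E(f-φ-ψ,f-φ-ψ) ≥ 0 gives En ≥ 2T ∑g²/μ + 2(T-1) ∑h²/κ.  Since (q-p)² ≤ (T-2)², and κ ≤ μ/4 (T ≥ 4),
 LHS of J2 = 2∑_{c<e} C²/μ ≤ En.   (Sharper: LHS ≤ (1-2/T) En.)  Degenerate: T ≤ 1, p ∈ {0,T}: both sides 0. p=1 or q=1: h=0.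
Numerics: /tmp/sw/dj/chk3.py on helper25's box: En - LHS(J2) - 2Var ≥ 0, T ≤ 8, tight.
-/
import Crest.Agent.Lib.S0453.Defs
import Crest.Agent.Lib.S0453.AuxJohnsonBessel

set_option autoImplicit false
open Finset
open scoped Classical

namespace Crest.Agent.Lib.S0453.Slice

variable {α : Type*}

/-- Exactly one of `c, e` lies in `A`. -/
def sep (c e : α) (A : Finset α) : Prop := (c ∈ A ∧ e ∉ A) ∨ (e ∈ A ∧ c ∉ A)

/-- `A` with `c, e` exchanged. -/
noncomputable def swp (c e : α) (A : Finset α) : Finset α := symmDiff A {c, e}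

/-- Separated members of the slice. -/
noncomputable def Dc (E : Finset α) (p : ℕ) (c e : α) : Finset (Finset α) :=
  (E.powersetCard p).filter (sep c e)

/-- Johnson energy: each edge of `J(T,p)` counts exactly once. -/
noncomputable def En (E : Finset α) (p : ℕ) (f : Finset α → ℝ) : ℝ :=
  ∑ c ∈ E, ∑ e ∈ E, if c ≠ e then ∑ A ∈ Dc E p c e, (f A - f (swp c e A)) ^ 2 / 4 else 0

open Crest.Agent.Lib.S0453.AuxJ in
lemma swp_eq_insert {c e : α} {A : Finset α} (hc : c ∈ A) (he : e ∉ A) :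
    swp c e A = insert e (A.erase c) := by
  ext x
  by_cases h1 : x = c
  · subst h1
    have hne : x ≠ e := fun h => he (h ▸ hc)
    simp [swp, mem_symmDiff, hc, hne]
  · by_cases h2 : x = e
    · subst h2
      simp [swp, mem_symmDiff, he, h1]
    · simp [swp, mem_symmDiff, h1, h2]

lemma swp_comm (c e : α) (A : Finset α) : swp c e A = swp e c A := by
  unfold swp
  rw [pair_comm]

open Crest.Agent.Lib.S0453.AuxJ in
/-- `En` coincides with the energy in the up/down proof. -/
lemma En_eq_jen (E : Finset α) (p : ℕ) (f : Finset α → ℝ) : En E p f = jen E p f := by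
  set φ : α → α → Finset α → ℝ := fun c e A => (f A - f (swp c e A)) ^ 2 / 4 with hφ
  have hφs : ∀ c e A, φ c e A = φ e c A := by
    intro c e A
    simp only [hφ]
    rw [swp_comm]
  set F := E.powersetCard p with hF
  have h1 : ∀ c ∈ E, ∀ e ∈ E, (if c ≠ e then ∑ A ∈ Dc E p c e, (f A - f (swp c e A)) ^ 2 / 4 else 0) =
      (∑ A ∈ F, if c ∈ A ∧ e ∉ A then φ c e A else 0) +
        ∑ A ∈ F, if e ∈ A ∧ c ∉ A then φ c e A else 0 := by
    intro c _ e _
    by_cases hce : c = e
    · subst hce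
      simp
    · rw [if_pos hce, Dc, Finset.sum_filter, ← Finset.sum_add_distrib]
      refine Finset.sum_congr rfl fun A _ => ?_
      by_cases h2 : c ∈ A <;> by_cases h3 : e ∈ A <;> simp [sep, h2, h3, hφ]
  have h2 : En E p f = (∑ c ∈ E, ∑ e ∈ E, ∑ A ∈ F, if c ∈ A ∧ e ∉ A then φ c e A else 0) +
      ∑ c ∈ E, ∑ e ∈ E, ∑ A ∈ F, if e ∈ A ∧ c ∉ A then φ c e A else 0 := by
    unfold En
    rw [Finset.sum_congr rfl fun c hc => Finset.sum_congr rfl (h1 c hc)]
    simp only [Finset.sum_add_distrib]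
  have h3 : (∑ c ∈ E, ∑ e ∈ E, ∑ A ∈ F, if e ∈ A ∧ c ∉ A then φ c e A else 0) =
      ∑ c ∈ E, ∑ e ∈ E, ∑ A ∈ F, if c ∈ A ∧ e ∉ A then φ c e A else 0 := by
    rw [Finset.sum_comm]
    refine Finset.sum_congr rfl fun c _ => Finset.sum_congr rfl fun e _ =>
      Finset.sum_congr rfl fun A _ => ?_
    rw [hφs]
  have h4 : (∑ c ∈ E, ∑ e ∈ E, ∑ A ∈ F, if c ∈ A ∧ e ∉ A then φ c e A else 0) =
      ∑ A ∈ F, ∑ c ∈ A, ∑ e ∈ E \ A, φ c e A := by
    calc _ = ∑ c ∈ E, ∑ A ∈ F, ∑ e ∈ E, (if c ∈ A ∧ e ∉ A then φ c e A else 0) :=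
          Finset.sum_congr rfl (fun c _ => Finset.sum_comm)
      _ = ∑ A ∈ F, ∑ c ∈ E, ∑ e ∈ E, (if c ∈ A ∧ e ∉ A then φ c e A else 0) := Finset.sum_comm
      _ = _ := by
        refine Finset.sum_congr rfl fun A hA => ?_
        have hsub := (mem_powersetCard.mp hA).1
        have h6 : E \ A = E.filter (fun c => c ∉ A) := by
          ext x
          simp [mem_sdiff]
        have hE : ∀ X : α → ℝ, ∑ c ∈ E, (if c ∈ A then X c else 0) = ∑ c ∈ A, X c := by
          intro X
          rw [Finset.sum_ite_mem, inter_eq_right.mpr hsub]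
        have hin : ∀ c ∈ E, ∑ e ∈ E, (if c ∈ A ∧ e ∉ A then φ c e A else 0) =
            if c ∈ A then ∑ e ∈ E \ A, φ c e A else 0 := by
          intro c _
          by_cases hc : c ∈ A
          · simp only [hc, true_and, if_true]
            rw [h6, Finset.sum_filter]
          · simp [hc]
        rw [Finset.sum_congr rfl hin, hE]
  rw [h2, h3, h4, jen]
  have h7 : ∀ A ∈ F, ∀ c ∈ A, ∀ e ∈ E \ A, φ c e A =
      (f A - f (insert e (A.erase c))) ^ 2 / 4 := by
    intro A _ c hc e he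
    simp only [hφ]
    rw [swp_eq_insert hc (mem_sdiff.mp he).2]
  rw [Finset.sum_congr rfl fun A hA => Finset.sum_congr rfl fun c hc =>
    Finset.sum_congr rfl (h7 A hA c hc)]
  simp only [Finset.mul_sum]
  rw [← Finset.sum_add_distrib]
  refine Finset.sum_congr rfl fun A _ => ?_
  rw [← Finset.sum_add_distrib]
  refine Finset.sum_congr rfl fun c _ => ?_
  rw [← Finset.sum_add_distrib]
  refine Finset.sum_congr rfl fun e _ => ?_
  ring

lemma En_nonneg (E : Finset α) (p : ℕ) (f : Finset α → ℝ) : 0 ≤ En E p f := by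
  unfold En
  refine Finset.sum_nonneg fun c _ => Finset.sum_nonneg fun e _ => ?_
  split_ifs
  · exact Finset.sum_nonneg fun _ _ => by positivity
  · exact le_rfl

lemma sum_sub_avg (S : Finset (Finset α)) (f : Finset α → ℝ) :
    ∑ A ∈ S, (f A - avg S f) = 0 := by
  rcases S.eq_empty_or_nonempty with h | h
  · simp [h]
  · have hc : (S.card : ℝ) ≠ 0 := by
      have := h.card_pos
      positivity
    rw [Finset.sum_sub_distrib, Finset.sum_const, nsmul_eq_mul, avg]
    field_simp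
    ring

open Crest.Agent.Lib.S0453.AuxJ in
/-- Sharp form of (J1). -/
theorem J1_sharp (E : Finset α) (p : ℕ) (f : Finset α → ℝ) :
    (E.card : ℝ) * ∑ A ∈ E.powersetCard p, (f A - avg (E.powersetCard p) f) ^ 2 ≤ En E p f := by
  rw [En_eq_jen]
  exact johnson_gap E p f _ (sum_sub_avg _ f)

/-- (J1) -/
theorem J1 (E : Finset α) (p : ℕ) (f : Finset α → ℝ) :
    2 * ∑ A ∈ E.powersetCard p, (f A - avg (E.powersetCard p) f) ^ 2 ≤ En E p f := by
  by_cases hT : 2 ≤ E.card
  · have h := J1_sharp E p f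
    have h0 : 0 ≤ ∑ A ∈ E.powersetCard p, (f A - avg (E.powersetCard p) f) ^ 2 :=
      Finset.sum_nonneg fun _ _ => sq_nonneg _
    have hTR : (2 : ℝ) ≤ (E.card : ℝ) := by exact_mod_cast hT
    nlinarith
  · -- the slice has at most one member
    have hcard : (E.powersetCard p).card ≤ 1 := by
      rw [card_powersetCard]
      have : E.card = 0 ∨ E.card = 1 := by omega
      rcases this with h | h <;> rw [h]
      · cases p <;> simp
      · rcases p with _ | _ | p
        · simp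
        · simp
        · exact (Nat.choose_eq_zero_of_lt (by omega)).le.trans (by norm_num)
    have hzero : ∑ A ∈ E.powersetCard p, (f A - avg (E.powersetCard p) f) ^ 2 = 0 := by
      rcases (E.powersetCard p).eq_empty_or_nonempty with h | h
      · rw [h]; simp
      · have hone : (E.powersetCard p).card = 1 := le_antisymm hcard h.card_pos
        obtain ⟨A, hA⟩ := card_eq_one.mp hone
        rw [hA]
        simp [avg]
    rw [hzero, mul_zero]
    exact En_nonneg E p f

open Crest.Agent.Lib.S0453.AuxJ in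
/-- (J2) -/
theorem J2 (E : Finset α) (p : ℕ) (f : Finset α → ℝ) :
    (∑ c ∈ E, ∑ e ∈ E, if c ≠ e then
        ∑ _A ∈ Dc E p c e, (avg (Dc E p c e) f - avg (E.powersetCard p) f) ^ 2 else 0) ≤ En E p f := by
  by_cases hT : 2 ≤ E.card
  · set F := E.powersetCard p with hF
    set m : ℝ := avg F f with hm
    set ft : Finset α → ℝ := fun A => f A - m with hft
    have hft0 : ∑ A ∈ F, ft A = 0 := sum_sub_avg F f
    have hB := johnson_bessel E p ft hft0 hT
    set N : ℝ := jN1 E.card p with hN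
    have hTR : (2 : ℝ) ≤ (E.card : ℝ) := by exact_mod_cast hT
    set V : ℝ := ∑ A ∈ F, ft A ^ 2 with hV
    have hV0 : 0 ≤ V := Finset.sum_nonneg fun _ _ => sq_nonneg _
    have hJ : (E.card : ℝ) * V ≤ En E p f := J1_sharp E p f
    -- identification of the terms
    have hchi : ∀ (c e : α) (A : Finset α), chi c e A = if sep c e A then 1 else 0 := by
      intro c e A
      unfold chi xi sep
      by_cases h1 : c ∈ A <;> by_cases h2 : e ∈ A <;> simp [h1, h2] <;> norm_num
    have hterm : ∀ c ∈ E, ∀ e ∈ E, c ≠ e →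
        N * ∑ _A ∈ Dc E p c e, (avg (Dc E p c e) f - m) ^ 2 =
          (∑ A ∈ F, ft A * chi c e A) ^ 2 := by
      intro c hc e he hce
      have hcard : ((Dc E p c e).card : ℝ) = N := by
        rw [hN, ← sum_chi E p hc he hce]
        simp only [hchi, Dc]
        rw [Finset.sum_boole]
      have hb : ∑ A ∈ F, ft A * chi c e A = ∑ A ∈ Dc E p c e, ft A := by
        rw [Dc, Finset.sum_filter]
        refine Finset.sum_congr rfl fun A _ => ?_
        rw [hchi]
        split_ifs <;> simp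
      rw [hb, Finset.sum_const, nsmul_eq_mul, hcard]
      have hb2 : ∑ A ∈ Dc E p c e, ft A = N * (avg (Dc E p c e) f - m) := by
        rcases (Dc E p c e).eq_empty_or_nonempty with h | h
        · rw [h] at hcard ⊢
          simp at hcard
          simp [← hcard]
        · have hpos : (0 : ℝ) < ((Dc E p c e).card : ℝ) := by
            exact_mod_cast h.card_pos
          simp only [hft]
          rw [Finset.sum_sub_distrib, Finset.sum_const, nsmul_eq_mul, ← hcard, avg]
          field_simp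
      rw [hb2]
      ring
    by_cases hN0 : N = 0
    · -- no separated members at all
      have hzero : (∑ c ∈ E, ∑ e ∈ E, if c ≠ e then
          ∑ _A ∈ Dc E p c e, (avg (Dc E p c e) f - avg F f) ^ 2 else 0) = 0 := by
        refine Finset.sum_eq_zero fun c hc => Finset.sum_eq_zero fun e he => ?_
        split_ifs with hce
        · have hcard : ((Dc E p c e).card : ℝ) = N := by
            rw [hN, ← sum_chi E p hc he hce]
            simp only [hchi, Dc]
            rw [Finset.sum_boole]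
          rw [hN0] at hcard
          have : (Dc E p c e).card = 0 := by exact_mod_cast hcard
          rw [card_eq_zero.mp this]
          simp
        · rfl
      rw [hzero]
      exact En_nonneg E p f
    · have hNpos : 0 < N := by
        obtain ⟨c, hc, e, he, hce⟩ := one_lt_card.mp (by omega : 1 < E.card)
        have : 0 ≤ N := by
          rw [hN, ← sum_chi E p hc he hce]
          exact Finset.sum_nonneg fun _ _ => chi_nonneg _ _ _
        exact lt_of_le_of_ne this (Ne.symm hN0)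
      have hmul : N * (∑ c ∈ E, ∑ e ∈ E, if c ≠ e then
          ∑ _A ∈ Dc E p c e, (avg (Dc E p c e) f - m) ^ 2 else 0) ≤
          ∑ c ∈ E, ∑ e ∈ E, (∑ A ∈ F, ft A * chi c e A) ^ 2 := by
        rw [Finset.mul_sum]
        refine Finset.sum_le_sum fun c hc => ?_
        rw [Finset.mul_sum]
        refine Finset.sum_le_sum fun e he => ?_
        split_ifs with hce
        · rw [hterm c hc e he hce]
        · rw [mul_zero]
          exact sq_nonneg _
      have hle : N * (∑ c ∈ E, ∑ e ∈ E, if c ≠ e then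
          ∑ _A ∈ Dc E p c e, (avg (Dc E p c e) f - m) ^ 2 else 0) ≤ N * ((E.card : ℝ) * V) := by
        refine hmul.trans (hB.trans ?_)
        have : ((E.card : ℝ) - 2) * N * V ≤ (E.card : ℝ) * N * V := by
          apply mul_le_mul_of_nonneg_right _ hV0
          apply mul_le_mul_of_nonneg_right _ hNpos.le
          linarith
        linarith
      have := le_of_mul_le_mul_left hle hNpos
      exact this.trans hJ
  · -- no ordered pair of distinct elements
    have hzero : (∑ c ∈ E, ∑ e ∈ E, if c ≠ e then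
        ∑ _A ∈ Dc E p c e, (avg (Dc E p c e) f - avg (E.powersetCard p) f) ^ 2 else 0) = 0 := by
      refine Finset.sum_eq_zero fun c hc => Finset.sum_eq_zero fun e he => ?_
      split_ifs with hce
      · exact absurd (one_lt_card.mpr ⟨c, hc, e, he, hce⟩) (by omega)
      · rfl
    rw [hzero]
    exact En_nonneg E p f

end Crest.Agent.Lib.S0453.Slice
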