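/-
S0453 task JOHNSONG: transport Slice.J1, Slice.J2 to graph fibres via Api.
For each (a,b)-fibre F of Ω: bijection `nb : F → powersetCard p (excl G a b)`; for c,e ∈ excl: D-states ↔ Slice.Dc; swD ↔ Slice.swp.
For c or e not in excl (or equal a,b): no D-states (isD_iff).  Sum over fibres (partition of Ω by `Same a b`).
-/
import Crest.Agent.Lib.S0453.Slice
import Crest.Agent.Lib.S0453.Api

set_option autoImplicit false
open Finset Crest.SwitchChain
open scoped Classical

namespace Crest.Agent.Lib.S0453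

variable {n : ℕ}

section Fibres

variable {d : Fin n → ℕ} {a b : Fin n}

theorem mem_fib_iff' {G G' : Gr n} : G' ∈ fib d a b G ↔ G' ∈ realizations d ∧ Same a b G G' := by
  simp [fib]

theorem self_mem_fib {G : Gr n} (hG : G ∈ realizations d) : G ∈ fib d a b G :=
  mem_fib_iff'.mpr ⟨hG, Same_refl a b G⟩

theorem fib_eq_of_mem {G G' : Gr n} (h : G' ∈ fib d a b G) : fib d a b G' = fib d a b G := by
  have h' := (mem_fib_iff'.mp h).2
  ext G''
  simp only [mem_fib_iff']
  constructor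
  · rintro ⟨h1, h2⟩
    exact ⟨h1, Same_trans h' h2⟩
  · rintro ⟨h1, h2⟩
    exact ⟨h1, Same_trans (Same_symm h') h2⟩

/-- The set of fibres. -/
noncomputable def fibs (d : Fin n → ℕ) (a b : Fin n) : Finset (Finset (Gr n)) :=
  (realizations d).image (fib d a b)

theorem sum_fibs (φ : Gr n → ℝ) :
    ∑ G ∈ realizations d, φ G = ∑ F ∈ fibs d a b, ∑ G ∈ F, φ G := by
  have hm : ∀ x ∈ realizations d, fib d a b x ∈ fibs d a b := fun x hx => mem_image_of_mem _ hx
  rw [← sum_fiberwise_of_maps_to hm φ]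
  refine sum_congr rfl fun F hF => ?_
  obtain ⟨G0, hG0, rfl⟩ := mem_image.mp hF
  refine sum_congr ?_ fun _ _ => rfl
  ext G
  simp only [mem_filter]
  constructor
  · rintro ⟨h1, h2⟩
    rw [← h2]
    exact self_mem_fib h1
  · intro h
    exact ⟨(mem_fib_iff'.mp h).1, fib_eq_of_mem h⟩

theorem sum_fibs_filter (P : Gr n → Prop) (φ : Gr n → ℝ) :
    ∑ G ∈ (realizations d).filter P, φ G = ∑ F ∈ fibs d a b, ∑ G ∈ F.filter P, φ G := by
  rw [sum_filter, sum_fibs (a := a) (b := b)]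
  refine sum_congr rfl fun F _ => ?_
  rw [sum_filter]

/-- Splitting a double `Dist4` sum over `Dset` along the fibres. -/
theorem sum_Dset_split (ψ : Fin n → Fin n → Gr n → ℝ) :
    (∑ c, ∑ e, if Dist4 a b c e then ∑ G ∈ Dset d a b c e, ψ c e G else 0)
      = ∑ F ∈ fibs d a b, ∑ c, ∑ e, if Dist4 a b c e then ∑ G ∈ F.filter (isD a b c e), ψ c e G else 0 := by
  have step : ∀ c e, (if Dist4 a b c e then ∑ G ∈ Dset d a b c e, ψ c e G else 0)
      = ∑ F ∈ fibs d a b, if Dist4 a b c e then ∑ G ∈ F.filter (isD a b c e), ψ c e G else 0 := by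
    intro c e
    by_cases h : Dist4 a b c e
    · simp only [if_pos h]
      exact sum_fibs_filter _ _
    · simp only [if_neg h, sum_const_zero]
  simp_rw [step]
  calc _ = ∑ c, ∑ F ∈ fibs d a b, ∑ e, if Dist4 a b c e then
            ∑ G ∈ F.filter (isD a b c e), ψ c e G else 0 :=
        sum_congr rfl fun c _ => sum_comm
    _ = _ := sum_comm

end Fibres

section OneFibre

variable {d : Fin n → ℕ} {a b : Fin n} {G0 : Gr n}

theorem nb_subset_excl (G : Gr n) : nb G a b ⊆ excl G a b := filter_subset _ _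

theorem image_nb_eq (hab : a ≠ b) (hG0 : G0 ∈ realizations d) :
    (fib d a b G0).image (fun G => nb G a b) = (excl G0 a b).powersetCard (nb G0 a b).card := by
  ext A
  simp only [mem_image, mem_powersetCard]
  constructor
  · rintro ⟨G, hG, rfl⟩
    obtain ⟨h1, h2, -, -⟩ := fib_invariants hab hG0 hG
    refine ⟨?_, h2⟩
    rw [← h1]
    exact nb_subset_excl G
  · rintro ⟨h1, h2⟩
    obtain ⟨G', hG', h3⟩ := fib_surj hab hG0 h1 h2
    exact ⟨G', hG', h3⟩

theorem nb_injOn (hab : a ≠ b) (hG0 : G0 ∈ realizations d) :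
    Set.InjOn (fun G => nb G a b) (fib d a b G0 : Set (Gr n)) := by
  intro G hG G' hG' h
  exact fib_inj hab hG0 hG hG' h

theorem sum_slice (hab : a ≠ b) (hG0 : G0 ∈ realizations d) (φ : Finset (Fin n) → ℝ) :
    ∑ A ∈ (excl G0 a b).powersetCard (nb G0 a b).card, φ A
      = ∑ G ∈ fib d a b G0, φ (nb G a b) := by
  rw [← image_nb_eq hab hG0, sum_image (nb_injOn hab hG0)]

theorem card_slice (hab : a ≠ b) (hG0 : G0 ∈ realizations d) :
    ((excl G0 a b).powersetCard (nb G0 a b).card).card = (fib d a b G0).card := by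
  rw [← image_nb_eq hab hG0, card_image_of_injOn (nb_injOn hab hG0)]

/-- The function on the slice induced by `f`. -/
noncomputable def fT (d : Fin n → ℕ) (a b : Fin n) (G0 : Gr n) (f : Gr n → ℝ) (A : Finset (Fin n)) : ℝ :=
  if h : ∃ G ∈ fib d a b G0, nb G a b = A then f h.choose else 0

theorem fT_nb (hab : a ≠ b) (hG0 : G0 ∈ realizations d) (f : Gr n → ℝ) {G : Gr n}
    (hG : G ∈ fib d a b G0) : fT d a b G0 f (nb G a b) = f G := by
  have h : ∃ G' ∈ fib d a b G0, nb G' a b = nb G a b := ⟨G, hG, rfl⟩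
  unfold fT
  rw [dif_pos h]
  have := h.choose_spec
  rw [fib_inj hab hG0 this.1 hG this.2]

theorem avg_slice (hab : a ≠ b) (hG0 : G0 ∈ realizations d) (f : Gr n → ℝ) :
    avg ((excl G0 a b).powersetCard (nb G0 a b).card) (fT d a b G0 f) = avg (fib d a b G0) f := by
  unfold avg
  rw [sum_slice hab hG0, card_slice hab hG0]
  congr 1
  exact sum_congr rfl fun G hG => fT_nb hab hG0 f hG

theorem mem_excl_ne {G : Gr n} {c : Fin n} (h : c ∈ excl G a b) : c ≠ a ∧ c ≠ b := by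
  have := (mem_filter.mp h).2
  exact ⟨this.1, this.2.1⟩

theorem dist4_of_mem (hab : a ≠ b) {G : Gr n} {c e : Fin n} (hc : c ∈ excl G a b)
    (he : e ∈ excl G a b) (hce : c ≠ e) : Dist4 a b c e := by
  obtain ⟨h1, h2⟩ := mem_excl_ne hc
  obtain ⟨h3, h4⟩ := mem_excl_ne he
  exact ⟨hab, h1.symm, h3.symm, h2.symm, h4.symm, hce⟩

theorem isD_iff_sep (hab : a ≠ b) (hG0 : G0 ∈ realizations d) {c e : Fin n}
    (hc : c ∈ excl G0 a b) (he : e ∈ excl G0 a b) (hce : c ≠ e) {G : Gr n}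
    (hG : G ∈ fib d a b G0) : isD a b c e G ↔ Slice.sep c e (nb G a b) := by
  have h4 := dist4_of_mem hab hc he hce
  obtain ⟨h1, -, -, -⟩ := fib_invariants hab hG0 hG
  rw [isD_iff h4, h1]
  unfold Slice.sep
  tauto

theorem image_nb_Dc (hab : a ≠ b) (hG0 : G0 ∈ realizations d) {c e : Fin n}
    (hc : c ∈ excl G0 a b) (he : e ∈ excl G0 a b) (hce : c ≠ e) :
    ((fib d a b G0).filter (isD a b c e)).image (fun G => nb G a b)
      = Slice.Dc (excl G0 a b) (nb G0 a b).card c e := by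
  unfold Slice.Dc
  rw [← image_nb_eq hab hG0]
  ext A
  simp only [mem_image, mem_filter]
  constructor
  · rintro ⟨G, ⟨hG, hD⟩, rfl⟩
    exact ⟨⟨G, hG, rfl⟩, (isD_iff_sep hab hG0 hc he hce hG).mp hD⟩
  · rintro ⟨⟨G, hG, rfl⟩, hs⟩
    exact ⟨G, ⟨hG, (isD_iff_sep hab hG0 hc he hce hG).mpr hs⟩, rfl⟩

theorem nb_injOn_filter (hab : a ≠ b) (hG0 : G0 ∈ realizations d) (P : Gr n → Prop) :
    Set.InjOn (fun G => nb G a b) (((fib d a b G0).filter P : Finset (Gr n)) : Set (Gr n)) := by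
  intro G hG G' hG' h
  exact fib_inj hab hG0 (mem_filter.mp hG).1 (mem_filter.mp hG').1 h

theorem sum_Dc (hab : a ≠ b) (hG0 : G0 ∈ realizations d) {c e : Fin n}
    (hc : c ∈ excl G0 a b) (he : e ∈ excl G0 a b) (hce : c ≠ e) (φ : Finset (Fin n) → ℝ) :
    ∑ A ∈ Slice.Dc (excl G0 a b) (nb G0 a b).card c e, φ A
      = ∑ G ∈ (fib d a b G0).filter (isD a b c e), φ (nb G a b) := by
  rw [← image_nb_Dc hab hG0 hc he hce, sum_image (nb_injOn_filter hab hG0 _)]

theorem avg_Dc (hab : a ≠ b) (hG0 : G0 ∈ realizations d) {c e : Fin n}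
    (hc : c ∈ excl G0 a b) (he : e ∈ excl G0 a b) (hce : c ≠ e) (f : Gr n → ℝ) :
    avg (Slice.Dc (excl G0 a b) (nb G0 a b).card c e) (fT d a b G0 f)
      = avg ((fib d a b G0).filter (isD a b c e)) f := by
  unfold avg
  rw [sum_Dc hab hG0 hc he hce, ← image_nb_Dc hab hG0 hc he hce,
    card_image_of_injOn (nb_injOn_filter hab hG0 _)]
  congr 1
  exact sum_congr rfl fun G hG => fT_nb hab hG0 f (mem_filter.mp hG).1

/-- The energy of one fibre. -/
noncomputable def EnF (a b : Fin n) (F : Finset (Gr n)) (f : Gr n → ℝ) : ℝ :=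
  ∑ c, ∑ e, if Dist4 a b c e then
    ∑ G ∈ F.filter (isD a b c e), (f G - f (swD a b c e G)) ^ 2 / 4 else 0

theorem filter_isD_empty (hab : a ≠ b) (hG0 : G0 ∈ realizations d) {c e : Fin n}
    (h4 : Dist4 a b c e) (h : c ∉ excl G0 a b ∨ e ∉ excl G0 a b) :
    (fib d a b G0).filter (isD a b c e) = ∅ := by
  rw [filter_eq_empty_iff]
  intro G hG hD
  obtain ⟨h1, -, -, -⟩ := fib_invariants hab hG0 hG
  rw [isD_iff h4, h1] at hD
  rcases h with h | h
  · exact h hD.1
  · exact h hD.2.1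

/-- Restrict the `Dist4` double sum to the exclusive set. -/
theorem sum_Dist4_excl (hab : a ≠ b) (hG0 : G0 ∈ realizations d) (ψ : Fin n → Fin n → Gr n → ℝ) :
    (∑ c, ∑ e, if Dist4 a b c e then ∑ G ∈ (fib d a b G0).filter (isD a b c e), ψ c e G else 0)
      = ∑ c ∈ excl G0 a b, ∑ e ∈ excl G0 a b, if c ≠ e then
          ∑ G ∈ (fib d a b G0).filter (isD a b c e), ψ c e G else 0 := by
  have key : ∀ c e, c ∈ excl G0 a b → e ∈ excl G0 a b →
      (if Dist4 a b c e then ∑ G ∈ (fib d a b G0).filter (isD a b c e), ψ c e G else 0)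
        = if c ≠ e then ∑ G ∈ (fib d a b G0).filter (isD a b c e), ψ c e G else 0 := by
    intro c e hc he
    by_cases hce : c = e
    · have h : ¬ Dist4 a b c e := fun h => h.2.2.2.2.2 hce
      rw [if_neg h, if_neg (not_not.mpr hce)]
    · have h4 := dist4_of_mem hab hc he hce
      rw [if_pos h4, if_pos hce]
  have zero : ∀ c e, (c ∉ excl G0 a b ∨ e ∉ excl G0 a b) →
      (if Dist4 a b c e then ∑ G ∈ (fib d a b G0).filter (isD a b c e), ψ c e G else 0) = 0 := by
    intro c e h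
    by_cases h4 : Dist4 a b c e
    · rw [if_pos h4, filter_isD_empty hab hG0 h4 h, sum_empty]
    · rw [if_neg h4]
  symm
  rw [← sum_subset (subset_univ (excl G0 a b))]
  · refine sum_congr rfl fun c hc => ?_
    rw [← sum_subset (subset_univ (excl G0 a b))]
    · exact sum_congr rfl fun e he => (key c e hc he).symm
    · intro e _ he
      exact zero c e (Or.inr he)
  · intro c _ hc
    exact sum_eq_zero fun e _ => zero c e (Or.inl hc)

theorem swD_nb {c e : Fin n} (h4 : Dist4 a b c e) {G : Gr n}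
    (hG : G ∈ (fib d a b G0).filter (isD a b c e)) :
    swD a b c e G ∈ fib d a b G0 ∧ nb (swD a b c e G) a b = Slice.swp c e (nb G a b) := by
  have hG1 := (mem_filter.mp hG).1
  have hG2 : G ∈ Dset d a b c e := mem_filter.mpr ⟨(mem_fib_iff'.mp hG1).1, (mem_filter.mp hG).2⟩
  obtain ⟨-, h2, -, -, -, h6⟩ := swD_spec h4 hG2
  refine ⟨?_, ?_⟩
  · rwa [fib_eq_of_mem hG1] at h2
  · rw [h6]
    unfold Slice.swp
    congr!

theorem En_eq_EnF (hab : a ≠ b) (hG0 : G0 ∈ realizations d) (f : Gr n → ℝ) :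
    Slice.En (excl G0 a b) (nb G0 a b).card (fT d a b G0 f) = EnF a b (fib d a b G0) f := by
  unfold EnF
  rw [sum_Dist4_excl hab hG0]
  unfold Slice.En
  refine sum_congr rfl fun c hc => sum_congr rfl fun e he => ?_
  by_cases hce : c = e
  · simp [hce]
  · rw [if_pos hce, if_pos hce, sum_Dc hab hG0 hc he hce]
    refine sum_congr rfl fun G hG => ?_
    have h4 := dist4_of_mem hab hc he hce
    obtain ⟨h1, h2⟩ := swD_nb h4 hG
    rw [← h2, fT_nb hab hG0 f h1, fT_nb hab hG0 f (mem_filter.mp hG).1]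

theorem fibre_gap (hab : a ≠ b) (hG0 : G0 ∈ realizations d) (f : Gr n → ℝ) :
    2 * ∑ G ∈ fib d a b G0, (f G - avg (fib d a b G0) f) ^ 2 ≤ EnF a b (fib d a b G0) f := by
  have h := Slice.J1 (excl G0 a b) (nb G0 a b).card (fT d a b G0 f)
  rw [En_eq_EnF hab hG0, avg_slice hab hG0, sum_slice hab hG0] at h
  refine le_trans (le_of_eq ?_) h
  congr 1
  exact sum_congr rfl fun G hG => by rw [fT_nb hab hG0 f hG]

/-- Per-fibre Bessel quantity. -/
noncomputable def XiF (a b : Fin n) (F : Finset (Gr n)) (f : Gr n → ℝ) : ℝ :=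
  ∑ c, ∑ e, if Dist4 a b c e then
    ∑ _G ∈ F.filter (isD a b c e), (avg (F.filter (isD a b c e)) f - avg F f) ^ 2 else 0

theorem fibre_bessel (hab : a ≠ b) (hG0 : G0 ∈ realizations d) (f : Gr n → ℝ) :
    XiF a b (fib d a b G0) f ≤ EnF a b (fib d a b G0) f := by
  have h := Slice.J2 (excl G0 a b) (nb G0 a b).card (fT d a b G0 f)
  rw [En_eq_EnF hab hG0] at h
  refine le_trans (le_of_eq ?_) h
  unfold XiF
  rw [sum_Dist4_excl hab hG0 (fun c e _ =>
    (avg ((fib d a b G0).filter (isD a b c e)) f - avg (fib d a b G0) f) ^ 2)]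
  refine sum_congr rfl fun c hc => sum_congr rfl fun e he => ?_
  by_cases hce : c = e
  · simp [hce]
  · rw [if_pos hce, if_pos hce, sum_Dc hab hG0 hc he hce, avg_Dc hab hG0 hc he hce, avg_slice hab hG0]

end OneFibre

theorem EnG_eq_sum (d : Fin n → ℕ) (a b : Fin n) (f : Gr n → ℝ) :
    EnG d a b f = ∑ F ∈ fibs d a b, EnF a b F f := by
  unfold EnG EnF
  exact sum_Dset_split _

theorem XiG_eq_sum (d : Fin n → ℕ) (a b : Fin n) (f : Gr n → ℝ) :
    XiG d a b f = ∑ F ∈ fibs d a b, XiF a b F f := by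
  unfold XiG XiF
  rw [sum_Dset_split]
  refine sum_congr rfl fun F hF => ?_
  obtain ⟨G0, hG0, rfl⟩ := mem_image.mp hF
  refine sum_congr rfl fun c _ => sum_congr rfl fun e _ => ?_
  by_cases h4 : Dist4 a b c e
  · simp only [if_pos h4]
    refine sum_congr rfl fun G hG => ?_
    have hG1 := (mem_filter.mp hG).1
    unfold Aop E Dfib
    rw [fib_eq_of_mem hG1]
  · simp only [if_neg h4]

/-- (J1) transported: Johnson gap on each fibre. -/
theorem johnson_gap (d : Fin n → ℕ) (a b : Fin n) (hab : a ≠ b) (f : Gr n → ℝ) :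
    2 * ip d (K d a b f) (K d a b f) ≤ EnG d a b f := by
  rw [EnG_eq_sum]
  unfold ip
  rw [sum_fibs (a := a) (b := b), mul_sum]
  refine sum_le_sum fun F hF => ?_
  obtain ⟨G0, hG0, rfl⟩ := mem_image.mp hF
  refine le_trans (le_of_eq ?_) (fibre_gap hab hG0 f)
  congr 1
  refine sum_congr rfl fun G hG => ?_
  unfold K E
  rw [fib_eq_of_mem hG]
  ring

/-- (J2) transported: Johnson Bessel on each fibre. -/
theorem johnson_bessel (d : Fin n → ℕ) (a b : Fin n) (hab : a ≠ b) (f : Gr n → ℝ) :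
    XiG d a b f ≤ EnG d a b f := by
  rw [EnG_eq_sum, XiG_eq_sum]
  refine sum_le_sum fun F hF => ?_
  obtain ⟨G0, hG0, rfl⟩ := mem_image.mp hF
  exact fibre_bessel hab hG0 f

end Crest.Agent.Lib.S0453
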