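/-
S0453 task KKALG-1: conditional-expectation facts for `K_{ab}`: symmetry in (a,b), self-adjointness, idempotence.
(No graph theory: only that `Same a b` is an equivalence relation.)
-/
import Crest.Agent.Lib.S0453.Defs

set_option autoImplicit false
open Finset Crest.SwitchChain
open scoped Classical

namespace Crest.Agent.Lib.S0453

variable {n : ℕ}

private theorem same_swap (a b : Fin n) (G G' : Gr n) : Same a b G G' ↔ Same b a G G' := by
  unfold Same
  constructor
  · intro h u v h1 h2 h3 h4
    exact h u v h2 h1 h4 h3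
  · intro h u v h1 h2 h3 h4
    exact h u v h2 h1 h4 h3

private theorem same_symm' {a b : Fin n} {G G' : Gr n} (h : Same a b G G') : Same a b G' G := by
  intro u v h1 h2 h3 h4
  exact (h u v h1 h2 h3 h4).symm

private theorem same_trans' {a b : Fin n} {G G' G'' : Gr n} (h : Same a b G G')
    (h' : Same a b G' G'') : Same a b G G'' := by
  intro u v h1 h2 h3 h4
  exact (h u v h1 h2 h3 h4).trans (h' u v h1 h2 h3 h4)

theorem fib_swap (d : Fin n → ℕ) (a b : Fin n) (G : Gr n) : fib d a b G = fib d b a G := by
  unfold fib
  apply Finset.filter_congr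
  intro x _
  exact same_swap a b G x

/-- The fibre only depends on the class: for `G' ∈ fib G`, `fib G' = fib G`. -/
theorem fib_eq_of_mem_kk {d : Fin n → ℕ} {a b : Fin n} {G G' : Gr n} (h : G' ∈ fib d a b G) :
    fib d a b G' = fib d a b G := by
  have hS : Same a b G G' := (Finset.mem_filter.mp h).2
  unfold fib
  apply Finset.filter_congr
  intro x _
  exact ⟨fun hx => same_trans' hS hx, fun hx => same_trans' (same_symm' hS) hx⟩

theorem K_symm (d : Fin n → ℕ) (a b : Fin n) (f : Gr n → ℝ) : K d a b f = K d b a f := by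
  funext G
  unfold K E
  rw [fib_swap]

/-- The fibre average of `E f` is `E f`; `E (K f) = 0`. -/
theorem E_K (d : Fin n → ℕ) (a b : Fin n) (f : Gr n → ℝ) (G : Gr n) :
    E d a b (K d a b f) G = 0 := by
  unfold E avg
  by_cases hS : (fib d a b G) = ∅
  · simp [hS]
  · have hne : ((fib d a b G).card : ℝ) ≠ 0 := by
      have : (fib d a b G).Nonempty := Finset.nonempty_iff_ne_empty.mpr hS
      exact_mod_cast (Finset.card_pos.mpr this).ne'
    have h1 : ∀ x ∈ fib d a b G, K d a b f x = f x - (∑ y ∈ fib d a b G, f y) / ((fib d a b G).card : ℝ) := by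
      intro x hx
      unfold K E avg
      rw [fib_eq_of_mem_kk hx]
    rw [Finset.sum_congr rfl h1, Finset.sum_sub_distrib, Finset.sum_const, nsmul_eq_mul]
    field_simp
    ring

theorem K_idem (d : Fin n → ℕ) (a b : Fin n) (f : Gr n → ℝ) (G : Gr n) :
    K d a b (K d a b f) G = K d a b f G := by
  conv_lhs => unfold K
  rw [show E d a b (fun G => f G - E d a b f G) G = E d a b (K d a b f) G from rfl, E_K]
  simp [K]

/-- Self-adjointness of the fibre average. -/
theorem ip_E_self (d : Fin n → ℕ) (a b : Fin n) (f g : Gr n → ℝ) :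
    ∑ G ∈ realizations d, E d a b f G * g G = ∑ G ∈ realizations d, f G * E d a b g G := by
  have key : ∀ G ∈ realizations d, E d a b f G * g G =
      ∑ G' ∈ realizations d, if Same a b G G' then
        f G' * g G / ((fib d a b G).card : ℝ) else 0 := by
    intro G _
    unfold E avg fib
    rw [Finset.sum_filter, div_mul_eq_mul_div, Finset.sum_mul, Finset.sum_div]
    apply Finset.sum_congr rfl
    intro x _
    by_cases h : Same a b G x <;> simp [h]
  have key2 : ∀ G ∈ realizations d, f G * E d a b g G =
      ∑ G' ∈ realizations d, if Same a b G G' then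
        f G * g G' / ((fib d a b G).card : ℝ) else 0 := by
    intro G _
    unfold E avg fib
    rw [Finset.sum_filter, mul_div_assoc', Finset.mul_sum, Finset.sum_div]
    apply Finset.sum_congr rfl
    intro x _
    by_cases h : Same a b G x <;> simp [h]
  rw [Finset.sum_congr rfl key, Finset.sum_congr rfl key2, Finset.sum_comm]
  apply Finset.sum_congr rfl
  intro G hG
  apply Finset.sum_congr rfl
  intro G' hG'
  by_cases h : Same a b G' G
  · have h' : Same a b G G' := same_symm' h
    have hm : G ∈ fib d a b G' := Finset.mem_filter.mpr ⟨hG, h⟩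
    rw [if_pos h, if_pos h', fib_eq_of_mem_kk hm, mul_comm (f G) (g G')]
  · have h' : ¬ Same a b G G' := fun hh => h (same_symm' hh)
    rw [if_neg h, if_neg h']

theorem ip_K_self (d : Fin n → ℕ) (a b : Fin n) (f g : Gr n → ℝ) :
    ip d (K d a b f) g = ip d f (K d a b g) := by
  unfold ip K
  have := ip_E_self d a b f g
  simp only [sub_mul, mul_sub, Finset.sum_sub_distrib]
  rw [this]

/-- `⟨K f, f⟩ = ⟨K f, K f⟩`. -/
theorem ip_K_f (d : Fin n → ℕ) (a b : Fin n) (f : Gr n → ℝ) :
    ip d (K d a b f) f = ip d (K d a b f) (K d a b f) := by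
  have h := ip_K_self d a b (K d a b f) f
  have hid : K d a b (K d a b f) = K d a b f := funext (K_idem d a b f)
  rw [hid] at h
  exact h

end Crest.Agent.Lib.S0453
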