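/-
S0453 task PAIR, auxiliary part: block structure of two disjoint pairs.
See the docstring of Pair.lean.
-/
import Crest.Agent.Lib.S0453.Block
import Crest.Agent.Lib.S0453.Api

set_option autoImplicit false
open Finset Crest.SwitchChain
open scoped Classical

namespace Crest.Agent.Lib.S0453
variable {n : ℕ}
namespace PairBlk

/-- Indicator of adjacency. -/
noncomputable def bit (G : Gr n) (u v : Fin n) : ℕ := if Adj G u v then 1 else 0

theorem bit_comm (G : Gr n) (u v : Fin n) : bit G u v = bit G v u := by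
  unfold bit
  by_cases h : Adj G u v
  · rw [if_pos h, if_pos ((Adj_comm G u v).1 h)]
  · rw [if_neg h, if_neg (fun h' => h ((Adj_comm G u v).2 h'))]

theorem bit_self (G : Gr n) (u : Fin n) : bit G u u = 0 := by
  unfold bit; rw [if_neg (not_Adj_self G u)]

theorem bit_congr {G G' : Gr n} {u v : Fin n} (h : Adj G u v ↔ Adj G' u v) :
    bit G u v = bit G' u v := by
  unfold bit; simp only [h]

theorem adj_of_bit {G G' : Gr n} {u v : Fin n} (h : bit G u v = bit G' u v) :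
    Adj G u v ↔ Adj G' u v := by
  unfold bit at h
  by_cases h1 : Adj G u v <;> by_cases h2 : Adj G' u v <;> simp [h1, h2] at h ⊢

theorem deg_eq_sum (G : Gr n) (v : Fin n) : deg G v = ∑ u, bit G v u := by
  rw [deg_eq_card, Finset.card_filter]; rfl

/-- The other vertices. -/
noncomputable def Xs (a b c e : Fin n) : Finset (Fin n) :=
  univ.filter fun w => w ≠ a ∧ w ≠ b ∧ w ≠ c ∧ w ≠ e

theorem mem_Xs {a b c e w : Fin n} : w ∈ Xs a b c e ↔ w ≠ a ∧ w ≠ b ∧ w ≠ c ∧ w ≠ e := by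
  simp [Xs]

theorem sum_split {a b c e : Fin n} (h : Dist4 a b c e) (φ : Fin n → ℕ) :
    ∑ u, φ u = φ a + φ b + φ c + φ e + ∑ w ∈ Xs a b c e, φ w := by
  obtain ⟨hab, hac, hae, hbc, hbe, hce⟩ := h
  have hu : (univ : Finset (Fin n)) = insert a (insert b (insert c (insert e (Xs a b c e)))) := by
    ext w
    simp only [mem_univ, mem_insert, mem_Xs, true_iff]
    by_cases h1 : w = a
    · exact Or.inl h1
    by_cases h2 : w = b
    · exact Or.inr (Or.inl h2)
    by_cases h3 : w = c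
    · exact Or.inr (Or.inr (Or.inl h3))
    by_cases h4 : w = e
    · exact Or.inr (Or.inr (Or.inr (Or.inl h4)))
    exact Or.inr (Or.inr (Or.inr (Or.inr ⟨h1, h2, h3, h4⟩)))
  rw [hu, sum_insert, sum_insert, sum_insert, sum_insert]
  · ring
  · simp [mem_Xs]
  · simp [mem_Xs, hce]
  · simp [mem_Xs, hbc, hbe]
  · simp [mem_Xs, hab, hac, hae]

/-- Adjacency inside `X`. -/
def inn (a b c e : Fin n) (G : Gr n) (u v : Fin n) : Prop :=
  u ∈ Xs a b c e ∧ v ∈ Xs a b c e ∧ Adj G u v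

/-- `t_w = x_{aw} + x_{bw}`. -/
noncomputable def tt (a b c e : Fin n) (G : Gr n) (w : Fin n) : ℕ :=
  if w ∈ Xs a b c e then bit G a w + bit G b w else 0

/-- The block key. -/
noncomputable def key (a b c e : Fin n) (G : Gr n) :
    (Fin n → Fin n → Prop) × ℕ × ℕ × (Fin n → ℕ) :=
  (inn a b c e G, bit G a b, bit G c e, tt a b c e G)

theorem key_eq_iff {a b c e : Fin n} {G G' : Gr n} :
    key a b c e G = key a b c e G' ↔
      (∀ u ∈ Xs a b c e, ∀ v ∈ Xs a b c e, (Adj G u v ↔ Adj G' u v)) ∧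
      bit G a b = bit G' a b ∧ bit G c e = bit G' c e ∧
      ∀ w ∈ Xs a b c e, bit G a w + bit G b w = bit G' a w + bit G' b w := by
  unfold key
  simp only [Prod.mk.injEq]
  constructor
  · rintro ⟨h1, h2, h3, h4⟩
    refine ⟨?_, h2, h3, ?_⟩
    · intro u hu v hv
      have := congrFun (congrFun h1 u) v
      simpa [inn, hu, hv] using this
    · intro w hw
      have := congrFun h4 w
      simpa [tt, hw] using this
  · rintro ⟨h1, h2, h3, h4⟩
    refine ⟨?_, h2, h3, ?_⟩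
    · funext u v
      unfold inn
      apply propext
      constructor
      · rintro ⟨hu, hv, h⟩; exact ⟨hu, hv, (h1 u hu v hv).1 h⟩
      · rintro ⟨hu, hv, h⟩; exact ⟨hu, hv, (h1 u hu v hv).2 h⟩
    · funext w
      unfold tt
      by_cases hw : w ∈ Xs a b c e
      · rw [if_pos hw, if_pos hw]; exact h4 w hw
      · rw [if_neg hw, if_neg hw]

/-- `N(a) ∩ X`. -/
noncomputable def yy (a b c e : Fin n) (G : Gr n) : Finset (Fin n) :=
  (Xs a b c e).filter (Adj G a)

/-- `N(c) ∩ X`. -/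
noncomputable def yy' (a b c e : Fin n) (G : Gr n) : Finset (Fin n) :=
  (Xs a b c e).filter (Adj G c)

theorem yy_eq_iff {a b c e : Fin n} {G G' : Gr n} :
    yy a b c e G = yy a b c e G' ↔ ∀ w ∈ Xs a b c e, (Adj G a w ↔ Adj G' a w) := by
  unfold yy
  constructor
  · intro h w hw
    have h1 := Finset.ext_iff.1 h w
    simpa [Finset.mem_filter, hw] using h1
  · intro h
    ext w
    simp only [Finset.mem_filter]
    constructor
    · rintro ⟨hw, h1⟩; exact ⟨hw, (h w hw).1 h1⟩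
    · rintro ⟨hw, h1⟩; exact ⟨hw, (h w hw).2 h1⟩

theorem yy'_eq_iff {a b c e : Fin n} {G G' : Gr n} :
    yy' a b c e G = yy' a b c e G' ↔ ∀ w ∈ Xs a b c e, (Adj G c w ↔ Adj G' c w) := by
  unfold yy'
  constructor
  · intro h w hw
    have h1 := Finset.ext_iff.1 h w
    simpa [Finset.mem_filter, hw] using h1
  · intro h
    ext w
    simp only [Finset.mem_filter]
    constructor
    · rintro ⟨hw, h1⟩; exact ⟨hw, (h w hw).1 h1⟩
    · rintro ⟨hw, h1⟩; exact ⟨hw, (h w hw).2 h1⟩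

theorem deg_real {d : Fin n → ℕ} {G : Gr n} (hG : G ∈ realizations d) (v : Fin n) :
    ∑ u, bit G v u = d v := by
  rw [← deg_eq_sum]
  exact (Finset.mem_filter.1 hG).2 v

/-- Degree at `a`. -/
theorem deg_a {d : Fin n → ℕ} {a b c e : Fin n} (h : Dist4 a b c e) {G : Gr n}
    (hG : G ∈ realizations d) :
    bit G a b + bit G a c + bit G a e + ∑ w ∈ Xs a b c e, bit G a w = d a := by
  have := deg_real hG a
  rw [sum_split h] at this
  rw [bit_self] at this
  omega

theorem deg_b {d : Fin n → ℕ} {a b c e : Fin n} (h : Dist4 a b c e) {G : Gr n}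
    (hG : G ∈ realizations d) :
    bit G a b + bit G b c + bit G b e + ∑ w ∈ Xs a b c e, bit G b w = d b := by
  have := deg_real hG b
  rw [sum_split h] at this
  rw [bit_self, bit_comm G b a] at this
  omega

theorem deg_c {d : Fin n → ℕ} {a b c e : Fin n} (h : Dist4 a b c e) {G : Gr n}
    (hG : G ∈ realizations d) :
    bit G c e + bit G a c + bit G b c + ∑ w ∈ Xs a b c e, bit G c w = d c := by
  have := deg_real hG c
  rw [sum_split h] at this
  rw [bit_self, bit_comm G c a, bit_comm G c b] at this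
  omega

theorem deg_e {d : Fin n → ℕ} {a b c e : Fin n} (h : Dist4 a b c e) {G : Gr n}
    (hG : G ∈ realizations d) :
    bit G c e + bit G a e + bit G b e + ∑ w ∈ Xs a b c e, bit G e w = d e := by
  have := deg_real hG e
  rw [sum_split h] at this
  rw [bit_self, bit_comm G e a, bit_comm G e b, bit_comm G e c] at this
  omega

/-- Degree at `w ∈ X`. -/
theorem deg_w {d : Fin n → ℕ} {a b c e : Fin n} (h : Dist4 a b c e) {G : Gr n}
    (hG : G ∈ realizations d) (w : Fin n) :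
    bit G a w + bit G b w + bit G c w + bit G e w + ∑ u ∈ Xs a b c e, bit G w u = d w := by
  have := deg_real hG w
  rw [sum_split h] at this
  rw [bit_comm G w a, bit_comm G w b, bit_comm G w c, bit_comm G w e] at this
  exact this

theorem Xsum_congr {a b c e : Fin n} {G G' : Gr n} {v : Fin n}
    (h : ∀ w ∈ Xs a b c e, (Adj G v w ↔ Adj G' v w)) :
    ∑ w ∈ Xs a b c e, bit G v w = ∑ w ∈ Xs a b c e, bit G' v w :=
  Finset.sum_congr rfl fun w hw => bit_congr (h w hw)

/-- Cross bits. -/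
noncomputable def rowA (a c e : Fin n) (G : Gr n) : ℕ := bit G a c + bit G a e
noncomputable def colC (a b c : Fin n) (G : Gr n) : ℕ := bit G a c + bit G b c
noncomputable def tot (a b c e : Fin n) (G : Gr n) : ℕ := bit G a c + bit G a e + bit G b c + bit G b e

/-- `tot` is constant on a block. -/
theorem tot_eq {d : Fin n → ℕ} {a b c e : Fin n} (h : Dist4 a b c e) {G G' : Gr n}
    (hG : G ∈ realizations d) (hG' : G' ∈ realizations d)
    (hk : key a b c e G = key a b c e G') : tot a b c e G = tot a b c e G' := by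
  obtain ⟨_, h2, _, h4⟩ := key_eq_iff.1 hk
  have h1 := deg_a h hG
  have h1' := deg_a h hG'
  have h3 := deg_b h hG
  have h3' := deg_b h hG'
  have hs : ∑ w ∈ Xs a b c e, (bit G a w + bit G b w) = ∑ w ∈ Xs a b c e, (bit G' a w + bit G' b w) :=
    Finset.sum_congr rfl h4
  rw [Finset.sum_add_distrib, Finset.sum_add_distrib] at hs
  unfold tot
  omega

/-- `y` determines `rowA` on a block. -/
theorem rowA_eq {d : Fin n → ℕ} {a b c e : Fin n} (h : Dist4 a b c e) {G G' : Gr n}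
    (hG : G ∈ realizations d) (hG' : G' ∈ realizations d)
    (hk : key a b c e G = key a b c e G') (hy : yy a b c e G = yy a b c e G') :
    rowA a c e G = rowA a c e G' := by
  obtain ⟨_, h2, _, _⟩ := key_eq_iff.1 hk
  have h1 := deg_a h hG
  have h1' := deg_a h hG'
  have hs := Xsum_congr (yy_eq_iff.1 hy)
  unfold rowA
  omega

/-- `y'` determines `colC` on a block. -/
theorem colC_eq {d : Fin n → ℕ} {a b c e : Fin n} (h : Dist4 a b c e) {G G' : Gr n}
    (hG : G ∈ realizations d) (hG' : G' ∈ realizations d)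
    (hk : key a b c e G = key a b c e G') (hy : yy' a b c e G = yy' a b c e G') :
    colC a b c G = colC a b c G' := by
  obtain ⟨_, _, h2, _⟩ := key_eq_iff.1 hk
  have h1 := deg_c h hG
  have h1' := deg_c h hG'
  have hs := Xsum_congr (yy'_eq_iff.1 hy)
  unfold colC
  omega

/-- On a block, `x_{ew}` is determined by `x_{cw}`. -/
theorem bit_e_eq {d : Fin n → ℕ} {a b c e : Fin n} (h : Dist4 a b c e) {G G' : Gr n}
    (hG : G ∈ realizations d) (hG' : G' ∈ realizations d)
    (hk : key a b c e G = key a b c e G') {w : Fin n} (hw : w ∈ Xs a b c e)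
    (hc : bit G c w = bit G' c w) : bit G e w = bit G' e w := by
  obtain ⟨h1, _, _, h4⟩ := key_eq_iff.1 hk
  have d1 := deg_w h hG w
  have d2 := deg_w h hG' w
  have hs := Xsum_congr (v := w) (a := a) (b := b) (c := c) (e := e) (G := G) (G' := G')
    (fun u hu => h1 w hw u hu)
  have := h4 w hw
  omega

/-- On a block, `x_{bw}` is determined by `x_{aw}`. -/
theorem bit_b_eq {a b c e : Fin n} {G G' : Gr n}
    (hk : key a b c e G = key a b c e G') {w : Fin n} (hw : w ∈ Xs a b c e)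
    (ha : bit G a w = bit G' a w) : bit G b w = bit G' b w := by
  obtain ⟨_, _, _, h4⟩ := key_eq_iff.1 hk
  have := h4 w hw
  omega

/-- Within a block, the `(a,b)`-fibres are the level sets of `y'`. -/
theorem Same_ab_iff {d : Fin n → ℕ} {a b c e : Fin n} (h : Dist4 a b c e) {G G' : Gr n}
    (hG : G ∈ realizations d) (hG' : G' ∈ realizations d)
    (hk : key a b c e G = key a b c e G') :
    Same a b G G' ↔ yy' a b c e G = yy' a b c e G' := by
  obtain ⟨hab, hac, hae, hbc, hbe, hce⟩ := h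
  have h' : Dist4 a b c e := ⟨hab, hac, hae, hbc, hbe, hce⟩
  constructor
  · intro hS
    rw [yy'_eq_iff]
    intro w hw
    obtain ⟨w1, w2, _, _⟩ := mem_Xs.1 hw
    exact hS c w (Ne.symm hac) (Ne.symm hbc) w1 w2
  · intro hy u v hua hub hva hvb
    obtain ⟨k1, _, k3, _⟩ := key_eq_iff.1 hk
    have hyc := yy'_eq_iff.1 hy
    -- a helper for slots `c w` and `e w`, `w ∈ X`
    have hc : ∀ w ∈ Xs a b c e, (Adj G c w ↔ Adj G' c w) := hyc
    have he : ∀ w ∈ Xs a b c e, (Adj G e w ↔ Adj G' e w) := fun w hw =>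
      adj_of_bit (bit_e_eq h' hG hG' hk hw (bit_congr (hc w hw)))
    by_cases huc : u = c
    · subst huc
      by_cases hve : v = e
      · subst hve; exact adj_of_bit k3
      by_cases hvc : v = u
      · subst hvc; simp [not_Adj_self]
      exact hc v (mem_Xs.2 ⟨hva, hvb, hvc, hve⟩)
    by_cases hue : u = e
    · subst hue
      by_cases hvc : v = c
      · subst hvc
        rw [Adj_comm G, Adj_comm G']; exact adj_of_bit k3
      by_cases hve : v = u
      · subst hve; simp [not_Adj_self]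
      exact he v (mem_Xs.2 ⟨hva, hvb, hvc, hve⟩)
    have hu : u ∈ Xs a b c e := mem_Xs.2 ⟨hua, hub, huc, hue⟩
    by_cases hvc : v = c
    · subst hvc
      rw [Adj_comm G, Adj_comm G']; exact hc u hu
    by_cases hve : v = e
    · subst hve
      rw [Adj_comm G, Adj_comm G']; exact he u hu
    exact k1 u hu v (mem_Xs.2 ⟨hva, hvb, hvc, hve⟩)

/-- Within a block, the `(c,e)`-fibres are the level sets of `y`. -/
theorem Same_ce_iff {a b c e : Fin n} (h : Dist4 a b c e) {G G' : Gr n}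
    (hk : key a b c e G = key a b c e G') :
    Same c e G G' ↔ yy a b c e G = yy a b c e G' := by
  obtain ⟨hab, hac, hae, hbc, hbe, hce⟩ := h
  constructor
  · intro hS
    rw [yy_eq_iff]
    intro w hw
    obtain ⟨_, _, w3, w4⟩ := mem_Xs.1 hw
    exact hS a w hac hae w3 w4
  · intro hy u v huc hue hvc hve
    obtain ⟨k1, k2, _, _⟩ := key_eq_iff.1 hk
    have hya := yy_eq_iff.1 hy
    have ha : ∀ w ∈ Xs a b c e, (Adj G a w ↔ Adj G' a w) := hya
    have hb : ∀ w ∈ Xs a b c e, (Adj G b w ↔ Adj G' b w) := fun w hw =>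
      adj_of_bit (bit_b_eq hk hw (bit_congr (ha w hw)))
    by_cases hua : u = a
    · subst hua
      by_cases hvb : v = b
      · subst hvb; exact adj_of_bit k2
      by_cases hva : v = u
      · subst hva; simp [not_Adj_self]
      exact ha v (mem_Xs.2 ⟨hva, hvb, hvc, hve⟩)
    by_cases hub : u = b
    · subst hub
      by_cases hva : v = a
      · subst hva
        rw [Adj_comm G, Adj_comm G']; exact adj_of_bit k2
      by_cases hvb : v = u
      · subst hvb; simp [not_Adj_self]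
      exact hb v (mem_Xs.2 ⟨hva, hvb, hvc, hve⟩)
    have hu : u ∈ Xs a b c e := mem_Xs.2 ⟨hua, hub, huc, hue⟩
    by_cases hva : v = a
    · subst hva
      rw [Adj_comm G, Adj_comm G']; exact ha u hu
    by_cases hvb : v = b
    · subst hvb
      rw [Adj_comm G, Adj_comm G']; exact hb u hu
    exact k1 u hu v (mem_Xs.2 ⟨hva, hvb, hvc, hve⟩)

/-- `Same a b` preserves `t_w`. -/
theorem t_of_fib {d : Fin n → ℕ} {a b : Fin n} (hab : a ≠ b) {G G' : Gr n}
    (hG : G ∈ realizations d) (hG' : G' ∈ fib d a b G) {w : Fin n} (hwa : w ≠ a) (hwb : w ≠ b) :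
    bit G a w + bit G b w = bit G' a w + bit G' b w := by
  obtain ⟨h1, _, _, h4⟩ := fib_invariants hab hG hG'
  by_cases hw : w ∈ excl G a b
  · have h2 : w ∈ excl G' a b := by rw [h1]; exact hw
    have h3 := (Finset.mem_filter.1 hw).2.2.2
    have h5 := (Finset.mem_filter.1 h2).2.2.2
    unfold bit
    by_cases x1 : Adj G a w <;> by_cases x2 : Adj G b w <;>
    by_cases x3 : Adj G' a w <;> by_cases x4 : Adj G' b w <;> simp_all
  · obtain ⟨x1, x2⟩ := h4 w hwa hwb hw
    rw [bit_congr x1, bit_congr x2]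

/-- The `(a,b)`-fibre stays inside the block. -/
theorem key_of_fib_ab {d : Fin n → ℕ} {a b c e : Fin n} (h : Dist4 a b c e) {G G' : Gr n}
    (hG : G ∈ realizations d) (hG' : G' ∈ fib d a b G) :
    key a b c e G = key a b c e G' := by
  have hS := (Finset.mem_filter.1 hG').2
  obtain ⟨hab, hac, hae, hbc, hbe, hce⟩ := h
  rw [key_eq_iff]
  refine ⟨?_, ?_, ?_, ?_⟩
  · intro u hu v hv
    obtain ⟨u1, u2, _, _⟩ := mem_Xs.1 hu
    obtain ⟨v1, v2, _, _⟩ := mem_Xs.1 hv
    exact hS u v u1 u2 v1 v2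
  · exact bit_congr (fib_invariants hab hG hG').2.2.1.symm
  · exact bit_congr (hS c e (Ne.symm hac) (Ne.symm hbc) (Ne.symm hae) (Ne.symm hbe))
  · intro w hw
    obtain ⟨w1, w2, _, _⟩ := mem_Xs.1 hw
    exact t_of_fib hab hG hG' w1 w2

/-- The `(c,e)`-fibre stays inside the block. -/
theorem key_of_fib_ce {d : Fin n → ℕ} {a b c e : Fin n} (h : Dist4 a b c e) {G G' : Gr n}
    (hG : G ∈ realizations d) (hG' : G' ∈ fib d c e G) :
    key a b c e G = key a b c e G' := by
  have hS := (Finset.mem_filter.1 hG').2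
  obtain ⟨hab, hac, hae, hbc, hbe, hce⟩ := h
  rw [key_eq_iff]
  refine ⟨?_, ?_, ?_, ?_⟩
  · intro u hu v hv
    obtain ⟨_, _, u1, u2⟩ := mem_Xs.1 hu
    obtain ⟨_, _, v1, v2⟩ := mem_Xs.1 hv
    exact hS u v u1 u2 v1 v2
  · exact bit_congr (hS a b hac hae hbc hbe)
  · exact bit_congr (fib_invariants hce hG hG').2.2.1.symm
  · intro w hw
    obtain ⟨_, _, w3, w4⟩ := mem_Xs.1 hw
    rw [bit_congr (hS a w hac hae w3 w4), bit_congr (hS b w hbc hbe w3 w4)]

/-! ### Cross bits as booleans -/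

/-- Four bits. -/
abbrev Bits := Bool × Bool × Bool × Bool

def rA (M : Bits) : ℕ := M.1.toNat + M.2.1.toNat
def cC (M : Bits) : ℕ := M.1.toNat + M.2.2.1.toNat
def tO (M : Bits) : ℕ := M.1.toNat + M.2.1.toNat + M.2.2.1.toNat + M.2.2.2.toNat

set_option maxRecDepth 100000 in
theorem bits_count : ∀ M₁ M₂ : Bits, tO M₁ = tO M₂ →
    (univ.filter fun M : Bits => rA M = rA M₁ ∧ cC M = cC M₂ ∧ tO M = tO M₁).card =
      (if tO M₁ = 2 ∧ rA M₁ = 1 ∧ cC M₂ = 1 then 2
        else if tO M₁ = 2 ∧ rA M₁ ≠ 1 ∧ cC M₂ ≠ 1 then 0 else 1) := by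
  decide

theorem bits_shape : ∀ M : Bits, tO M = 2 → rA M ≠ 1 → cC M = 1 := by
  decide

/-- Cross bits of a graph. -/
noncomputable def mm (a b c e : Fin n) (G : Gr n) : Bits :=
  (decide (Adj G a c), decide (Adj G a e), decide (Adj G b c), decide (Adj G b e))

theorem bit_eq_toNat (G : Gr n) (u v : Fin n) : bit G u v = (decide (Adj G u v)).toNat := by
  unfold bit
  by_cases h : Adj G u v <;> simp [h]

theorem rA_mm (a b c e : Fin n) (G : Gr n) : rA (mm a b c e G) = rowA a c e G := by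
  simp only [rA, mm, rowA, bit_eq_toNat]

theorem cC_mm (a b c e : Fin n) (G : Gr n) : cC (mm a b c e G) = colC a b c G := by
  simp only [cC, mm, colC, bit_eq_toNat]

theorem tO_mm (a b c e : Fin n) (G : Gr n) : tO (mm a b c e G) = tot a b c e G := by
  simp only [tO, mm, tot, bit_eq_toNat]

/-- A graph in a block is determined by `y`, `y'` and the cross bits. -/
theorem eq_of_same {d : Fin n → ℕ} {a b c e : Fin n} (h : Dist4 a b c e) {G G' : Gr n}
    (hG : G ∈ realizations d) (hG' : G' ∈ realizations d)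
    (hk : key a b c e G = key a b c e G')
    (hy : yy a b c e G = yy a b c e G') (hy' : yy' a b c e G = yy' a b c e G')
    (hm : mm a b c e G = mm a b c e G') : G = G' := by
  have hab := (Same_ab_iff h hG hG' hk).2 hy'
  have hce := (Same_ce_iff h hk).2 hy
  obtain ⟨_, hac, hae, hbc, hbe, _⟩ := h
  simp only [mm, Prod.mk.injEq, decide_eq_decide] at hm
  obtain ⟨m1, m2, m3, m4⟩ := hm
  apply gr_ext
  intro u v
  by_cases h1 : u ≠ a ∧ u ≠ b ∧ v ≠ a ∧ v ≠ b
  · exact hab u v h1.1 h1.2.1 h1.2.2.1 h1.2.2.2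
  by_cases h2 : u ≠ c ∧ u ≠ e ∧ v ≠ c ∧ v ≠ e
  · exact hce u v h2.1 h2.2.1 h2.2.2.1 h2.2.2.2
  have h1' : u = a ∨ u = b ∨ v = a ∨ v = b := by
    by_contra hc
    push Not at hc
    exact h1 hc
  have h2' : u = c ∨ u = e ∨ v = c ∨ v = e := by
    by_contra hc
    push Not at hc
    exact h2 hc
  have hsymm : ∀ x y, (Adj G x y ↔ Adj G' x y) → (Adj G y x ↔ Adj G' y x) := fun x y hxy => by
    rw [Adj_comm G y x, Adj_comm G' y x]; exact hxy
  rcases h1' with rfl | rfl | rfl | rfl <;> rcases h2' with rfl | rfl | rfl | rfl <;>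
    first
    | exact m1 | exact m2 | exact m3 | exact m4
    | exact hsymm _ _ m1 | exact hsymm _ _ m2 | exact hsymm _ _ m3 | exact hsymm _ _ m4
    | (exfalso; first | exact hac rfl | exact hae rfl | exact hbc rfl | exact hbe rfl)

/-- Relation defining the crossing of two graphs. -/
def crossRel (a b c e : Fin n) (G₁ G₂ : Gr n) (M : Bits) (u v : Fin n) : Prop :=
  if (u = a ∨ u = b) ∧ (v = c ∨ v = e) then
    (u = a ∧ v = c ∧ M.1 = true) ∨ (u = a ∧ v = e ∧ M.2.1 = true) ∨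
    (u = b ∧ v = c ∧ M.2.2.1 = true) ∨ (u = b ∧ v = e ∧ M.2.2.2 = true)
  else if (v = a ∨ v = b) ∧ (u = c ∨ u = e) then
    (v = a ∧ u = c ∧ M.1 = true) ∨ (v = a ∧ u = e ∧ M.2.1 = true) ∨
    (v = b ∧ u = c ∧ M.2.2.1 = true) ∨ (v = b ∧ u = e ∧ M.2.2.2 = true)
  else if (u = c ∨ u = e) ∨ (v = c ∨ v = e) then Adj G₂ u v
  else Adj G₁ u v

theorem crossRel_symm {a b c e : Fin n} (hD : Dist4 a b c e) (G₁ G₂ : Gr n) (M : Bits) (u v : Fin n)
    (h : crossRel a b c e G₁ G₂ M u v) : crossRel a b c e G₁ G₂ M v u := by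
  obtain ⟨_, hac, hae, hbc, hbe, _⟩ := hD
  unfold crossRel at h ⊢
  by_cases h1 : (u = a ∨ u = b) ∧ (v = c ∨ v = e)
  · rw [if_pos h1] at h
    by_cases h2 : (v = a ∨ v = b) ∧ (u = c ∨ u = e)
    · exfalso
      rcases h1.1 with rfl | rfl <;> rcases h2.2 with h3 | h3
      · exact hac h3
      · exact hae h3
      · exact hbc h3
      · exact hbe h3
    · rw [if_neg h2, if_pos h1]; exact h
  · rw [if_neg h1] at h
    by_cases h2 : (v = a ∨ v = b) ∧ (u = c ∨ u = e)
    · rw [if_pos h2] at h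
      rw [if_pos h2]
      rcases h with ⟨h3, h4, h5⟩ | ⟨h3, h4, h5⟩ | ⟨h3, h4, h5⟩ | ⟨h3, h4, h5⟩
      · exact Or.inl ⟨h3, h4, h5⟩
      · exact Or.inr (Or.inl ⟨h3, h4, h5⟩)
      · exact Or.inr (Or.inr (Or.inl ⟨h3, h4, h5⟩))
      · exact Or.inr (Or.inr (Or.inr ⟨h3, h4, h5⟩))
    · rw [if_neg h2] at h ⊢
      rw [if_neg h1]
      by_cases h3 : (u = c ∨ u = e) ∨ (v = c ∨ v = e)
      · rw [if_pos h3] at h
        rw [if_pos (Or.comm.1 h3)]; exact (Adj_comm _ _ _).1 h
      · rw [if_neg h3] at h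
        rw [if_neg (fun h4 => h3 (Or.comm.1 h4))]; exact (Adj_comm _ _ _).1 h

theorem crossRel_irrefl {a b c e : Fin n} (h : Dist4 a b c e) (G₁ G₂ : Gr n) (M : Bits) (u : Fin n) :
    ¬ crossRel a b c e G₁ G₂ M u u := by
  obtain ⟨_, hac, hae, hbc, hbe, _⟩ := h
  unfold crossRel
  have h1 : ¬ ((u = a ∨ u = b) ∧ (u = c ∨ u = e)) := by
    rintro ⟨rfl | rfl, rfl | h2⟩
    · exact hac rfl
    · exact hae h2
    · exact hbc rfl
    · exact hbe h2
  have h1' : ¬ ((u = a ∨ u = b) ∧ (u = c ∨ u = e)) := h1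
  rw [if_neg h1, if_neg h1']
  split_ifs
  · exact not_Adj_self _ _
  · exact not_Adj_self _ _

/-- Crossing: from two graphs in a block and bits with the right margins, a graph of the block with
the `y` of the first, the `y'` of the second, and the given bits. -/
theorem cross {d : Fin n → ℕ} {a b c e : Fin n} (h : Dist4 a b c e) {G₁ G₂ : Gr n}
    (hG₁ : G₁ ∈ realizations d) (hG₂ : G₂ ∈ realizations d)
    (hk : key a b c e G₁ = key a b c e G₂) (M : Bits)
    (hr : rA M = rowA a c e G₁) (hc : cC M = colC a b c G₂) (ht : tO M = tot a b c e G₁) :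
    ∃ G ∈ realizations d, key a b c e G₁ = key a b c e G ∧ yy a b c e G = yy a b c e G₁ ∧
      yy' a b c e G = yy' a b c e G₂ ∧ mm a b c e G = M := by
  obtain ⟨G, hG⟩ := exists_ofAdj (crossRel a b c e G₁ G₂ M) (crossRel_symm h G₁ G₂ M)
    (crossRel_irrefl h G₁ G₂ M)
  have h' := h
  obtain ⟨hab, hac, hae, hbc, hbe, hce⟩ := h
  -- the slots
  have s1 : Adj G a c ↔ M.1 = true := by
    rw [hG]; unfold crossRel
    rw [if_pos ⟨Or.inl rfl, Or.inl rfl⟩]
    constructor
    · rintro (⟨_, _, h1⟩ | ⟨_, h2, _⟩ | ⟨h3, _⟩ | ⟨h3, _⟩)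
      · exact h1
      · exact absurd h2 hce
      · exact absurd h3 hab
      · exact absurd h3 hab
    · intro h1; exact Or.inl ⟨rfl, rfl, h1⟩
  have s2 : Adj G a e ↔ M.2.1 = true := by
    rw [hG]; unfold crossRel
    rw [if_pos ⟨Or.inl rfl, Or.inr rfl⟩]
    constructor
    · rintro (⟨_, h2, _⟩ | ⟨_, _, h1⟩ | ⟨h3, _⟩ | ⟨h3, _⟩)
      · exact absurd h2.symm hce
      · exact h1
      · exact absurd h3 hab
      · exact absurd h3 hab
    · intro h1; exact Or.inr (Or.inl ⟨rfl, rfl, h1⟩)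
  have s3 : Adj G b c ↔ M.2.2.1 = true := by
    rw [hG]; unfold crossRel
    rw [if_pos ⟨Or.inr rfl, Or.inl rfl⟩]
    constructor
    · rintro (⟨h3, _⟩ | ⟨h3, _⟩ | ⟨_, _, h1⟩ | ⟨_, h2, _⟩)
      · exact absurd h3.symm hab
      · exact absurd h3.symm hab
      · exact h1
      · exact absurd h2 hce
    · intro h1; exact Or.inr (Or.inr (Or.inl ⟨rfl, rfl, h1⟩))
  have s4 : Adj G b e ↔ M.2.2.2 = true := by
    rw [hG]; unfold crossRel
    rw [if_pos ⟨Or.inr rfl, Or.inr rfl⟩]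
    constructor
    · rintro (⟨h3, _⟩ | ⟨h3, _⟩ | ⟨_, h2, _⟩ | ⟨_, _, h1⟩)
      · exact absurd h3.symm hab
      · exact absurd h3.symm hab
      · exact absurd h2.symm hce
      · exact h1
    · intro h1; exact Or.inr (Or.inr (Or.inr ⟨rfl, rfl, h1⟩))
  have hm : mm a b c e G = M := by
    obtain ⟨m1, m2, m3, m4⟩ := M
    simp only at s1 s2 s3 s4
    have hdec : ∀ (P : Prop) (x : Bool), (P ↔ x = true) → decide P = x := by
      intro P x hP
      rw [Bool.eq_iff_iff]; simpa using hP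
    simp only [mm]
    rw [hdec _ _ s1, hdec _ _ s2, hdec _ _ s3, hdec _ _ s4]
  -- slots read in `G₁` and `G₂`
  have xAB : Adj G a b ↔ Adj G₁ a b := by
    rw [hG]; unfold crossRel
    rw [if_neg (by rintro ⟨_, h1 | h1⟩; exact hbc h1; exact hbe h1),
      if_neg (by rintro ⟨_, h1 | h1⟩; exact hac h1; exact hae h1),
      if_neg (by rintro ((h1 | h1) | (h1 | h1)); exact hac h1; exact hae h1; exact hbc h1; exact hbe h1)]
  have xCE : Adj G c e ↔ Adj G₂ c e := by
    rw [hG]; unfold crossRel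
    rw [if_neg (by rintro ⟨h1 | h1, _⟩; exact hac h1.symm; exact hbc h1.symm),
      if_neg (by rintro ⟨h1 | h1, _⟩; exact hae h1.symm; exact hbe h1.symm),
      if_pos (Or.inl (Or.inl rfl))]
  have xa : ∀ w ∈ Xs a b c e, (Adj G a w ↔ Adj G₁ a w) := by
    intro w hw
    obtain ⟨w1, w2, w3, w4⟩ := mem_Xs.1 hw
    rw [hG]; unfold crossRel
    rw [if_neg (by rintro ⟨_, h1 | h1⟩; exact w3 h1; exact w4 h1),
      if_neg (by rintro ⟨h1 | h1, _⟩; exact w1 h1; exact w2 h1),
      if_neg (by rintro ((h1 | h1) | (h1 | h1)); exact hac h1; exact hae h1; exact w3 h1; exact w4 h1)]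
  have xb : ∀ w ∈ Xs a b c e, (Adj G b w ↔ Adj G₁ b w) := by
    intro w hw
    obtain ⟨w1, w2, w3, w4⟩ := mem_Xs.1 hw
    rw [hG]; unfold crossRel
    rw [if_neg (by rintro ⟨_, h1 | h1⟩; exact w3 h1; exact w4 h1),
      if_neg (by rintro ⟨h1 | h1, _⟩; exact w1 h1; exact w2 h1),
      if_neg (by rintro ((h1 | h1) | (h1 | h1)); exact hbc h1; exact hbe h1; exact w3 h1; exact w4 h1)]
  have xc : ∀ w ∈ Xs a b c e, (Adj G c w ↔ Adj G₂ c w) := by
    intro w hw
    obtain ⟨w1, w2, w3, w4⟩ := mem_Xs.1 hw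
    rw [hG]; unfold crossRel
    rw [if_neg (by rintro ⟨h1 | h1, _⟩; exact hac h1.symm; exact hbc h1.symm),
      if_neg (by rintro ⟨h1 | h1, _⟩; exact w1 h1; exact w2 h1),
      if_pos (Or.inl (Or.inl rfl))]
  have xe : ∀ w ∈ Xs a b c e, (Adj G e w ↔ Adj G₂ e w) := by
    intro w hw
    obtain ⟨w1, w2, w3, w4⟩ := mem_Xs.1 hw
    rw [hG]; unfold crossRel
    rw [if_neg (by rintro ⟨h1 | h1, _⟩; exact hae h1.symm; exact hbe h1.symm),
      if_neg (by rintro ⟨h1 | h1, _⟩; exact w1 h1; exact w2 h1),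
      if_pos (Or.inl (Or.inr rfl))]
  have xX : ∀ u ∈ Xs a b c e, ∀ v ∈ Xs a b c e, (Adj G u v ↔ Adj G₁ u v) := by
    intro u hu v hv
    obtain ⟨u1, u2, u3, u4⟩ := mem_Xs.1 hu
    obtain ⟨v1, v2, v3, v4⟩ := mem_Xs.1 hv
    rw [hG]; unfold crossRel
    rw [if_neg (by rintro ⟨_, h1 | h1⟩; exact v3 h1; exact v4 h1),
      if_neg (by rintro ⟨_, h1 | h1⟩; exact u3 h1; exact u4 h1),
      if_neg (by rintro ((h1 | h1) | (h1 | h1)); exact u3 h1; exact u4 h1; exact v3 h1; exact v4 h1)]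
  obtain ⟨k1, k2, k3, k4⟩ := key_eq_iff.1 hk
  have xb' : ∀ w ∈ Xs a b c e, bit G b w = bit G₁ b w := fun w hw => bit_congr (xb w hw)
  have xa' : ∀ w ∈ Xs a b c e, bit G a w = bit G₁ a w := fun w hw => bit_congr (xa w hw)
  -- bits in terms of `M`
  have hM1 : bit G a c + bit G a e = rowA a c e G₁ := by
    rw [← hr, ← hm]; simp only [rA, mm, bit_eq_toNat]
  have hM2 : bit G a c + bit G b c = colC a b c G₂ := by
    rw [← hc, ← hm]; simp only [cC, mm, bit_eq_toNat]
  have hM3 : bit G a c + bit G a e + bit G b c + bit G b e = tot a b c e G₁ := by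
    rw [← ht, ← hm]; simp only [tO, mm, bit_eq_toNat]
  have htot := tot_eq h' hG₁ hG₂ hk
  have dAB := bit_congr xAB
  have dCE := bit_congr xCE
  unfold rowA at hM1
  unfold colC at hM2
  unfold tot at hM3 htot
  refine ⟨G, ?_, ?_, ?_, ?_, hm⟩
  · refine Finset.mem_filter.2 ⟨Finset.mem_univ _, fun v => ?_⟩
    rw [deg_eq_sum, sum_split h']
    by_cases va : v = a
    · subst va
      have dd := deg_a h' hG₁
      have dx := Xsum_congr (v := v) xa
      rw [bit_self]; omega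
    by_cases vb : v = b
    · subst vb
      have dd := deg_b h' hG₁
      have dx := Xsum_congr (v := v) xb
      rw [bit_self, bit_comm G v a]; omega
    by_cases vc : v = c
    · subst vc
      have dd := deg_c h' hG₂
      have dx := Xsum_congr (v := v) xc
      rw [bit_self, bit_comm G v a, bit_comm G v b]; omega
    by_cases ve : v = e
    · subst ve
      have dd := deg_e h' hG₂
      have dx := Xsum_congr (v := v) xe
      rw [bit_self, bit_comm G v a, bit_comm G v b, bit_comm G v c]; omega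
    have hv : v ∈ Xs a b c e := mem_Xs.2 ⟨va, vb, vc, ve⟩
    have dd := deg_w h' hG₂ v
    have dx : ∑ u ∈ Xs a b c e, bit G v u = ∑ u ∈ Xs a b c e, bit G₂ v u :=
      Finset.sum_congr rfl fun u hu => bit_congr ((xX v hv u hu).trans (k1 v hv u hu))
    rw [bit_comm G v a, bit_comm G v b, bit_comm G v c, bit_comm G v e,
      bit_congr (xa v hv), bit_congr (xb v hv), bit_congr (xc v hv), bit_congr (xe v hv), dx]
    have := k4 v hv
    omega
  · rw [key_eq_iff]
    refine ⟨fun u hu v hv => (xX u hu v hv).symm, dAB.symm, ?_, ?_⟩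
    · omega
    · intro w hw
      rw [xa' w hw, xb' w hw]
  · rw [yy_eq_iff]; exact xa
  · rw [yy'_eq_iff]; exact xc

/-- The block of `G₀`. -/
noncomputable def blk (d : Fin n → ℕ) (a b c e : Fin n) (G₀ : Gr n) : Finset (Gr n) :=
  (realizations d).filter fun G => key a b c e G = key a b c e G₀

theorem mem_blk {d : Fin n → ℕ} {a b c e : Fin n} {G₀ G : Gr n} :
    G ∈ blk d a b c e G₀ ↔ G ∈ realizations d ∧ key a b c e G = key a b c e G₀ :=
  Finset.mem_filter

/-- Fibre sizes in terms of bits. -/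
theorem card_fibre {d : Fin n → ℕ} {a b c e : Fin n} (h : Dist4 a b c e) {G₀ G₁ G₂ : Gr n}
    (hG₁ : G₁ ∈ blk d a b c e G₀) (hG₂ : G₂ ∈ blk d a b c e G₀) :
    ((blk d a b c e G₀).filter fun s => yy a b c e s = yy a b c e G₁ ∧ yy' a b c e s = yy' a b c e G₂).card =
      (if tot a b c e G₁ = 2 ∧ rowA a c e G₁ = 1 ∧ colC a b c G₂ = 1 then 2
        else if tot a b c e G₁ = 2 ∧ rowA a c e G₁ ≠ 1 ∧ colC a b c G₂ ≠ 1 then 0 else 1) := by
  obtain ⟨g1, k1⟩ := mem_blk.1 hG₁
  obtain ⟨g2, k2⟩ := mem_blk.1 hG₂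
  have k12 : key a b c e G₁ = key a b c e G₂ := k1.trans k2.symm
  have hbits := bits_count (mm a b c e G₁) (mm a b c e G₂)
    (by rw [tO_mm, tO_mm]; exact tot_eq h g1 g2 k12)
  rw [rA_mm, cC_mm, tO_mm] at hbits
  rw [← hbits]
  apply Finset.card_bij (fun s _ => mm a b c e s)
  · intro s hs
    obtain ⟨hs1, hs2, hs3⟩ := Finset.mem_filter.1 hs |>.imp id id |> fun x => (⟨x.1, x.2.1, x.2.2⟩ : _ ∧ _ ∧ _)
    obtain ⟨g, k⟩ := mem_blk.1 hs1
    refine Finset.mem_filter.2 ⟨Finset.mem_univ _, ?_, ?_, ?_⟩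
    · rw [rA_mm]; exact rowA_eq h g g1 (k.trans k1.symm) hs2
    · rw [cC_mm]; exact colC_eq h g g2 (k.trans k2.symm) hs3
    · rw [tO_mm]; exact tot_eq h g g1 (k.trans k1.symm)
  · intro s hs t ht hm
    obtain ⟨hs1, hs2, hs3⟩ := Finset.mem_filter.1 hs |>.imp id id |> fun x => (⟨x.1, x.2.1, x.2.2⟩ : _ ∧ _ ∧ _)
    obtain ⟨ht1, ht2, ht3⟩ := Finset.mem_filter.1 ht |>.imp id id |> fun x => (⟨x.1, x.2.1, x.2.2⟩ : _ ∧ _ ∧ _)
    obtain ⟨g, k⟩ := mem_blk.1 hs1
    obtain ⟨g', k'⟩ := mem_blk.1 ht1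
    exact eq_of_same h g g' (k.trans k'.symm) (hs2.trans ht2.symm) (hs3.trans ht3.symm) hm
  · intro M hM
    obtain ⟨_, m1, m2, m3⟩ := Finset.mem_filter.1 hM |> fun x => (⟨x.1, x.2.1, x.2.2.1, x.2.2.2⟩ : _ ∧ _ ∧ _ ∧ _)
    obtain ⟨G, gG, kG, y1, y2, y3⟩ := cross h g1 g2 k12 M m1 m2 m3
    exact ⟨G, Finset.mem_filter.2 ⟨mem_blk.2 ⟨gG, kG.symm.trans k1⟩, y1, y2⟩, y3⟩

/-- `isD` in terms of bits. -/
theorem isD_iff_bits (a b c e : Fin n) (G : Gr n) :
    isD a b c e G ↔ tot a b c e G = 2 ∧ rowA a c e G = 1 ∧ colC a b c G = 1 := by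
  unfold isD tot rowA colC bit
  by_cases h1 : Adj G a c <;> by_cases h2 : Adj G a e <;> by_cases h3 : Adj G b c <;>
    by_cases h4 : Adj G b e <;> simp [h1, h2, h3, h4]

end PairBlk
end Crest.Agent.Lib.S0453
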