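/-
S0453 task PAIR: the block inequality for two disjoint pairs, from Block.block_ineq and Api.
Fix a,b,c,e distinct, X = V∖{a,b,c,e}.  Partition Ω by key(G) = (G[X], bit ab, bit ce, t = (w ↦ x_aw + x_bw)_{w∈X}); both `Same a b` and `Same c e` preserve key (degrees!).
On a block S put y G = N_G(a) ∩ X, y' G = N_G(c) ∩ X.  Within S:  Same a b G G' ⟺ y' G = y' G' ;  Same c e G G' ⟺ y G = y G'.
Cross block M = bits (ac, ae, bc, be); e_tot = ∑M is constant on S.  row_a = ac+ae = const - |y|, col_c = ac+bc = const' - |y'|.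
If e_tot ≠ 2: G ↔ (y,y') is a bijection S ≃ Y₀×Y₀': apply block_ineq with Lc = ∅, Cc = ∅, Rc = Y₀, Lc' = Y₀'.
If e_tot = 2: Lc = {y : row_a = 1}, Lc' = {y' : col_c = 1}, Rc = rest of y-values, Cc = rest of y'-values: n(v,v') as in Block: for fixed y-value v take G₁ with y G₁ = v; the `Same c e`-fibre of G₁ IS {G∈S: y G = v} ≅ slice(excl G₁ c e, p') by Api; excl G₁ c e ∩ {a,b} = {a,b} if row_a = 1 and ∅ if row_a ∈ {0,2}.
So counts: row_a=1 & col_c=1: T ⊆ {a,b}, |T| = 1: 2 states (the two matchings, exchanged by swD); row_a=1 & col_c ∈{0,2}: unique; row_a ∈ {0,2} ⇒ col_c = 1 & unique.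
D-states of block = {y∈Lc, y'∈Lc'} = S ∩ isD.  `Dfib d a b c e G` = (S∩isD) ∩ {y' = y' G}.  Sum block_ineq over blocks.
-/
import Crest.Agent.Lib.S0453.PairAux

set_option autoImplicit false
open Finset Crest.SwitchChain
open scoped Classical

namespace Crest.Agent.Lib.S0453

variable {n : ℕ}

namespace PairBlk

theorem fib_ab_eq {d : Fin n → ℕ} {a b c e : Fin n} (h : Dist4 a b c e) {G₀ s : Gr n}
    (hs : s ∈ blk d a b c e G₀) :
    fib d a b s = (blk d a b c e G₀).filter fun t => yy' a b c e t = yy' a b c e s := by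
  obtain ⟨g, k⟩ := mem_blk.1 hs
  ext t
  rw [Finset.mem_filter, mem_blk]
  unfold fib
  rw [Finset.mem_filter]
  constructor
  · intro ht
    have hk := key_of_fib_ab h g (Finset.mem_filter.2 ht)
    exact ⟨⟨ht.1, hk.symm.trans k⟩, ((Same_ab_iff h g ht.1 hk).1 ht.2).symm⟩
  · rintro ⟨⟨g', k'⟩, hy⟩
    exact ⟨g', (Same_ab_iff h g g' (k.trans k'.symm)).2 hy.symm⟩

theorem fib_ce_eq {d : Fin n → ℕ} {a b c e : Fin n} (h : Dist4 a b c e) {G₀ s : Gr n}
    (hs : s ∈ blk d a b c e G₀) :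
    fib d c e s = (blk d a b c e G₀).filter fun t => yy a b c e t = yy a b c e s := by
  obtain ⟨g, k⟩ := mem_blk.1 hs
  ext t
  rw [Finset.mem_filter, mem_blk]
  unfold fib
  rw [Finset.mem_filter]
  constructor
  · intro ht
    have hk := key_of_fib_ce h g (Finset.mem_filter.2 ht)
    exact ⟨⟨ht.1, hk.symm.trans k⟩, ((Same_ce_iff h hk).1 ht.2).symm⟩
  · rintro ⟨⟨g', k'⟩, hy⟩
    exact ⟨g', (Same_ce_iff h (k.trans k'.symm)).2 hy.symm⟩

/-- The block inequality, given the shape of the counts. -/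
theorem block_of_data {d : Fin n → ℕ} {a b c e : Fin n} (h : Dist4 a b c e) {G₀ : Gr n}
    (Rc Lc Cc Lc' : Finset (Finset (Fin n)))
    (hRL : Disjoint Rc Lc) (hCL : Disjoint Cc Lc')
    (hS : ∀ s ∈ blk d a b c e G₀, (yy a b c e s ∈ Rc ∧ yy' a b c e s ∈ Lc') ∨
      (yy a b c e s ∈ Lc ∧ yy' a b c e s ∈ Cc) ∨ (yy a b c e s ∈ Lc ∧ yy' a b c e s ∈ Lc'))
    (hR : ∀ v ∈ Rc, ∀ v' ∈ Lc',
      ((blk d a b c e G₀).filter fun s => yy a b c e s = v ∧ yy' a b c e s = v').card = 1)
    (hC : ∀ v ∈ Lc, ∀ v' ∈ Cc,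
      ((blk d a b c e G₀).filter fun s => yy a b c e s = v ∧ yy' a b c e s = v').card = 1)
    (hD : ∀ v ∈ Lc, ∀ v' ∈ Lc',
      ((blk d a b c e G₀).filter fun s => yy a b c e s = v ∧ yy' a b c e s = v').card = 2)
    (hfilt : ∀ s ∈ blk d a b c e G₀, (yy a b c e s ∈ Lc ∧ yy' a b c e s ∈ Lc') ↔ isD a b c e s)
    (f : Gr n → ℝ) :
    ∑ G ∈ (blk d a b c e G₀).filter (isD a b c e),
        ((f G - f (swD a b c e G)) ^ 2 / 4 + Aop d a b c e f G * Aop d c e a b f G)
      ≤ ∑ G ∈ blk d a b c e G₀, K d a b f G * K d c e f G := by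
  have hsw : ∀ s ∈ blk d a b c e G₀, yy a b c e s ∈ Lc → yy' a b c e s ∈ Lc' →
      swD a b c e s ∈ blk d a b c e G₀ ∧ swD a b c e s ≠ s ∧
        yy a b c e (swD a b c e s) = yy a b c e s ∧ yy' a b c e (swD a b c e s) = yy' a b c e s := by
    intro s hs h1 h2
    obtain ⟨g, k⟩ := mem_blk.1 hs
    have hDs : isD a b c e s := (hfilt s hs).1 ⟨h1, h2⟩
    have hs' : s ∈ Dset d a b c e := Finset.mem_filter.2 ⟨g, hDs⟩
    obtain ⟨_, f1, f2, _, hne, _⟩ := swD_spec h hs'
    have k1 := key_of_fib_ab h g f1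
    have k2 := key_of_fib_ce h g f2
    have g1 := (Finset.mem_filter.1 f1).1
    refine ⟨mem_blk.2 ⟨g1, k1.symm.trans k⟩, hne, ?_, ?_⟩
    · exact ((Same_ce_iff h k2).1 (Finset.mem_filter.1 f2).2).symm
    · exact ((Same_ab_iff h g g1 k1).1 (Finset.mem_filter.1 f1).2).symm
  have main := Block.block_ineq (blk d a b c e G₀) (yy a b c e) (yy' a b c e) Rc Lc Cc Lc'
    hRL hCL hS (fun v hv v' hv' => by convert hR v hv v' hv')
    (fun v hv v' hv' => by convert hC v hv v' hv') (fun v hv v' hv' => by convert hD v hv v' hv')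
    (swD a b c e) hsw f
  have e1 : ∀ (inst : DecidablePred fun s => yy a b c e s ∈ Lc ∧ yy' a b c e s ∈ Lc'),
      @Finset.filter _ (fun s => yy a b c e s ∈ Lc ∧ yy' a b c e s ∈ Lc') inst (blk d a b c e G₀) =
      (blk d a b c e G₀).filter (isD a b c e) := by
    intro inst
    ext s
    simp only [Finset.mem_filter]
    exact and_congr_right fun hs => hfilt s hs
  rw [e1] at main
  refine le_trans (le_of_eq ?_) (le_trans main (le_of_eq ?_))
  · refine Finset.sum_congr rfl fun s hs => ?_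
    have hs0 := (Finset.mem_filter.1 hs).1
    have e2 : Dfib d a b c e s =
        ((blk d a b c e G₀).filter (isD a b c e)).filter fun t => yy' a b c e t = yy' a b c e s := by
      unfold Dfib
      rw [fib_ab_eq h hs0, Finset.filter_comm]
    have e3 : Dfib d c e a b s =
        ((blk d a b c e G₀).filter (isD a b c e)).filter fun t => yy a b c e t = yy a b c e s := by
      unfold Dfib
      rw [fib_ce_eq h hs0, Finset.filter_comm]
      congr 1
      exact Finset.filter_congr fun t _ => (isD_comm t).symm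
    unfold Aop E
    rw [e2, e3, fib_ab_eq h hs0, fib_ce_eq h hs0]
    congr!
  · refine Finset.sum_congr rfl fun s hs => ?_
    unfold K E
    rw [fib_ab_eq h hs, fib_ce_eq h hs]
    congr!

/-- The block inequality. -/
theorem block_case {d : Fin n → ℕ} {a b c e : Fin n} (h : Dist4 a b c e) {G₀ : Gr n}
    (hG₀ : G₀ ∈ realizations d) (f : Gr n → ℝ) :
    ∑ G ∈ (blk d a b c e G₀).filter (isD a b c e),
        ((f G - f (swD a b c e G)) ^ 2 / 4 + Aop d a b c e f G * Aop d c e a b f G)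
      ≤ ∑ G ∈ blk d a b c e G₀, K d a b f G * K d c e f G := by
  have htot : ∀ s ∈ blk d a b c e G₀, tot a b c e s = tot a b c e G₀ := fun s hs =>
    tot_eq h (mem_blk.1 hs).1 hG₀ (mem_blk.1 hs).2
  by_cases ht : tot a b c e G₀ = 2
  · -- the `L`-shaped block
    refine block_of_data h
      (((blk d a b c e G₀).filter fun s => rowA a c e s ≠ 1).image (yy a b c e))
      (((blk d a b c e G₀).filter fun s => rowA a c e s = 1).image (yy a b c e))
      (((blk d a b c e G₀).filter fun s => colC a b c s ≠ 1).image (yy' a b c e))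
      (((blk d a b c e G₀).filter fun s => colC a b c s = 1).image (yy' a b c e))
      ?_ ?_ ?_ ?_ ?_ ?_ ?_ f
    · rw [Finset.disjoint_left]
      intro v hv hv'
      obtain ⟨s, hs, rfl⟩ := Finset.mem_image.1 hv
      obtain ⟨t, ht', htv⟩ := Finset.mem_image.1 hv'
      obtain ⟨hs1, hs2⟩ := Finset.mem_filter.1 hs
      obtain ⟨ht1, ht2⟩ := Finset.mem_filter.1 ht'
      obtain ⟨g, k⟩ := mem_blk.1 hs1
      obtain ⟨g', k'⟩ := mem_blk.1 ht1
      exact hs2 ((rowA_eq h g g' (k.trans k'.symm) htv.symm).trans ht2)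
    · rw [Finset.disjoint_left]
      intro v hv hv'
      obtain ⟨s, hs, rfl⟩ := Finset.mem_image.1 hv
      obtain ⟨t, ht', htv⟩ := Finset.mem_image.1 hv'
      obtain ⟨hs1, hs2⟩ := Finset.mem_filter.1 hs
      obtain ⟨ht1, ht2⟩ := Finset.mem_filter.1 ht'
      obtain ⟨g, k⟩ := mem_blk.1 hs1
      obtain ⟨g', k'⟩ := mem_blk.1 ht1
      exact hs2 ((colC_eq h g g' (k.trans k'.symm) htv.symm).trans ht2)
    · intro s hs
      have hts := (htot s hs).trans ht
      by_cases h1 : rowA a c e s = 1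
      · by_cases h2 : colC a b c s = 1
        · exact Or.inr (Or.inr ⟨Finset.mem_image_of_mem _ (Finset.mem_filter.2 ⟨hs, h1⟩),
            Finset.mem_image_of_mem _ (Finset.mem_filter.2 ⟨hs, h2⟩)⟩)
        · exact Or.inr (Or.inl ⟨Finset.mem_image_of_mem _ (Finset.mem_filter.2 ⟨hs, h1⟩),
            Finset.mem_image_of_mem _ (Finset.mem_filter.2 ⟨hs, h2⟩)⟩)
      · have h2 : colC a b c s = 1 := by
          have := bits_shape (mm a b c e s) (by rw [tO_mm]; exact hts) (by rw [rA_mm]; exact h1)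
          rwa [cC_mm] at this
        exact Or.inl ⟨Finset.mem_image_of_mem _ (Finset.mem_filter.2 ⟨hs, h1⟩),
            Finset.mem_image_of_mem _ (Finset.mem_filter.2 ⟨hs, h2⟩)⟩
    · intro v hv v' hv'
      obtain ⟨s, hs, rfl⟩ := Finset.mem_image.1 hv
      obtain ⟨t, ht', rfl⟩ := Finset.mem_image.1 hv'
      obtain ⟨hs1, hs2⟩ := Finset.mem_filter.1 hs
      obtain ⟨ht1, ht2⟩ := Finset.mem_filter.1 ht'
      rw [card_fibre h hs1 ht1, if_neg (fun x => hs2 x.2.1), if_neg (fun x => x.2.2 ht2)]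
    · intro v hv v' hv'
      obtain ⟨s, hs, rfl⟩ := Finset.mem_image.1 hv
      obtain ⟨t, ht', rfl⟩ := Finset.mem_image.1 hv'
      obtain ⟨hs1, hs2⟩ := Finset.mem_filter.1 hs
      obtain ⟨ht1, ht2⟩ := Finset.mem_filter.1 ht'
      rw [card_fibre h hs1 ht1, if_neg (fun x => ht2 x.2.2), if_neg (fun x => x.2.1 hs2)]
    · intro v hv v' hv'
      obtain ⟨s, hs, rfl⟩ := Finset.mem_image.1 hv
      obtain ⟨t, ht', rfl⟩ := Finset.mem_image.1 hv'
      obtain ⟨hs1, hs2⟩ := Finset.mem_filter.1 hs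
      obtain ⟨ht1, ht2⟩ := Finset.mem_filter.1 ht'
      rw [card_fibre h hs1 ht1, if_pos ⟨(htot s hs1).trans ht, hs2, ht2⟩]
    · intro s hs
      obtain ⟨g, k⟩ := mem_blk.1 hs
      rw [isD_iff_bits]
      constructor
      · rintro ⟨h1, h2⟩
        obtain ⟨t, ht', htv⟩ := Finset.mem_image.1 h1
        obtain ⟨t', ht'', htv'⟩ := Finset.mem_image.1 h2
        obtain ⟨ht1, ht2⟩ := Finset.mem_filter.1 ht'
        obtain ⟨ht1', ht2'⟩ := Finset.mem_filter.1 ht''
        obtain ⟨g1, k1⟩ := mem_blk.1 ht1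
        obtain ⟨g1', k1'⟩ := mem_blk.1 ht1'
        exact ⟨(htot s hs).trans ht, (rowA_eq h g g1 (k.trans k1.symm) htv.symm).trans ht2,
          (colC_eq h g g1' (k.trans k1'.symm) htv'.symm).trans ht2'⟩
      · rintro ⟨_, h2, h3⟩
        exact ⟨Finset.mem_image_of_mem _ (Finset.mem_filter.2 ⟨hs, h2⟩),
          Finset.mem_image_of_mem _ (Finset.mem_filter.2 ⟨hs, h3⟩)⟩
  · -- the product block
    refine block_of_data h ((blk d a b c e G₀).image (yy a b c e)) ∅ ∅
      ((blk d a b c e G₀).image (yy' a b c e)) (Finset.disjoint_empty_right _)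
      (Finset.disjoint_empty_left _) ?_ ?_ ?_ ?_ ?_ f
    · intro s hs
      exact Or.inl ⟨Finset.mem_image_of_mem _ hs, Finset.mem_image_of_mem _ hs⟩
    · intro v hv v' hv'
      obtain ⟨s, hs, rfl⟩ := Finset.mem_image.1 hv
      obtain ⟨t, ht', rfl⟩ := Finset.mem_image.1 hv'
      have hne : tot a b c e s ≠ 2 := fun x => ht ((htot s hs).symm.trans x)
      rw [card_fibre h hs ht', if_neg (fun x => hne x.1), if_neg (fun x => hne x.1)]
    · intro v hv
      exact absurd hv (Finset.notMem_empty _)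
    · intro v hv
      exact absurd hv (Finset.notMem_empty _)
    · intro s hs
      rw [isD_iff_bits]
      constructor
      · rintro ⟨h1, _⟩
        exact absurd h1 (Finset.notMem_empty _)
      · rintro ⟨h1, _, _⟩
        exact absurd ((htot s hs).symm.trans h1) ht

end PairBlk

open PairBlk in
/-- (PAIR) Block inequality for two disjoint pairs. -/
theorem pair_ineq (d : Fin n → ℕ) (a b c e : Fin n) (h : Dist4 a b c e) (f : Gr n → ℝ) :
    ∑ G ∈ Dset d a b c e,
        ((f G - f (swD a b c e G)) ^ 2 / 4 + Aop d a b c e f G * Aop d c e a b f G)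
      ≤ ip d (K d a b f) (K d c e f) := by
  classical
  set T := (realizations d).image (key a b c e) with hT
  have h1 : ∀ G ∈ realizations d, key a b c e G ∈ T := fun G hG => Finset.mem_image_of_mem _ hG
  have h2 : ∀ G ∈ Dset d a b c e, key a b c e G ∈ T := fun G hG =>
    h1 G (Finset.mem_filter.1 hG).1
  unfold ip
  rw [← Finset.sum_fiberwise_of_maps_to h1 (fun G => K d a b f G * K d c e f G),
    ← Finset.sum_fiberwise_of_maps_to h2
      (fun G => (f G - f (swD a b c e G)) ^ 2 / 4 + Aop d a b c e f G * Aop d c e a b f G)]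
  refine Finset.sum_le_sum fun k hk => ?_
  obtain ⟨G₀, hG₀, rfl⟩ := Finset.mem_image.1 hk
  have := block_case h hG₀ f
  unfold blk at this
  unfold Dset
  rw [Finset.filter_comm]
  exact this

end Crest.Agent.Lib.S0453
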