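/-
S0453 task TRIOFVAR (abstract algebra): from Var(∑ g_i∘ρ_i) ≤ 2 ∑ Var(g_i∘ρ_i) on a finite set S, to nonnegativity of the three cross terms of K_i = I - Π_i.
With f mean zero, g_i = Π_i f: ∑_i ‖g_i‖² = ⟨f,∑g_i⟩ ≤ ‖f‖ ‖∑g_i‖ ≤ ‖f‖ √2 (∑‖g_i‖²)^{1/2}, so T' = ∑Π_i ≤ 2 on mean-zero, and
∑_{i<j} 2⟨K_i f,K_j f⟩ = ⟨f,(3-T')(2-T') f⟩ = ‖(2-T')f‖² + ⟨f,(2-T')f⟩ ≥ 0.  (K_i vanish on constants, so reduce to mean-zero f.)
-/
import Crest.Agent.Lib.S0453.Table3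

set_option autoImplicit false
open Finset
open scoped Classical

namespace Crest.Agent.Lib.S0453.Table3

variable {β γ : Type*}

/-- Tower property of the fibre average. -/
theorem tower_avg (S : Finset β) (ρ : β → γ) (f : β → ℝ) (h : γ → ℝ) :
    ∑ s ∈ S, avg (S.filter fun t => ρ t = ρ s) f * h (ρ s) = ∑ s ∈ S, f s * h (ρ s) := by
  have hm : ∀ x ∈ S, ρ x ∈ S.image ρ := fun x hx => mem_image_of_mem _ hx
  rw [← sum_fiberwise_of_maps_to hm (fun s => avg (S.filter fun t => ρ t = ρ s) f * h (ρ s)),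
      ← sum_fiberwise_of_maps_to hm (fun s => f s * h (ρ s))]
  refine sum_congr rfl fun y hy => ?_
  have hne : (S.filter fun t => ρ t = y).Nonempty := by
    obtain ⟨x, hx, rfl⟩ := mem_image.mp hy
    exact ⟨x, mem_filter.mpr ⟨hx, rfl⟩⟩
  have hc : ((S.filter fun t => ρ t = y).card : ℝ) ≠ 0 := by
    exact_mod_cast (card_pos.mpr hne).ne'
  have h1 : ∀ s ∈ S.filter (fun t => ρ t = y),
      avg (S.filter fun t => ρ t = ρ s) f * h (ρ s) = avg (S.filter fun t => ρ t = y) f * h y := by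
    intro s hs
    rw [(mem_filter.mp hs).2]
  have h2 : ∀ s ∈ S.filter (fun t => ρ t = y), f s * h (ρ s) = f s * h y := by
    intro s hs
    rw [(mem_filter.mp hs).2]
  rw [sum_congr rfl h1, sum_congr rfl h2, sum_const, nsmul_eq_mul, ← sum_mul]
  unfold avg
  field_simp

/-- Variance of a function with zero sum. -/
theorem varS_of_sum_zero (S : Finset β) (φ : β → ℝ) (h : ∑ s ∈ S, φ s = 0) :
    varS S φ = ∑ s ∈ S, φ s ^ 2 := by
  unfold varS avg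
  rw [h]
  simp

theorem cross_nonneg_zero (S : Finset β) (ρ : Fin 3 → β → γ)
    (hvar : ∀ g : Fin 3 → γ → ℝ,
      varS S (fun s => ∑ i, g i (ρ i s)) ≤ 2 * ∑ i, varS S (fun s => g i (ρ i s)))
    (f : β → ℝ) (hf : ∑ s ∈ S, f s = 0) :
    0 ≤ ∑ s ∈ S,
      ((f s - avg (S.filter fun t => ρ 0 t = ρ 0 s) f) * (f s - avg (S.filter fun t => ρ 1 t = ρ 1 s) f) +
       (f s - avg (S.filter fun t => ρ 0 t = ρ 0 s) f) * (f s - avg (S.filter fun t => ρ 2 t = ρ 2 s) f) +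
       (f s - avg (S.filter fun t => ρ 1 t = ρ 1 s) f) * (f s - avg (S.filter fun t => ρ 2 t = ρ 2 s) f)) := by
  set gh : Fin 3 → γ → ℝ := fun i y => avg (S.filter fun t => ρ i t = y) f with hgh
  have hg : ∀ i s, avg (S.filter fun t => ρ i t = ρ i s) f = gh i (ρ i s) := fun _ _ => rfl
  simp only [hg]
  have tw : ∀ i (h : γ → ℝ), ∑ s ∈ S, gh i (ρ i s) * h (ρ i s) = ∑ s ∈ S, f s * h (ρ i s) :=
    fun i h => tower_avg S (ρ i) f h
  have hzero : ∀ i, ∑ s ∈ S, gh i (ρ i s) = 0 := by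
    intro i
    have := tw i (fun _ => 1)
    simpa [hf] using this
  have hsq : ∀ i, ∑ s ∈ S, gh i (ρ i s) ^ 2 = ∑ s ∈ S, f s * gh i (ρ i s) := by
    intro i
    have := tw i (gh i)
    rw [← this]
    exact sum_congr rfl fun s _ => by ring
  have hv := hvar gh
  have hF0 : ∑ s ∈ S, ∑ i, gh i (ρ i s) = 0 := by
    simp only [Fin.sum_univ_three]
    rw [sum_add_distrib, sum_add_distrib, hzero 0, hzero 1, hzero 2]
    ring
  rw [varS_of_sum_zero S _ hF0] at hv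
  simp only [Fin.sum_univ_three] at hv
  rw [varS_of_sum_zero S _ (hzero 0), varS_of_sum_zero S _ (hzero 1),
      varS_of_sum_zero S _ (hzero 2), hsq 0, hsq 1, hsq 2] at hv
  have hA : 0 ≤ ∑ s ∈ S, (2 * f s - (gh 0 (ρ 0 s) + gh 1 (ρ 1 s) + gh 2 (ρ 2 s))) ^ 2 :=
    sum_nonneg fun s _ => sq_nonneg _
  have hf2 : 0 ≤ ∑ s ∈ S, f s ^ 2 := sum_nonneg fun s _ => sq_nonneg _
  set X := ∑ s ∈ S, f s ^ 2
  set a0 := ∑ s ∈ S, f s * gh 0 (ρ 0 s)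
  set a1 := ∑ s ∈ S, f s * gh 1 (ρ 1 s)
  set a2 := ∑ s ∈ S, f s * gh 2 (ρ 2 s)
  set Y := ∑ s ∈ S, (gh 0 (ρ 0 s) + gh 1 (ρ 1 s) + gh 2 (ρ 2 s)) ^ 2
  have hA' : ∑ s ∈ S, (2 * f s - (gh 0 (ρ 0 s) + gh 1 (ρ 1 s) + gh 2 (ρ 2 s))) ^ 2
      = 4 * X - 4 * (a0 + a1 + a2) + Y := by
    have : ∀ s ∈ S, (2 * f s - (gh 0 (ρ 0 s) + gh 1 (ρ 1 s) + gh 2 (ρ 2 s))) ^ 2
        = 4 * f s ^ 2 - 4 * (f s * gh 0 (ρ 0 s) + f s * gh 1 (ρ 1 s) + f s * gh 2 (ρ 2 s))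
          + (gh 0 (ρ 0 s) + gh 1 (ρ 1 s) + gh 2 (ρ 2 s)) ^ 2 := fun s _ => by ring
    rw [sum_congr rfl this, sum_add_distrib, sum_sub_distrib, ← mul_sum, ← mul_sum,
      sum_add_distrib, sum_add_distrib]
  have hgoal : ∑ s ∈ S,
      ((f s - gh 0 (ρ 0 s)) * (f s - gh 1 (ρ 1 s)) +
       (f s - gh 0 (ρ 0 s)) * (f s - gh 2 (ρ 2 s)) +
       (f s - gh 1 (ρ 1 s)) * (f s - gh 2 (ρ 2 s)))
      = (6 * X - 5 * (a0 + a1 + a2) + Y) / 2 := by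
    have : ∀ s ∈ S, ((f s - gh 0 (ρ 0 s)) * (f s - gh 1 (ρ 1 s)) +
       (f s - gh 0 (ρ 0 s)) * (f s - gh 2 (ρ 2 s)) +
       (f s - gh 1 (ρ 1 s)) * (f s - gh 2 (ρ 2 s)))
        = 3 * f s ^ 2 - 2 * (f s * gh 0 (ρ 0 s) + f s * gh 1 (ρ 1 s) + f s * gh 2 (ρ 2 s))
          + ((gh 0 (ρ 0 s) + gh 1 (ρ 1 s) + gh 2 (ρ 2 s)) ^ 2
              - (gh 0 (ρ 0 s) ^ 2 + gh 1 (ρ 1 s) ^ 2 + gh 2 (ρ 2 s) ^ 2)) / 2 := fun s _ => by ring
    rw [sum_congr rfl this, sum_add_distrib, sum_sub_distrib, ← mul_sum, ← mul_sum,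
      sum_add_distrib, sum_add_distrib, ← sum_div, sum_sub_distrib, sum_add_distrib,
      sum_add_distrib, hsq 0, hsq 1, hsq 2]
    ring
  rw [hgoal]
  rw [hA'] at hA
  linarith

/-- Cross terms from the variance bound.  `ρ i` labels (a row), `Ki i f s = f s - avg over {t ∈ S | ρ i t = ρ i s} f`. -/
theorem cross_nonneg (S : Finset β) (ρ : Fin 3 → β → γ)
    (hvar : ∀ g : Fin 3 → γ → ℝ, varS S (fun s => ∑ i, g i (ρ i s)) ≤ 2 * ∑ i, varS S (fun s => g i (ρ i s)))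
    (f : β → ℝ) :
    let Ki : Fin 3 → β → ℝ := fun i s => f s - avg (S.filter fun t => ρ i t = ρ i s) f
    0 ≤ ∑ s ∈ S, (Ki 0 s * Ki 1 s + Ki 0 s * Ki 2 s + Ki 1 s * Ki 2 s) := by
  intro Ki
  set m := avg S f with hm
  set f0 : β → ℝ := fun s => f s - m with hf0
  have hsum : ∑ s ∈ S, f0 s = 0 := by
    simp only [hf0, sum_sub_distrib, sum_const, nsmul_eq_mul]
    by_cases hS : S = ∅
    · simp [hS]
    · have hc : (S.card : ℝ) ≠ 0 := by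
        exact_mod_cast (card_pos.mpr (nonempty_iff_ne_empty.mpr hS)).ne'
      rw [hm]; unfold avg; field_simp; ring
  have hK : ∀ i, ∀ s ∈ S, Ki i s = f0 s - avg (S.filter fun t => ρ i t = ρ i s) f0 := by
    intro i s hs
    have hne : (S.filter fun t => ρ i t = ρ i s).Nonempty := ⟨s, mem_filter.mpr ⟨hs, rfl⟩⟩
    have hc : ((S.filter fun t => ρ i t = ρ i s).card : ℝ) ≠ 0 := by
      exact_mod_cast (card_pos.mpr hne).ne'
    have : avg (S.filter fun t => ρ i t = ρ i s) f0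
        = avg (S.filter fun t => ρ i t = ρ i s) f - m := by
      unfold avg
      simp only [hf0, sum_sub_distrib, sum_const, nsmul_eq_mul]
      field_simp
    rw [this]
    simp only [Ki, hf0]
    ring
  have := cross_nonneg_zero S ρ hvar f0 hsum
  refine this.trans_eq (sum_congr rfl fun s hs => ?_)
  rw [hK 0 s hs, hK 1 s hs, hK 2 s hs]

end Crest.Agent.Lib.S0453.Table3
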