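/-
S0453 task TRIPLE: triple lemma on graphs, from Table3.three_row, Table3.cross_nonneg and Api.
Fix distinct u,v,w, X = V∖{u,v,w}.  Partition Ω by G[X].  On a block S: m = #edges inside {u,v,w} is constant (2m = ∑ d - ∑_x r_x, r_x = #N(x)∩{u,v,w}).
Table on columns C = Option X (some x ↦ x; none = extra column z): row i ∈{u,v,w}: R_i = (N(i) ∩ X) ∪ (z if the edge opposite to i is ABSENT),
so |R_i| + m = d_i + 1, column sums r_x, and col z has sum 3 - m.  G ↦ R is a bijection S ≃ tables.
Within S: Same v w G G' ⟺ N_G(u)∩X = N_G'(u)∩X ⟺ R_u equal (z_u determined by the row size).  So K d v w f = K_u (row u) and cross_nonneg gives the inequality on each block.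
-/
import Crest.Agent.Lib.S0453.TriOfVar
import Crest.Agent.Lib.S0453.Api

set_option autoImplicit false
open Finset Crest.SwitchChain
open scoped Classical

namespace Crest.Agent.Lib.S0453

variable {n : ℕ}

namespace TripleAux

variable (τ : Fin 3 → Fin n)

/-- Vertices outside the triple. -/
abbrev XX := {x : Fin n // ∀ i, x ≠ τ i}

/-- Columns of the table: outside vertices plus one extra column `none`. -/
abbrev CC := Option (XX τ)

/-- Row `i` of the table of `G`. -/
noncomputable def row (G : Gr n) (i : Fin 3) : Finset (CC τ) :=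
  univ.filter fun c => match c with
    | some x => Adj G (τ i) x.1
    | none => ¬ Adj G (τ (i+1)) (τ (i+2))

theorem some_mem_row (G : Gr n) (i : Fin 3) (x : XX τ) :
    some x ∈ row τ G i ↔ Adj G (τ i) x.1 := by simp [row]

theorem none_mem_row (G : Gr n) (i : Fin 3) :
    none ∈ row τ G i ↔ ¬ Adj G (τ (i+1)) (τ (i+2)) := by simp [row]

/-- The restriction of `G` to the outside vertices. -/
def key (G : Gr n) : XX τ → XX τ → Prop := fun x y => Adj G x.1 y.1

theorem card_split (hτ : Function.Injective τ) (P : Fin n → Prop) :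
    (univ.filter P).card =
      (univ.filter fun x : XX τ => P x.1).card + (univ.filter fun i => P (τ i)).card := by
  have h1 : (univ.filter fun x : XX τ => P x.1).card =
      ((univ.filter P).filter fun y => ∀ i, y ≠ τ i).card := by
    apply Finset.card_bij (fun x _ => x.1)
    · intro x hx
      simp only [mem_filter, mem_univ, true_and] at hx ⊢
      exact ⟨hx, x.2⟩
    · intro x _ y _ h; exact Subtype.ext h
    · intro y hy
      simp only [mem_filter, mem_univ, true_and] at hy
      exact ⟨⟨y, hy.2⟩, by simpa using hy.1, rfl⟩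
  have h2 : (univ.filter fun i => P (τ i)).card =
      ((univ.filter P).filter fun y => ¬ ∀ i, y ≠ τ i).card := by
    apply Finset.card_bij (fun i _ => τ i)
    · intro i hi
      simp only [mem_filter, mem_univ, true_and] at hi ⊢
      exact ⟨hi, fun h => h i rfl⟩
    · intro i _ j _ h; exact hτ h
    · intro y hy
      simp only [mem_filter, mem_univ, true_and, not_forall, not_not] at hy
      obtain ⟨hP, i, rfl⟩ := hy
      exact ⟨i, by simpa using hP, rfl⟩
  rw [h1, h2]
  exact (Finset.card_filter_add_card_filter_not _).symm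

noncomputable def tt (G : Gr n) (x : XX τ) : ℕ := (univ.filter fun i => Adj G (τ i) x.1).card
noncomputable def ss (G : Gr n) (i : Fin 3) : ℕ := (univ.filter fun x : XX τ => Adj G (τ i) x.1).card
noncomputable def bb (G : Gr n) (i : Fin 3) : ℕ := if Adj G (τ (i+1)) (τ (i+2)) then 1 else 0

theorem card_fin3 (p : Fin 3 → Prop) [DecidablePred p] :
    (univ.filter p).card = (if p 0 then 1 else 0) + (if p 1 then 1 else 0) + (if p 2 then 1 else 0) := by
  rw [Finset.card_filter, Fin.sum_univ_three]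

theorem fin3_cases (i : Fin 3) : i = 0 ∨ i = 1 ∨ i = 2 := by revert i; decide

theorem deg_tau (hτ : Function.Injective τ) (G : Gr n) (i : Fin 3) :
    deg G (τ i) = ss τ G i + bb τ G (i+1) + bb τ G (i+2) := by
  rw [deg_eq_card, card_split τ hτ, card_fin3]
  have e0 : bb τ G 0 = if Adj G (τ 1) (τ 2) then 1 else 0 := rfl
  have e1 : bb τ G 1 = if Adj G (τ 2) (τ 0) then 1 else 0 := rfl
  have e2 : bb τ G 2 = if Adj G (τ 0) (τ 1) then 1 else 0 := rfl
  have h1 := Adj_comm G (τ 0) (τ 1)
  have h2 := Adj_comm G (τ 0) (τ 2)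
  have h3 := Adj_comm G (τ 1) (τ 2)
  have h4 := not_Adj_self G (τ 0)
  have h5 := not_Adj_self G (τ 1)
  have h6 := not_Adj_self G (τ 2)
  obtain rfl | rfl | rfl := fin3_cases i
  · show _ = ss τ G 0 + bb τ G 1 + bb τ G 2
    rw [e1, e2]; simp only [ss, h4, h2]; simp; omega
  · show _ = ss τ G 1 + bb τ G 2 + bb τ G 0
    rw [e2, e0]; simp only [ss, h5, h1]; simp; omega
  · show _ = ss τ G 2 + bb τ G 0 + bb τ G 1
    rw [e0, e1]; simp only [ss, h6, h3]; simp; omega

theorem deg_out (hτ : Function.Injective τ) (G : Gr n) (x : XX τ) :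
    deg G x.1 = (univ.filter fun y : XX τ => Adj G x.1 y.1).card + tt τ G x := by
  rw [deg_eq_card, card_split τ hτ]
  unfold tt
  congr 2
  ext i
  simp only [mem_filter, mem_univ, true_and]
  exact Adj_comm _ _ _

theorem sum_ss (G : Gr n) : ∑ i, ss τ G i = ∑ x, tt τ G x := by
  unfold ss tt
  simp only [Finset.card_filter]
  rw [Finset.sum_comm]

theorem card_row (G : Gr n) (i : Fin 3) : (row τ G i).card + bb τ G i = ss τ G i + 1 := by
  have : (row τ G i).card = (univ.filter fun x : XX τ => some x ∈ row τ G i).card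
      + (if none ∈ row τ G i then 1 else 0) := by
    conv_lhs => rw [show row τ G i = univ.filter (fun c => c ∈ row τ G i) by ext; simp]
    rw [Finset.card_filter, Fintype.sum_option, Finset.card_filter, add_comm]
  rw [this]
  simp only [some_mem_row, none_mem_row, ss, bb]
  split_ifs <;> simp_all

theorem colsum_some (G : Gr n) (x : XX τ) :
    (univ.filter fun i => some x ∈ row τ G i).card = tt τ G x := by
  simp only [some_mem_row, tt]

theorem colsum_none (G : Gr n) :
    (univ.filter fun i => none ∈ row τ G i).card + (bb τ G 0 + bb τ G 1 + bb τ G 2) = 3 := by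
  rw [card_fin3]
  simp only [none_mem_row, bb]
  split_ifs <;> simp_all

variable {τ}

/-- total number of internal edges. -/
noncomputable def mm (τ : Fin 3 → Fin n) (G : Gr n) : ℕ := bb τ G 0 + bb τ G 1 + bb τ G 2

theorem deg_tau_row (hτ : Function.Injective τ) (G : Gr n) (i : Fin 3) :
    deg G (τ i) + 1 = (row τ G i).card + mm τ G := by
  have h1 := deg_tau τ hτ G i
  have h2 := card_row τ G i
  unfold mm
  obtain rfl | rfl | rfl := fin3_cases i
  · change deg G (τ 0) = ss τ G 0 + bb τ G 1 + bb τ G 2 at h1; omega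
  · change deg G (τ 1) = ss τ G 1 + bb τ G 2 + bb τ G 0 at h1; omega
  · change deg G (τ 2) = ss τ G 2 + bb τ G 0 + bb τ G 1 at h1; omega

theorem mem_real {d : Fin n → ℕ} {G : Gr n} : G ∈ realizations d ↔ ∀ v, deg G v = d v := by
  simp [realizations]

theorem key_card {G G' : Gr n} (hk : key τ G = key τ G') (x : XX τ) :
    (univ.filter fun y : XX τ => Adj G x.1 y.1) = (univ.filter fun y : XX τ => Adj G' x.1 y.1) := by
  ext y
  have := congrFun (congrFun hk x) y
  simp only [key] at this
  simp [this]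

theorem tt_eq (hτ : Function.Injective τ) {d : Fin n → ℕ} {G G' : Gr n}
    (hG : G ∈ realizations d) (hG' : G' ∈ realizations d) (hk : key τ G = key τ G') (x : XX τ) :
    tt τ G x = tt τ G' x := by
  have h1 := deg_out τ hτ G x
  have h2 := deg_out τ hτ G' x
  have h3 := mem_real.1 hG x.1
  have h4 := mem_real.1 hG' x.1
  rw [key_card hk x] at h1
  omega

theorem two_mm (hτ : Function.Injective τ) (G : Gr n) :
    2 * mm τ G + ∑ x, tt τ G x = deg G (τ 0) + deg G (τ 1) + deg G (τ 2) := by
  have h0 := deg_tau τ hτ G 0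
  have h1 := deg_tau τ hτ G 1
  have h2 := deg_tau τ hτ G 2
  change deg G (τ 0) = ss τ G 0 + bb τ G 1 + bb τ G 2 at h0
  change deg G (τ 1) = ss τ G 1 + bb τ G 2 + bb τ G 0 at h1
  change deg G (τ 2) = ss τ G 2 + bb τ G 0 + bb τ G 1 at h2
  rw [← sum_ss, Fin.sum_univ_three]
  unfold mm
  omega

theorem mm_eq (hτ : Function.Injective τ) {d : Fin n → ℕ} {G G' : Gr n}
    (hG : G ∈ realizations d) (hG' : G' ∈ realizations d) (hk : key τ G = key τ G') :
    mm τ G = mm τ G' := by
  have h1 := two_mm hτ G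
  have h2 := two_mm hτ G'
  have h3 : ∑ x, tt τ G x = ∑ x, tt τ G' x := Finset.sum_congr rfl fun x _ => tt_eq hτ hG hG' hk x
  rw [mem_real.1 hG, mem_real.1 hG, mem_real.1 hG] at h1
  rw [mem_real.1 hG', mem_real.1 hG', mem_real.1 hG'] at h2
  omega

theorem card_row_eq (hτ : Function.Injective τ) {d : Fin n → ℕ} {G G' : Gr n}
    (hG : G ∈ realizations d) (hG' : G' ∈ realizations d) (hk : key τ G = key τ G') (i : Fin 3) :
    (row τ G i).card = (row τ G' i).card := by
  have h1 := deg_tau_row hτ G i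
  have h2 := deg_tau_row hτ G' i
  have h3 := mm_eq hτ hG hG' hk
  rw [mem_real.1 hG] at h1
  rw [mem_real.1 hG'] at h2
  omega

/-- Row sums on a block. -/
theorem row_inj {G G' : Gr n} (hk : key τ G = key τ G')
    (hr : ∀ i, row τ G i = row τ G' i) : G = G' := by
  have hout : ∀ (x y : XX τ), Adj G x.1 y.1 ↔ Adj G' x.1 y.1 := fun x y => by
    have := congrFun (congrFun hk x) y
    simp only [key] at this
    simp [this]
  have hto : ∀ (i : Fin 3) (x : XX τ), Adj G (τ i) x.1 ↔ Adj G' (τ i) x.1 := fun i x => by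
    rw [← some_mem_row, ← some_mem_row, hr]
  have htt : ∀ (i : Fin 3), Adj G (τ (i+1)) (τ (i+2)) ↔ Adj G' (τ (i+1)) (τ (i+2)) := fun i => by
    have := none_mem_row τ G i
    have h' := none_mem_row τ G' i
    rw [hr] at this
    rw [this] at h'
    exact not_iff_not.1 h'
  apply gr_ext
  intro u v
  by_cases hu : ∀ i, u ≠ τ i
  · by_cases hv : ∀ i, v ≠ τ i
    · exact hout ⟨u, hu⟩ ⟨v, hv⟩
    · push Not at hv
      obtain ⟨j, rfl⟩ := hv
      rw [Adj_comm G, Adj_comm G']
      exact hto j ⟨u, hu⟩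
  · push Not at hu
    obtain ⟨i, rfl⟩ := hu
    by_cases hv : ∀ j, v ≠ τ j
    · exact hto i ⟨v, hv⟩
    · push Not at hv
      obtain ⟨j, rfl⟩ := hv
      by_cases hij : i = j
      · subst hij
        simp [not_Adj_self]
      · have h1 : ∃ k, (i = k + 1 ∧ j = k + 2) ∨ (i = k + 2 ∧ j = k + 1) := by
          revert i j; decide
        obtain ⟨k, ⟨rfl, rfl⟩ | ⟨rfl, rfl⟩⟩ := h1
        · exact htt k
        · rw [Adj_comm G, Adj_comm G']
          exact htt k

/-- Relation used to assemble a graph from a table. -/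
def Rel (τ : Fin 3 → Fin n) (G0 : Gr n) (R : Fin 3 → Finset (CC τ)) (y y' : Fin n) : Prop :=
  ((∀ i, y ≠ τ i) ∧ (∀ i, y' ≠ τ i) ∧ Adj G0 y y') ∨
  (∃ i, y = τ i ∧ ∃ x : XX τ, y' = x.1 ∧ some x ∈ R i) ∨
  (∃ i, y' = τ i ∧ ∃ x : XX τ, y = x.1 ∧ some x ∈ R i) ∨
  (∃ i, y = τ (i+1) ∧ y' = τ (i+2) ∧ none ∉ R i) ∨
  (∃ i, y' = τ (i+1) ∧ y = τ (i+2) ∧ none ∉ R i)

theorem Rel_symm (G0 : Gr n) (R : Fin 3 → Finset (CC τ)) (y y' : Fin n) :
    Rel τ G0 R y y' → Rel τ G0 R y' y := by
  rintro (⟨h1, h2, h3⟩ | h | h | h | h)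
  · exact Or.inl ⟨h2, h1, (Adj_comm _ _ _).1 h3⟩
  · exact Or.inr (Or.inr (Or.inl h))
  · exact Or.inr (Or.inl h)
  · exact Or.inr (Or.inr (Or.inr (Or.inr h)))
  · exact Or.inr (Or.inr (Or.inr (Or.inl h)))

theorem fin3_ne (i : Fin 3) : i + 1 ≠ i + 2 := by revert i; decide

theorem Rel_irrefl (hτ : Function.Injective τ) (G0 : Gr n) (R : Fin 3 → Finset (CC τ)) (y : Fin n) :
    ¬ Rel τ G0 R y y := by
  rintro (⟨-, -, h3⟩ | ⟨i, h1, x, h2, -⟩ | ⟨i, h1, x, h2, -⟩ | ⟨i, h1, h2, -⟩ | ⟨i, h1, h2, -⟩)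
  · exact not_Adj_self _ _ h3
  · exact x.2 i (h2.symm.trans h1)
  · exact x.2 i (h2.symm.trans h1)
  · exact fin3_ne i (hτ (h1.symm.trans h2))
  · exact fin3_ne i (hτ (h1.symm.trans h2))

theorem Rel_out (G0 : Gr n) (R : Fin 3 → Finset (CC τ)) (x y : XX τ) :
    Rel τ G0 R x.1 y.1 ↔ Adj G0 x.1 y.1 := by
  constructor
  · rintro (⟨-, -, h3⟩ | ⟨i, h1, -⟩ | ⟨i, h1, -⟩ | ⟨i, h1, -⟩ | ⟨i, h1, -⟩)
    · exact h3
    · exact absurd h1 (x.2 i)
    · exact absurd h1 (y.2 i)
    · exact absurd h1 (x.2 _)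
    · exact absurd h1 (y.2 _)
  · intro h; exact Or.inl ⟨x.2, y.2, h⟩

theorem Rel_tau_out (hτ : Function.Injective τ) (G0 : Gr n) (R : Fin 3 → Finset (CC τ)) (i : Fin 3)
    (x : XX τ) : Rel τ G0 R (τ i) x.1 ↔ some x ∈ R i := by
  constructor
  · rintro (⟨h1, -, -⟩ | ⟨i', h1, x', h2, h3⟩ | ⟨i', h1, x', h2, -⟩ | ⟨i', -, h1, -⟩ | ⟨i', h1, -⟩)
    · exact absurd rfl (h1 i)
    · have := hτ h1; subst this
      have := Subtype.ext h2; subst this
      exact h3
    · exact absurd h1 (x.2 i')
    · exact absurd h1 (x.2 _)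
    · exact absurd h1 (x.2 _)
  · intro h; exact Or.inr (Or.inl ⟨i, rfl, x, rfl, h⟩)

theorem Rel_tau_tau (hτ : Function.Injective τ) (G0 : Gr n) (R : Fin 3 → Finset (CC τ)) (i : Fin 3) :
    Rel τ G0 R (τ (i+1)) (τ (i+2)) ↔ none ∉ R i := by
  constructor
  · rintro (⟨h1, -, -⟩ | ⟨i', h1, x', h2, -⟩ | ⟨i', h1, x', h2, -⟩ | ⟨i', h1, h2, h3⟩ | ⟨i', h1, h2, h3⟩)
    · exact absurd rfl (h1 _)
    · exact absurd h2.symm (x'.2 _)
    · exact absurd h2.symm (x'.2 _)
    · have e := hτ h1
      have : i = i' := (by decide : ∀ i i' : Fin 3, i + 1 = i' + 1 → i = i') i i' e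
      subst this; exact h3
    · have e1 := hτ h1
      have e2 := hτ h2
      exact ((by decide : ∀ i i' : Fin 3, i + 2 = i' + 1 → i + 1 = i' + 2 → False) i i' e1 e2).elim
  · intro h; exact Or.inr (Or.inr (Or.inr (Or.inl ⟨i, rfl, rfl, h⟩)))

/-- Every table with the row and column sums of `G0` comes from a graph of the block of `G0`. -/
theorem row_surj (hτ : Function.Injective τ) {d : Fin n → ℕ} {G0 : Gr n} (hG0 : G0 ∈ realizations d)
    {R : Fin 3 → Finset (CC τ)}
    (hrow : ∀ i, (R i).card = (row τ G0 i).card)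
    (hcol : ∀ c, (univ.filter fun i => c ∈ R i).card = (univ.filter fun i => c ∈ row τ G0 i).card) :
    ∃ G ∈ realizations d, key τ G = key τ G0 ∧ ∀ i, row τ G i = R i := by
  obtain ⟨G, hG⟩ := exists_ofAdj (Rel τ G0 R) (Rel_symm G0 R) (Rel_irrefl hτ G0 R)
  have hk : key τ G = key τ G0 := by
    funext x y
    simp only [key, hG, Rel_out]
  have hr : ∀ i, row τ G i = R i := by
    intro i
    ext c
    cases c with
    | none =>
      rw [none_mem_row, hG, Rel_tau_tau hτ, not_not]
    | some x =>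
      rw [some_mem_row, hG, Rel_tau_out hτ]
  refine ⟨G, ?_, hk, hr⟩
  rw [mem_real]
  intro v
  by_cases hv : ∀ i, v ≠ τ i
  · have h1 := deg_out τ hτ G ⟨v, hv⟩
    have h2 := deg_out τ hτ G0 ⟨v, hv⟩
    rw [key_card hk ⟨v, hv⟩] at h1
    have h3 : tt τ G ⟨v, hv⟩ = tt τ G0 ⟨v, hv⟩ := by
      rw [← colsum_some, ← colsum_some]
      simp only [hr]
      exact hcol _
    rw [← mem_real.1 hG0 v]
    simp only at h1 h2
    omega
  · push Not at hv
    obtain ⟨i, rfl⟩ := hv
    have h1 := deg_tau_row hτ G i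
    have h2 := deg_tau_row hτ G0 i
    have h3 := colsum_none τ G
    have h4 := colsum_none τ G0
    simp only [hr] at h1 h3
    rw [hcol none] at h3
    have h5 := hrow i
    have h6 := mem_real.1 hG0 (τ i)
    unfold mm at h1 h2
    omega

/-- `Same` in terms of `key` and rows. -/
theorem same_iff (hτ : Function.Injective τ) {d : Fin n → ℕ} {G G' : Gr n}
    (hG : G ∈ realizations d) (hG' : G' ∈ realizations d) (i : Fin 3) :
    Same (τ (i+1)) (τ (i+2)) G G' ↔ key τ G = key τ G' ∧ row τ G i = row τ G' i := by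
  have h12 : τ i ≠ τ (i+1) := fun h => (by decide : ∀ i : Fin 3, i ≠ i + 1) i (hτ h)
  have h13 : τ i ≠ τ (i+2) := fun h => (by decide : ∀ i : Fin 3, i ≠ i + 2) i (hτ h)
  constructor
  · intro h
    have hk : key τ G = key τ G' := by
      funext x y
      simp only [key]
      exact propext (h _ _ (x.2 _) (x.2 _) (y.2 _) (y.2 _))
    refine ⟨hk, ?_⟩
    have hs : ∀ x : XX τ, Adj G (τ i) x.1 ↔ Adj G' (τ i) x.1 := fun x =>
      h _ _ h12 h13 (x.2 _) (x.2 _)
    have hss : ss τ G i = ss τ G' i := by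
      unfold ss
      congr 1
      ext x
      simp [hs]
    have hc := card_row_eq hτ hG hG' hk i
    have h1 := card_row τ G i
    have h2 := card_row τ G' i
    have hb : bb τ G i = bb τ G' i := by omega
    ext c
    cases c with
    | none =>
      rw [none_mem_row, none_mem_row, not_iff_not]
      unfold bb at hb
      by_cases h3 : Adj G (τ (i+1)) (τ (i+2)) <;> by_cases h4 : Adj G' (τ (i+1)) (τ (i+2)) <;>
        simp [h3, h4] at hb ⊢
    | some x =>
      rw [some_mem_row, some_mem_row, hs]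
  · rintro ⟨hk, hr⟩ u v hu1 hu2 hv1 hv2
    have hout : ∀ (x y : XX τ), Adj G x.1 y.1 ↔ Adj G' x.1 y.1 := fun x y => by
      have := congrFun (congrFun hk x) y
      simp only [key] at this
      simp [this]
    have hto : ∀ (x : XX τ), Adj G (τ i) x.1 ↔ Adj G' (τ i) x.1 := fun x => by
      rw [← some_mem_row, ← some_mem_row, hr]
    have hcase : ∀ w : Fin n, w ≠ τ (i+1) → w ≠ τ (i+2) → w = τ i ∨ ∀ j, w ≠ τ j := by
      intro w h1 h2
      by_cases hw : ∀ j, w ≠ τ j
      · exact Or.inr hw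
      · push Not at hw
        obtain ⟨j, rfl⟩ := hw
        have : j = i ∨ j = i + 1 ∨ j = i + 2 := (by decide : ∀ i j : Fin 3, j = i ∨ j = i + 1 ∨ j = i + 2) i j
        rcases this with rfl | rfl | rfl
        · exact Or.inl rfl
        · exact absurd rfl h1
        · exact absurd rfl h2
    rcases hcase u hu1 hu2 with rfl | hu <;> rcases hcase v hv1 hv2 with rfl | hv
    · simp [not_Adj_self]
    · exact hto ⟨v, hv⟩
    · rw [Adj_comm G, Adj_comm G']; exact hto ⟨u, hu⟩
    · exact hout ⟨u, hu⟩ ⟨v, hv⟩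

/-- Transfer of `varS` along the table bijection. -/
theorem varS_transfer (hτ : Function.Injective τ) {d : Fin n → ℕ} {G0 : Gr n}
    (hG0 : G0 ∈ realizations d) (φ : (Fin 3 → Finset (CC τ)) → ℝ) :
    Table3.varS ((realizations d).filter fun G => key τ G = key τ G0) (fun G => φ (row τ G)) =
      Table3.varS (Table3.tables (fun i => (row τ G0 i).card)
        (fun c => (univ.filter fun i => c ∈ row τ G0 i).card)) φ := by
  set S := (realizations d).filter fun G => key τ G = key τ G0 with hS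
  have himg : S.image (fun G => row τ G) = Table3.tables (fun i => (row τ G0 i).card)
        (fun c => (univ.filter fun i => c ∈ row τ G0 i).card) := by
    ext R
    simp only [mem_image, Table3.tables, mem_filter, mem_univ, true_and, hS]
    constructor
    · rintro ⟨G, ⟨hG, hk⟩, rfl⟩
      refine ⟨fun i => card_row_eq hτ hG hG0 hk i, ?_⟩
      intro c
      cases c with
      | none =>
        have h1 := colsum_none τ G
        have h2 := colsum_none τ G0
        have h3 := mm_eq hτ hG hG0 hk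
        unfold mm at h3
        convert (by omega : (univ.filter fun i => none ∈ row τ G i).card = (univ.filter fun i => none ∈ row τ G0 i).card) using 2
        ext j; simp
      | some x =>
        have h1 := colsum_some τ G x
        have h2 := colsum_some τ G0 x
        have h3 := tt_eq hτ hG hG0 hk x
        convert (by omega : (univ.filter fun i => some x ∈ row τ G i).card = (univ.filter fun i => some x ∈ row τ G0 i).card) using 2
        ext j; simp
    · rintro ⟨hr, hc⟩
      obtain ⟨G, hG, hk, hR⟩ := row_surj hτ hG0 hr (by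
        intro c
        convert hc c using 2
        ext j; simp)
      exact ⟨G, ⟨hG, hk⟩, funext hR⟩
  have hinj : Set.InjOn (fun G => row τ G) (S : Set (Gr n)) := by
    intro G hG G' hG' h
    simp only [hS, coe_filter, Set.mem_ofPred_eq] at hG hG'
    exact row_inj (hG.2.trans hG'.2.symm) (fun i => congrFun h i)
  rw [← himg]
  unfold Table3.varS avg
  rw [Finset.sum_image hinj, Finset.sum_image hinj, Finset.card_image_of_injOn hinj]

/-- The block version of the triple inequality. -/
theorem block_tri (hτ : Function.Injective τ) {d : Fin n → ℕ} {G0 : Gr n}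
    (hG0 : G0 ∈ realizations d) (f : Gr n → ℝ) :
    0 ≤ ∑ G ∈ (realizations d).filter (fun G => key τ G = key τ G0),
      (K d (τ 1) (τ 2) f G * K d (τ 2) (τ 0) f G + K d (τ 1) (τ 2) f G * K d (τ 0) (τ 1) f G
        + K d (τ 2) (τ 0) f G * K d (τ 0) (τ 1) f G) := by
  set S := (realizations d).filter fun G => key τ G = key τ G0 with hS
  have hvar : ∀ g : Fin 3 → Finset (CC τ) → ℝ,
      Table3.varS S (fun s => ∑ i, g i (row τ s i)) ≤
        2 * ∑ i, Table3.varS S (fun s => g i (row τ s i)) := by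
    intro g
    have h1 := varS_transfer hτ hG0 (fun R => ∑ i, g i (R i))
    have h2 := fun i => varS_transfer hτ hG0 (fun R => g i (R i))
    rw [h1, Finset.sum_congr rfl fun i _ => h2 i]
    exact Table3.three_row _ _ g
  have hmain := Table3.cross_nonneg S (fun i s => row τ s i) hvar f
  simp only at hmain
  have hK : ∀ (i : Fin 3) (G : Gr n), G ∈ S →
      K d (τ (i+1)) (τ (i+2)) f G = f G - avg (S.filter fun t => row τ t i = row τ G i) f := by
    intro i G hG
    have hG' := (mem_filter.1 hG)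
    unfold K E
    congr 2
    unfold fib
    ext t
    simp only [mem_filter, hS]
    constructor
    · rintro ⟨ht, hs⟩
      have := (same_iff hτ hG'.1 ht i).1 hs
      exact ⟨⟨ht, this.1.symm.trans hG'.2⟩, this.2.symm⟩
    · rintro ⟨⟨ht, hk⟩, hr⟩
      exact ⟨ht, (same_iff hτ hG'.1 ht i).2 ⟨hG'.2.trans hk.symm, hr.symm⟩⟩
  refine le_of_le_of_eq hmain (Finset.sum_congr rfl fun G hG => ?_)
  have h0 := hK 0 G hG
  have h1 := hK 1 G hG
  have h2 := hK 2 G hG
  change K d (τ 1) (τ 2) f G = _ at h0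
  change K d (τ 2) (τ 0) f G = _ at h1
  change K d (τ 0) (τ 1) f G = _ at h2
  rw [h0, h1, h2]
  congr!

/-- Sum of the block inequalities. -/
theorem all_tri (hτ : Function.Injective τ) (d : Fin n → ℕ) (f : Gr n → ℝ) :
    0 ≤ ∑ G ∈ realizations d,
      (K d (τ 1) (τ 2) f G * K d (τ 2) (τ 0) f G + K d (τ 1) (τ 2) f G * K d (τ 0) (τ 1) f G
        + K d (τ 2) (τ 0) f G * K d (τ 0) (τ 1) f G) := by
  rw [← Finset.sum_fiberwise (realizations d) (key τ)]
  refine Finset.sum_nonneg fun k _ => ?_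
  by_cases h : ((realizations d).filter fun G => key τ G = k).Nonempty
  · obtain ⟨G0, hG0⟩ := h
    have hG0' := mem_filter.1 hG0
    have := block_tri hτ hG0'.1 f
    rw [hG0'.2] at this
    exact this
  · rw [Finset.not_nonempty_iff_eq_empty.1 h]
    simp

end TripleAux
/-- (TRI) -/
theorem triple_ineq (d : Fin n → ℕ) (u v w : Fin n) (huv : u ≠ v) (huw : u ≠ w) (hvw : v ≠ w)
    (f : Gr n → ℝ) :
    0 ≤ ip d (K d u v f) (K d u w f) + ip d (K d u v f) (K d v w f) + ip d (K d u w f) (K d v w f) := by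
  have hτ : Function.Injective ![u, v, w] := by
    intro i j
    obtain rfl | rfl | rfl := TripleAux.fin3_cases i <;> obtain rfl | rfl | rfl := TripleAux.fin3_cases j <;>
      simp [huv, huw, hvw, huv.symm, huw.symm, hvw.symm]
  have h := TripleAux.all_tri hτ d f
  simp only [Matrix.cons_val_zero, Matrix.cons_val_one, Matrix.cons_val] at h
  have hc : K d w u f = K d u w f := by
    funext G
    have h1 : fib d w u G = fib d u w G := by
      unfold fib
      ext t
      simp only [mem_filter, Same_comm w u G t]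
    unfold K E
    rw [h1]
  rw [hc] at h
  unfold ip
  rw [← Finset.sum_add_distrib, ← Finset.sum_add_distrib]
  refine le_of_le_of_eq h (Finset.sum_congr rfl fun G _ => ?_)
  ring

end Crest.Agent.Lib.S0453
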