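/-
S0453 task KKALG: projection facts, KK² ≥ KK, spectral step, energy bound.  (helper7 is on this: msg 314 (f).)
‖KK f‖² = (1/4)∑_{a≠b}∑_{c≠e}⟨K_ab f,K_ce f⟩: same unordered pair: 2 S₀, S₀=∑_{a≠b}‖K_ab f‖²; sharing exactly one vertex: 4∑_{(x,y,z) distinct}⟨K_xy f,K_xz f⟩ and
3∑_{(x,y,z) distinct}⟨K_xy,K_xz⟩ = ∑_{(x,y,z) distinct}[⟨K_xy,K_xz⟩+⟨K_xy,K_yz⟩+⟨K_xz,K_yz⟩] ≥ 0 by triple_ineq (relabel, K symmetric);
disjoint: ∑_{Dist4}⟨K_ab,K_ce⟩ ≥ ∑_{Dist4}∑_{Dset}[Δ²/4 - A²_{ab;ce}/2 - A²_{ce;ab}/2] = ∑_{a≠b}(EnG a b - XiG a b) ≥ 0 by pair_ineq, AM-GM, isD_comm, swD_comm, johnson_bessel.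
So ‖KK f‖² ≥ S₀/2 = ⟨KK f,f⟩.
-/
import Crest.Agent.Lib.S0453.Pair
import Crest.Agent.Lib.S0453.JohnsonG
import Crest.Agent.Lib.S0453.Triple
import Crest.Agent.Lib.S0453.Conn
import Crest.Agent.Lib.S0453.KKBasic
import Crest.Agent.Lib.S0453.AuxSpectral

set_option autoImplicit false
open Finset Crest.SwitchChain
open scoped Classical

namespace Crest.Agent.Lib.S0453

variable {n : ℕ}

/-! ### Proof of `KK_sq_ge` (lead): expansion of `‖KK f‖²` by overlap pattern. -/

section KKSq

variable (d : Fin n → ℕ) (f : Gr n → ℝ)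

/-- Shorthand: `⟨K_ab f, K_ce f⟩`. -/
private noncomputable def BB (a b c e : Fin n) : ℝ := ip d (K d a b f) (K d c e f)

private theorem ip_comm' (g h : Gr n → ℝ) : ip d g h = ip d h g := by
  unfold ip; exact Finset.sum_congr rfl fun _ _ => mul_comm _ _

private theorem BB_swap1 (a b c e : Fin n) : BB d f a b c e = BB d f b a c e := by
  unfold BB; rw [K_symm d a b f]

private theorem BB_swap2 (a b c e : Fin n) : BB d f a b c e = BB d f a b e c := by
  unfold BB; rw [K_symm d c e f]

private theorem BB_comm (a b c e : Fin n) : BB d f a b c e = BB d f c e a b := by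
  unfold BB; exact ip_comm' d _ _

private theorem BB_self (a b : Fin n) : BB d f a b a b = ip d (K d a b f) f := by
  unfold BB
  rw [ip_K_self d a b f (K d a b f)]
  have : K d a b (K d a b f) = K d a b f := funext (K_idem d a b f)
  rw [this, ip_comm']

/-- Split the double sum over ordered pairs `c ≠ e` according to the overlap with `{a,b}`. -/
private theorem sum_pairs_split {a b : Fin n} (hab : a ≠ b) (h : Fin n → Fin n → ℝ) :
    (∑ c, ∑ e, if c ≠ e then h c e else 0) =
      h a b + h b a +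
      (∑ x, if x ≠ a ∧ x ≠ b then h a x + h b x + h x a + h x b else 0) +
      ∑ c, ∑ e, if Dist4 a b c e then h c e else 0 := by
  have key : ∀ c e : Fin n, (if c ≠ e then h c e else 0) =
      (if c = a ∧ e = b then h a b else 0) + (if c = b ∧ e = a then h b a else 0) +
      ((if c = a ∧ e ≠ a ∧ e ≠ b then h a e else 0) + (if c = b ∧ e ≠ a ∧ e ≠ b then h b e else 0) +
        (if e = a ∧ c ≠ a ∧ c ≠ b then h c a else 0) + (if e = b ∧ c ≠ a ∧ c ≠ b then h c b else 0)) +
      (if Dist4 a b c e then h c e else 0) := by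
    intro c e
    unfold Dist4
    by_cases h1 : c = a <;> by_cases h2 : c = b <;> by_cases h3 : e = a <;> by_cases h4 : e = b <;>
      by_cases h5 : c = e <;> simp_all [eq_comm]
  have e1 : (∑ c : Fin n, ∑ e : Fin n, if c = a ∧ e = b then h a b else 0) = h a b := by
    rw [Finset.sum_eq_single a, Finset.sum_eq_single b] <;> simp_all

  have e2 : (∑ c : Fin n, ∑ e : Fin n, if c = b ∧ e = a then h b a else 0) = h b a := by
    rw [Finset.sum_eq_single b, Finset.sum_eq_single a] <;> simp_all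

  have e3 : ∀ u : Fin n, (∑ c : Fin n, ∑ e : Fin n, if c = u ∧ e ≠ a ∧ e ≠ b then h u e else 0)
      = ∑ x : Fin n, if x ≠ a ∧ x ≠ b then h u x else 0 := by
    intro u
    rw [Finset.sum_eq_single u]
    · simp
    · intro x _ hx; simp [hx]
    · simp
  have e4 : ∀ u : Fin n, (∑ c : Fin n, ∑ e : Fin n, if e = u ∧ c ≠ a ∧ c ≠ b then h c u else 0)
      = ∑ x : Fin n, if x ≠ a ∧ x ≠ b then h x u else 0 := by
    intro u
    refine Finset.sum_congr rfl fun c _ => ?_
    rw [Finset.sum_eq_single u]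
    · simp
    · intro x _ hx; simp [hx]
    · simp
  have e5 : (∑ x : Fin n, if x ≠ a ∧ x ≠ b then h a x + h b x + h x a + h x b else 0) =
      (∑ x : Fin n, if x ≠ a ∧ x ≠ b then h a x else 0) +
      (∑ x : Fin n, if x ≠ a ∧ x ≠ b then h b x else 0) +
      (∑ x : Fin n, if x ≠ a ∧ x ≠ b then h x a else 0) +
      (∑ x : Fin n, if x ≠ a ∧ x ≠ b then h x b else 0) := by
    simp only [← Finset.sum_add_distrib]
    refine Finset.sum_congr rfl fun x _ => ?_
    split_ifs <;> simp
  simp only [key, Finset.sum_add_distrib]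
  rw [e1, e2, e3 a, e3 b, e4 a, e4 b, e5]

private theorem Dist4_comm {a b c e : Fin n} : Dist4 a b c e ↔ Dist4 c e a b := by
  unfold Dist4
  constructor <;> rintro ⟨h1, h2, h3, h4, h5, h6⟩ <;>
    exact ⟨h6, h2.symm, h4.symm, h3.symm, h5.symm, h1⟩

private theorem Dset_comm (a b c e : Fin n) : Dset d a b c e = Dset d c e a b := by
  unfold Dset
  exact Finset.filter_congr fun G _ => isD_comm G

/-- Disjoint part is nonnegative: `pair_ineq`, AM-GM, `johnson_bessel`. -/
private theorem disjoint_nonneg :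
    0 ≤ ∑ a, ∑ b, ∑ c, ∑ e, if Dist4 a b c e then BB d f a b c e else 0 := by
  -- pointwise lower bound
  have hpt : ∀ a b c e : Fin n, Dist4 a b c e →
      (∑ G ∈ Dset d a b c e, (f G - f (swD a b c e G)) ^ 2 / 4)
        - (1 / 2) * (∑ G ∈ Dset d a b c e, (Aop d a b c e f G) ^ 2)
        - (1 / 2) * (∑ G ∈ Dset d c e a b, (Aop d c e a b f G) ^ 2) ≤ BB d f a b c e := by
    intro a b c e h
    refine le_trans ?_ (pair_ineq d a b c e h f)
    rw [← Dset_comm d a b c e, Finset.mul_sum, Finset.mul_sum, ← Finset.sum_sub_distrib,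
      ← Finset.sum_sub_distrib]
    refine Finset.sum_le_sum fun G _ => ?_
    nlinarith [sq_nonneg (Aop d a b c e f G + Aop d c e a b f G)]
  set U : Fin n → Fin n → Fin n → Fin n → ℝ := fun a b c e =>
    if Dist4 a b c e then ∑ G ∈ Dset d a b c e, (f G - f (swD a b c e G)) ^ 2 / 4 else 0 with hU
  set V : Fin n → Fin n → Fin n → Fin n → ℝ := fun a b c e =>
    if Dist4 a b c e then ∑ G ∈ Dset d a b c e, (Aop d a b c e f G) ^ 2 else 0 with hV
  have hlow : ∀ a b c e : Fin n, U a b c e - (1 / 2) * V a b c e - (1 / 2) * V c e a b ≤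
      if Dist4 a b c e then BB d f a b c e else 0 := by
    intro a b c e
    by_cases h : Dist4 a b c e
    · have h' : Dist4 c e a b := Dist4_comm.mp h
      simp only [hU, hV, if_pos h, if_pos h']
      exact hpt a b c e h
    · have h' : ¬ Dist4 c e a b := fun h'' => h (Dist4_comm.mpr h'')
      simp [hU, hV, if_neg h, if_neg h']
  -- relabelling (a,b,c,e) ↦ (c,e,a,b)
  have hrel : (∑ a, ∑ b, ∑ c, ∑ e, V c e a b) = ∑ a, ∑ b, ∑ c, ∑ e, V a b c e := by
    calc (∑ a, ∑ b, ∑ c, ∑ e, V c e a b) = ∑ a, ∑ c, ∑ b, ∑ e, V c e a b := by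
          refine Finset.sum_congr rfl fun a _ => Finset.sum_comm
      _ = ∑ c, ∑ a, ∑ b, ∑ e, V c e a b := Finset.sum_comm
      _ = ∑ c, ∑ a, ∑ e, ∑ b, V c e a b := by
          refine Finset.sum_congr rfl fun c _ => Finset.sum_congr rfl fun a _ => Finset.sum_comm
      _ = ∑ c, ∑ e, ∑ a, ∑ b, V c e a b := by
          refine Finset.sum_congr rfl fun c _ => Finset.sum_comm
  have hEnXi : 0 ≤ ∑ a, ∑ b, ∑ c, ∑ e, (U a b c e - V a b c e) := by
    refine Finset.sum_nonneg fun a _ => Finset.sum_nonneg fun b _ => ?_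
    by_cases hab : a = b
    · subst hab
      refine Finset.sum_nonneg fun c _ => Finset.sum_nonneg fun e _ => ?_
      have : ¬ Dist4 a a c e := fun h => h.1 rfl
      simp [hU, hV, this]
    · have hb := johnson_bessel d a b hab f
      unfold XiG EnG at hb
      have : ∀ c e : Fin n, U a b c e - V a b c e =
          (if Dist4 a b c e then ∑ G ∈ Dset d a b c e, (f G - f (swD a b c e G)) ^ 2 / 4 else 0)
          - (if Dist4 a b c e then ∑ G ∈ Dset d a b c e, (Aop d a b c e f G) ^ 2 else 0) := by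
        intro c e; rfl
      simp only [this, Finset.sum_sub_distrib]
      linarith
  have hsum : (∑ a, ∑ b, ∑ c, ∑ e, (U a b c e - (1 / 2) * V a b c e - (1 / 2) * V c e a b))
      ≤ ∑ a, ∑ b, ∑ c, ∑ e, if Dist4 a b c e then BB d f a b c e else 0 :=
    Finset.sum_le_sum fun a _ => Finset.sum_le_sum fun b _ => Finset.sum_le_sum fun c _ =>
      Finset.sum_le_sum fun e _ => hlow a b c e
  have hsplit : (∑ a, ∑ b, ∑ c, ∑ e, (U a b c e - (1 / 2) * V a b c e - (1 / 2) * V c e a b))
      = (∑ a, ∑ b, ∑ c, ∑ e, U a b c e) - (1 / 2) * (∑ a, ∑ b, ∑ c, ∑ e, V a b c e)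
        - (1 / 2) * (∑ a, ∑ b, ∑ c, ∑ e, V c e a b) := by
    simp only [Finset.sum_sub_distrib, Finset.mul_sum]
  have hsplit2 : (∑ a, ∑ b, ∑ c, ∑ e, (U a b c e - V a b c e))
      = (∑ a, ∑ b, ∑ c, ∑ e, U a b c e) - (∑ a, ∑ b, ∑ c, ∑ e, V a b c e) := by
    simp only [Finset.sum_sub_distrib]
  rw [hsplit, hrel] at hsum
  rw [hsplit2] at hEnXi
  linarith

/-- Triple part is nonnegative. -/
private theorem triple_nonneg :
    0 ≤ ∑ u, ∑ v, ∑ w, if u ≠ v ∧ u ≠ w ∧ v ≠ w then BB d f u v u w else 0 := by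
  set T : Fin n → Fin n → Fin n → ℝ := fun u v w =>
    if u ≠ v ∧ u ≠ w ∧ v ≠ w then BB d f u v u w else 0 with hT
  have hpt : ∀ u v w : Fin n, 0 ≤ T u v w + T v u w + T w u v := by
    intro u v w
    by_cases h : u ≠ v ∧ u ≠ w ∧ v ≠ w
    · obtain ⟨h1, h2, h3⟩ := h
      have h4 := triple_ineq d u v w h1 h2 h3 f
      have e1 : T u v w = BB d f u v u w := by simp [hT, h1, h2, h3]
      have e2 : T v u w = BB d f v u v w := by simp [hT, h1.symm, h2, h3]
      have e3 : T w u v = BB d f w u w v := by simp [hT, h1, h2.symm, h3.symm]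
      rw [e1, e2, e3]
      have e4 : BB d f v u v w = BB d f u v v w := BB_swap1 d f v u v w
      have e5 : BB d f w u w v = BB d f u w v w := by
        rw [BB_swap1 d f w u w v, BB_swap2 d f u w w v]
      rw [e4, e5]
      exact h4
    · have e1 : T u v w = 0 := by simp only [hT, if_neg h]
      have e2 : T v u w = 0 := by
        simp only [hT]; rw [if_neg]; rintro ⟨h1, h2, h3⟩; exact h ⟨h1.symm, h3, h2⟩
      have e3 : T w u v = 0 := by
        simp only [hT]; rw [if_neg]; rintro ⟨h1, h2, h3⟩; exact h ⟨h3, h1.symm, h2.symm⟩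
      simp [e1, e2, e3]
  have h1 : (∑ u, ∑ v, ∑ w, T v u w) = ∑ u, ∑ v, ∑ w, T u v w := Finset.sum_comm
  have h2 : (∑ u, ∑ v, ∑ w, T w u v) = ∑ u, ∑ v, ∑ w, T u v w := by
    calc (∑ u, ∑ v, ∑ w, T w u v) = ∑ u, ∑ w, ∑ v, T w u v := by
          refine Finset.sum_congr rfl fun u _ => Finset.sum_comm
      _ = ∑ w, ∑ u, ∑ v, T w u v := Finset.sum_comm
  have h3 : 0 ≤ ∑ u, ∑ v, ∑ w, (T u v w + T v u w + T w u v) :=
    Finset.sum_nonneg fun u _ => Finset.sum_nonneg fun v _ => Finset.sum_nonneg fun w _ => hpt u v w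
  simp only [Finset.sum_add_distrib] at h3
  rw [h1, h2] at h3
  linarith

end KKSq

/-- (KKALG) -/
theorem KK_sq_ge (d : Fin n → ℕ) (f : Gr n → ℝ) :
    ip d (KK d f) f ≤ ip d (KK d f) (KK d f) := by
  classical
  -- abbreviations
  set S₀ : ℝ := ∑ a, ∑ b, if a ≠ b then ip d (K d a b f) f else 0 with hS₀
  set T : ℝ := ∑ u, ∑ v, ∑ w, if u ≠ v ∧ u ≠ w ∧ v ≠ w then BB d f u v u w else 0 with hT
  set D : ℝ := ∑ a, ∑ b, ∑ c, ∑ e, if Dist4 a b c e then BB d f a b c e else 0 with hD
  have hT0 : 0 ≤ T := triple_nonneg d f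
  have hD0 : 0 ≤ D := disjoint_nonneg d f
  -- expansion of the left side
  have hL : ip d (KK d f) f = (1 / 2) * S₀ := by
    unfold ip KK
    simp only [hS₀, ip, Finset.mul_sum, Finset.sum_mul]
    rw [Finset.sum_comm]
    refine Finset.sum_congr rfl fun a _ => ?_
    rw [Finset.sum_comm]
    refine Finset.sum_congr rfl fun b _ => ?_
    by_cases h : a ≠ b
    · simp only [h, ne_eq, not_false_eq_true, if_true]
      rw [Finset.mul_sum]
      refine Finset.sum_congr rfl fun G _ => ?_
      ring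
    · simp [h]
  -- expansion of the right side as a quadruple sum
  have hR : ip d (KK d f) (KK d f) = (1 / 4) *
      ∑ a, ∑ b, if a ≠ b then (∑ c, ∑ e, if c ≠ e then BB d f a b c e else 0) else 0 := by
    have hK : ∀ G, KK d f G = (1 / 2) * ∑ a, ∑ b, if a ≠ b then K d a b f G else 0 := fun G => rfl
    have h1 : ∀ a b : Fin n, (∑ c, ∑ e, if c ≠ e then BB d f a b c e else 0) =
        ∑ G ∈ realizations d, K d a b f G * ∑ c, ∑ e, if c ≠ e then K d c e f G else 0 := by
      intro a b
      simp only [Finset.mul_sum]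
      conv_rhs => rw [Finset.sum_comm]
      refine Finset.sum_congr rfl fun c _ => ?_
      conv_rhs => rw [Finset.sum_comm]
      refine Finset.sum_congr rfl fun e _ => ?_
      by_cases h : c ≠ e
      · simp [h, BB, ip]
      · simp [h]
    simp only [h1]
    unfold ip
    simp only [hK]
    have h2 : ∀ G, (1 / 2 * ∑ a, ∑ b, if a ≠ b then K d a b f G else 0) *
        (1 / 2 * ∑ a, ∑ b, if a ≠ b then K d a b f G else 0) =
        (1 / 4) * ∑ a, ∑ b, if a ≠ b then K d a b f G *
          (∑ c, ∑ e, if c ≠ e then K d c e f G else 0) else 0 := by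
      intro G
      have : (∑ a, ∑ b, if a ≠ b then K d a b f G *
          (∑ c, ∑ e, if c ≠ e then K d c e f G else 0) else 0) =
          (∑ a, ∑ b, if a ≠ b then K d a b f G else 0) *
          (∑ c, ∑ e, if c ≠ e then K d c e f G else 0) := by
        rw [Finset.sum_mul]
        refine Finset.sum_congr rfl fun a _ => ?_
        rw [Finset.sum_mul]
        refine Finset.sum_congr rfl fun b _ => ?_
        by_cases h : a ≠ b <;> simp [h]
      rw [this]; ring
    simp only [h2]
    rw [← Finset.mul_sum]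
    congr 1
    rw [Finset.sum_comm]
    refine Finset.sum_congr rfl fun a _ => ?_
    rw [Finset.sum_comm]
    refine Finset.sum_congr rfl fun b _ => ?_
    by_cases h : a ≠ b <;> simp [h]
  -- overlap decomposition
  have hsplit : ∀ a b : Fin n, a ≠ b →
      (∑ c, ∑ e, if c ≠ e then BB d f a b c e else 0) =
        2 * ip d (K d a b f) f +
        (∑ x, if x ≠ a ∧ x ≠ b then 2 * BB d f a b a x + 2 * BB d f b a b x else 0) +
        ∑ c, ∑ e, if Dist4 a b c e then BB d f a b c e else 0 := by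
    intro a b hab
    rw [sum_pairs_split hab (fun c e => BB d f a b c e)]
    have e1 : BB d f a b b a = ip d (K d a b f) f := by
      rw [BB_swap2, BB_self]
    have e2 : BB d f a b a b = ip d (K d a b f) f := BB_self d f a b
    have e3 : (∑ x, if x ≠ a ∧ x ≠ b then
          BB d f a b a x + BB d f a b b x + BB d f a b x a + BB d f a b x b else 0) =
        ∑ x, if x ≠ a ∧ x ≠ b then 2 * BB d f a b a x + 2 * BB d f b a b x else 0 := by
      refine Finset.sum_congr rfl fun x _ => ?_
      have e4 : BB d f a b x a = BB d f a b a x := BB_swap2 d f a b x a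
      have e5 : BB d f a b x b = BB d f a b b x := BB_swap2 d f a b x b
      have e6 : BB d f a b b x = BB d f b a b x := BB_swap1 d f a b b x
      rw [e4, e5, e6]
      split_ifs <;> ring
    rw [e1, e2, e3]
    ring
  -- assemble
  have hM : (∑ a, ∑ b, if a ≠ b then (∑ c, ∑ e, if c ≠ e then BB d f a b c e else 0) else 0)
      = 2 * S₀ + 4 * T + D := by
    have h0 : ∀ a b : Fin n, (if a ≠ b then (∑ c, ∑ e, if c ≠ e then BB d f a b c e else 0) else 0)
        = 2 * (if a ≠ b then ip d (K d a b f) f else 0)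
          + (2 * (∑ x, if a ≠ b ∧ a ≠ x ∧ b ≠ x then BB d f a b a x else 0)
             + 2 * (∑ x, if b ≠ a ∧ b ≠ x ∧ a ≠ x then BB d f b a b x else 0))
          + ∑ c, ∑ e, if Dist4 a b c e then BB d f a b c e else 0 := by
      intro a b
      by_cases hab : a ≠ b
      · rw [if_pos hab, if_pos hab, hsplit a b hab]
        have e1 : (∑ x, if x ≠ a ∧ x ≠ b then 2 * BB d f a b a x + 2 * BB d f b a b x else 0) =
            2 * (∑ x, if a ≠ b ∧ a ≠ x ∧ b ≠ x then BB d f a b a x else 0)
             + 2 * (∑ x, if b ≠ a ∧ b ≠ x ∧ a ≠ x then BB d f b a b x else 0) := by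
          rw [Finset.mul_sum, Finset.mul_sum, ← Finset.sum_add_distrib]
          refine Finset.sum_congr rfl fun x _ => ?_
          by_cases hx : x ≠ a ∧ x ≠ b
          · have h1 : a ≠ x := hx.1.symm
            have h2 : b ≠ x := hx.2.symm
            have h3 : b ≠ a := fun h => hab h.symm
            simp [hx, hab, h1, h2, h3]
          · have : ¬ (a ≠ b ∧ a ≠ x ∧ b ≠ x) := by
              rintro ⟨_, h1, h2⟩; exact hx ⟨h1.symm, h2.symm⟩
            have h' : ¬ (b ≠ a ∧ b ≠ x ∧ a ≠ x) := by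
              rintro ⟨_, h1, h2⟩; exact hx ⟨h2.symm, h1.symm⟩
            simp only [if_neg hx, if_neg this, if_neg h', mul_zero, add_zero]
        rw [e1]
      · have hab' : a = b := not_not.mp hab
        subst hab'
        have h4 : ∀ c e : Fin n, ¬ Dist4 a a c e := fun c e h => h.1 rfl
        simp [h4]
    simp only [h0, Finset.sum_add_distrib, ← Finset.mul_sum]
    have hswap : (∑ a, ∑ b, ∑ x, if b ≠ a ∧ b ≠ x ∧ a ≠ x then BB d f b a b x else 0) =
        ∑ a, ∑ b, ∑ x, if a ≠ b ∧ a ≠ x ∧ b ≠ x then BB d f a b a x else 0 := Finset.sum_comm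
    rw [hswap]
    simp only [hS₀, hT, hD]
    ring
  rw [hL, hR, hM]
  linarith

/-- (SPEC) Spectral step: with `KK_sq_ge`, `conn_const`: `Var f ≤ ⟨KK f, f⟩`. -/
theorem var_le_KK (d : Fin n → ℕ) (f : Gr n → ℝ) :
    VarC d f ≤ ip d (KK d f) f := by
  have hKKf : ∀ g : Gr n → ℝ, ip d (KK d g) g =
      (1 / 2 : ℝ) * ∑ a, ∑ b, if a ≠ b then ip d (K d a b g) (K d a b g) else 0 := by
    intro g
    rw [ip_KK_left]
    congr 1
    refine Finset.sum_congr rfl fun a _ => Finset.sum_congr rfl fun b _ => ?_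
    split_ifs
    · have e1 : ip d (K d a b g) g = ip d (K d a b (K d a b g)) g :=
        Finset.sum_congr rfl fun G _ => by rw [K_idem]
      rw [e1, ip_K_self]
    · rfl
  have hA : SpecOp (realizations d) (KK d) :=
    { hadd := fun f g x _ => KK_add d f g x
      hsmul := fun c f x _ => KK_smul d c f x
      hloc := fun f g h x hx => KK_loc d f g h x hx
      hconst := fun c x hx => KK_const d c x hx
      hsym := by
        intro f g
        change ip d (KK d f) g = ∑ x ∈ realizations d, f x * KK d g x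
        have e0 : ∑ x ∈ realizations d, f x * KK d g x = ip d (KK d g) f :=
          Finset.sum_congr rfl fun G _ => mul_comm _ _
        rw [e0, ip_KK_left, ip_KK_left]
        congr 1
        refine Finset.sum_congr rfl fun a _ => Finset.sum_congr rfl fun b _ => ?_
        split_ifs
        · rw [ip_K_self]
          exact Finset.sum_congr rfl fun G _ => mul_comm _ _
        · rfl
      hpsd := by
        intro g
        have := hKKf g
        change 0 ≤ ip d (KK d g) g
        rw [this]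
        refine mul_nonneg (by norm_num) (Finset.sum_nonneg fun a _ => Finset.sum_nonneg fun b _ => ?_)
        split_ifs
        · exact Finset.sum_nonneg fun G _ => mul_self_nonneg _
        · exact le_rfl
      hsq := fun g => KK_sq_ge d g
      hker := by
        intro g hg
        exact conn_const d g (K_eq_zero_of_KK d g (hKKf g) hg) }
  exact var_le_of_specOp hA f

/-- (EN) From `johnson_gap`: `⟨KK f, f⟩ ≤ (1/4) TotEn`. -/
theorem KK_le_TotEn (d : Fin n → ℕ) (f : Gr n → ℝ) :
    ip d (KK d f) f ≤ TotEn d f / 4 := by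
  classical
  have hL : ip d (KK d f) f =
      (1 / 2) * ∑ a, ∑ b, if a ≠ b then ip d (K d a b f) f else 0 := by
    unfold ip KK
    simp only [Finset.mul_sum, Finset.sum_mul]
    rw [Finset.sum_comm]
    refine Finset.sum_congr rfl fun a _ => ?_
    rw [Finset.sum_comm]
    refine Finset.sum_congr rfl fun b _ => ?_
    by_cases h : a ≠ b
    · simp only [h, ne_eq, not_false_eq_true, if_true]
      rw [Finset.mul_sum]
      refine Finset.sum_congr rfl fun G _ => ?_
      ring
    · simp [h]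
  have hle : (∑ a, ∑ b, if a ≠ b then ip d (K d a b f) f else 0) ≤
      ∑ a, ∑ b, if a ≠ b then EnG d a b f / 2 else 0 := by
    refine Finset.sum_le_sum fun a _ => Finset.sum_le_sum fun b _ => ?_
    by_cases h : a ≠ b
    · simp only [h, ne_eq, not_false_eq_true, if_true]
      rw [ip_K_f]
      have := johnson_gap d a b h f
      linarith
    · simp [h]
  have hR : (∑ a, ∑ b, if a ≠ b then EnG d a b f / 2 else 0) = TotEn d f / 2 := by
    unfold TotEn
    rw [Finset.sum_div]
    refine Finset.sum_congr rfl fun a _ => ?_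
    rw [Finset.sum_div]
    refine Finset.sum_congr rfl fun b _ => ?_
    by_cases h : a ≠ b <;> simp [h]
  rw [hL]
  rw [hR] at hle
  linarith

end Crest.Agent.Lib.S0453
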