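/-
S0453 task LINK (helper7): kernel link.  Every proposal (S,F,F') comes from exactly 4 ordered tuples (a,b,c,e);
Dir d f = E_L/(12 C(n,4)), TotEn = 4 E_L, so TotEn = 48 C(n,4) Dir.  Also exports `kernel_sum`, `switchResult_mem`, `sum_props_one`
(used in TV).
-/
import Crest.Agent.Lib.S0453.Defs

set_option autoImplicit false
open Finset Crest.SwitchChain
open scoped Classical

namespace Crest.Agent.Lib.S0453

variable {n : ℕ}

namespace LinkAux

/-- The two-edge set `{ac, be}`. -/
noncomputable def pm (a c b e : Fin n) : Gr n :=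
  univ.filter fun x : Edge n => x.1 = s(a, c) ∨ x.1 = s(b, e)

theorem mem_pm {a c b e : Fin n} {x : Edge n} : x ∈ pm a c b e ↔ x.1 = s(a, c) ∨ x.1 = s(b, e) := by
  simp [pm]

theorem pm_comm1 (a c b e : Fin n) : pm a c b e = pm c a b e := by
  ext x; simp [mem_pm, Sym2.eq_swap]

theorem pm_comm2 (a c b e : Fin n) : pm a c b e = pm a c e b := by
  ext x; simp only [mem_pm]; rw [Sym2.eq_swap (a := b)]

theorem pm_swap (a c b e : Fin n) : pm a c b e = pm b e a c := by
  ext x; simp only [mem_pm]; tauto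

/-- edge constructor -/
def mkE (u v : Fin n) (h : u ≠ v) : Edge n := ⟨s(u, v), by simpa using h⟩

theorem adj_of_mem {G : Gr n} {x : Edge n} {u v : Fin n} (hx : x ∈ G) (h : x.1 = s(u, v)) : Adj G u v :=
  ⟨x, hx, h⟩

theorem mem_of_adj {G : Gr n} {x : Edge n} {u v : Fin n} (hA : Adj G u v) (h : x.1 = s(u, v)) : x ∈ G := by
  obtain ⟨y, hy, hyuv⟩ := hA
  have : x = y := Subtype.ext (h.trans hyuv.symm)
  rwa [this]

theorem pm_subset_iff {G : Gr n} {a c b e : Fin n} (hac : a ≠ c) (hbe : b ≠ e) :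
    pm a c b e ⊆ G ↔ Adj G a c ∧ Adj G b e := by
  constructor
  · intro h
    exact ⟨⟨mkE a c hac, h (mem_pm.2 (Or.inl rfl)), rfl⟩, ⟨mkE b e hbe, h (mem_pm.2 (Or.inr rfl)), rfl⟩⟩
  · rintro ⟨h1, h2⟩ x hx
    rcases mem_pm.1 hx with h | h
    · exact mem_of_adj h1 h
    · exact mem_of_adj h2 h

theorem pm_disjoint_iff {G : Gr n} {a c b e : Fin n} :
    Disjoint (pm a c b e) G ↔ ¬ Adj G a c ∧ ¬ Adj G b e := by
  rw [Finset.disjoint_left]
  constructor
  · intro h
    refine ⟨?_, ?_⟩
    · rintro ⟨x, hx, hxe⟩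
      exact h (mem_pm.2 (Or.inl hxe)) hx
    · rintro ⟨x, hx, hxe⟩
      exact h (mem_pm.2 (Or.inr hxe)) hx
  · rintro ⟨h1, h2⟩ x hx hxG
    rcases mem_pm.1 hx with h | h
    · exact h1 ⟨x, hxG, h⟩
    · exact h2 ⟨x, hxG, h⟩

/-- `pm a c b e` is a perfect matching of `{a,b,c,e}`. -/
theorem pm_mem_pmSet {a b c e : Fin n} (h : Dist4 a b c e) :
    pm a c b e ∈ pmSet ({a, b, c, e} : Finset (Fin n)) := by
  obtain ⟨hab, hac, hae, hbc, hbe, hce⟩ := h
  unfold pmSet
  rw [mem_filter, mem_powersetCard]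
  refine ⟨⟨subset_univ _, ?_⟩, ?_, ?_⟩
  · have : pm a c b e = {mkE a c hac, mkE b e hbe} := by
      ext x
      simp only [mem_pm, mem_insert, mem_singleton, mkE, Subtype.ext_iff]
    rw [this, card_pair]
    intro h
    have := congrArg Subtype.val h
    simp only [mkE, Sym2.eq_iff] at this
    rcases this with ⟨h1, h2⟩ | ⟨h1, h2⟩
    · exact hab h1
    · exact hae h1
  · intro x hx v hv
    rcases mem_pm.1 hx with h | h <;> rw [h] at hv <;> simp only [Sym2.mem_iff] at hv <;>
      rcases hv with rfl | rfl <;> simp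
  · intro v hv
    rw [Finset.card_eq_one]
    simp only [mem_insert, mem_singleton] at hv
    rcases hv with rfl | rfl | rfl | rfl
    · refine ⟨mkE v c hac, ?_⟩
      ext x
      simp only [mem_filter, mem_pm, mem_singleton, mkE, Subtype.ext_iff]
      constructor
      · rintro ⟨h | h, hv⟩
        · exact h
        · rw [h] at hv; simp only [Sym2.mem_iff] at hv; rcases hv with h' | h'
          · exact absurd h' hab
          · exact absurd h' hae
      · intro h; exact ⟨Or.inl h, by rw [h]; simp⟩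
    · refine ⟨mkE v e hbe, ?_⟩
      ext x
      simp only [mem_filter, mem_pm, mem_singleton, mkE, Subtype.ext_iff]
      constructor
      · rintro ⟨h | h, hv⟩
        · rw [h] at hv; simp only [Sym2.mem_iff] at hv; rcases hv with h' | h'
          · exact absurd h'.symm hab
          · exact absurd h' hbc
        · exact h
      · intro h; exact ⟨Or.inr h, by rw [h]; simp⟩
    · refine ⟨mkE a v hac, ?_⟩
      ext x
      simp only [mem_filter, mem_pm, mem_singleton, mkE, Subtype.ext_iff]
      constructor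
      · rintro ⟨h | h, hv⟩
        · exact h
        · rw [h] at hv; simp only [Sym2.mem_iff] at hv; rcases hv with h' | h'
          · exact absurd h'.symm hbc
          · exact absurd h' hce
      · intro h; exact ⟨Or.inl h, by rw [h]; simp⟩
    · refine ⟨mkE b v hbe, ?_⟩
      ext x
      simp only [mem_filter, mem_pm, mem_singleton, mkE, Subtype.ext_iff]
      constructor
      · rintro ⟨h | h, hv⟩
        · rw [h] at hv; simp only [Sym2.mem_iff] at hv; rcases hv with h' | h'
          · exact absurd h'.symm hae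
          · exact absurd h'.symm hce
        · exact h
      · intro h; exact ⟨Or.inr h, by rw [h]; simp⟩


theorem dist4_perm1 {a b c e : Fin n} (h : Dist4 a b c e) : Dist4 a b e c := by
  obtain ⟨h1, h2, h3, h4, h5, h6⟩ := h
  exact ⟨h1, h3, h2, h5, h4, h6.symm⟩

theorem pm_ne {a b c e : Fin n} (h : Dist4 a b c e) : pm a e b c ≠ pm a c b e := by
  obtain ⟨hab, hac, hae, hbc, hbe, hce⟩ := h
  intro heq
  have h1 : mkE a e hae ∈ pm a e b c := mem_pm.2 (Or.inl rfl)
  rw [heq] at h1
  rcases mem_pm.1 h1 with h | h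
  · simp only [mkE, Sym2.eq_iff] at h
    rcases h with ⟨_, h⟩ | ⟨_, h⟩
    · exact hce h.symm
    · exact hae h.symm
  · simp only [mkE, Sym2.eq_iff] at h
    rcases h with ⟨h, _⟩ | ⟨h, _⟩
    · exact hab h
    · exact hae h

/-- If `s(w,x)` is in the perfect matching `F` of `{w,x,y,z}` then `F = pm w x y z`. -/
theorem pm_of_adj {w x y z : Fin n} (hD : Dist4 w x y z) {F : Gr n}
    (hF : F ∈ pmSet ({w, x, y, z} : Finset (Fin n))) (hA : Adj F w x) : F = pm w x y z := by
  obtain ⟨hwx, hwy, hwz, hxy, hxz, hyz⟩ := hD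
  unfold pmSet at hF
  rw [mem_filter, mem_powersetCard] at hF
  obtain ⟨⟨-, hcard⟩, hend, hone⟩ := hF
  -- the edge through y
  have hy : y ∈ ({w, x, y, z} : Finset (Fin n)) := by simp
  have hz := hone y hy
  rw [Finset.card_eq_one] at hz
  obtain ⟨e2, he2⟩ := hz
  have he2mem : e2 ∈ F.filter (fun e => y ∈ e.1) := by rw [he2]; simp
  rw [mem_filter] at he2mem
  obtain ⟨he2F, hye2⟩ := he2mem
  obtain ⟨e1, he1F, he1⟩ := hA
  -- uniqueness of w-edge and x-edge
  have huniq : ∀ v ∈ ({w, x, y, z} : Finset (Fin n)), ∀ e e' : Edge n, e ∈ F → e' ∈ F → v ∈ e.1 → v ∈ e'.1 → e = e' := by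
    intro v hv e e' he he' hve hve'
    have := hone v hv
    rw [Finset.card_eq_one] at this
    obtain ⟨e0, h0⟩ := this
    have h1 : e ∈ F.filter (fun e => v ∈ e.1) := mem_filter.2 ⟨he, hve⟩
    have h2 : e' ∈ F.filter (fun e => v ∈ e.1) := mem_filter.2 ⟨he', hve'⟩
    rw [h0, mem_singleton] at h1 h2
    rw [h1, h2]
  -- other endpoint of e2
  have he2val : ∃ u, e2.1 = s(y, u) := by
    exact (Sym2.mem_iff_exists).1 hye2 |>.imp fun u h => h
  obtain ⟨u, hu⟩ := he2val
  have hne : e2 ≠ e1 := by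
    rintro rfl
    rw [he1] at hye2
    simp only [Sym2.mem_iff] at hye2
    rcases hye2 with h | h
    · exact hwy h.symm
    · exact hxy h.symm
  have huS : u ∈ ({w, x, y, z} : Finset (Fin n)) := hend e2 he2F u (by rw [hu]; simp)
  have huy : u ≠ y := by
    rintro rfl
    exact e2.2 (by rw [hu]; simp)
  have huz : u = z := by
    simp only [mem_insert, mem_singleton] at huS
    rcases huS with h | h | h | h
    · exfalso
      apply hne
      apply huniq w (by simp) e2 e1 he2F he1F
      · rw [hu, h]; simp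
      · rw [he1]; simp
    · exfalso
      apply hne
      apply huniq x (by simp) e2 e1 he2F he1F
      · rw [hu, h]; simp
      · rw [he1]; simp
    · exact absurd h huy
    · exact h
  subst huz
  have hsub : pm w x y u ⊆ F := by
    rw [pm_subset_iff hwx hyz]
    exact ⟨⟨e1, he1F, he1⟩, ⟨e2, he2F, hu⟩⟩
  have hcardpm : (pm w x y u).card = 2 := by
    have := pm_mem_pmSet (a := w) (b := y) (c := x) (e := u) ⟨hwy, hwx, hwz, hxy.symm, hyz, hxz⟩
    unfold pmSet at this
    rw [mem_filter, mem_powersetCard] at this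
    exact this.1.2
  exact (Finset.eq_of_subset_of_card_le hsub (by omega)).symm

theorem set4_comm1 (a b c e : Fin n) : ({a, b, c, e} : Finset (Fin n)) = {a, c, b, e} := by
  ext v; simp only [mem_insert, mem_singleton]; tauto

theorem set4_comm2 (a b c e : Fin n) : ({a, b, c, e} : Finset (Fin n)) = {a, b, e, c} := by
  ext v; simp only [mem_insert, mem_singleton]; tauto

theorem set4_comm3 (a b c e : Fin n) : ({a, b, c, e} : Finset (Fin n)) = {a, e, b, c} := by
  ext v; simp only [mem_insert, mem_singleton]; tauto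

/-- Classification: any PM of `{w,x,y,z}` is one of three. -/
theorem pm_classify {w x y z : Fin n} (hD : Dist4 w x y z) {F : Gr n}
    (hF : F ∈ pmSet ({w, x, y, z} : Finset (Fin n))) :
    F = pm w x y z ∨ F = pm w y x z ∨ F = pm w z x y := by
  have hF' := hF
  obtain ⟨hwx, hwy, hwz, hxy, hxz, hyz⟩ := id hD
  unfold pmSet at hF'
  rw [mem_filter, mem_powersetCard] at hF'
  obtain ⟨⟨-, hcard⟩, hend, hone⟩ := hF'
  have h := hone w (by simp)
  rw [Finset.card_eq_one] at h
  obtain ⟨e1, he1⟩ := h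
  have he1mem : e1 ∈ F.filter (fun e => w ∈ e.1) := by rw [he1]; simp
  rw [mem_filter] at he1mem
  obtain ⟨he1F, hwe1⟩ := he1mem
  obtain ⟨u, hu⟩ := (Sym2.mem_iff_exists).1 hwe1
  have huS : u ∈ ({w, x, y, z} : Finset (Fin n)) := hend e1 he1F u (by rw [hu]; simp)
  have huw : u ≠ w := by
    rintro rfl
    exact e1.2 (by rw [hu]; simp)
  simp only [mem_insert, mem_singleton] at huS
  rcases huS with h | h | h | h
  · exact absurd h huw
  · left
    subst h
    exact pm_of_adj hD hF ⟨e1, he1F, hu⟩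
  · right; left
    subst h
    apply pm_of_adj (x := u) (y := x) (z := z)
    · exact ⟨hwy, hwx, hwz, hxy.symm, hyz, hxz⟩
    · rw [← set4_comm1]; exact hF
    · exact ⟨e1, he1F, hu⟩
  · right; right
    subst h
    apply pm_of_adj (x := u) (y := x) (z := y)
    · exact ⟨hwz, hwx, hwy, hxz.symm, hyz.symm, hxy⟩
    · have : ({w, u, x, y} : Finset (Fin n)) = {w, x, y, u} := by
        ext v; simp only [mem_insert, mem_singleton]; tauto
      rw [this]; exact hF
    · exact ⟨e1, he1F, hu⟩

/-- Explicit form of `pmSet`. -/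
theorem pmSet_eq {w x y z : Fin n} (hD : Dist4 w x y z) :
    pmSet ({w, x, y, z} : Finset (Fin n)) = {pm w x y z, pm w y x z, pm w z x y} := by
  obtain ⟨hwx, hwy, hwz, hxy, hxz, hyz⟩ := id hD
  ext F
  simp only [mem_insert, mem_singleton]
  constructor
  · exact pm_classify hD
  · rintro (rfl | rfl | rfl)
    · -- pm_mem_pmSet a:=w b:=y c:=x e:=z
      have := pm_mem_pmSet (a := w) (b := y) (c := x) (e := z) ⟨hwy, hwx, hwz, hxy.symm, hyz, hxz⟩
      rwa [set4_comm1] at this
    · exact pm_mem_pmSet (a := w) (b := x) (c := y) (e := z) hD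
    · have := pm_mem_pmSet (a := w) (b := x) (c := z) (e := y) ⟨hwx, hwz, hwy, hxz, hxy, hyz.symm⟩
      rwa [set4_comm2] at this

theorem pm_three_ne {w x y z : Fin n} (hD : Dist4 w x y z) :
    pm w x y z ≠ pm w y x z ∧ pm w x y z ≠ pm w z x y ∧ pm w y x z ≠ pm w z x y := by
  obtain ⟨hwx, hwy, hwz, hxy, hxz, hyz⟩ := id hD
  refine ⟨?_, ?_, ?_⟩
  · have := pm_ne (a := w) (b := z) (c := y) (e := x) ⟨hwz, hwy, hwx, hyz.symm, hxz.symm, hxy.symm⟩
    intro h; apply this; rw [pm_comm2 w x z y, pm_comm2 w y z x]; exact h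
  · have := pm_ne (a := w) (b := y) (c := z) (e := x) ⟨hwy, hwz, hwx, hyz, hxy.symm, hxz.symm⟩
    intro h; apply this; rw [pm_comm2 w z y x]; exact h
  · have := pm_ne (a := w) (b := x) (c := z) (e := y) ⟨hwx, hwz, hwy, hxz, hxy, hyz.symm⟩
    exact fun h => this h

/-- A 4-set is `{w,x,y,z}` with distinct elements. -/
theorem exists_four {S : Finset (Fin n)} (hS : S.card = 4) :
    ∃ w x y z, Dist4 w x y z ∧ S = {w, x, y, z} := by
  have : 0 < S.card := by omega
  obtain ⟨w, hw⟩ := Finset.card_pos.1 this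
  have h3 : (S.erase w).card = 3 := by rw [card_erase_of_mem hw]; omega
  obtain ⟨x, y, z, hxy, hxz, hyz, h⟩ := Finset.card_eq_three.1 h3
  have hx : x ∈ S.erase w := by rw [h]; simp
  have hy : y ∈ S.erase w := by rw [h]; simp
  have hz : z ∈ S.erase w := by rw [h]; simp
  refine ⟨w, x, y, z, ⟨(ne_of_mem_erase hx).symm, (ne_of_mem_erase hy).symm, (ne_of_mem_erase hz).symm, hxy, hxz, hyz⟩, ?_⟩
  rw [← h, insert_erase hw]


/-- Ordered 4-tuples. -/
abbrev Tup (n : ℕ) := Fin n × Fin n × Fin n × Fin n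

noncomputable def tupSet : Finset (Tup n) := univ.filter fun t => Dist4 t.1 t.2.1 t.2.2.1 t.2.2.2

noncomputable def tauT (t : Tup n) : Finset (Fin n) × Gr n × Gr n :=
  (({t.1, t.2.1, t.2.2.1, t.2.2.2} : Finset (Fin n)), pm t.1 t.2.2.1 t.2.1 t.2.2.2, pm t.1 t.2.2.2 t.2.1 t.2.2.1)

theorem card_set4 {a b c e : Fin n} (h : Dist4 a b c e) : ({a, b, c, e} : Finset (Fin n)).card = 4 := by
  obtain ⟨hab, hac, hae, hbc, hbe, hce⟩ := h
  rw [card_insert_of_notMem, card_insert_of_notMem, card_pair hce]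
  · simp [hbc, hbe]
  · simp [hab, hac, hae]

theorem mem_props_iff (S : Finset (Fin n)) (F F' : Gr n) :
    (S ∈ (univ : Finset (Fin n)).powersetCard 4 ∧ F ∈ pmSet S ∧ F' ∈ (pmSet S).erase F) ↔
      (S, F, F') ∈ tupSet.image (tauT (n := n)) := by
  constructor
  · rintro ⟨hS, hF, hF'⟩
    rw [mem_powersetCard] at hS
    obtain ⟨w, x, y, z, hD, rfl⟩ := exists_four hS.2
    obtain ⟨hwx, hwy, hwz, hxy, hxz, hyz⟩ := id hD
    rw [mem_erase] at hF'
    obtain ⟨hne, hF'⟩ := hF'
    rw [mem_image]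
    have key : ∀ b c e : Fin n, Dist4 w b c e → ({w, b, c, e} : Finset (Fin n)) = {w, x, y, z} →
        pm w c b e = F → pm w e b c = F' →
        ∃ t ∈ tupSet, tauT t = (({w, x, y, z} : Finset (Fin n)), F, F') := by
      intro b c e h1 h2 h3 h4
      refine ⟨(w, b, c, e), ?_, ?_⟩
      · simp only [tupSet, mem_filter, mem_univ, true_and]; exact h1
      · simp only [tauT, h2, h3, h4]
    rcases pm_classify hD hF with rfl | rfl | rfl <;> rcases pm_classify hD hF' with rfl | rfl | rfl
    · exact absurd rfl hne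
    · -- (M1,M2): a=w,c=x,e=y,b=z
      exact key z x y ⟨hwz, hwx, hwy, hxz.symm, hyz.symm, hxy⟩ (by ext v; simp only [mem_insert, mem_singleton]; tauto)
        (pm_comm2 _ _ _ _).symm (pm_comm2 _ _ _ _).symm
    · exact key y x z ⟨hwy, hwx, hwz, hxy.symm, hyz, hxz⟩ (by ext v; simp only [mem_insert, mem_singleton]; tauto)
        rfl (pm_comm2 _ _ _ _).symm
    · exact key z y x ⟨hwz, hwy, hwx, hyz.symm, hxz.symm, hxy.symm⟩ (by ext v; simp only [mem_insert, mem_singleton]; tauto)
        (pm_comm2 _ _ _ _).symm (pm_comm2 _ _ _ _).symm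
    · exact absurd rfl hne
    · exact key x y z ⟨hwx, hwy, hwz, hxy, hxz, hyz⟩ rfl rfl rfl
    · exact key y z x ⟨hwy, hwz, hwx, hyz, hxy.symm, hxz.symm⟩ (by ext v; simp only [mem_insert, mem_singleton]; tauto)
        (pm_comm2 _ _ _ _).symm rfl
    · exact key x z y ⟨hwx, hwz, hwy, hxz, hxy, hyz.symm⟩ (by ext v; simp only [mem_insert, mem_singleton]; tauto)
        rfl rfl
    · exact absurd rfl hne
  · rw [mem_image]
    rintro ⟨⟨a, b, c, e⟩, ht, h⟩
    simp only [tupSet, mem_filter, mem_univ, true_and] at ht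
    simp only [tauT, Prod.mk.injEq] at h
    obtain ⟨rfl, rfl, rfl⟩ := h
    refine ⟨?_, ?_, ?_⟩
    · rw [mem_powersetCard]; exact ⟨subset_univ _, card_set4 ht⟩
    · exact pm_mem_pmSet ht
    · rw [mem_erase]
      refine ⟨pm_ne ht, ?_⟩
      have := pm_mem_pmSet (a := a) (b := b) (c := e) (e := c) (dist4_perm1 ht)
      rwa [set4_comm2] at this

theorem pm_eq_cases {a c b e a' c' b' e' : Fin n} (hac : a' ≠ c') (hbe : b' ≠ e') (h : pm a' c' b' e' = pm a c b e) :
    (s(a', c') = s(a, c) ∨ s(a', c') = s(b, e)) ∧ (s(b', e') = s(a, c) ∨ s(b', e') = s(b, e)) := by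
  constructor
  · have : mkE a' c' hac ∈ pm a c b e := by rw [← h]; exact mem_pm.2 (Or.inl rfl)
    exact mem_pm.1 this
  · have : mkE b' e' hbe ∈ pm a c b e := by rw [← h]; exact mem_pm.2 (Or.inr rfl)
    exact mem_pm.1 this

theorem fibre_card {t₀ : Tup n} (ht : t₀ ∈ tupSet) :
    (tupSet.filter fun t => tauT t = tauT t₀).card = 4 := by
  obtain ⟨a, b, c, e⟩ := t₀
  simp only [tupSet, mem_filter, mem_univ, true_and] at ht
  obtain ⟨hab, hac, hae, hbc, hbe, hce⟩ := id ht
  have : (tupSet.filter fun t => tauT t = tauT (a, b, c, e)) =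
      {(a, b, c, e), (b, a, e, c), (c, e, a, b), (e, c, b, a)} := by
    ext ⟨a', b', c', e'⟩
    simp only [mem_filter, tupSet, mem_univ, true_and, tauT, Prod.mk.injEq, mem_insert, mem_singleton]
    constructor
    · rintro ⟨hD, hS, h1, h2⟩
      obtain ⟨h1', h2', h3', h4', h5', h6'⟩ := id hD
      have c1 := pm_eq_cases h2' h5' h1
      have c2 := pm_eq_cases h3' h4' h2
      have hmem : a' ∈ ({a, b, c, e} : Finset (Fin n)) := by rw [← hS]; simp
      simp only [mem_insert, mem_singleton] at hmem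
      simp only [Sym2.eq_iff] at c1 c2
      obtain ⟨c11, c12⟩ := c1
      obtain ⟨c21, c22⟩ := c2
      rcases hmem with rfl | rfl | rfl | rfl
      · left; grind
      · right; left; grind
      · right; right; left; grind
      · right; right; right; grind
    · rintro (⟨h1, h2, h3, h4⟩ | ⟨h1, h2, h3, h4⟩ | ⟨h1, h2, h3, h4⟩ | ⟨h1, h2, h3, h4⟩) <;> rw [h1, h2, h3, h4]
      · exact ⟨ht, rfl, rfl, rfl⟩
      · refine ⟨⟨hab.symm, hbe, hbc, hae, hac, hce.symm⟩, ?_, pm_swap _ _ _ _, pm_swap _ _ _ _⟩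
        ext v; simp only [mem_insert, mem_singleton]; tauto
      · refine ⟨⟨hce, hac.symm, hbc.symm, hae.symm, hbe.symm, hab⟩, ?_, ?_, ?_⟩
        · ext v; simp only [mem_insert, mem_singleton]; tauto
        · rw [pm_comm1 c a, pm_comm2 a c e b, pm_comm2 a c b e]
        · rw [pm_comm1 c b, pm_comm2 b c e a, pm_swap b c a e]
      · refine ⟨⟨hce.symm, hbe.symm, hae.symm, hbc.symm, hac.symm, hab.symm⟩, ?_, ?_, ?_⟩
        · ext v; simp only [mem_insert, mem_singleton]; tauto
        · rw [pm_comm1 e b, pm_comm2 b e c a, pm_swap b e a c]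
        · rw [pm_comm1 e a, pm_comm2 a e c b]
  rw [this]
  rw [card_insert_of_notMem, card_insert_of_notMem, card_pair]
  · simp [hce, hab.symm, hce.symm]
  · simp [hbc.symm, hbe.symm]
  · simp [hab, hac, hae]

/-- The key counting identity: each proposal comes from exactly four ordered tuples. -/
theorem sum_props_eq (φ : Finset (Fin n) → Gr n → Gr n → ℝ) :
    4 * ∑ S ∈ (univ : Finset (Fin n)).powersetCard 4, ∑ F ∈ pmSet S, ∑ F' ∈ (pmSet S).erase F, φ S F F' =
      ∑ t ∈ tupSet, φ (tauT t).1 (tauT t).2.1 (tauT t).2.2 := by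
  classical
  have h1 := Finset.sum_comp (s := tupSet (n := n)) (fun p : Finset (Fin n) × Gr n × Gr n => φ p.1 p.2.1 p.2.2) tauT
  rw [h1]
  have h2 : ∑ p ∈ tupSet.image (tauT (n := n)), (tupSet.filter fun t => tauT t = p).card • φ p.1 p.2.1 p.2.2 =
      ∑ p ∈ tupSet.image (tauT (n := n)), 4 * φ p.1 p.2.1 p.2.2 := by
    apply sum_congr rfl
    intro p hp
    obtain ⟨t₀, ht₀, rfl⟩ := mem_image.1 hp
    rw [fibre_card ht₀]
    simp
  rw [h2, ← Finset.mul_sum]
  congr 1
  symm
  rw [Finset.sum_finset_product (r := tupSet.image (tauT (n := n))) (s := (univ : Finset (Fin n)).powersetCard 4)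
    (t := fun S => ((pmSet S).sigma (fun F => (pmSet S).erase F)).map ⟨fun x => (x.1, x.2), fun x y h => by
      cases x; cases y; simp only [Prod.mk.injEq] at h; obtain ⟨rfl, rfl⟩ := h; rfl⟩)]
  · apply sum_congr rfl
    intro S _
    rw [Finset.sum_map, Finset.sum_sigma]
    rfl
  · rintro ⟨S, F, F'⟩
    rw [← mem_props_iff]
    simp only [mem_map, mem_sigma, Function.Embedding.coeFn_mk]
    constructor
    · rintro ⟨h1, h2, h3⟩; exact ⟨h1, ⟨F, F'⟩, ⟨h2, h3⟩, rfl⟩
    · rintro ⟨h1, ⟨F₀, F₀'⟩, ⟨h2, h3⟩, h4⟩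
      simp only [Prod.mk.injEq] at h4
      obtain ⟨rfl, rfl⟩ := h4
      exact ⟨h1, h2, h3⟩

/-- Number of proposals. -/
theorem sum_props_one :
    ∑ S ∈ (univ : Finset (Fin n)).powersetCard 4, ∑ F ∈ pmSet S, ∑ _F' ∈ (pmSet S).erase F, (1 : ℝ) =
      6 * (n.choose 4 : ℝ) := by
  have h : ∀ S ∈ (univ : Finset (Fin n)).powersetCard 4,
      ∑ F ∈ pmSet S, ∑ _F' ∈ (pmSet S).erase F, (1 : ℝ) = 6 := by
    intro S hS
    rw [mem_powersetCard] at hS
    obtain ⟨w, x, y, z, hD, rfl⟩ := exists_four hS.2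
    obtain ⟨h1, h2, h3⟩ := pm_three_ne hD
    have hc : (pmSet ({w, x, y, z} : Finset (Fin n))).card = 3 := by
      rw [pmSet_eq hD, card_insert_of_notMem, card_pair h3]
      simp [h1, h2]
    have : ∀ F ∈ pmSet ({w, x, y, z} : Finset (Fin n)),
        ∑ _F' ∈ (pmSet ({w, x, y, z} : Finset (Fin n))).erase F, (1 : ℝ) = 2 := by
      intro F hF
      rw [sum_const, card_erase_of_mem hF, hc]
      simp
    rw [sum_congr rfl this, sum_const, hc]
    norm_num
  rw [sum_congr rfl h, sum_const, card_powersetCard, Finset.card_univ, Fintype.card_fin]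
  simp only [nsmul_eq_mul]
  ring

theorem pmSet_props {S : Finset (Fin n)} {F : Gr n} (hF : F ∈ pmSet S) {v : Fin n} :
    (F.filter fun e => v ∈ e.1).card = if v ∈ S then 1 else 0 := by
  unfold pmSet at hF
  rw [mem_filter] at hF
  obtain ⟨-, hend, hone⟩ := hF
  split_ifs with hv
  · exact hone v hv
  · rw [card_eq_zero, filter_eq_empty_iff]
    intro e he hve
    exact hv (hend e he v hve)

theorem switchResult_mem {d : Fin n → ℕ} {E : Gr n} (hE : E ∈ realizations d) {S : Finset (Fin n)}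
    {F F' : Gr n} (hF : F ∈ pmSet S) (hF' : F' ∈ pmSet S) : switchResult E F F' ∈ realizations d := by
  unfold switchResult
  split_ifs with h
  · obtain ⟨hsub, hdis⟩ := h
    unfold realizations at hE ⊢
    rw [mem_filter] at hE ⊢
    refine ⟨mem_univ _, fun v => ?_⟩
    rw [← hE.2 v]
    unfold deg
    have h1 : ((E \ F ∪ F').filter fun e => v ∈ e.1) =
        ((E.filter fun e => v ∈ e.1) \ (F.filter fun e => v ∈ e.1)) ∪ (F'.filter fun e => v ∈ e.1) := by
      ext x
      simp only [mem_filter, mem_union, mem_sdiff]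
      tauto
    rw [h1, card_union_of_disjoint, card_sdiff_of_subset, pmSet_props hF, pmSet_props hF']
    · have hle : (F.filter fun e => v ∈ e.1).card ≤ (E.filter fun e => v ∈ e.1).card :=
        card_le_card (filter_subset_filter _ hsub)
      rw [pmSet_props hF] at hle
      omega
    · exact filter_subset_filter _ hsub
    · rw [Finset.disjoint_left]
      intro x hx hx'
      simp only [mem_sdiff, mem_filter] at hx hx'
      exact (Finset.disjoint_left.1 hdis hx'.1) hx.1.1
  · exact hE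

/-- The action of the kernel from a realization. -/
theorem kernel_sum (d : Fin n → ℕ) {E : Gr n} (hE : E ∈ realizations d) (g : Gr n → ℝ) :
    ∑ G' ∈ realizations d, kernel n E G' * g G' =
      (1 / 2) * g E + (1 / (12 * (n.choose 4 : ℝ))) *
        ∑ S ∈ (univ : Finset (Fin n)).powersetCard 4, ∑ F ∈ pmSet S, ∑ F' ∈ (pmSet S).erase F,
          g (switchResult E F F') := by
  unfold kernel
  simp only [add_mul, sum_add_distrib]
  congr 1
  · rw [Finset.sum_eq_single_of_mem E hE]
    · simp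
    · intro b _ hb
      rw [if_neg (Ne.symm hb)]; simp
  · unfold proposalCount
    simp only [div_eq_mul_inv, Nat.cast_sum, one_mul, sum_mul, mul_sum]
    rw [Finset.sum_comm]
    apply sum_congr rfl
    intro S hS
    rw [Finset.sum_comm]
    apply sum_congr rfl
    intro F hF
    rw [Finset.sum_comm]
    apply sum_congr rfl
    intro F' hF'
    have hres : switchResult E F F' ∈ realizations d := switchResult_mem hE hF (mem_of_mem_erase hF')
    rw [Finset.sum_eq_single_of_mem (switchResult E F F') hres]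
    · simp
    · intro b _ hb
      rw [if_neg (Ne.symm hb)]; simp

/-- First matching present, second absent. -/
def D1 (a b c e : Fin n) (G : Gr n) : Prop := Adj G a c ∧ Adj G b e ∧ ¬ Adj G a e ∧ ¬ Adj G b c

theorem isD_iff_D1 (a b c e : Fin n) (G : Gr n) : isD a b c e G ↔ D1 a b c e G ∨ D1 a b e c G := by
  unfold isD D1; tauto

theorem D1_excl {a b c e : Fin n} {G : Gr n} (h : D1 a b c e G) : ¬ D1 a b e c G := by
  unfold D1 at *; tauto

theorem slots4_eq (a b c e : Fin n) : slots4 a b c e = pm a c b e ∪ pm a e b c := by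
  ext x; simp only [slots4, mem_filter, mem_univ, true_and, mem_union, mem_pm]; tauto

theorem slots4_comm (a b c e : Fin n) : slots4 a b c e = slots4 a b e c := by
  ext x; simp only [slots4, mem_filter, mem_univ, true_and]; tauto

theorem swD_comm2 (a b c e : Fin n) (G : Gr n) : swD a b c e G = swD a b e c G := by
  unfold swD; rw [slots4_comm]

theorem swD_swD (a b c e : Fin n) (G : Gr n) : swD a b e c (swD a b c e G) = G := by
  unfold swD; rw [slots4_comm a b e c]; simp

theorem switchResult_pm {a b c e : Fin n} (h : Dist4 a b c e) (G : Gr n) :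
    switchResult G (pm a c b e) (pm a e b c) = if D1 a b c e G then swD a b c e G else G := by
  obtain ⟨hab, hac, hae, hbc, hbe, hce⟩ := id h
  unfold switchResult
  have hiff : (pm a c b e ⊆ G ∧ Disjoint (pm a e b c) G) ↔ D1 a b c e G := by
    rw [pm_subset_iff hac hbe, pm_disjoint_iff]; unfold D1; tauto
  by_cases hD : D1 a b c e G
  · rw [if_pos (hiff.2 hD), if_pos hD]
    obtain ⟨h1, h2⟩ := hiff.2 hD
    unfold swD
    rw [slots4_eq]
    ext x
    simp only [mem_union, mem_sdiff, Finset.mem_symmDiff]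
    have h3 : x ∈ pm a c b e → x ∈ G := fun hx => h1 hx
    have h4 : x ∈ pm a e b c → x ∉ G := fun hx => Finset.disjoint_left.1 h2 hx
    tauto
  · rw [if_neg (fun h' => hD (hiff.1 h')), if_neg hD]

theorem swD_mem {d : Fin n → ℕ} {a b c e : Fin n} (h : Dist4 a b c e) {G : Gr n}
    (hG : G ∈ realizations d) (hD : D1 a b c e G) : swD a b c e G ∈ realizations d := by
  have h1 := switchResult_mem (S := {a, b, c, e}) hG (pm_mem_pmSet h)
    (F' := pm a e b c) (by
      have := pm_mem_pmSet (a := a) (b := b) (c := e) (e := c) (dist4_perm1 h)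
      rwa [set4_comm2] at this)
  rwa [switchResult_pm h, if_pos hD] at h1

theorem D1_swD {a b c e : Fin n} (h : Dist4 a b c e) {G : Gr n} (hD : D1 a b c e G) :
    D1 a b e c (swD a b c e G) := by
  obtain ⟨hab, hac, hae, hbc, hbe, hce⟩ := id h
  have hsw : swD a b c e G = G \ pm a c b e ∪ pm a e b c := by
    have := switchResult_pm h G
    rw [if_pos hD] at this
    rw [← this]
    unfold switchResult
    rw [if_pos]
    rw [pm_subset_iff hac hbe, pm_disjoint_iff]; unfold D1 at hD; tauto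
  have hdis : Disjoint (pm a e b c) G := by
    rw [pm_disjoint_iff]; unfold D1 at hD; tauto
  have h1 : pm a e b c ⊆ swD a b c e G := by rw [hsw]; exact subset_union_right
  have h2 : Disjoint (pm a c b e) (swD a b c e G) := by
    rw [hsw, Finset.disjoint_left]
    intro x hx hx'
    rcases mem_union.1 hx' with h3 | h3
    · exact (mem_sdiff.1 h3).2 hx
    · have hsub : pm a c b e ⊆ G := by
        rw [pm_subset_iff hac hbe]; unfold D1 at hD; tauto
      exact Finset.disjoint_left.1 hdis h3 (hsub hx)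
  rw [pm_subset_iff hae hbc] at h1
  rw [pm_disjoint_iff] at h2
  unfold D1; tauto

/-- Four-fold sum vs `tupSet`. -/
theorem sum_tupSet (Y : Fin n → Fin n → Fin n → Fin n → ℝ) :
    ∑ t ∈ tupSet, Y t.1 t.2.1 t.2.2.1 t.2.2.2 =
      ∑ a, ∑ b, ∑ c, ∑ e, if Dist4 a b c e then Y a b c e else 0 := by
  unfold tupSet
  rw [Finset.sum_filter]
  simp only [Fintype.sum_prod_type]

/-- Swap `c,e` in a four-fold sum. -/
theorem sum4_swap (Y : Fin n → Fin n → Fin n → Fin n → ℝ) :
    (∑ a, ∑ b, ∑ c, ∑ e, if Dist4 a b c e then Y a b e c else 0) =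
      ∑ a, ∑ b, ∑ c, ∑ e, if Dist4 a b c e then Y a b c e else 0 := by
  apply sum_congr rfl; intro a _
  apply sum_congr rfl; intro b _
  rw [Finset.sum_comm]
  apply sum_congr rfl; intro c _
  apply sum_congr rfl; intro e _
  have : Dist4 a b e c ↔ Dist4 a b c e := ⟨fun h => (dist4_perm1 h), fun h => (dist4_perm1 h)⟩
  simp only [this]

variable (d : Fin n → ℕ) (f : Gr n → ℝ)

/-- `∑_G [D1] Φ(G, swD G)` -/
noncomputable def WW (Φ : Gr n → Gr n → ℝ) : ℝ :=
  ∑ a, ∑ b, ∑ c, ∑ e, if Dist4 a b c e then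
    ∑ G ∈ (realizations d).filter (D1 a b c e), Φ G (swD a b c e G) else 0

theorem WW_flip (Φ : Gr n → Gr n → ℝ) : WW d (fun x y => Φ y x) = WW d Φ := by
  unfold WW
  rw [← sum4_swap]
  apply sum_congr rfl; intro a _
  apply sum_congr rfl; intro b _
  apply sum_congr rfl; intro c _
  apply sum_congr rfl; intro e _
  split_ifs with h
  · apply Finset.sum_nbij' (swD a b e c) (swD a b c e)
    · intro G hG
      rw [mem_filter] at hG ⊢
      exact ⟨swD_mem (dist4_perm1 h) hG.1 hG.2, D1_swD (dist4_perm1 h) hG.2⟩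
    · intro G hG
      rw [mem_filter] at hG ⊢
      exact ⟨swD_mem h hG.1 hG.2, D1_swD h hG.2⟩
    · intro G _; exact swD_swD a b e c G
    · intro G _; exact swD_swD a b c e G
    · intro G _
      rw [swD_swD]
  · rfl

theorem WW_add (Φ Ψ : Gr n → Gr n → ℝ) : WW d (fun x y => Φ x y + Ψ x y) = WW d Φ + WW d Ψ := by
  unfold WW
  simp only [← sum_add_distrib, ]
  apply sum_congr rfl; intro a _
  apply sum_congr rfl; intro b _
  apply sum_congr rfl; intro c _
  apply sum_congr rfl; intro e _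
  split_ifs
  · rw [sum_add_distrib]
  · simp

theorem TotEn_eq_WW : TotEn d f = WW d (fun x y => (f x - f y) ^ 2 / 2) := by
  unfold TotEn WW EnG
  have step : ∀ a b : Fin n, (if a ≠ b then ∑ c, ∑ e, if Dist4 a b c e then
      ∑ G ∈ Dset d a b c e, (f G - f (swD a b c e G)) ^ 2 / 4 else 0 else 0) =
      ∑ c, ∑ e, if Dist4 a b c e then
      ∑ G ∈ Dset d a b c e, (f G - f (swD a b c e G)) ^ 2 / 4 else 0 := by
    intro a b
    split_ifs with h
    · rfl
    · rw [not_not] at h
      symm
      apply sum_eq_zero; intro c _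
      apply sum_eq_zero; intro e _
      rw [if_neg]
      intro h'; exact h'.1 h
  simp only [step]
  have hsplit : ∀ a b c e : Fin n, Dist4 a b c e →
      ∑ G ∈ Dset d a b c e, (f G - f (swD a b c e G)) ^ 2 / 4 =
      ∑ G ∈ (realizations d).filter (D1 a b c e), (f G - f (swD a b c e G)) ^ 2 / 4 +
      ∑ G ∈ (realizations d).filter (D1 a b e c), (f G - f (swD a b e c G)) ^ 2 / 4 := by
    intro a b c e _
    unfold Dset
    have : (realizations d).filter (isD a b c e) =
        (realizations d).filter (D1 a b c e) ∪ (realizations d).filter (D1 a b e c) := by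
      ext G
      simp only [mem_filter, mem_union, isD_iff_D1]
      tauto
    rw [this, sum_union]
    · congr 1
      apply sum_congr rfl; intro G _
      rw [swD_comm2]
    · rw [Finset.disjoint_left]
      intro G h1 h2
      exact D1_excl (mem_filter.1 h1).2 (mem_filter.1 h2).2
  have hA : (∑ a, ∑ b, ∑ c, ∑ e, if Dist4 a b c e then
      ∑ G ∈ Dset d a b c e, (f G - f (swD a b c e G)) ^ 2 / 4 else 0) =
      (∑ a, ∑ b, ∑ c, ∑ e, if Dist4 a b c e then
        ∑ G ∈ (realizations d).filter (D1 a b c e), (f G - f (swD a b c e G)) ^ 2 / 4 else 0) +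
      (∑ a, ∑ b, ∑ c, ∑ e, if Dist4 a b c e then
        ∑ G ∈ (realizations d).filter (D1 a b e c), (f G - f (swD a b e c G)) ^ 2 / 4 else 0) := by
    simp only [← sum_add_distrib]
    apply sum_congr rfl; intro a _
    apply sum_congr rfl; intro b _
    apply sum_congr rfl; intro c _
    apply sum_congr rfl; intro e _
    split_ifs with h
    · exact hsplit a b c e h
    · simp
  rw [hA, sum4_swap (fun a b c e => ∑ G ∈ (realizations d).filter (D1 a b c e), (f G - f (swD a b c e G)) ^ 2 / 4), ← two_mul]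
  simp only [Finset.mul_sum]
  apply sum_congr rfl; intro a _
  apply sum_congr rfl; intro b _
  apply sum_congr rfl; intro c _
  apply sum_congr rfl; intro e _
  split_ifs
  · rw [Finset.mul_sum]
    apply sum_congr rfl; intro G _
    ring
  · simp

theorem WW_Dir (hn : 4 ≤ n) : 48 * (n.choose 4 : ℝ) * Dir d f = WW d (fun x y => f x * (f x - f y)) := by
  have hC : (0 : ℝ) < (n.choose 4 : ℝ) := by
    exact_mod_cast Nat.choose_pos hn
  have h1 : ∀ G ∈ realizations d, 12 * (n.choose 4 : ℝ) * (f G * (f G - ∑ G' ∈ realizations d, kernel n G G' * f G')) =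
      ∑ S ∈ (univ : Finset (Fin n)).powersetCard 4, ∑ F ∈ pmSet S, ∑ F' ∈ (pmSet S).erase F,
        f G * (f G - f (switchResult G F F')) := by
    intro G hG
    rw [kernel_sum d hG f]
    have h2 : ∑ S ∈ (univ : Finset (Fin n)).powersetCard 4, ∑ F ∈ pmSet S, ∑ F' ∈ (pmSet S).erase F,
        f G * (f G - f (switchResult G F F')) =
        f G * (f G * (∑ S ∈ (univ : Finset (Fin n)).powersetCard 4, ∑ F ∈ pmSet S, ∑ _F' ∈ (pmSet S).erase F, (1 : ℝ))
         - ∑ S ∈ (univ : Finset (Fin n)).powersetCard 4, ∑ F ∈ pmSet S, ∑ F' ∈ (pmSet S).erase F, f (switchResult G F F')) := by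
      simp only [Finset.mul_sum, ← Finset.sum_sub_distrib]
      apply sum_congr rfl; intro S _
      apply sum_congr rfl; intro F _
      apply sum_congr rfl; intro F' _
      ring
    rw [h2, sum_props_one]
    field_simp
    ring
  have h3 : ∀ G ∈ realizations d, 48 * (n.choose 4 : ℝ) * (f G * (f G - ∑ G' ∈ realizations d, kernel n G G' * f G')) =
      ∑ a, ∑ b, ∑ c, ∑ e, if Dist4 a b c e then (if D1 a b c e G then f G * (f G - f (swD a b c e G)) else 0) else 0 := by
    intro G hG
    have h4 := h1 G hG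
    have h5 := sum_props_eq (n := n) (fun _ F F' => f G * (f G - f (switchResult G F F')))
    have h6 : (48 : ℝ) * (n.choose 4 : ℝ) * (f G * (f G - ∑ G' ∈ realizations d, kernel n G G' * f G')) =
        4 * (12 * (n.choose 4 : ℝ) * (f G * (f G - ∑ G' ∈ realizations d, kernel n G G' * f G'))) := by ring
    rw [h6, h4, h5]
    have h7 := sum_tupSet (n := n) (fun a b c e => f G * (f G - f (switchResult G (pm a c b e) (pm a e b c))))
    simp only [tauT]
    rw [h7]
    apply sum_congr rfl; intro a _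
    apply sum_congr rfl; intro b _
    apply sum_congr rfl; intro c _
    apply sum_congr rfl; intro e _
    split_ifs with h hD
    · rw [switchResult_pm h, if_pos hD]
    · rw [switchResult_pm h, if_neg hD]; ring
    · rfl
  unfold Dir WW
  rw [Finset.mul_sum, sum_congr rfl h3]
  rw [Finset.sum_comm]
  apply sum_congr rfl; intro a _
  rw [Finset.sum_comm]
  apply sum_congr rfl; intro b _
  rw [Finset.sum_comm]
  apply sum_congr rfl; intro c _
  rw [Finset.sum_comm]
  apply sum_congr rfl; intro e _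
  split_ifs with h
  · rw [Finset.sum_filter]
  · simp

end LinkAux

open LinkAux in
/-- (LINK) -/
theorem TotEn_eq_Dir (hn : 4 ≤ n) (d : Fin n → ℕ) (f : Gr n → ℝ) :
    TotEn d f = 48 * (n.choose 4 : ℝ) * Dir d f := by
  rw [WW_Dir d f hn, TotEn_eq_WW]
  have h1 := WW_flip d (fun x y => f x * (f x - f y))
  have h2 := WW_add d (fun x y => f x * (f x - f y)) (fun x y => f y * (f y - f x))
  have h3 : (fun x y => (f x - f y) ^ 2 / 2) = (fun x y => (1 / 2 : ℝ) * (f x * (f x - f y) + f y * (f y - f x))) := by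
    funext x y; ring
  have h4 : WW d (fun x y => (1 / 2 : ℝ) * (f x * (f x - f y) + f y * (f y - f x))) =
      (1 / 2 : ℝ) * WW d (fun x y => f x * (f x - f y) + f y * (f y - f x)) := by
    unfold WW
    simp only [Finset.mul_sum]
    apply sum_congr rfl; intro a _
    apply sum_congr rfl; intro b _
    apply sum_congr rfl; intro c _
    apply sum_congr rfl; intro e _
    split_ifs
    · rw [Finset.mul_sum]
    · simp
  rw [h3, h4, h2, h1]
  ring

end Crest.Agent.Lib.S0453
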