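/-
S0453: Poincaré inequality with constant 12 C(n,4) (assembly).
-/
import Crest.Agent.Lib.S0453.KKAlg
import Crest.Agent.Lib.S0453.Link

set_option autoImplicit false
open Finset Crest.SwitchChain
open scoped Classical

namespace Crest.Agent.Lib.S0453

variable {n : ℕ}

theorem poincare (hn : 4 ≤ n) (d : Fin n → ℕ) (f : Gr n → ℝ) :
    VarC d f ≤ 12 * (n.choose 4 : ℝ) * Dir d f := by
  have h1 := var_le_KK d f
  have h2 := KK_le_TotEn d f
  have h3 := TotEn_eq_Dir hn d f
  rw [h3] at h2
  linarith

end Crest.Agent.Lib.S0453
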