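/-
S0453 task TV (helper7).  From a Poincaré inequality to the two parts of the statement.
Q = kernel restricted to Ω: symmetric, stochastic, lazy: ‖Qh‖² ≤ ⟨h,Qh⟩, so for mean-zero h ‖Q^t h‖² ≤ (1-1/C₀)^t ‖h‖², C₀ = 12 C(n,4).
TV ≤ (1/2)√N (1-1/C₀)^{t/2}; N ≤ 2^{n²}; t = 2n^8 works.
-/
import Crest.Agent.Lib.S0453.Link

set_option autoImplicit false
open Finset Crest.SwitchChain
open scoped Classical

namespace Crest.Agent.Lib.S0453

open LinkAux

namespace TVAux

variable {n : ℕ}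

theorem res_symm {G G' F F' : Gr n} (hne : G ≠ G') (h : switchResult G F F' = G') :
    switchResult G' F' F = G := by
  unfold switchResult at h ⊢
  split_ifs at h with hc
  · obtain ⟨hsub, hdis⟩ := hc
    have hin : ∀ x, x ∈ F → x ∈ G := fun x hx => hsub hx
    have hout : ∀ x, x ∈ F' → x ∉ G := fun x hx => Finset.disjoint_left.1 hdis hx
    have hG' : ∀ x, x ∈ G' ↔ (x ∈ G ∧ x ∉ F) ∨ x ∈ F' := by
      intro x; rw [← h]; simp
    rw [if_pos]
    · ext x
      simp only [mem_union, mem_sdiff, hG']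
      have := hin x; have := hout x
      tauto
    · constructor
      · intro x hx; rw [hG']; exact Or.inr hx
      · rw [Finset.disjoint_left]
        intro x hx hx'
        rw [hG'] at hx'
        rcases hx' with h1 | h1
        · exact h1.2 hx
        · exact hout x h1 (hin x hx)
  · exact absurd h hne

theorem sum_erase_swap {β : Type*} [DecidableEq β] (A : Finset β) (g : β → β → ℝ) :
    ∑ F ∈ A, ∑ F' ∈ A.erase F, g F F' = ∑ F ∈ A, ∑ F' ∈ A.erase F, g F' F := by
  simp only [← Finset.filter_ne', Finset.sum_filter]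
  rw [Finset.sum_comm]
  apply sum_congr rfl; intro F _
  apply sum_congr rfl; intro F' _
  by_cases h : F = F'
  · subst h; simp
  · rw [if_pos h, if_pos (Ne.symm h)]

theorem proposalCount_symm (G G' : Gr n) : proposalCount G G' = proposalCount G' G := by
  by_cases hne : G = G'
  · rw [hne]
  have : ((proposalCount G G' : ℕ) : ℝ) = (proposalCount G' G : ℕ) := by
    unfold proposalCount
    push_cast
    apply sum_congr rfl; intro S _
    refine (sum_erase_swap (pmSet S) _).trans ?_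
    apply sum_congr rfl; intro F _
    apply sum_congr rfl; intro F' _
    by_cases h : switchResult G F' F = G'
    · rw [if_pos h, if_pos (res_symm hne h)]
    · rw [if_neg h, if_neg]
      intro h'
      exact h (res_symm (Ne.symm hne) h')
  exact_mod_cast this

theorem kernel_symm (G G' : Gr n) : kernel n G G' = kernel n G' G := by
  unfold kernel
  rw [proposalCount_symm G G']
  by_cases h : G = G'
  · rw [h]
  · rw [if_neg h, if_neg (Ne.symm h)]

theorem proposalCount_out {d : Fin n → ℕ} {G G' : Gr n} (hG : G ∈ realizations d)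
    (hG' : G' ∉ realizations d) : proposalCount G G' = 0 := by
  unfold proposalCount
  apply sum_eq_zero; intro S _
  apply sum_eq_zero; intro F hF
  apply sum_eq_zero; intro F' hF'
  rw [if_neg]
  intro h
  exact hG' (h ▸ switchResult_mem hG hF (mem_of_mem_erase hF'))

theorem kernel_out {d : Fin n → ℕ} {G G' : Gr n} (hG : G ∈ realizations d)
    (hG' : G' ∉ realizations d) : kernel n G G' = 0 := by
  unfold kernel
  rw [proposalCount_out hG hG', if_neg]
  · simp
  · rintro rfl; exact hG' hG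

theorem kernel_row (hn : 4 ≤ n) (d : Fin n → ℕ) {G : Gr n} (hG : G ∈ realizations d) :
    ∑ G' ∈ realizations d, kernel n G G' = 1 := by
  have hC : (0 : ℝ) < (n.choose 4 : ℝ) := by exact_mod_cast Nat.choose_pos hn
  have := kernel_sum d hG (fun _ => (1 : ℝ))
  simp only [mul_one] at this
  rw [this, sum_props_one]
  field_simp
  ring

/-- The lazy-free part. -/
noncomputable def rr (G G' : Gr n) : ℝ := 2 * kernel n G G' - if G = G' then 1 else 0

theorem rr_nonneg (hn : 4 ≤ n) (G G' : Gr n) : 0 ≤ rr G G' := by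
  have hC : (0 : ℝ) < (n.choose 4 : ℝ) := by exact_mod_cast Nat.choose_pos hn
  unfold rr kernel
  have h : 0 ≤ (proposalCount G G' : ℝ) / (12 * (n.choose 4 : ℝ)) := by positivity
  split_ifs <;> nlinarith

section spectral

variable {Ω : Finset (Gr n)}

/-- ‖Rh‖ ≤ ‖h‖ by Jensen. -/
theorem rr_contract (hn : 4 ≤ n) (d : Fin n → ℕ) (h : Gr n → ℝ) :
    ∑ G ∈ realizations d, (∑ G' ∈ realizations d, rr G G' * h G') ^ 2 ≤ ∑ G ∈ realizations d, h G ^ 2 := by
  have hrow : ∀ G ∈ realizations d, ∑ G' ∈ realizations d, rr G G' = 1 := by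
    intro G hG
    unfold rr
    rw [sum_sub_distrib, ← Finset.mul_sum, kernel_row hn d hG, Finset.sum_ite_eq]
    simp [hG]; norm_num
  have hcol : ∀ G' ∈ realizations d, ∑ G ∈ realizations d, rr G G' = 1 := by
    intro G' hG'
    rw [← hrow G' hG']
    apply sum_congr rfl; intro G _
    unfold rr
    rw [kernel_symm G G']
    simp [eq_comm]
  have h1 : ∀ G ∈ realizations d, (∑ G' ∈ realizations d, rr G G' * h G') ^ 2 ≤
      ∑ G' ∈ realizations d, rr G G' * h G' ^ 2 := by
    intro G hG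
    have := Finset.sum_mul_sq_le_sq_mul_sq (realizations d) (fun G' => Real.sqrt (rr G G')) (fun G' => Real.sqrt (rr G G') * h G')
    have hs : ∀ G', Real.sqrt (rr G G') * (Real.sqrt (rr G G') * h G') = rr G G' * h G' := by
      intro G'; rw [← mul_assoc, Real.mul_self_sqrt (rr_nonneg hn G G')]
    have hs2 : ∀ G', Real.sqrt (rr G G') ^ 2 = rr G G' := fun G' => Real.sq_sqrt (rr_nonneg hn G G')
    have hs3 : ∀ G', (Real.sqrt (rr G G') * h G') ^ 2 = rr G G' * h G' ^ 2 := by
      intro G'; rw [mul_pow, hs2]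
    simp only [hs, hs2, hs3] at this
    rw [hrow G hG, one_mul] at this
    exact this
  calc _ ≤ ∑ G ∈ realizations d, ∑ G' ∈ realizations d, rr G G' * h G' ^ 2 := sum_le_sum h1
    _ = ∑ G' ∈ realizations d, ∑ G ∈ realizations d, rr G G' * h G' ^ 2 := Finset.sum_comm
    _ = ∑ G' ∈ realizations d, h G' ^ 2 := by
      apply sum_congr rfl; intro G' hG'
      rw [← Finset.sum_mul, hcol G' hG', one_mul]

/-- `Q h`. -/
noncomputable def QQ (d : Fin n → ℕ) (h : Gr n → ℝ) (G : Gr n) : ℝ :=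
  ∑ G' ∈ realizations d, kernel n G G' * h G'

theorem QQ_eq (d : Fin n → ℕ) (h : Gr n → ℝ) {G : Gr n} (hG : G ∈ realizations d) :
    QQ d h G = (1 / 2) * (h G + ∑ G' ∈ realizations d, rr G G' * h G') := by
  unfold QQ rr
  simp only [sub_mul, mul_assoc, sum_sub_distrib, ← Finset.mul_sum, ite_mul, one_mul, zero_mul]
  rw [Finset.sum_ite_eq]
  simp [hG]

/-- `‖Qh‖² ≤ ⟨h,Qh⟩`. -/
theorem QQ_sq_le (hn : 4 ≤ n) (d : Fin n → ℕ) (h : Gr n → ℝ) :
    ∑ G ∈ realizations d, QQ d h G ^ 2 ≤ ∑ G ∈ realizations d, h G * QQ d h G := by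
  have h1 := rr_contract hn d h
  have h2 : ∑ G ∈ realizations d, h G * QQ d h G - ∑ G ∈ realizations d, QQ d h G ^ 2 =
      (1 / 4) * (∑ G ∈ realizations d, h G ^ 2 - ∑ G ∈ realizations d, (∑ G' ∈ realizations d, rr G G' * h G') ^ 2) := by
    rw [← sum_sub_distrib, ← sum_sub_distrib, Finset.mul_sum]
    apply sum_congr rfl; intro G hG
    rw [QQ_eq d h hG]
    ring
  linarith

theorem QQ_sum (hn : 4 ≤ n) (d : Fin n → ℕ) (h : Gr n → ℝ) :
    ∑ G ∈ realizations d, QQ d h G = ∑ G ∈ realizations d, h G := by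
  unfold QQ
  rw [Finset.sum_comm]
  apply sum_congr rfl; intro G' hG'
  rw [← Finset.sum_mul]
  have : ∑ G ∈ realizations d, kernel n G G' = 1 := by
    rw [← kernel_row hn d hG']
    apply sum_congr rfl; intro G _
    exact kernel_symm G G'
  rw [this, one_mul]

theorem VarC_of_mean_zero (d : Fin n → ℕ) (h : Gr n → ℝ) (h0 : ∑ G ∈ realizations d, h G = 0) :
    VarC d h = ∑ G ∈ realizations d, h G ^ 2 := by
  unfold VarC avg
  rw [h0]; simp

/-- One-step decay for mean-zero functions. -/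
theorem QQ_decay (hn : 4 ≤ n) (d : Fin n → ℕ) (C₀ : ℝ) (hC₀ : 0 < C₀)
    (hP : ∀ f : Gr n → ℝ, VarC d f ≤ C₀ * Dir d f) (h : Gr n → ℝ)
    (h0 : ∑ G ∈ realizations d, h G = 0) :
    ∑ G ∈ realizations d, QQ d h G ^ 2 ≤ (1 - 1 / C₀) * ∑ G ∈ realizations d, h G ^ 2 := by
  have h1 := QQ_sq_le hn d h
  have h2 := hP h
  rw [VarC_of_mean_zero d h h0] at h2
  have h3 : Dir d h = ∑ G ∈ realizations d, h G ^ 2 - ∑ G ∈ realizations d, h G * QQ d h G := by
    unfold Dir QQ
    rw [← sum_sub_distrib]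
    apply sum_congr rfl; intro G _
    ring
  rw [h3] at h2
  have h4 : (∑ G ∈ realizations d, h G ^ 2) / C₀ ≤ ∑ G ∈ realizations d, h G ^ 2 - ∑ G ∈ realizations d, h G * QQ d h G := by
    rw [div_le_iff₀ hC₀]; linarith
  have h5 : (1 - 1 / C₀) * ∑ G ∈ realizations d, h G ^ 2 = ∑ G ∈ realizations d, h G ^ 2 - (∑ G ∈ realizations d, h G ^ 2) / C₀ := by
    field_simp
  rw [h5]; linarith

end spectral

theorem pow_out {d : Fin n → ℕ} {G₀ G : Gr n} (hG₀ : G₀ ∈ realizations d) (hG : G ∉ realizations d) (t : ℕ) :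
    (kernel n ^ t) G₀ G = 0 := by
  induction t generalizing G with
  | zero =>
    rw [pow_zero, Matrix.one_apply, if_neg]
    rintro rfl; exact hG hG₀
  | succ t ih =>
    rw [pow_succ, Matrix.mul_apply]
    apply sum_eq_zero; intro k _
    by_cases hk : k ∈ realizations d
    · rw [kernel_out hk hG, mul_zero]
    · rw [ih hk, zero_mul]

theorem pow_step {d : Fin n → ℕ} {G₀ G : Gr n} (hG₀ : G₀ ∈ realizations d) (t : ℕ) :
    (kernel n ^ (t + 1)) G₀ G = QQ d (fun k => (kernel n ^ t) G₀ k) G := by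
  rw [pow_succ, Matrix.mul_apply]
  unfold QQ
  rw [← Finset.sum_subset (subset_univ (realizations d))]
  · apply sum_congr rfl; intro k _
    rw [kernel_symm k G, mul_comm]
  · intro k _ hk
    rw [pow_out hG₀ hk, zero_mul]

theorem pow_sum (hn : 4 ≤ n) {d : Fin n → ℕ} {G₀ : Gr n} (hG₀ : G₀ ∈ realizations d) (t : ℕ) :
    ∑ G ∈ realizations d, (kernel n ^ t) G₀ G = 1 := by
  induction t with
  | zero =>
    simp only [pow_zero, Matrix.one_apply]
    rw [Finset.sum_ite_eq]
    simp [hG₀]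
  | succ t ih =>
    simp only [pow_step hG₀ t]
    rw [QQ_sum hn, ih]

theorem pow_decay (hn : 4 ≤ n) {d : Fin n → ℕ} {G₀ : Gr n} (hG₀ : G₀ ∈ realizations d)
    (C₀ : ℝ) (hC₀ : 1 ≤ C₀) (hP : ∀ f : Gr n → ℝ, VarC d f ≤ C₀ * Dir d f) (t : ℕ) :
    ∑ G ∈ realizations d, ((kernel n ^ t) G₀ G - 1 / ((realizations d).card : ℝ)) ^ 2 ≤ (1 - 1 / C₀) ^ t := by
  have hN : (0 : ℝ) < ((realizations d).card : ℝ) := by
    exact_mod_cast Finset.card_pos.2 ⟨G₀, hG₀⟩
  induction t with
  | zero =>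
    simp only [pow_zero, Matrix.one_apply]
    rw [← Finset.add_sum_erase _ _ hG₀]
    have h1 : ∑ x ∈ (realizations d).erase G₀, ((if G₀ = x then (1 : ℝ) else 0) - 1 / ((realizations d).card : ℝ)) ^ 2 =
        ∑ x ∈ (realizations d).erase G₀, (1 / ((realizations d).card : ℝ)) ^ 2 := by
      apply sum_congr rfl; intro x hx
      rw [if_neg (Ne.symm (ne_of_mem_erase hx))]; ring
    rw [h1, sum_const, card_erase_of_mem hG₀, if_pos rfl, nsmul_eq_mul]
    have hN1 : 1 ≤ (realizations d).card := Finset.card_pos.2 ⟨G₀, hG₀⟩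
    rw [Nat.cast_sub hN1]
    push_cast
    field_simp
    have : (1 : ℝ) ≤ ((realizations d).card : ℝ) := by exact_mod_cast hN1
    nlinarith
  | succ t ih =>
    have hC0 : 0 < C₀ := by linarith
    set h : Gr n → ℝ := fun G => (kernel n ^ t) G₀ G - 1 / ((realizations d).card : ℝ) with hh
    have h0 : ∑ G ∈ realizations d, h G = 0 := by
      simp only [hh]
      rw [sum_sub_distrib, pow_sum hn hG₀, sum_const, nsmul_eq_mul]
      field_simp
      ring
    have hQ : ∀ G ∈ realizations d, (kernel n ^ (t + 1)) G₀ G - 1 / ((realizations d).card : ℝ) = QQ d h G := by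
      intro G hG
      rw [pow_step hG₀ t]
      unfold QQ
      simp only [hh, mul_sub, sum_sub_distrib]
      rw [← Finset.sum_mul, kernel_row hn d hG, one_mul]
    rw [sum_congr rfl (fun G hG => by rw [hQ G hG])]
    have h1 := QQ_decay hn d C₀ hC0 hP h h0
    have h2 : 0 ≤ 1 - 1 / C₀ := by
      rw [sub_nonneg, div_le_one hC0]; exact hC₀
    calc _ ≤ (1 - 1 / C₀) * ∑ G ∈ realizations d, h G ^ 2 := h1
      _ ≤ (1 - 1 / C₀) * (1 - 1 / C₀) ^ t := mul_le_mul_of_nonneg_left ih h2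
      _ = (1 - 1 / C₀) ^ (t + 1) := by ring

theorem card_real_le (d : Fin n → ℕ) : (realizations d).card ≤ 2 ^ (n ^ 2) := by
  have h1 : (realizations d).card ≤ Fintype.card (Finset (Edge n)) := Finset.card_le_univ _
  rw [Fintype.card_finset, Sym2.card_subtype_not_diag, Fintype.card_fin] at h1
  refine h1.trans (Nat.pow_le_pow_right (by norm_num) ?_)
  rw [Nat.choose_two_right]
  calc n * (n - 1) / 2 ≤ n * (n - 1) := Nat.div_le_self _ _
    _ ≤ n * n := Nat.mul_le_mul_left _ (Nat.sub_le _ _)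
    _ = n ^ 2 := by ring

theorem numeric_bound (hn : 4 ≤ n) (N : ℝ) (hN : N ≤ 2 ^ (n ^ 2)) (hN0 : 0 ≤ N) :
    N * (1 - 1 / (12 * (n.choose 4 : ℝ))) ^ (2 * n ^ 8) ≤ 1 / 4 := by
  have hC : (1 : ℝ) ≤ (n.choose 4 : ℝ) := by exact_mod_cast Nat.choose_pos hn
  have hn4 : (4 : ℝ) ≤ n := by exact_mod_cast hn
  set C₀ : ℝ := 12 * (n.choose 4 : ℝ) with hC₀
  have hC0 : 0 < C₀ := by positivity
  have hC1 : C₀ ≤ (n : ℝ) ^ 4 := by
    have := Nat.choose_le_pow_div (α := ℝ) 4 n
    have h24 : ((4 : ℕ).factorial : ℝ) = 24 := by norm_num [Nat.factorial]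
    rw [h24] at this
    have h5 : (0 : ℝ) ≤ (n : ℝ) ^ 4 := by positivity
    rw [hC₀]; linarith
  have hx : 0 ≤ 1 - 1 / C₀ := by
    rw [sub_nonneg, div_le_one hC0]; linarith
  have h1 : (1 - 1 / C₀) ^ (2 * n ^ 8) ≤ Real.exp (-(2 * (n : ℝ) ^ 4)) := by
    have h2 : 1 - 1 / C₀ ≤ Real.exp (-(1 / C₀)) := Real.one_sub_le_exp_neg _
    calc (1 - 1 / C₀) ^ (2 * n ^ 8) ≤ Real.exp (-(1 / C₀)) ^ (2 * n ^ 8) := pow_le_pow_left₀ hx h2 _
      _ = Real.exp (((2 * n ^ 8 : ℕ) : ℝ) * (-(1 / C₀))) := (Real.exp_nat_mul _ _).symm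
      _ ≤ Real.exp (-(2 * (n : ℝ) ^ 4)) := by
        apply Real.exp_le_exp.2
        push_cast
        have h3 : 2 * (n : ℝ) ^ 4 ≤ 2 * (n : ℝ) ^ 8 * (1 / C₀) := by
          rw [mul_one_div, le_div_iff₀ hC0]
          have h5 : (0 : ℝ) ≤ (n : ℝ) ^ 4 := by positivity
          have : 2 * (n : ℝ) ^ 8 = 2 * (n : ℝ) ^ 4 * (n : ℝ) ^ 4 := by ring
          rw [this]
          exact mul_le_mul_of_nonneg_left hC1 (by positivity)
        linarith
  have h2 : N ≤ Real.exp ((n : ℝ) ^ 2) := by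
    have h3 : (2 : ℝ) ≤ Real.exp 1 := by
      have := Real.add_one_le_exp (1 : ℝ); linarith
    calc N ≤ 2 ^ (n ^ 2) := hN
      _ ≤ Real.exp 1 ^ (n ^ 2) := pow_le_pow_left₀ (by norm_num) h3 _
      _ = Real.exp (((n ^ 2 : ℕ) : ℝ) * 1) := (Real.exp_nat_mul _ _).symm
      _ = Real.exp ((n : ℝ) ^ 2) := by push_cast; ring_nf
  have h4 : (0 : ℝ) ≤ (1 - 1 / C₀) ^ (2 * n ^ 8) := pow_nonneg hx _
  calc N * (1 - 1 / C₀) ^ (2 * n ^ 8) ≤ Real.exp ((n : ℝ) ^ 2) * Real.exp (-(2 * (n : ℝ) ^ 4)) :=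
        mul_le_mul h2 h1 h4 (Real.exp_pos _).le
    _ = Real.exp ((n : ℝ) ^ 2 - 2 * (n : ℝ) ^ 4) := by rw [← Real.exp_add]; ring_nf
    _ ≤ Real.exp (-2) := by
        apply Real.exp_le_exp.2
        nlinarith [sq_nonneg ((n : ℝ) ^ 2), sq_nonneg (n : ℝ), pow_pos (by linarith : (0 : ℝ) < n) 2]
    _ ≤ 1 / 4 := by
        rw [Real.exp_neg, inv_eq_one_div]
        apply one_div_le_one_div_of_le (by norm_num)
        have h5 : (2 : ℝ) ≤ Real.exp 1 := by
          have := Real.add_one_le_exp (1 : ℝ); linarith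
        have h6 : Real.exp 2 = Real.exp 1 * Real.exp 1 := by rw [← Real.exp_add]; norm_num
        rw [h6]; nlinarith

/-- From Poincaré to the exact statement. -/
theorem main_of_poincare (n : ℕ) (hn : 4 ≤ n)
    (d : Fin n → ℕ) (hd : (Crest.SwitchChain.realizations d).Nonempty)
    (hP : ∀ f : Gr n → ℝ, VarC d f ≤ 12 * (n.choose 4 : ℝ) * Dir d f) :
    (∃ t : ℕ, t ≤ 2 * n ^ 8 ∧ ∀ G ∈ Crest.SwitchChain.realizations d,
        Crest.SwitchChain.tvDist (fun G' => (Crest.SwitchChain.kernel n ^ t) G G')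
          (Crest.SwitchChain.unifOn (Crest.SwitchChain.realizations d)) ≤ 1 / 4) ∧
      ∀ f : Finset (Crest.SwitchChain.Edge n) → ℝ,
        ((Crest.SwitchChain.realizations d).card : ℝ) *
              (∑ G ∈ Crest.SwitchChain.realizations d, f G ^ 2) -
            (∑ G ∈ Crest.SwitchChain.realizations d, f G) ^ 2 ≤
          24 * (n : ℝ) ^ 2 * (n.choose 4 : ℝ) * (Crest.SwitchChain.realizations d).card *
            ∑ G ∈ Crest.SwitchChain.realizations d,
              f G * (f G - ∑ G' ∈ Crest.SwitchChain.realizations d,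
                Crest.SwitchChain.kernel n G G' * f G') := by
  have hN0 : (0 : ℝ) < ((realizations d).card : ℝ) := by exact_mod_cast Finset.card_pos.2 hd
  have hC : (1 : ℝ) ≤ (n.choose 4 : ℝ) := by exact_mod_cast Nat.choose_pos hn
  constructor
  · refine ⟨2 * n ^ 8, le_rfl, ?_⟩
    intro G hG
    have h1 := pow_decay hn hG (12 * (n.choose 4 : ℝ)) (by linarith) hP (2 * n ^ 8)
    have h2 := numeric_bound hn ((realizations d).card : ℝ)
      (by exact_mod_cast card_real_le d) hN0.le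
    unfold tvDist
    set μ : Gr n → ℝ := fun G' => (kernel n ^ (2 * n ^ 8)) G G' with hμ
    have h3 : ∑ a, |μ a - unifOn (realizations d) a| =
        ∑ a ∈ realizations d, |μ a - 1 / ((realizations d).card : ℝ)| := by
      symm
      rw [← Finset.sum_subset (subset_univ (realizations d))]
      · apply sum_congr rfl; intro a ha
        unfold unifOn; rw [if_pos ha]
      · intro a _ ha
        unfold unifOn; rw [if_neg ha]
        simp only [hμ]
        rw [pow_out hG ha]; simp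
    rw [h3]
    have h4 : (∑ a ∈ realizations d, |μ a - 1 / ((realizations d).card : ℝ)|) ^ 2 ≤ 1 / 4 := by
      have h5 := sq_sum_le_card_mul_sum_sq (s := realizations d) (f := fun a => |μ a - 1 / ((realizations d).card : ℝ)|)
      simp only [sq_abs] at h5
      calc _ ≤ _ := h5
        _ ≤ ((realizations d).card : ℝ) * (1 - 1 / (12 * (n.choose 4 : ℝ))) ^ (2 * n ^ 8) :=
            mul_le_mul_of_nonneg_left h1 hN0.le
        _ ≤ 1 / 4 := h2
    have h6 : 0 ≤ ∑ a ∈ realizations d, |μ a - 1 / ((realizations d).card : ℝ)| :=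
      sum_nonneg fun _ _ => abs_nonneg _
    nlinarith
  · intro f
    have hV := hP f
    have hn1 : (1 : ℝ) ≤ (n : ℝ) ^ 2 := by
      have : (4 : ℝ) ≤ n := by exact_mod_cast hn
      nlinarith
    have hD : 0 ≤ Dir d f := by
      have h0 : 0 ≤ VarC d f := sum_nonneg fun _ _ => sq_nonneg _
      have : 0 ≤ 12 * (n.choose 4 : ℝ) * Dir d f := h0.trans hV
      have hpos : 0 < 12 * (n.choose 4 : ℝ) := by positivity
      exact nonneg_of_mul_nonneg_right this hpos
    have hVC : ((realizations d).card : ℝ) * VarC d f =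
        ((realizations d).card : ℝ) * (∑ G ∈ realizations d, f G ^ 2) - (∑ G ∈ realizations d, f G) ^ 2 := by
      unfold VarC avg
      have : ∀ G ∈ realizations d, (f G - (∑ x ∈ realizations d, f x) / ((realizations d).card : ℝ)) ^ 2 =
          f G ^ 2 - 2 * ((∑ x ∈ realizations d, f x) / ((realizations d).card : ℝ)) * f G +
            ((∑ x ∈ realizations d, f x) / ((realizations d).card : ℝ)) ^ 2 := by
        intro G _; ring
      rw [sum_congr rfl this, sum_add_distrib, sum_sub_distrib, ← Finset.mul_sum, sum_const, nsmul_eq_mul]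
      field_simp
      ring
    rw [← hVC]
    change _ ≤ 24 * (n : ℝ) ^ 2 * (n.choose 4 : ℝ) * (realizations d).card * Dir d f
    have h7 : ((realizations d).card : ℝ) * VarC d f ≤ ((realizations d).card : ℝ) * (12 * (n.choose 4 : ℝ) * Dir d f) :=
      mul_le_mul_of_nonneg_left hV hN0.le
    have h8 : 0 ≤ ((realizations d).card : ℝ) * (n.choose 4 : ℝ) * Dir d f := by positivity
    nlinarith

end TVAux

end Crest.Agent.Lib.S0453
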