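/-
S0453 task TV (helper7: msg 314 (g)).  From `poincare` to the two parts of the statement.
Q = kernel restricted to Ω: symmetric, stochastic, Q = (1/2)(I+R); ‖Qh‖² ≤ ⟨h,Qh⟩ (P-P² ≥ 0), so for mean-zero h ‖Q^t h‖² ≤ (1-1/C₀)^t ‖h‖², C₀ = 12 C(n,4).
TV ≤ (1/2)√N ‖Q^t e_G - u‖₂ ≤ (1/2)√N (1-1/C₀)^{t/2}; N ≤ 2^{C(n,2)}; t = 2n^8 works.
-/
import Crest.Agent.Lib.S0453.Poincare
import Crest.Agent.Lib.S0453.TVCore

set_option autoImplicit false
open Finset Crest.SwitchChain
open scoped Classical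

namespace Crest.Agent.Lib.S0453

theorem main (n : ℕ) (hn : 4 ≤ n)
    (d : Fin n → ℕ) (hd : (Crest.SwitchChain.realizations d).Nonempty) :
    (∃ t : ℕ, t ≤ 2 * n ^ 8 ∧ ∀ G ∈ Crest.SwitchChain.realizations d,
        Crest.SwitchChain.tvDist (fun G' => (Crest.SwitchChain.kernel n ^ t) G G')
          (Crest.SwitchChain.unifOn (Crest.SwitchChain.realizations d)) ≤ 1 / 4) ∧
      ∀ f : Finset (Crest.SwitchChain.Edge n) → ℝ,
        ((Crest.SwitchChain.realizations d).card : ℝ) *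
              (∑ G ∈ Crest.SwitchChain.realizations d, f G ^ 2) -
            (∑ G ∈ Crest.SwitchChain.realizations d, f G) ^ 2 ≤
          24 * (n : ℝ) ^ 2 * (n.choose 4 : ℝ) * (Crest.SwitchChain.realizations d).card *
            ∑ G ∈ Crest.SwitchChain.realizations d,
              f G * (f G - ∑ G' ∈ Crest.SwitchChain.realizations d,
                Crest.SwitchChain.kernel n G G' * f G') :=
  TVAux.main_of_poincare n hn d hd (poincare hn d)

end Crest.Agent.Lib.S0453
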