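/-
S0453 TABLE3: shared definitions of the 3-row lemma (imported by Table3B (invariant sector),
Table3A (spectral + transpositions) and Table3 (the final `three_row`)).
-/
import Crest.Agent.Lib.S0453.Defs

set_option autoImplicit false
open Finset
open scoped Classical

namespace Crest.Agent.Lib.S0453.Table3

variable {C : Type*} [Fintype C]

/-- Three-row binary tables with row sums `ρ` and column sums `r`. -/
noncomputable def tables (ρ : Fin 3 → ℕ) (r : C → ℕ) : Finset (Fin 3 → Finset C) :=
  univ.filter fun R => (∀ i, (R i).card = ρ i) ∧ ∀ x, (univ.filter fun i => x ∈ R i).card = r x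

/-- Counting variance over a finite set. -/
noncomputable def varS {β : Type*} (S : Finset β) (φ : β → ℝ) : ℝ :=
  ∑ s ∈ S, (φ s - avg S φ) ^ 2

/-- Average of `f` over the tables having the same row `i` as `s`. -/
noncomputable def rowAvg (ρ : Fin 3 → ℕ) (r : C → ℕ) (i : Fin 3) (f : (Fin 3 → Finset C) → ℝ)
    (s : Fin 3 → Finset C) : ℝ :=
  avg ((tables ρ r).filter fun t => t i = s i) f

/-- Exchange the columns `x`, `x'` of a table. -/
noncomputable def tau (x x' : C) (s : Fin 3 → Finset C) : Fin 3 → Finset C :=
  fun i => (s i).map (Equiv.swap x x').toEmbedding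

end Crest.Agent.Lib.S0453.Table3
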