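/-
S0453 TABLE3-A: the spectral reduction and the column-transposition step of the 3-row lemma.

`T' = ∑ Π_i`, `Π_i` the average over the tables with the same row `i`.
* `rayleigh_of_eig`: a symmetric matrix all of whose eigenvalues are `≤ c` has Rayleigh quotient `≤ c`.
* `eig_invariant`: an eigenfunction of `T'` with eigenvalue `> 2` is invariant under each involution
  `τ` of the table set such that at each table at least one row is fixed by `τ`.
* `var_bound`: if every eigenfunction of `T'` with eigenvalue `> 2` and mean zero vanishes, then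
  `Var(∑ g_i) ≤ 2 ∑ Var g_i` (abstract; duality).
* `three_row_of_invariant`: the 3-row lemma from the statement on the invariant sector.
-/
import Crest.Agent.Lib.S0453.Table3Defs

set_option autoImplicit false
open Finset
open scoped Classical

namespace Crest.Agent.Lib.S0453.Table3

section Spectral
variable {ι : Type*} [Fintype ι]

theorem rayleigh_of_eig (A : ι → ι → ℝ) (hA : ∀ i j, A i j = A j i) (c : ℝ)
    (h : ∀ (μ : ℝ) (v : ι → ℝ), v ≠ 0 → (∀ i, ∑ j, A i j * v j = μ * v i) → μ ≤ c) (x : ι → ℝ) :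
    ∑ i, ∑ j, x i * A i j * x j ≤ c * ∑ i, x i ^ 2 := by
  let B : Matrix ι ι ℝ := Matrix.of fun i j => (if i = j then c else 0) - A i j
  have hB : B.IsHermitian := by
    ext i j
    simp only [B, Matrix.conjTranspose_apply, Matrix.of_apply, star_trivial]
    rw [hA j i]
    by_cases hij : i = j
    · simp [hij]
    · simp [hij, Ne.symm hij]
  have hev : ∀ k, 0 ≤ hB.eigenvalues k := by
    intro k
    have hmv := hB.mulVec_eigenvectorBasis k
    set b := hB.eigenvectorBasis k with hb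
    have hbne : (⇑b : ι → ℝ) ≠ 0 := by
      intro h0
      have hn : ‖b‖ = 1 := hB.eigenvectorBasis.norm_eq_one k
      have : b = 0 := by
        ext i
        exact congrFun h0 i
      rw [this] at hn
      simp at hn
    have := h (c - hB.eigenvalues k) (⇑b) hbne (fun i => by
      have hi := congrFun hmv i
      simp only [Matrix.mulVec, dotProduct, B, Matrix.of_apply, Pi.smul_apply, smul_eq_mul] at hi
      have h2 : ∑ j, ((if i = j then c else 0) - A i j) * b j = c * b i - ∑ j, A i j * b j := by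
        simp only [sub_mul, sum_sub_distrib, ite_mul, zero_mul, sum_ite_eq, mem_univ, if_true]
      rw [h2] at hi
      linarith)
    linarith
  have hpsd := hB.posSemidef_iff_eigenvalues_nonneg.mpr hev
  have h1 := hpsd.dotProduct_mulVec_nonneg x
  simp only [Matrix.mulVec, dotProduct, B, Matrix.of_apply, star_trivial, Pi.star_apply] at h1
  have h2 : ∑ i, x i * ∑ j, ((if i = j then c else 0) - A i j) * x j =
      c * ∑ i, x i ^ 2 - ∑ i, ∑ j, x i * A i j * x j := by
    rw [mul_sum, ← sum_sub_distrib]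
    refine sum_congr rfl fun i _ => ?_
    simp only [sub_mul, sum_sub_distrib, ite_mul, zero_mul, sum_ite_eq, mem_univ, if_true, mul_sub, mul_sum]
    have : ∀ j, x i * (A i j * x j) = x i * A i j * x j := fun j => by ring
    simp only [this]
    ring
  rw [h2] at h1
  linarith

end Spectral

section Abstract
variable {β γ : Type*}

/-- Fibre average. -/
noncomputable def favg (S : Finset β) (ρ : β → γ) (f : β → ℝ) (s : β) : ℝ :=
  avg (S.filter fun t => ρ t = ρ s) f

theorem favg_congr (S : Finset β) (ρ : β → γ) (f : β → ℝ) {s s' : β} (h : ρ s = ρ s') :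
    favg S ρ f s = favg S ρ f s' := by
  unfold favg; rw [h]

/-- Tower property of the fibre average. -/
theorem favg_tower (S : Finset β) (ρ : β → γ) (f : β → ℝ) (h : γ → ℝ) :
    ∑ s ∈ S, favg S ρ f s * h (ρ s) = ∑ s ∈ S, f s * h (ρ s) := by
  have hm : ∀ x ∈ S, ρ x ∈ S.image ρ := fun x hx => mem_image_of_mem _ hx
  rw [← sum_fiberwise_of_maps_to hm (fun s => favg S ρ f s * h (ρ s)),
      ← sum_fiberwise_of_maps_to hm (fun s => f s * h (ρ s))]
  refine sum_congr rfl fun y hy => ?_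
  have hne : (S.filter fun t => ρ t = y).Nonempty := by
    obtain ⟨x, hx, rfl⟩ := mem_image.mp hy
    exact ⟨x, mem_filter.mpr ⟨hx, rfl⟩⟩
  have hc : ((S.filter fun t => ρ t = y).card : ℝ) ≠ 0 := by
    exact_mod_cast (card_pos.mpr hne).ne'
  have h1 : ∀ s ∈ S.filter (fun t => ρ t = y),
      favg S ρ f s * h (ρ s) = avg (S.filter fun t => ρ t = y) f * h y := by
    intro s hs
    unfold favg
    rw [(mem_filter.mp hs).2]
  have h2 : ∀ s ∈ S.filter (fun t => ρ t = y), f s * h (ρ s) = f s * h y := by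
    intro s hs
    rw [(mem_filter.mp hs).2]
  rw [sum_congr rfl h1, sum_congr rfl h2, sum_const, nsmul_eq_mul, ← sum_mul]
  unfold avg
  field_simp

theorem favg_sum (S : Finset β) (ρ : β → γ) (f : β → ℝ) :
    ∑ s ∈ S, favg S ρ f s = ∑ s ∈ S, f s := by
  have := favg_tower S ρ f (fun _ => 1)
  simpa using this

/-- `favg` is a function of the row. -/
theorem favg_eq_fun (S : Finset β) (ρ : β → γ) (f : β → ℝ) :
    ∃ g : γ → ℝ, ∀ s, favg S ρ f s = g (ρ s) :=
  ⟨fun y => avg (S.filter fun t => ρ t = y) f, fun _ => rfl⟩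

theorem favg_pyth (S : Finset β) (ρ : β → γ) (f : β → ℝ) :
    ∑ s ∈ S, favg S ρ f s ^ 2 = ∑ s ∈ S, f s * favg S ρ f s := by
  obtain ⟨g, hg⟩ := favg_eq_fun S ρ f
  have := favg_tower S ρ f g
  simp only [← hg] at this
  rw [← this]
  exact sum_congr rfl fun s _ => by ring

/-- The matrix of `T' - 3·mean` on `↥S`. -/
noncomputable def matT (S : Finset β) (ρ : Fin 3 → β → γ) (s t : S) : ℝ :=
  ∑ i, (if ρ i t = ρ i s then 1 / ((S.filter fun t' => ρ i t' = ρ i s).card : ℝ) else 0) -
    3 / (S.card : ℝ)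

theorem matT_symm (S : Finset β) (ρ : Fin 3 → β → γ) (s t : S) : matT S ρ s t = matT S ρ t s := by
  unfold matT
  congr 1
  refine sum_congr rfl fun i _ => ?_
  by_cases h : ρ i (t : β) = ρ i (s : β)
  · rw [if_pos h, if_pos h.symm, h]
  · rw [if_neg h, if_neg (fun h' => h h'.symm)]

theorem matT_mul (S : Finset β) (ρ : Fin 3 → β → γ) (v : β → ℝ) (s : S) :
    ∑ t : S, matT S ρ s t * v t = ∑ i, favg S (ρ i) v s - 3 * avg S v := by
  unfold matT favg avg
  have h1 : ∀ t : S, (∑ i, (if ρ i (t : β) = ρ i (s : β) then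
      1 / ((S.filter fun t' => ρ i t' = ρ i s).card : ℝ) else 0) - 3 / (S.card : ℝ)) * v t =
      ∑ i, (if ρ i (t : β) = ρ i (s : β) then
      1 / ((S.filter fun t' => ρ i t' = ρ i s).card : ℝ) * v t else 0) - 3 / (S.card : ℝ) * v t := by
    intro t
    rw [sub_mul, sum_mul]
    congr 1
    refine sum_congr rfl fun i _ => ?_
    split_ifs <;> simp
  simp only [h1]
  rw [sum_sub_distrib, sum_comm]
  congr 1
  · refine sum_congr rfl fun i _ => ?_
    rw [sum_coe_sort S (fun t => if ρ i t = ρ i (s : β) then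
      1 / ((S.filter fun t' => ρ i t' = ρ i s).card : ℝ) * v t else 0), ← sum_filter, ← mul_sum]
    ring
  · rw [sum_coe_sort S (fun t => 3 / (S.card : ℝ) * v t), ← mul_sum]
    ring

/-- The Rayleigh bound for `T' - 3·mean`, from the vanishing of eigenfunctions. -/
theorem rayleigh_T (S : Finset β) (ρ : Fin 3 → β → γ)
    (hB : ∀ (f : β → ℝ) (μ : ℝ), 2 < μ → ∑ s ∈ S, f s = 0 →
      (∀ s ∈ S, ∑ i, favg S (ρ i) f s = μ * f s) → ∀ s ∈ S, f s = 0)
    (x : β → ℝ) :
    ∑ s ∈ S, x s * (∑ i, favg S (ρ i) x s - 3 * avg S x) ≤ 2 * ∑ s ∈ S, x s ^ 2 := by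
  have key := rayleigh_of_eig (matT S ρ) (matT_symm S ρ) 2 ?_ (fun s : S => x s)
  · have h1 : ∀ s : S, ∑ t : S, (x s) * matT S ρ s t * x t = x s * (∑ i, favg S (ρ i) x s - 3 * avg S x) := by
      intro s
      rw [← matT_mul S ρ x s, mul_sum]
      exact sum_congr rfl fun t _ => by ring
    simp only [h1] at key
    rw [sum_coe_sort S (fun s => x s * (∑ i, favg S (ρ i) x s - 3 * avg S x)),
      sum_coe_sort S (fun s => x s ^ 2)] at key
    exact key
  · intro μ v hv heig
    by_contra hμ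
    push Not at hμ
    let w : β → ℝ := fun s => if h : s ∈ S then v ⟨s, h⟩ else 0
    have hw : ∀ s : S, w s = v s := fun s => by simp [w]
    have heig' : ∀ s ∈ S, ∑ i, favg S (ρ i) w s - 3 * avg S w = μ * w s := by
      intro s hs
      have h1 := matT_mul S ρ w ⟨s, hs⟩
      simp only [hw] at h1
      rw [← h1, heig ⟨s, hs⟩, ← hw]
    have hne : S.Nonempty := by
      by_contra hS
      rw [not_nonempty_iff_eq_empty] at hS
      subst hS
      apply hv
      ext s
      exact absurd s.2 (Finset.notMem_empty _)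
    have hcard : (S.card : ℝ) ≠ 0 := by exact_mod_cast (card_pos.mpr hne).ne'
    have hmean : ∑ s ∈ S, w s = 0 := by
      have h1 : ∑ s ∈ S, (∑ i, favg S (ρ i) w s - 3 * avg S w) = ∑ s ∈ S, μ * w s :=
        sum_congr rfl heig'
      rw [sum_sub_distrib, sum_comm] at h1
      simp only [favg_sum] at h1
      have h2 : ∑ s ∈ S, 3 * avg S w = 3 * ∑ s ∈ S, w s := by
        rw [sum_const, nsmul_eq_mul]
        unfold avg
        field_simp
      rw [h2, ← mul_sum] at h1
      simp only [sum_const, card_univ, Fintype.card_fin, nsmul_eq_mul] at h1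
      have : μ * ∑ s ∈ S, w s = 0 := by
        push_cast at h1
        linarith
      have hμ0 : μ ≠ 0 := by linarith
      exact (mul_eq_zero.mp this).resolve_left hμ0
    have havg : avg S w = 0 := by unfold avg; rw [hmean]; simp
    have hzero := hB w μ hμ hmean (fun s hs => by
      have := heig' s hs
      rw [havg] at this
      linarith)
    apply hv
    ext s
    rw [← hw]
    exact hzero s s.2

/-- The abstract variance bound. -/
theorem var_bound (S : Finset β) (ρ : Fin 3 → β → γ)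
    (hB : ∀ (f : β → ℝ) (μ : ℝ), 2 < μ → ∑ s ∈ S, f s = 0 →
      (∀ s ∈ S, ∑ i, favg S (ρ i) f s = μ * f s) → ∀ s ∈ S, f s = 0)
    (g : Fin 3 → γ → ℝ) :
    varS S (fun s => ∑ i, g i (ρ i s)) ≤ 2 * ∑ i, varS S (fun s => g i (ρ i s)) := by
  by_cases hne : S.Nonempty
  swap
  · rw [not_nonempty_iff_eq_empty] at hne
    subst hne
    simp [varS]
  have hcard : (S.card : ℝ) ≠ 0 := by exact_mod_cast (card_pos.mpr hne).ne'
  set m : Fin 3 → ℝ := fun i => avg S (fun s => g i (ρ i s)) with hm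
  set h : Fin 3 → γ → ℝ := fun i y => g i y - m i with hh
  set F : β → ℝ := fun s => ∑ i, h i (ρ i s) with hF
  have hmavg : avg S (fun s => ∑ i, g i (ρ i s)) = ∑ i, m i := by
    simp only [hm, avg]
    rw [sum_comm, sum_div]
  have hvar1 : varS S (fun s => ∑ i, g i (ρ i s)) = ∑ s ∈ S, F s ^ 2 := by
    unfold varS
    rw [hmavg]
    refine sum_congr rfl fun s _ => ?_
    simp only [hF, hh]
    rw [sum_sub_distrib]
  have hvar2 : ∀ i, varS S (fun s => g i (ρ i s)) = ∑ s ∈ S, h i (ρ i s) ^ 2 := fun i => rfl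
  rw [hvar1]
  simp only [hvar2]
  have hsum0 : ∀ i, ∑ s ∈ S, h i (ρ i s) = 0 := by
    intro i
    simp only [hh, hm, avg]
    rw [sum_sub_distrib, sum_const, nsmul_eq_mul]
    field_simp
    ring
  have hF0 : ∑ s ∈ S, F s = 0 := by
    simp only [hF]
    rw [sum_comm]
    exact sum_eq_zero fun i _ => hsum0 i
  have havg : avg S F = 0 := by unfold avg; rw [hF0]; simp
  have hR := rayleigh_T S ρ hB F
  rw [havg] at hR
  simp only [mul_zero, sub_zero] at hR
  have hZ : ∑ s ∈ S, F s * ∑ i, favg S (ρ i) F s = ∑ i, ∑ s ∈ S, favg S (ρ i) F s ^ 2 := by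
    simp only [favg_pyth, mul_sum]
    rw [sum_comm]
  rw [hZ] at hR
  have hX : ∑ s ∈ S, F s ^ 2 = ∑ i, ∑ s ∈ S, favg S (ρ i) F s * h i (ρ i s) := by
    simp only [favg_tower]
    rw [sum_comm]
    refine sum_congr rfl fun s _ => ?_
    rw [← mul_sum, sq]
  have hle : ∑ i, ∑ s ∈ S, favg S (ρ i) F s * h i (ρ i s) ≤
      ∑ i, ∑ s ∈ S, (favg S (ρ i) F s ^ 2 / 4 + h i (ρ i s) ^ 2) := by
    refine sum_le_sum fun i _ => sum_le_sum fun s _ => ?_
    nlinarith [sq_nonneg (favg S (ρ i) F s / 2 - h i (ρ i s))]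
  have hsplit : ∑ i, ∑ s ∈ S, (favg S (ρ i) F s ^ 2 / 4 + h i (ρ i s) ^ 2) =
      (∑ i, ∑ s ∈ S, favg S (ρ i) F s ^ 2) / 4 + ∑ i, ∑ s ∈ S, h i (ρ i s) ^ 2 := by
    simp only [sum_add_distrib, sum_div]
  rw [hsplit, ← hX] at hle
  linarith

/-- Eigenfunctions with eigenvalue `> 2` are invariant under an involution of the table set
fixing at least one row of each table. -/
theorem eig_invariant (S : Finset β) (ρ : Fin 3 → β → γ) (τ : β → β) (σ : γ → γ)
    (hτS : ∀ s ∈ S, τ s ∈ S) (hττ : ∀ s, τ (τ s) = s)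
    (hσ : ∀ i s, ρ i (τ s) = σ (ρ i s)) (hσi : Function.Injective σ)
    (hrow : ∀ s ∈ S, ∃ i, σ (ρ i s) = ρ i s)
    (f : β → ℝ) (μ : ℝ) (hμ : 2 < μ) (heig : ∀ s ∈ S, ∑ i, favg S (ρ i) f s = μ * f s) :
    ∀ s ∈ S, f (τ s) = f s := by
  set h : β → ℝ := fun s => f s - f (τ s) with hh
  -- commutation
  have hmap : ∀ i s t, ρ i (τ t) = ρ i (τ s) ↔ ρ i t = ρ i s := by
    intro i s t
    rw [hσ, hσ]
    exact hσi.eq_iff
  have hsum : ∀ i s (φ : β → ℝ), ∑ t ∈ S.filter (fun t => ρ i t = ρ i s), φ (τ t) =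
      ∑ t ∈ S.filter (fun t => ρ i t = ρ i (τ s)), φ t := by
    intro i s φ
    refine sum_nbij' τ τ ?_ ?_ ?_ ?_ ?_
    · intro t ht
      rw [mem_filter] at ht ⊢
      exact ⟨hτS t ht.1, (hmap i s t).mpr ht.2⟩
    · intro t ht
      rw [mem_filter] at ht ⊢
      refine ⟨hτS t ht.1, (hmap i s (τ t)).mp ?_⟩
      rw [hττ]
      exact ht.2
    · intro t _; exact hττ t
    · intro t _; exact hττ t
    · intro t _; rfl
  have hcomm : ∀ i s, favg S (ρ i) (fun t => f (τ t)) s = favg S (ρ i) f (τ s) := by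
    intro i s
    unfold favg avg
    have hcard : ((S.filter fun t => ρ i t = ρ i s).card : ℝ) =
        ((S.filter fun t => ρ i t = ρ i (τ s)).card : ℝ) := by
      have := hsum i s (fun _ => 1)
      simpa using this
    rw [hsum i s f, hcard]
  -- the components
  set p : Fin 3 → β → ℝ := fun i s => favg S (ρ i) h s with hp
  have hpval : ∀ i s, p i s = favg S (ρ i) f s - favg S (ρ i) f (τ s) := by
    intro i s
    rw [← hcomm i s]
    simp only [hp, hh, favg, avg]
    rw [sum_sub_distrib, sub_div]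
  have hsumP : ∀ s ∈ S, ∑ i, p i s = μ * h s := by
    intro s hs
    simp only [hpval]
    rw [sum_sub_distrib, heig s hs, heig _ (hτS s hs)]
    simp only [hh]
    ring
  have hzero : ∀ s ∈ S, ∃ i, p i s = 0 := by
    intro s hs
    obtain ⟨i, hi⟩ := hrow s hs
    refine ⟨i, ?_⟩
    rw [hpval, favg_congr S (ρ i) f (s := τ s) (s' := s) (by rw [hσ, hi])]
    ring
  have hpt : ∀ s ∈ S, (μ * h s) ^ 2 ≤ 2 * ∑ i, p i s ^ 2 := by
    intro s hs
    rw [← hsumP s hs]
    obtain ⟨i, hi⟩ := hzero s hs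
    rw [Fin.sum_univ_three, Fin.sum_univ_three]
    have fin3 : ∀ j : Fin 3, j = 0 ∨ j = 1 ∨ j = 2 := by decide
    have hcases := fin3 i
    rcases hcases with rfl | rfl | rfl
    · rw [hi]; nlinarith [sq_nonneg (p 1 s - p 2 s), sq_nonneg (p 1 s + p 2 s)]
    · rw [hi]; nlinarith [sq_nonneg (p 0 s - p 2 s), sq_nonneg (p 0 s + p 2 s)]
    · rw [hi]; nlinarith [sq_nonneg (p 0 s - p 1 s), sq_nonneg (p 0 s + p 1 s)]
  have htot : μ ^ 2 * ∑ s ∈ S, h s ^ 2 ≤ 2 * (μ * ∑ s ∈ S, h s ^ 2) := by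
    have h1 : μ ^ 2 * ∑ s ∈ S, h s ^ 2 = ∑ s ∈ S, (μ * h s) ^ 2 := by
      rw [mul_sum]; exact sum_congr rfl fun s _ => by ring
    have h2 : ∑ s ∈ S, 2 * ∑ i, p i s ^ 2 = 2 * (μ * ∑ s ∈ S, h s ^ 2) := by
      rw [← mul_sum, sum_comm]
      have : ∀ i, ∑ s ∈ S, p i s ^ 2 = ∑ s ∈ S, h s * p i s := fun i => favg_pyth S (ρ i) h
      simp only [this]
      rw [sum_comm]
      congr 1
      rw [mul_sum]
      refine sum_congr rfl fun s hs => ?_
      rw [← mul_sum, hsumP s hs]
      ring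
    rw [h1, ← h2]
    exact sum_le_sum hpt
  have hsq0 : ∑ s ∈ S, h s ^ 2 = 0 := by
    have hnn : 0 ≤ ∑ s ∈ S, h s ^ 2 := sum_nonneg fun s _ => sq_nonneg _
    by_contra hne
    have hpos : 0 < ∑ s ∈ S, h s ^ 2 := lt_of_le_of_ne hnn (Ne.symm hne)
    nlinarith [mul_pos (by linarith : (0:ℝ) < μ) (by linarith : (0:ℝ) < μ - 2)]
  intro s hs
  have := (sum_eq_zero_iff_of_nonneg (fun s _ => sq_nonneg (h s))).mp hsq0 s hs
  have h0 : h s = 0 := by simpa using this
  simp only [hh] at h0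
  linarith

end Abstract

section Tables
variable {C : Type*} [Fintype C]

theorem rowAvg_eq (ρ : Fin 3 → ℕ) (r : C → ℕ) (i : Fin 3) (f : (Fin 3 → Finset C) → ℝ)
    (s : Fin 3 → Finset C) :
    rowAvg ρ r i f s = favg (tables ρ r) (fun t : Fin 3 → Finset C => t i) f s := by
  unfold rowAvg favg
  congr

theorem mem_tables {ρ : Fin 3 → ℕ} {r : C → ℕ} {s : Fin 3 → Finset C} :
    s ∈ tables ρ r ↔ (∀ i, (s i).card = ρ i) ∧ ∀ x, (univ.filter fun i => x ∈ s i).card = r x := by
  simp [tables]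

theorem mem_tau (x x' y : C) (s : Fin 3 → Finset C) (i : Fin 3) :
    y ∈ tau x x' s i ↔ Equiv.swap x x' y ∈ s i := by
  unfold tau
  rw [mem_map]
  constructor
  · rintro ⟨a, ha, rfl⟩
    simpa using ha
  · intro h
    exact ⟨_, h, by simp⟩

theorem tau_mem {ρ : Fin 3 → ℕ} {r : C → ℕ} {x x' : C} (hr : r x = r x')
    {s : Fin 3 → Finset C} (hs : s ∈ tables ρ r) : tau x x' s ∈ tables ρ r := by
  rw [mem_tables] at hs ⊢
  refine ⟨fun i => ?_, fun y => ?_⟩
  · unfold tau
    rw [card_map]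
    exact hs.1 i
  · simp only [mem_tau]
    rw [hs.2]
    by_cases h1 : y = x
    · subst h1; simp [hr]
    · by_cases h2 : y = x'
      · subst h2; simp [hr]
      · rw [Equiv.swap_apply_of_ne_of_ne h1 h2]

theorem tau_tau (x x' : C) (s : Fin 3 → Finset C) : tau x x' (tau x x' s) = s := by
  funext i
  ext y
  simp [mem_tau]

theorem tau_row_fix {r : C → ℕ} {ρ : Fin 3 → ℕ} {x x' : C} (hr : r x = r x')
    {s : Fin 3 → Finset C} (hs : s ∈ tables ρ r) :
    ∃ i, tau x x' s i = s i := by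
  rw [mem_tables] at hs
  by_contra hcon
  push Not at hcon
  have hdiff : ∀ i, (x ∈ s i ↔ x' ∉ s i) := by
    intro i
    by_contra h
    apply hcon i
    have h' : x ∈ s i ↔ x' ∈ s i := by tauto
    ext y
    rw [mem_tau]
    by_cases h1 : y = x
    · subst h1; simpa using h'.symm
    · by_cases h2 : y = x'
      · subst h2; simpa using h'
      · rw [Equiv.swap_apply_of_ne_of_ne h1 h2]
  have hc1 := hs.2 x
  have hc2 := hs.2 x'
  have hsplit := Finset.card_filter_add_card_filter_not (s := (univ : Finset (Fin 3))) (fun i => x' ∈ s i)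
  have heq : (univ.filter fun i => ¬ x' ∈ s i) = univ.filter fun i => x ∈ s i := by
    ext i
    simp only [mem_filter, mem_univ, true_and]
    exact (hdiff i).symm
  rw [heq, hc1, hc2] at hsplit
  simp only [card_univ, Fintype.card_fin] at hsplit
  omega

/-- The 3-row lemma from the statement on the invariant sector. -/
theorem three_row_of_invariant (ρ : Fin 3 → ℕ) (r : C → ℕ)
    (hB : ∀ (f : (Fin 3 → Finset C) → ℝ) (μ : ℝ), 2 < μ → ∑ s ∈ tables ρ r, f s = 0 →
      (∀ s ∈ tables ρ r, ∑ i, rowAvg ρ r i f s = μ * f s) →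
      (∀ x x', r x = r x' → ∀ s ∈ tables ρ r, f (tau x x' s) = f s) →
      ∀ s ∈ tables ρ r, f s = 0)
    (g : Fin 3 → Finset C → ℝ) :
    varS (tables ρ r) (fun R => ∑ i, g i (R i)) ≤
      2 * ∑ i, varS (tables ρ r) (fun R => g i (R i)) := by
  refine var_bound (tables ρ r) (fun i (t : Fin 3 → Finset C) => t i) ?_ g
  intro f μ hμ hmean heig
  have heig' : ∀ s ∈ tables ρ r, ∑ i, rowAvg ρ r i f s = μ * f s := by
    intro s hs
    simp only [rowAvg_eq]
    exact heig s hs
  refine hB f μ hμ hmean heig' ?_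
  intro x x' hr s hs
  refine eig_invariant (tables ρ r) (fun i (t : Fin 3 → Finset C) => t i) (tau x x')
    (fun A => A.map (Equiv.swap x x').toEmbedding) (fun s hs => tau_mem hr hs) (tau_tau x x')
    (fun _ _ => rfl) (Finset.map_injective _) (fun s hs => ?_) f μ hμ heig s hs
  exact tau_row_fix hr hs

end Tables

end Crest.Agent.Lib.S0453.Table3
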