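/-
S0453 task TABLE3-B: invariant sector of the 3-row lemma.
If `f` on 3-row tables is an eigenfunction of `∑ Π_i` with eigenvalue `μ > 2`, mean zero, and
invariant under exchanging columns of the same sum, then `f = 0`.

Proof. `g_i = Π_i f` depends only on `b_i(s) = #{x : r x = 2, x ∉ s i}` (`level_eq`).
Given row `l`, the number of tables with `b_i = u` is `C(V,u) C(U,u+δ_i)` (`card_level`) with
`V = #{x ∈ S: r x = 2}`, `U = #{x ∉ S : r x = 1}`; increasing `b_l` by one decreases `U`, `V` by
one; so the law of `b_i` given row `l` has the monotone likelihood ratio property (`W_mlr`).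
The max principle on Lipschitz constants (`lip_step`) gives that all `g_i` are constant.
-/
import Crest.Agent.Lib.S0453.Defs

set_option autoImplicit false
open Finset
open scoped Classical

namespace Crest.Agent.Lib.S0453.Table3B

variable {C : Type*} [Fintype C]

/-- Three-row binary tables with row sums `ρ` and column sums `r`. -/
noncomputable def tables (ρ : Fin 3 → ℕ) (r : C → ℕ) : Finset (Fin 3 → Finset C) :=
  univ.filter fun R => (∀ i, (R i).card = ρ i) ∧ ∀ x, (univ.filter fun i => x ∈ R i).card = r x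

/-- Tables with prescribed row `i`. -/
noncomputable def rowFib (ρ : Fin 3 → ℕ) (r : C → ℕ) (i : Fin 3) (S : Finset C) :
    Finset (Fin 3 → Finset C) :=
  (tables ρ r).filter fun s => s i = S

/-- Row average. -/
noncomputable def rowAvg (ρ : Fin 3 → ℕ) (r : C → ℕ) (i : Fin 3)
    (f : (Fin 3 → Finset C) → ℝ) (s : Fin 3 → Finset C) : ℝ :=
  avg (rowFib ρ r i (s i)) f

/-- Exchange of columns. -/
noncomputable def tau (x x' : C) (s : Fin 3 → Finset C) : Fin 3 → Finset C :=
  fun i => (s i).map (Equiv.swap x x').toEmbedding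

variable {ρ : Fin 3 → ℕ} {r : C → ℕ}

lemma mem_tables {s : Fin 3 → Finset C} :
    s ∈ tables ρ r ↔ (∀ i, (s i).card = ρ i) ∧ ∀ x, (univ.filter fun i => x ∈ s i).card = r x := by
  simp [tables]

lemma mem_tau_iff (x x' y : C) (s : Fin 3 → Finset C) (i : Fin 3) :
    y ∈ tau x x' s i ↔ Equiv.swap x x' y ∈ s i := by
  unfold tau
  simp only [mem_map_equiv, Equiv.symm_swap, Finset.mem_map, Equiv.coe_toEmbedding]
  constructor
  · rintro ⟨a, ha, rfl⟩
    simpa using ha
  · intro h
    exact ⟨_, h, by simp⟩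

lemma tau_mem {x x' : C} (hr : r x = r x') {s : Fin 3 → Finset C} (hs : s ∈ tables ρ r) :
    tau x x' s ∈ tables ρ r := by
  rw [mem_tables] at hs ⊢
  refine ⟨fun i => ?_, fun y => ?_⟩
  · simp [tau, hs.1]
  · have h1 : (univ.filter fun i => y ∈ tau x x' s i) =
        univ.filter fun i => Equiv.swap x x' y ∈ s i := by
      ext i; simp [mem_tau_iff]
    rw [h1, hs.2]
    by_cases h1 : y = x
    · subst h1; simp [hr]
    · by_cases h2 : y = x'
      · subst h2; simp [hr]
      · rw [Equiv.swap_apply_of_ne_of_ne h1 h2]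

lemma tau_tau (x x' : C) (s : Fin 3 → Finset C) : tau x x' (tau x x' s) = s := by
  funext i
  ext y
  simp [mem_tau_iff]

/-- The column-sum count in terms of three distinct rows. -/
lemma third (l i : Fin 3) (h : l ≠ i) : ∃ j, j ≠ l ∧ j ≠ i ∧ (univ : Finset (Fin 3)) = {l, i, j} := by
  revert l i; decide

lemma col_count (s : Fin 3 → Finset C) (x : C) {l i j : Fin 3} (hli : l ≠ i) (hjl : j ≠ l)
    (hji : j ≠ i) (hu : (univ : Finset (Fin 3)) = {l, i, j}) :
    (univ.filter fun k => x ∈ s k).card =
      (if x ∈ s l then 1 else 0) + (if x ∈ s i then 1 else 0) + (if x ∈ s j then 1 else 0) := by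
  rw [card_filter, hu, sum_insert (by simp [hli, hjl.symm]), sum_insert (by simp [hji.symm]),
    sum_singleton]
  ring

/-- The row-average at a table depends on its row only; invariance under `tau`. -/
lemma rowAvg_congr {i : Fin 3} {f : (Fin 3 → Finset C) → ℝ} {s s' : Fin 3 → Finset C}
    (h : s i = s' i) : rowAvg ρ r i f s = rowAvg ρ r i f s' := by
  unfold rowAvg; rw [h]

lemma rowAvg_tau {f : (Fin 3 → Finset C) → ℝ} {x x' : C} (hr : r x = r x')
    (hinv : ∀ s ∈ tables ρ r, f (tau x x' s) = f s) (i : Fin 3) (s : Fin 3 → Finset C) :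
    rowAvg ρ r i f (tau x x' s) = rowAvg ρ r i f s := by
  unfold rowAvg avg
  have hmap : ∀ t ∈ rowFib ρ r i (s i), tau x x' t ∈ rowFib ρ r i (tau x x' s i) := by
    intro t ht
    simp only [rowFib, mem_filter] at ht ⊢
    exact ⟨tau_mem hr ht.1, by unfold tau; rw [ht.2]⟩
  have hmap' : ∀ t ∈ rowFib ρ r i (tau x x' s i), tau x x' t ∈ rowFib ρ r i (s i) := by
    intro t ht
    simp only [rowFib, mem_filter] at ht ⊢
    refine ⟨tau_mem hr ht.1, ?_⟩
    have := congrFun (tau_tau x x' s) i
    rw [← this]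
    show tau x x' t i = _
    unfold tau at ht ⊢
    rw [ht.2]
  have e1 : ∑ t ∈ rowFib ρ r i (tau x x' s i), f t = ∑ t ∈ rowFib ρ r i (s i), f t := by
    refine Finset.sum_nbij' (tau x x') (tau x x') hmap' hmap ?_ ?_ ?_
    · intro t _; exact tau_tau _ _ _
    · intro t _; exact tau_tau _ _ _
    · intro t ht
      simp only [rowFib, mem_filter] at ht
      exact (hinv t ht.1).symm
  have e2 : (rowFib ρ r i (tau x x' s i)).card = (rowFib ρ r i (s i)).card := by
    refine Finset.card_nbij' (tau x x') (tau x x') hmap' hmap ?_ ?_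
    · intro t _; exact tau_tau _ _ _
    · intro t _; exact tau_tau _ _ _
  rw [e1, e2]

/-- The statistic `b`: number of columns of sum two missing from `S`. -/
noncomputable def bS (r : C → ℕ) (S : Finset C) : ℕ :=
  (univ.filter fun x => r x = 2 ∧ x ∉ S).card

/-- Columns of sum `k` in `S`. -/
noncomputable def cS (r : C → ℕ) (k : ℕ) (S : Finset C) : ℕ :=
  (S.filter fun x => r x = k).card

section row_facts
variable {s : Fin 3 → Finset C} (hs : s ∈ tables ρ r) (i : Fin 3)
include hs

lemma r_le_three (x : C) : r x ≤ 3 := by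
  have := (mem_tables.mp hs).2 x
  rw [← this]
  exact (card_filter_le _ _).trans (by simp)

lemma r_pos_of_mem {x : C} (h : x ∈ s i) : 1 ≤ r x := by
  rw [← (mem_tables.mp hs).2 x]
  exact Finset.card_pos.mpr ⟨i, by simp [h]⟩

lemma mem_of_r_three {x : C} (h : r x = 3) : x ∈ s i := by
  have h1 := (mem_tables.mp hs).2 x
  rw [h] at h1
  have : (univ.filter fun k => x ∈ s k) = univ := by
    apply eq_univ_of_card
    simpa using h1
  have h2 : i ∈ (univ.filter fun k => x ∈ s k) := by rw [this]; simp
  simpa using h2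

/-- Row size decomposition. -/
lemma row_size : (s i).card = cS r 1 (s i) + cS r 2 (s i) + (univ.filter fun x => r x = 3).card := by
  have h3 : (univ.filter fun x => r x = 3) = (s i).filter fun x => r x = 3 := by
    ext x
    simp only [mem_filter, mem_univ, true_and]
    exact ⟨fun h => ⟨mem_of_r_three hs i h, h⟩, fun h => h.2⟩
  rw [h3]
  unfold cS
  have hall : ∀ x ∈ s i, r x = 1 ∨ r x = 2 ∨ r x = 3 := by
    intro x hx
    have h1 := r_pos_of_mem hs i hx
    have h2 := r_le_three hs x
    omega
  have e1 : (s i).card = ∑ x ∈ s i, ((if r x = 1 then 1 else 0) + (if r x = 2 then 1 else 0) +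
      (if r x = 3 then 1 else 0)) := by
    rw [card_eq_sum_ones]
    refine sum_congr rfl fun x hx => ?_
    rcases hall x hx with h | h | h <;> simp [h]
  rw [e1, sum_add_distrib, sum_add_distrib, card_filter, card_filter, card_filter]

lemma c2_add_b : cS r 2 (s i) + bS r (s i) = (univ.filter fun x => r x = 2).card := by
  unfold cS bS
  rw [← card_union_of_disjoint]
  · congr 1
    ext x
    simp only [mem_union, mem_filter, mem_univ, true_and]
    by_cases h : x ∈ s i <;> simp [h]
  · rw [disjoint_left]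
    intro x hx hx'
    simp only [mem_filter] at hx hx'
    exact hx'.2.2 hx.1

end row_facts


lemma bS_tau {x x' : C} (hr : r x = r x') (s : Fin 3 → Finset C) (i : Fin 3) :
    bS r (tau x x' s i) = bS r (s i) := by
  unfold bS
  have hrs : ∀ y, r (Equiv.swap x x' y) = r y := by
    intro y
    by_cases h1 : y = x
    · subst h1; simp [hr]
    · by_cases h2 : y = x'
      · subst h2; simp [hr]
      · rw [Equiv.swap_apply_of_ne_of_ne h1 h2]
  refine Finset.card_nbij' (Equiv.swap x x') (Equiv.swap x x') ?_ ?_ ?_ ?_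
  · intro y hy
    simp only [coe_filter, mem_univ, true_and, Set.mem_ofPred_eq, mem_tau_iff] at hy ⊢
    exact ⟨by rw [hrs]; exact hy.1, hy.2⟩
  · intro y hy
    simp only [coe_filter, mem_univ, true_and, Set.mem_ofPred_eq, mem_tau_iff] at hy ⊢
    refine ⟨by rw [hrs]; exact hy.1, by simpa using hy.2⟩
  · intro y _; simp
  · intro y _; simp

/-- `g_i = Π_i f` is a function of `b_i`. -/
lemma level_eq {f : (Fin 3 → Finset C) → ℝ}
    (hinv : ∀ x x', r x = r x' → ∀ s ∈ tables ρ r, f (tau x x' s) = f s) (i : Fin 3)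
    {s s' : Fin 3 → Finset C} (hs : s ∈ tables ρ r) (hs' : s' ∈ tables ρ r)
    (hb : bS r (s i) = bS r (s' i)) : rowAvg ρ r i f s = rowAvg ρ r i f s' := by
  have key : ∀ m : ℕ, ∀ t ∈ tables ρ r, ((t i) \ (s' i)).card = m → bS r (t i) = bS r (s' i) →
      rowAvg ρ r i f t = rowAvg ρ r i f s' := by
    intro m
    induction m with
    | zero =>
      intro t ht hm _
      have h1 : t i ⊆ s' i := by
        rw [card_eq_zero, sdiff_eq_empty_iff_subset] at hm; exact hm
      have h2 : (t i).card = (s' i).card := by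
        rw [(mem_tables.mp ht).1, (mem_tables.mp hs').1]
      exact rowAvg_congr (eq_of_subset_of_card_le h1 h2.ge)
    | succ m ih =>
      intro t ht hm hbt
      obtain ⟨x, hx⟩ : ((t i) \ (s' i)).Nonempty := by
        rw [← card_pos, hm]; omega
      have hx' := mem_sdiff.mp hx
      have hrx1 : 1 ≤ r x := r_pos_of_mem ht i hx'.1
      have hrx2 : r x ≠ 3 := fun h => hx'.2 (mem_of_r_three hs' i h)
      have hrx3 := r_le_three ht x
      -- counts
      have hc2 : cS r 2 (t i) = cS r 2 (s' i) := by
        have h1 := c2_add_b ht i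
        have h2 := c2_add_b hs' i
        omega
      have hc1 : cS r 1 (t i) = cS r 1 (s' i) := by
        have h1 := row_size ht i
        have h2 := row_size hs' i
        rw [(mem_tables.mp ht).1] at h1
        rw [(mem_tables.mp hs').1] at h2
        omega
      have hck : cS r (r x) (t i) = cS r (r x) (s' i) := by
        have : r x = 1 ∨ r x = 2 := by omega
        rcases this with h | h <;> rw [h]
        · exact hc1
        · exact hc2
      -- the partner column
      obtain ⟨x', hx'1, hx'2, hx'3⟩ : ∃ x', x' ∈ s' i ∧ x' ∉ t i ∧ r x' = r x := by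
        by_contra hcon
        push Not at hcon
        have hsub : (s' i).filter (fun y => r y = r x) ⊆ (t i).filter (fun y => r y = r x) := by
          intro y hy
          simp only [mem_filter] at hy ⊢
          refine ⟨?_, hy.2⟩
          by_contra hyt
          exact hcon y hy.1 hyt hy.2
        have heq := eq_of_subset_of_card_le hsub (le_of_eq hck)
        have : x ∈ (t i).filter (fun y => r y = r x) := by simp [hx'.1]
        rw [← heq] at this
        exact hx'.2 (mem_filter.mp this).1
      have hne : x ≠ x' := fun h => hx'2 (h ▸ hx'.1)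
      have hrr : r x = r x' := hx'3.symm
      have hnew : tau x x' t ∈ tables ρ r := tau_mem hrr ht
      have hsd : ((tau x x' t i) \ (s' i)) = ((t i) \ (s' i)).erase x := by
        ext y
        simp only [mem_sdiff, mem_erase, mem_tau_iff]
        by_cases h1 : y = x
        · subst h1
          simp [hx'2]
        · by_cases h2 : y = x'
          · subst h2
            simp [hx'1]
          · rw [Equiv.swap_apply_of_ne_of_ne h1 h2]
            simp [h1]
      have hm' : ((tau x x' t i) \ (s' i)).card = m := by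
        rw [hsd, card_erase_of_mem hx, hm]; rfl
      have := ih (tau x x' t) hnew hm' (by rw [bS_tau hrr]; exact hbt)
      rw [← this]
      exact (rowAvg_tau hrr (hinv x x' hrr) i t).symm
  exact key _ s hs rfl hb

/-- Conservation of `b`. -/
lemma sum_b {s : Fin 3 → Finset C} (hs : s ∈ tables ρ r) :
    ∑ i, bS r (s i) = (univ.filter fun x => r x = 2).card := by
  unfold bS
  simp only [card_filter]
  rw [sum_comm]
  refine sum_congr rfl fun x _ => ?_
  by_cases hx : r x = 2
  · simp only [hx, true_and]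
    have h1 := (mem_tables.mp hs).2 x
    rw [hx, card_filter] at h1
    have h2 : ∑ i, (if x ∈ s i then 1 else 0) + ∑ i, (if x ∉ s i then 1 else 0) = 3 := by
      rw [← sum_add_distrib]
      have : ∀ i ∈ (univ : Finset (Fin 3)), (if x ∈ s i then 1 else 0) + (if x ∉ s i then 1 else 0) = 1 := by
        intro i _
        by_cases h : x ∈ s i <;> simp [h]
      rw [sum_congr rfl this]
      simp
    simp only [if_true]
    omega
  · simp [hx]

lemma row_delta {s : Fin 3 → Finset C} (hs : s ∈ tables ρ r) (i : Fin 3) :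
    (cS r 1 (s i) : ℤ) = (bS r (s i) : ℤ) + ((ρ i : ℤ) - (univ.filter fun x => r x = 2).card -
      (univ.filter fun x => r x = 3).card) := by
  have h1 := row_size hs i
  have h2 := c2_add_b hs i
  rw [(mem_tables.mp hs).1] at h1
  omega

/-- One step up in `b_l`. -/
lemma exists_up {l : Fin 3} {s s' : Fin 3 → Finset C} (hs : s ∈ tables ρ r) (hs' : s' ∈ tables ρ r)
    (hlt : bS r (s l) < bS r (s' l)) : ∃ t ∈ tables ρ r, bS r (t l) = bS r (s l) + 1 := by
  -- a row with larger `b`
  obtain ⟨i, hil, hi⟩ : ∃ i, i ≠ l ∧ bS r (s' i) < bS r (s i) := by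
    by_contra hcon
    push Not at hcon
    have h1 := sum_b hs
    have h2 := sum_b hs'
    have h3 : ∑ i ∈ univ.erase l, bS r (s i) ≤ ∑ i ∈ univ.erase l, bS r (s' i) :=
      sum_le_sum fun i hi => hcon i (mem_erase.mp hi).1
    rw [← add_sum_erase univ _ (mem_univ l)] at h1 h2
    omega
  obtain ⟨j, hjl, hji, hu⟩ := third l i hil.symm
  have hb1 : 1 ≤ bS r (s i) := by omega
  have hc1 : 1 ≤ cS r 1 (s i) := by
    have h1 := row_delta hs i
    have h2 := row_delta hs' i
    omega
  obtain ⟨x₁, hx₁⟩ : ((s i).filter fun x => r x = 1).Nonempty := by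
    rw [← card_pos]; exact hc1
  obtain ⟨x₂, hx₂⟩ : (univ.filter fun x => r x = 2 ∧ x ∉ s i).Nonempty := by
    rw [← card_pos]; exact hb1
  simp only [mem_filter, mem_univ, true_and] at hx₁ hx₂
  have hne : x₁ ≠ x₂ := by
    intro h; rw [h] at hx₁; omega
  have hcol := fun x => (mem_tables.mp hs).2 x
  have hc := fun x => col_count s x hil.symm hjl hji hu
  have hx₁l : x₁ ∉ s l := by
    intro h
    have h1 := hcol x₁; rw [hc x₁, hx₁.2] at h1
    simp only [h, hx₁.1, if_true] at h1
    split_ifs at h1 <;> omega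
  have hx₁j : x₁ ∉ s j := by
    intro h
    have h1 := hcol x₁; rw [hc x₁, hx₁.2] at h1
    simp only [h, hx₁.1, if_true] at h1
    split_ifs at h1 <;> omega
  have hx₂l : x₂ ∈ s l := by
    by_contra h
    have h1 := hcol x₂; rw [hc x₂, hx₂.1] at h1
    simp only [h, hx₂.2, if_false] at h1
    split_ifs at h1 <;> omega
  have hx₂j : x₂ ∈ s j := by
    by_contra h
    have h1 := hcol x₂; rw [hc x₂, hx₂.1] at h1
    simp only [h, hx₂.2, if_false] at h1
    split_ifs at h1 <;> omega
  set t : Fin 3 → Finset C := fun k =>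
    if k = i then insert x₂ ((s i).erase x₁) else if k = l then insert x₁ ((s l).erase x₂) else s k
    with ht
  have hti : t i = insert x₂ ((s i).erase x₁) := by simp [ht]
  have htl : t l = insert x₁ ((s l).erase x₂) := by simp [ht, hil.symm]
  have htj : t j = s j := by simp [ht, hji, hjl]
  refine ⟨t, ?_, ?_⟩
  · rw [mem_tables]
    refine ⟨?_, ?_⟩
    · have hk : ∀ k : Fin 3, k = l ∨ k = i ∨ k = j := by
        intro k
        have : k ∈ ({l, i, j} : Finset (Fin 3)) := by rw [← hu]; simp
        simpa using this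
      intro k
      rcases hk k with rfl | rfl | rfl
      · rw [htl, card_insert_of_notMem (by simp [hx₁l]), card_erase_of_mem hx₂l,
          (mem_tables.mp hs).1]
        have : 1 ≤ (s k).card := card_pos.mpr ⟨x₂, hx₂l⟩
        rw [(mem_tables.mp hs).1] at this
        omega
      · rw [hti, card_insert_of_notMem (by simp [hx₂.2]), card_erase_of_mem hx₁.1,
          (mem_tables.mp hs).1]
        have : 1 ≤ (s k).card := card_pos.mpr ⟨x₁, hx₁.1⟩
        rw [(mem_tables.mp hs).1] at this
        omega
      · rw [htj, (mem_tables.mp hs).1]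
    · intro y
      rw [col_count t y hil.symm hjl hji hu, htl, hti, htj]
      by_cases h1 : y = x₁
      · subst h1
        simp [hne, hx₁j, hx₁.2]
      · by_cases h2 : y = x₂
        · subst h2
          simp [hne.symm, hx₂j, hx₂.1]
        · simp only [mem_insert, mem_erase, h1, h2, false_or, false_and, ne_eq, not_false_eq_true,
            true_and]
          rw [← hcol y, hc y]
  · unfold bS
    rw [htl]
    have : (univ.filter fun x => r x = 2 ∧ x ∉ insert x₁ ((s l).erase x₂)) =
        insert x₂ (univ.filter fun x => r x = 2 ∧ x ∉ s l) := by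
      ext y
      simp only [mem_filter, mem_univ, true_and, mem_insert, mem_erase, not_or, not_and, ne_eq]
      constructor
      · rintro ⟨h1, h2, h3⟩
        by_cases h4 : y = x₂
        · exact Or.inl h4
        · exact Or.inr ⟨h1, fun h => h3 h4 h⟩
      · rintro (rfl | ⟨h1, h2⟩)
        · exact ⟨hx₂.1, Ne.symm hne, fun h => absurd rfl h⟩
        · refine ⟨h1, ?_, fun _ => h2⟩
          rintro rfl
          omega
    rw [this, card_insert_of_notMem]
    simp [hx₂l]


/-- Free columns of sum one given row `S`. -/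
noncomputable def Y₁ (r : C → ℕ) (S : Finset C) : Finset C := univ.filter fun x => x ∉ S ∧ r x = 1

/-- Free columns of sum two given row `S`. -/
noncomputable def Y₂ (r : C → ℕ) (S : Finset C) : Finset C := univ.filter fun x => x ∈ S ∧ r x = 2

/-- Forced columns given row `S`. -/
noncomputable def Fs (r : C → ℕ) (S : Finset C) : Finset C :=
  univ.filter fun x => (x ∉ S ∧ r x = 2) ∨ r x = 3

/-- The shift `δ_i`. -/
noncomputable def delta (ρ : Fin 3 → ℕ) (r : C → ℕ) (i : Fin 3) : ℤ :=
  (ρ i : ℤ) - (univ.filter fun x => r x = 2).card - (univ.filter fun x => r x = 3).card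

lemma cnt_logic (k : ℕ) (hk : k ≤ 3) (S A B : Prop) [Decidable S] [Decidable A] [Decidable B]
    (hA : A → ¬ S ∧ k = 1) (hB : B → S ∧ k = 2) (h3 : k = 3 → S) (h0 : S → 1 ≤ k) :
    (if S then 1 else 0) + (if (((¬ S ∧ k = 2) ∨ k = 3) ∨ A ∨ ((S ∧ k = 2) ∧ ¬ B)) then 1 else 0) +
      (if (((¬ S ∧ k = 2) ∨ k = 3) ∨ ((¬ S ∧ k = 1) ∧ ¬ A) ∨ B) then 1 else 0) = k := by
  by_cases hS : S <;> by_cases hAA : A <;> by_cases hBB : B <;> interval_cases k <;> simp_all

lemma sum_rows (t : Fin 3 → Finset C) :
    ∑ k, (t k).card = ∑ x, (univ.filter fun k => x ∈ t k).card := by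
  simp only [card_eq_sum_ones, sum_filter]
  have : ∀ k, ∑ x ∈ t k, 1 = ∑ x, if x ∈ t k then 1 else 0 := by
    intro k
    rw [← sum_filter, filter_mem_eq_inter, univ_inter]
  simp only [this]
  rw [sum_comm]

/-- The counting formula. -/
theorem card_level {s : Fin 3 → Finset C} (hs : s ∈ tables ρ r) {l i j : Fin 3} (hli : l ≠ i)
    (hjl : j ≠ l) (hji : j ≠ i) (hu : (univ : Finset (Fin 3)) = {l, i, j}) (u : ℕ) :
    ((rowFib ρ r l (s l)).filter fun t => bS r (t i) = u).card =
      if 0 ≤ (u : ℤ) + delta ρ r i then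
        ((Y₁ r (s l)).card.choose ((u : ℤ) + delta ρ r i).toNat) * ((Y₂ r (s l)).card.choose u)
      else 0 := by
  set S := s l with hS
  have hnn : ∀ t ∈ (rowFib ρ r l S).filter (fun t => bS r (t i) = u),
      (cS r 1 (t i) : ℤ) = (u : ℤ) + delta ρ r i := by
    intro t ht
    simp only [rowFib, mem_filter] at ht
    have := row_delta ht.1.1 i
    rw [ht.2] at this
    exact this
  split_ifs with hpos
  swap
  · rw [card_eq_zero, filter_eq_empty_iff]
    intro t ht hb
    have := hnn t (mem_filter.mpr ⟨ht, hb⟩)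
    omega
  set a := ((u : ℤ) + delta ρ r i).toNat with ha
  have haz : (a : ℤ) = (u : ℤ) + delta ρ r i := Int.toNat_of_nonneg hpos
  rw [← card_powersetCard a (Y₁ r S), ← card_powersetCard u (Y₂ r S), ← card_product]
  -- basic facts about members
  have hcols : ∀ t ∈ tables ρ r, ∀ x, (if x ∈ t l then 1 else 0) + (if x ∈ t i then 1 else 0) +
      (if x ∈ t j then 1 else 0) = r x := by
    intro t ht x
    rw [← col_count t x hli hjl hji hu]
    exact (mem_tables.mp ht).2 x
  have hk : ∀ k : Fin 3, k = l ∨ k = i ∨ k = j := by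
    intro k
    have : k ∈ ({l, i, j} : Finset (Fin 3)) := by rw [← hu]; simp
    simpa using this
  refine Finset.card_bij
    (fun t _ => ((t i).filter (fun x => r x = 1), univ.filter (fun x => r x = 2 ∧ x ∉ t i)))
    ?_ ?_ ?_
  · -- maps to
    intro t ht
    have ht0 := hnn t ht
    simp only [rowFib, mem_filter] at ht
    obtain ⟨⟨ht1, ht2⟩, ht3⟩ := ht
    simp only [mem_product, mem_powersetCard]
    refine ⟨⟨?_, ?_⟩, ⟨?_, ?_⟩⟩
    · intro x hx
      simp only [mem_filter] at hx
      simp only [Y₁, mem_filter, mem_univ, true_and]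
      refine ⟨?_, hx.2⟩
      intro hxS
      have := hcols t ht1 x
      rw [ht2, hx.2] at this
      simp only [hxS, hx.1, if_true] at this
      split_ifs at this <;> omega
    · have : (((t i).filter fun x => r x = 1).card : ℤ) = a := by
        rw [haz]; exact ht0
      exact_mod_cast this
    · intro x hx
      simp only [mem_filter, mem_univ, true_and] at hx
      simp only [Y₂, mem_filter, mem_univ, true_and]
      refine ⟨?_, hx.1⟩
      have := hcols t ht1 x
      rw [ht2, hx.1] at this
      simp only [hx.2, if_false] at this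
      by_contra hxS
      simp only [hxS, if_false] at this
      split_ifs at this <;> omega
    · exact ht3
  · -- injective
    intro t ht t' ht' heq
    simp only [mem_filter, rowFib] at ht ht'
    obtain ⟨⟨ht1, ht2⟩, -⟩ := ht
    obtain ⟨⟨ht1', ht2'⟩, -⟩ := ht'
    simp only [Prod.mk.injEq] at heq
    have hri : ∀ x, x ∈ t i ↔ x ∈ t' i := by
      intro x
      have hr3 := r_le_three ht1 x
      by_cases h1 : r x = 1
      · have := congrArg (fun Z => x ∈ Z) heq.1
        simpa [h1] using this
      · by_cases h2 : r x = 2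
        · have := congrArg (fun Z => x ∈ Z) heq.2
          have h' : x ∉ t i ↔ x ∉ t' i := by simpa [h2] using this
          exact not_iff_not.mp h'
        · by_cases h3 : r x = 3
          · exact ⟨fun _ => mem_of_r_three ht1' i h3, fun _ => mem_of_r_three ht1 i h3⟩
          · have h0 : r x = 0 := by omega
            constructor
            · intro h
              have := r_pos_of_mem ht1 i h
              omega
            · intro h
              have := r_pos_of_mem ht1' i h
              omega
    have hrl : t l = t' l := ht2.trans ht2'.symm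
    have hrj : ∀ x, x ∈ t j ↔ x ∈ t' j := by
      intro x
      have h1 := hcols t ht1 x
      have h2 := hcols t' ht1' x
      rw [hrl] at h1
      by_cases h3 : x ∈ t' i
      · have h4 : x ∈ t i := (hri x).mpr h3
        simp only [h3, h4, if_true] at h1 h2
        by_cases h5 : x ∈ t j <;> by_cases h6 : x ∈ t' j <;> simp [h5, h6] at h1 h2 ⊢ <;> omega
      · have h4 : x ∉ t i := fun h => h3 ((hri x).mp h)
        simp only [h3, h4, if_false] at h1 h2
        by_cases h5 : x ∈ t j <;> by_cases h6 : x ∈ t' j <;> simp [h5, h6] at h1 h2 ⊢ <;> omega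
    funext k
    rcases hk k with rfl | rfl | rfl
    · exact hrl
    · ext x; exact hri x
    · ext x; exact hrj x
  · -- surjective
    rintro ⟨A, B⟩ hAB
    simp only [mem_product, mem_powersetCard] at hAB
    obtain ⟨⟨hA1, hA2⟩, hB1, hB2⟩ := hAB
    have hAx : ∀ x, x ∈ A → x ∉ S ∧ r x = 1 := by
      intro x hx
      have := hA1 hx
      simpa [Y₁] using this
    have hBx : ∀ x, x ∈ B → x ∈ S ∧ r x = 2 := by
      intro x hx
      have := hB1 hx
      simpa [Y₂] using this
    set T : Finset C := Fs r S ∪ A ∪ (Y₂ r S \ B) with hT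
    set T' : Finset C := Fs r S ∪ (Y₁ r S \ A) ∪ B with hT'
    set t : Fin 3 → Finset C := fun k => if k = l then S else if k = i then T else T' with ht
    have htl : t l = S := by simp [ht]
    have hti : t i = T := by simp [ht, hli.symm]
    have htj : t j = T' := by simp [ht, hji, hjl]
    have hmT : ∀ x, x ∈ T ↔ (((x ∉ S ∧ r x = 2) ∨ r x = 3) ∨ x ∈ A ∨ ((x ∈ S ∧ r x = 2) ∧ x ∉ B)) := by
      intro x
      simp only [hT, mem_union, Fs, Y₂, mem_filter, mem_univ, true_and, mem_sdiff, or_assoc]
    have hmT' : ∀ x, x ∈ T' ↔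
        (((x ∉ S ∧ r x = 2) ∨ r x = 3) ∨ ((x ∉ S ∧ r x = 1) ∧ x ∉ A) ∨ x ∈ B) := by
      intro x
      simp only [hT', mem_union, Fs, Y₁, mem_filter, mem_univ, true_and, mem_sdiff, or_assoc]
    have hcol_t : ∀ x, (univ.filter fun k => x ∈ t k).card = r x := by
      intro x
      rw [col_count t x hli hjl hji hu, htl, hti, htj]
      have h3 : r x ≤ 3 := r_le_three hs x
      have hS3 : r x = 3 → x ∈ S := fun h => mem_of_r_three hs l h
      have hS0 : x ∈ S → 1 ≤ r x := fun h => r_pos_of_mem hs l h
      have := cnt_logic (r x) h3 (x ∈ S) (x ∈ A) (x ∈ B) (hAx x) (hBx x) hS3 hS0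
      simp only [hmT, hmT']
      convert this using 3
    have hdisj1 : Disjoint (Fs r S) A := by
      rw [disjoint_left]
      intro x hx hxA
      have := hAx x hxA
      simp only [Fs, mem_filter, mem_univ, true_and] at hx
      omega
    have hdisj2 : Disjoint (Fs r S ∪ A) (Y₂ r S \ B) := by
      rw [disjoint_left]
      intro x hx hx'
      simp only [Y₂, mem_sdiff, mem_filter, mem_univ, true_and] at hx'
      simp only [mem_union, Fs, mem_filter, mem_univ, true_and] at hx
      rcases hx with (hx | hx) | hx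
      · exact hx.1 hx'.1.1
      · omega
      · have := hAx x hx
        exact this.1 hx'.1.1
    have hFcard : (Fs r S).card = bS r S + (univ.filter fun x => r x = 3).card := by
      unfold Fs bS
      rw [← card_union_of_disjoint]
      · congr 1
        ext x
        simp only [mem_filter, mem_univ, true_and, mem_union]
        tauto
      · rw [disjoint_left]
        intro x hx hx'
        simp only [mem_filter, mem_univ, true_and] at hx hx'
        omega
    have hY2card : (Y₂ r S).card = cS r 2 S := by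
      unfold Y₂ cS
      congr 1
      ext x
      simp
    have hc2b := c2_add_b hs l
    rw [← hS] at hc2b
    have hTcard : T.card = ρ i := by
      rw [hT, card_union_of_disjoint hdisj2, card_union_of_disjoint hdisj1,
        card_sdiff_of_subset hB1, hFcard, hY2card, hA2, hB2]
      have hle : u ≤ cS r 2 S := by
        rw [← hY2card, ← hB2]
        exact card_le_card hB1
      have : ((bS r S + (univ.filter fun x => r x = 3).card + a + (cS r 2 S - u) : ℕ) : ℤ) = ρ i := by
        push_cast [Nat.cast_sub hle]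
        rw [haz]
        unfold delta
        have : (cS r 2 S : ℤ) + bS r S = (univ.filter fun x => r x = 2).card := by exact_mod_cast hc2b
        linarith
      exact_mod_cast this
    have hsum : ∑ k, (t k).card = ∑ k, ρ k := by
      rw [sum_rows, sum_congr rfl (fun x _ => hcol_t x), ← sum_congr rfl
        (fun x _ => (mem_tables.mp hs).2 x), ← sum_rows]
      exact sum_congr rfl fun k _ => (mem_tables.mp hs).1 k
    have hT'card : T'.card = ρ j := by
      rw [hu, sum_insert (by simp [hli, hjl.symm]), sum_insert (by simp [hji.symm]), sum_singleton,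
        sum_insert (by simp [hli, hjl.symm]), sum_insert (by simp [hji.symm]), sum_singleton,
        htl, hti, htj, hTcard] at hsum
      have : S.card = ρ l := (mem_tables.mp hs).1 l
      omega
    have htmem : t ∈ tables ρ r := by
      rw [mem_tables]
      refine ⟨fun k => ?_, hcol_t⟩
      rcases hk k with rfl | rfl | rfl
      · rw [htl]; exact (mem_tables.mp hs).1 _
      · rw [hti]; exact hTcard
      · rw [htj]; exact hT'card
    have hA' : (t i).filter (fun x => r x = 1) = A := by
      rw [hti]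
      ext x
      simp only [mem_filter, hmT]
      constructor
      · rintro ⟨h1 | h1 | h1, h2⟩
        · omega
        · exact h1
        · omega
      · intro h
        exact ⟨Or.inr (Or.inl h), (hAx x h).2⟩
    have hB' : (univ.filter fun x => r x = 2 ∧ x ∉ t i) = B := by
      rw [hti]
      ext x
      simp only [mem_filter, mem_univ, true_and, hmT]
      constructor
      · rintro ⟨h1, h2⟩
        by_contra hxB
        apply h2
        by_cases hxS : x ∈ S
        · exact Or.inr (Or.inr ⟨⟨hxS, h1⟩, hxB⟩)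
        · exact Or.inl (Or.inl ⟨hxS, h1⟩)
      · intro h
        have h' := hBx x h
        refine ⟨h'.2, ?_⟩
        rintro (h1 | h1 | h1)
        · rcases h1 with h1 | h1
          · exact h1.1 h'.1
          · omega
        · have := (hAx x h1).2
          omega
        · exact h1.2 h
    refine ⟨t, ?_, ?_⟩
    · simp only [mem_filter, rowFib]
      refine ⟨⟨htmem, htl⟩, ?_⟩
      rw [← hB2, ← hB']
      rfl
    · rw [hA', hB']


/-- Integer-shifted binomial. -/
noncomputable def cz (U : ℕ) (k : ℤ) : ℝ := if 0 ≤ k then (U.choose k.toNat : ℝ) else 0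

/-- The level weight. -/
noncomputable def W (U V : ℕ) (δ : ℤ) (u : ℕ) : ℝ := (V.choose u : ℝ) * cz U ((u : ℤ) + δ)

lemma cz_nonneg (U : ℕ) (k : ℤ) : 0 ≤ cz U k := by
  unfold cz; split_ifs <;> positivity

lemma W_nonneg (U V : ℕ) (δ : ℤ) (u : ℕ) : 0 ≤ W U V δ u :=
  mul_nonneg (by positivity) (cz_nonneg _ _)

lemma choose_step (V u : ℕ) :
    (V.choose u : ℝ) * ((V : ℝ) + 1) = ((V + 1).choose u : ℝ) * ((V : ℝ) + 1 - u) := by
  by_cases h : u ≤ V + 1
  · have := Nat.choose_mul_succ_eq V u
    have h2 : ((V.choose u * (V + 1) : ℕ) : ℝ) = (((V + 1).choose u * (V + 1 - u) : ℕ) : ℝ) := by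
      rw [this]
    push_cast [Nat.cast_sub h] at h2
    exact h2
  · push Not at h
    rw [Nat.choose_eq_zero_of_lt (by omega : V < u), Nat.choose_eq_zero_of_lt h]
    simp

lemma cz_step (U : ℕ) (k : ℤ) :
    cz U k * ((U : ℝ) + 1) = cz (U + 1) k * ((U : ℝ) + 1 - (k : ℝ)) := by
  unfold cz
  split_ifs with h
  · have := choose_step U k.toNat
    have hk : ((k.toNat : ℕ) : ℝ) = (k : ℝ) := by
      have := Int.toNat_of_nonneg h
      exact_mod_cast this
    rw [hk] at this
    exact this
  · simp

lemma W_step (U V : ℕ) (δ : ℤ) (u : ℕ) :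
    W U V δ u * (((U : ℝ) + 1) * ((V : ℝ) + 1)) =
      W (U + 1) (V + 1) δ u * (((V : ℝ) + 1 - u) * ((U : ℝ) + 1 - ((u : ℝ) + (δ : ℝ)))) := by
  unfold W
  have h1 := choose_step V u
  have h2 := cz_step U ((u : ℤ) + δ)
  push_cast at h2
  calc (V.choose u : ℝ) * cz U ((u : ℤ) + δ) * (((U : ℝ) + 1) * ((V : ℝ) + 1))
      = ((V.choose u : ℝ) * ((V : ℝ) + 1)) * (cz U ((u : ℤ) + δ) * ((U : ℝ) + 1)) := by ring
    _ = (((V + 1).choose u : ℝ) * ((V : ℝ) + 1 - u)) *
          (cz (U + 1) ((u : ℤ) + δ) * ((U : ℝ) + 1 - ((u : ℝ) + (δ : ℝ)))) := by rw [h1, h2]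
    _ = _ := by ring

/-- Monotone likelihood ratio. -/
lemma W_mlr (U V : ℕ) (δ : ℤ) {u u' : ℕ} (h : u' ≤ u) :
    W (U + 1) (V + 1) δ u' * W U V δ u ≤ W (U + 1) (V + 1) δ u * W U V δ u' := by
  have hP : 0 < ((U : ℝ) + 1) * ((V : ℝ) + 1) := by positivity
  have e1 := W_step U V δ u
  have e2 := W_step U V δ u'
  set X := W (U + 1) (V + 1) δ u with hX
  set X' := W (U + 1) (V + 1) δ u' with hX'
  have hX0 : 0 ≤ X := W_nonneg _ _ _ _
  have hX'0 : 0 ≤ X' := W_nonneg _ _ _ _
  set G := ((V : ℝ) + 1 - u) * ((U : ℝ) + 1 - ((u : ℝ) + (δ : ℝ))) with hG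
  set G' := ((V : ℝ) + 1 - u') * ((U : ℝ) + 1 - ((u' : ℝ) + (δ : ℝ))) with hG'
  have key : X * X' * G ≤ X * X' * G' := by
    by_cases h0 : X * X' = 0
    · rw [h0]; simp
    · have hXne : X ≠ 0 := left_ne_zero_of_mul h0
      have hX'ne : X' ≠ 0 := right_ne_zero_of_mul h0
      -- support of `u`
      have hu1 : u ≤ V + 1 := by
        by_contra hcon
        apply hXne
        rw [hX]; unfold W
        rw [Nat.choose_eq_zero_of_lt (by omega)]
        simp
      have hu2 : 0 ≤ (u : ℤ) + δ ∧ (u : ℤ) + δ ≤ U + 1 := by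
        by_contra hcon
        apply hXne
        rw [hX]; unfold W cz
        by_cases h3 : 0 ≤ (u : ℤ) + δ
        · rw [if_pos h3]
          have h4 : U + 1 < ((u : ℤ) + δ).toNat := by
            have h5 : ¬ ((u : ℤ) + δ ≤ U + 1) := fun h6 => hcon ⟨h3, h6⟩
            omega
          rw [Nat.choose_eq_zero_of_lt h4]
          simp
        · rw [if_neg h3]; simp
      have h1 : (u : ℝ) ≤ (V : ℝ) + 1 := by exact_mod_cast hu1
      have h2 : (u : ℝ) + (δ : ℝ) ≤ (U : ℝ) + 1 := by exact_mod_cast hu2.2
      have h3 : (u' : ℝ) ≤ u := by exact_mod_cast h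
      have hGG : G ≤ G' := by
        rw [hG, hG']
        apply mul_le_mul <;> linarith
      exact mul_le_mul_of_nonneg_left hGG (mul_nonneg hX0 hX'0)
  have : (X' * W U V δ u) * (((U : ℝ) + 1) * ((V : ℝ) + 1)) ≤
      (X * W U V δ u') * (((U : ℝ) + 1) * ((V : ℝ) + 1)) := by
    calc (X' * W U V δ u) * (((U : ℝ) + 1) * ((V : ℝ) + 1))
        = X' * (W U V δ u * (((U : ℝ) + 1) * ((V : ℝ) + 1))) := by ring
      _ = X * X' * G := by rw [e1]; ring
      _ ≤ X * X' * G' := key
      _ = X * (W U V δ u' * (((U : ℝ) + 1) * ((V : ℝ) + 1))) := by rw [e2]; ring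
      _ = _ := by ring
  exact le_of_mul_le_mul_right this hP

/-- Comparison of averages from a monotone likelihood ratio. -/
lemma compare_of_mlr {X : Type*} (F G : Finset X) (β : X → ℕ) (φ : ℕ → ℝ) (hF : F.Nonempty)
    (hG : G.Nonempty)
    (hmono : ∀ x y, (x ∈ F ∨ x ∈ G) → (y ∈ F ∨ y ∈ G) → β x ≤ β y → φ (β x) ≤ φ (β y))
    (hmlr : ∀ u u', u' ≤ u → ((F.filter fun x => β x = u').card : ℝ) * (G.filter fun x => β x = u).card ≤
      (F.filter fun x => β x = u).card * (G.filter fun x => β x = u').card) :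
    avg G (fun x => φ (β x)) ≤ avg F (fun x => φ (β x)) := by
  set L := (F ∪ G).image β with hL
  set nF : ℕ → ℝ := fun u => ((F.filter fun x => β x = u).card : ℝ) with hnF
  set nG : ℕ → ℝ := fun u => ((G.filter fun x => β x = u).card : ℝ) with hnG
  have sumF : ∀ ψ : ℕ → ℝ, ∑ x ∈ F, ψ (β x) = ∑ u ∈ L, nF u * ψ u := by
    intro ψ
    rw [← Finset.sum_fiberwise_of_maps_to (s := F) (t := L) (g := β)
      (fun x hx => mem_image_of_mem _ (mem_union_left _ hx))]
    refine sum_congr rfl fun u _ => ?_
    have : ∀ x ∈ F.filter (fun x => β x = u), ψ (β x) = ψ u := by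
      intro x hx; rw [(mem_filter.mp hx).2]
    rw [sum_congr rfl this, sum_const, nsmul_eq_mul]
  have sumG : ∀ ψ : ℕ → ℝ, ∑ x ∈ G, ψ (β x) = ∑ u ∈ L, nG u * ψ u := by
    intro ψ
    rw [← Finset.sum_fiberwise_of_maps_to (s := G) (t := L) (g := β)
      (fun x hx => mem_image_of_mem _ (mem_union_right _ hx))]
    refine sum_congr rfl fun u _ => ?_
    have : ∀ x ∈ G.filter (fun x => β x = u), ψ (β x) = ψ u := by
      intro x hx; rw [(mem_filter.mp hx).2]
    rw [sum_congr rfl this, sum_const, nsmul_eq_mul]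
  have cardF : (F.card : ℝ) = ∑ u ∈ L, nF u := by
    have := sumF (fun _ => 1)
    simpa using this
  have cardG : (G.card : ℝ) = ∑ u ∈ L, nG u := by
    have := sumG (fun _ => 1)
    simpa using this
  unfold avg
  have hFp : (0 : ℝ) < F.card := by exact_mod_cast card_pos.mpr hF
  have hGp : (0 : ℝ) < G.card := by exact_mod_cast card_pos.mpr hG
  rw [div_le_div_iff₀ hGp hFp, sumF φ, sumG φ, cardF, cardG]
  set A : ℕ → ℕ → ℝ := fun u u' => nF u * nG u' * (φ u - φ u') with hA
  have hT : (∑ u ∈ L, nF u * φ u) * (∑ u ∈ L, nG u) - (∑ u ∈ L, nG u * φ u) * (∑ u ∈ L, nF u) =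
      ∑ u ∈ L, ∑ u' ∈ L, A u u' := by
    rw [Finset.sum_mul_sum, Finset.sum_mul_sum]
    rw [sum_comm (f := fun u u' => nG u * φ u * nF u')]
    rw [← sum_sub_distrib]
    refine sum_congr rfl fun u _ => ?_
    rw [← sum_sub_distrib]
    refine sum_congr rfl fun u' _ => ?_
    simp only [hA]
    ring
  have hT2 : ∑ u ∈ L, ∑ u' ∈ L, A u u' = ∑ u ∈ L, ∑ u' ∈ L, A u' u := sum_comm
  have hT3 : 0 ≤ ∑ u ∈ L, ∑ u' ∈ L, (A u u' + A u' u) := by
    refine sum_nonneg fun u hu => sum_nonneg fun u' hu' => ?_
    obtain ⟨x, hx, hxu⟩ := mem_image.mp hu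
    obtain ⟨y, hy, hyu⟩ := mem_image.mp hu'
    simp only [hA]
    have hnn : ∀ v w : ℕ, w ≤ v → 0 ≤ (nF v * nG w - nF w * nG v) := by
      intro v w hvw
      have := hmlr v w hvw
      simp only [hnF, hnG]
      linarith
    rcases le_total u' u with h | h
    · have h1 : φ u' ≤ φ u := by
        have := hmono y x (mem_union.mp hy) (mem_union.mp hx) (by rw [hxu, hyu]; exact h)
        rwa [hxu, hyu] at this
      have h2 := hnn u u' h
      nlinarith [mul_nonneg h2 (sub_nonneg.mpr h1)]
    · have h1 : φ u ≤ φ u' := by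
        have := hmono x y (mem_union.mp hx) (mem_union.mp hy) (by rw [hxu, hyu]; exact h)
        rwa [hxu, hyu] at this
      have h2 := hnn u' u h
      nlinarith [mul_nonneg h2 (sub_nonneg.mpr h1)]
  simp only [sum_add_distrib] at hT3
  rw [← hT2] at hT3
  linarith


lemma Y₂_card {s : Fin 3 → Finset C} (hs : s ∈ tables ρ r) (l : Fin 3) :
    (Y₂ r (s l)).card + bS r (s l) = (univ.filter fun x => r x = 2).card := by
  rw [← c2_add_b hs l]
  congr 1
  unfold Y₂ cS
  congr 1
  ext x
  simp

lemma Y₁_card (S : Finset C) :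
    (Y₁ r S).card + cS r 1 S = (univ.filter fun x => r x = 1).card := by
  unfold Y₁ cS
  rw [← card_union_of_disjoint]
  · congr 1
    ext x
    simp only [mem_union, mem_filter, mem_univ, true_and]
    by_cases h : x ∈ S <;> simp [h]
  · rw [disjoint_left]
    intro x hx hx'
    simp only [mem_filter, mem_univ, true_and] at hx hx'
    exact hx.1 hx'.1

/-- Real form of the level count. -/
lemma level_real {s : Fin 3 → Finset C} (hs : s ∈ tables ρ r) {l i j : Fin 3} (hli : l ≠ i)
    (hjl : j ≠ l) (hji : j ≠ i) (hu : (univ : Finset (Fin 3)) = {l, i, j}) (u : ℕ) :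
    (((rowFib ρ r l (s l)).filter fun t => bS r (t i) = u).card : ℝ) =
      W (Y₁ r (s l)).card (Y₂ r (s l)).card (delta ρ r i) u := by
  rw [card_level hs hli hjl hji hu u]
  unfold W cz
  split_ifs with h
  · push_cast; ring
  · simp

/-- The stochastic comparison between two rows with consecutive values of `b_l`. -/
lemma compare_rows {s t : Fin 3 → Finset C} (hs : s ∈ tables ρ r) (ht : t ∈ tables ρ r) {l i : Fin 3}
    (hil : i ≠ l) (hst : bS r (t l) = bS r (s l) + 1) (φ : ℕ → ℝ)
    (hmono : ∀ x ∈ tables ρ r, ∀ y ∈ tables ρ r, bS r (x i) ≤ bS r (y i) →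
      φ (bS r (x i)) ≤ φ (bS r (y i))) :
    avg (rowFib ρ r l (t l)) (fun x => φ (bS r (x i))) ≤
      avg (rowFib ρ r l (s l)) (fun x => φ (bS r (x i))) := by
  obtain ⟨j, hjl, hji, hu⟩ := third l i hil.symm
  have hsub : ∀ S, rowFib ρ r l S ⊆ tables ρ r := fun S => filter_subset _ _
  have hY2 : (Y₂ r (s l)).card = (Y₂ r (t l)).card + 1 := by
    have h1 := Y₂_card hs l
    have h2 := Y₂_card ht l
    omega
  have hY1 : (Y₁ r (s l)).card = (Y₁ r (t l)).card + 1 := by
    have h1 := Y₁_card (r := r) (s l)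
    have h2 := Y₁_card (r := r) (t l)
    have h3 := row_delta hs l
    have h4 := row_delta ht l
    omega
  refine compare_of_mlr (rowFib ρ r l (s l)) (rowFib ρ r l (t l)) (fun x => bS r (x i)) φ
    ⟨s, by simp [rowFib, hs]⟩ ⟨t, by simp [rowFib, ht]⟩ ?_ ?_
  · intro x y hx hy hxy
    have hx' : x ∈ tables ρ r := by
      rcases hx with h | h
      · exact hsub _ h
      · exact hsub _ h
    have hy' : y ∈ tables ρ r := by
      rcases hy with h | h
      · exact hsub _ h
      · exact hsub _ h
    exact hmono x hx' y hy' hxy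
  · intro u u' huu
    rw [level_real hs hil.symm hjl hji hu, level_real hs hil.symm hjl hji hu,
      level_real ht hil.symm hjl hji hu, level_real ht hil.symm hjl hji hu, hY1, hY2]
    exact W_mlr _ _ _ huu

lemma avg_add_mul {β : Type*} (S : Finset β) (c d : ℝ) (a h : β → ℝ) :
    avg S (fun x => c * a x + d * h x) = c * avg S a + d * avg S h := by
  unfold avg
  rw [sum_add_distrib, ← Finset.mul_sum, ← Finset.mul_sum]
  ring

lemma avg_const_of_forall {β : Type*} {S : Finset β} (hS : S.Nonempty) {h : β → ℝ} {c : ℝ}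
    (hc : ∀ x ∈ S, h x = c) : avg S h = c := by
  unfold avg
  rw [sum_congr rfl hc, sum_const, nsmul_eq_mul]
  have : (S.card : ℝ) ≠ 0 := by exact_mod_cast (card_pos.mpr hS).ne'
  field_simp

lemma avg_congr' {β : Type*} {S : Finset β} {h h' : β → ℝ} (hc : ∀ x ∈ S, h x = h' x) :
    avg S h = avg S h' := by
  unfold avg
  rw [sum_congr rfl hc]

lemma avg_sum {β κ : Type*} (S : Finset β) (I : Finset κ) (h : κ → β → ℝ) :
    avg S (fun x => ∑ i ∈ I, h i x) = ∑ i ∈ I, avg S (h i) := by
  unfold avg
  rw [sum_comm, Finset.sum_div]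

/-- **Invariant sector**. An eigenfunction of `∑ Π_i` with eigenvalue `μ > 2`, mean zero,
column-symmetric, vanishes. -/
theorem invariant_eig_zero (ρ : Fin 3 → ℕ) (r : C → ℕ) (f : (Fin 3 → Finset C) → ℝ) (μ : ℝ)
    (hμ : 2 < μ) (hmean : ∑ s ∈ tables ρ r, f s = 0)
    (heig : ∀ s ∈ tables ρ r, ∑ i, rowAvg ρ r i f s = μ * f s)
    (hinv : ∀ x x', r x = r x' → ∀ s ∈ tables ρ r, f (tau x x' s) = f s) :
    ∀ s ∈ tables ρ r, f s = 0 := by
  have hμ' : 0 < μ - 1 := by linarith
  have hμ1 : 1 < μ - 1 := by linarith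
  set g : Fin 3 → (Fin 3 → Finset C) → ℝ := fun i s => rowAvg ρ r i f s with hg
  have hlev : ∀ i, ∀ s ∈ tables ρ r, ∀ s' ∈ tables ρ r, bS r (s i) = bS r (s' i) → g i s = g i s' :=
    fun i s hs s' hs' hb => level_eq hinv i hs hs' hb
  -- the level function
  set ψ : Fin 3 → ℕ → ℝ := fun i u =>
    if h : ∃ t ∈ tables ρ r, bS r (t i) = u then g i h.choose else 0 with hψdef
  have hψ : ∀ i, ∀ s ∈ tables ρ r, ψ i (bS r (s i)) = g i s := by
    intro i s hs
    have h : ∃ t ∈ tables ρ r, bS r (t i) = bS r (s i) := ⟨s, hs, rfl⟩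
    simp only [hψdef, dif_pos h]
    exact hlev i _ h.choose_spec.1 s hs h.choose_spec.2
  have hsubF : ∀ l S, rowFib ρ r l S ⊆ tables ρ r := fun l S => filter_subset _ _
  have hFne : ∀ l, ∀ s ∈ tables ρ r, (rowFib ρ r l (s l)).Nonempty :=
    fun l s hs => ⟨s, by simp [rowFib, hs]⟩
  -- the eigenvalue relation on one row
  have heig2 : ∀ l, ∀ s ∈ tables ρ r,
      ∑ i ∈ univ.erase l, avg (rowFib ρ r l (s l)) (g i) = (μ - 1) * g l s := by
    intro l s hs
    have a1 : ∑ i, avg (rowFib ρ r l (s l)) (g i) = μ * g l s := by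
      rw [← avg_sum]
      have : avg (rowFib ρ r l (s l)) (fun x => ∑ i, g i x) =
          avg (rowFib ρ r l (s l)) (fun x => μ * f x) := by
        refine avg_congr' fun x hx => heig x (hsubF _ _ hx)
      rw [this]
      unfold avg
      rw [← Finset.mul_sum, mul_div_assoc]
      rfl
    have a2 : avg (rowFib ρ r l (s l)) (g l) = g l s := by
      refine avg_const_of_forall (hFne l s hs) fun x hx => ?_
      simp only [rowFib, mem_filter] at hx
      exact rowAvg_congr hx.2
    rw [← add_sum_erase univ _ (mem_univ l), a2] at a1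
    linarith
  -- conservation on a row fibre
  have hcons : ∀ l, ∀ s ∈ tables ρ r, ∑ i ∈ univ.erase l,
      avg (rowFib ρ r l (s l)) (fun x => (bS r (x i) : ℝ)) =
      ((univ.filter fun x => r x = 2).card : ℝ) - bS r (s l) := by
    intro l s hs
    rw [← avg_sum]
    refine avg_const_of_forall (hFne l s hs) fun x hx => ?_
    simp only [rowFib, mem_filter] at hx
    have h1 := sum_b hx.1
    rw [← add_sum_erase univ _ (mem_univ l), hx.2] at h1
    have h2 : ((bS r (s l) + ∑ i ∈ univ.erase l, bS r (x i) : ℕ) : ℝ) =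
        ((univ.filter fun x => r x = 2).card : ℝ) := by rw [h1]
    push_cast at h2
    linarith
  -- Lipschitz constants
  let Lip : ℝ → Prop := fun c => ∀ i, ∀ s ∈ tables ρ r, ∀ s' ∈ tables ρ r,
    bS r (s' i) ≤ bS r (s i) → |g i s - g i s'| ≤ c * ((bS r (s i) : ℝ) - bS r (s' i))
  -- one step
  have hadj : ∀ c, Lip c → ∀ l, ∀ s ∈ tables ρ r, ∀ t ∈ tables ρ r, bS r (t l) = bS r (s l) + 1 →
      (μ - 1) * |g l t - g l s| ≤ c := by
    intro c hc l s hs t ht hst
    have e1 : ∀ i ∈ univ.erase l,
        c * avg (rowFib ρ r l (t l)) (fun x => (bS r (x i) : ℝ)) -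
            avg (rowFib ρ r l (t l)) (g i) ≤
          c * avg (rowFib ρ r l (s l)) (fun x => (bS r (x i) : ℝ)) -
            avg (rowFib ρ r l (s l)) (g i) := by
      intro i hi
      have hil : i ≠ l := (mem_erase.mp hi).1
      have := compare_rows hs ht hil hst (fun u => c * (u : ℝ) + (-1) * ψ i u) (by
        intro x hx y hy hxy
        have h1 := hc i y hy x hx hxy
        have h2 := abs_le.mp h1
        simp only [hψ i x hx, hψ i y hy]
        linarith [h2.2])
      simp only [avg_add_mul] at this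
      have c1 : avg (rowFib ρ r l (t l)) (fun x => ψ i (bS r (x i))) =
          avg (rowFib ρ r l (t l)) (g i) :=
        avg_congr' fun x hx => hψ i x (hsubF _ _ hx)
      have c2 : avg (rowFib ρ r l (s l)) (fun x => ψ i (bS r (x i))) =
          avg (rowFib ρ r l (s l)) (g i) :=
        avg_congr' fun x hx => hψ i x (hsubF _ _ hx)
      rw [c1, c2] at this
      linarith
    have e2 : ∀ i ∈ univ.erase l,
        c * avg (rowFib ρ r l (t l)) (fun x => (bS r (x i) : ℝ)) +
            avg (rowFib ρ r l (t l)) (g i) ≤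
          c * avg (rowFib ρ r l (s l)) (fun x => (bS r (x i) : ℝ)) +
            avg (rowFib ρ r l (s l)) (g i) := by
      intro i hi
      have hil : i ≠ l := (mem_erase.mp hi).1
      have := compare_rows hs ht hil hst (fun u => c * (u : ℝ) + 1 * ψ i u) (by
        intro x hx y hy hxy
        have h1 := hc i y hy x hx hxy
        have h2 := abs_le.mp h1
        simp only [hψ i x hx, hψ i y hy]
        linarith [h2.1])
      simp only [avg_add_mul] at this
      have c1 : avg (rowFib ρ r l (t l)) (fun x => ψ i (bS r (x i))) =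
          avg (rowFib ρ r l (t l)) (g i) :=
        avg_congr' fun x hx => hψ i x (hsubF _ _ hx)
      have c2 : avg (rowFib ρ r l (s l)) (fun x => ψ i (bS r (x i))) =
          avg (rowFib ρ r l (s l)) (g i) :=
        avg_congr' fun x hx => hψ i x (hsubF _ _ hx)
      rw [c1, c2] at this
      linarith
    have s1 := sum_le_sum e1
    have s2 := sum_le_sum e2
    simp only [sum_sub_distrib, sum_add_distrib, ← Finset.mul_sum] at s1 s2
    rw [hcons l s hs, hcons l t ht, heig2 l s hs, heig2 l t ht, hst] at s1 s2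
    push_cast at s1 s2
    rcases abs_cases (g l t - g l s) with ⟨h, _⟩ | ⟨h, _⟩ <;> rw [h] <;> nlinarith
  -- Lipschitz improvement
  have hstep : ∀ c, Lip c → Lip (c / (μ - 1)) := by
    intro c hc l s hs s' hs' hle
    have key : ∀ k : ℕ, ∀ x ∈ tables ρ r, bS r (x l) + k = bS r (s l) →
        |g l s - g l x| ≤ (k : ℝ) * (c / (μ - 1)) := by
      intro k
      induction k with
      | zero =>
        intro x hx h
        have := hlev l s hs x hx (by omega)
        simp [this]
      | succ k ih =>
        intro x hx h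
        obtain ⟨t, ht, hb⟩ := exists_up (l := l) hx hs (by omega)
        have h1 := hadj c hc l x hx t ht hb
        have h2 := ih t ht (by omega)
        have h3 : |g l t - g l x| ≤ c / (μ - 1) := by
          rw [le_div_iff₀ hμ']
          linarith
        have h4 : |g l s - g l x| ≤ |g l s - g l t| + |g l t - g l x| := abs_sub_le _ _ _
        push_cast
        linarith
    have := key (bS r (s l) - bS r (s' l)) s' hs' (by omega)
    rw [Nat.cast_sub hle] at this
    calc |g l s - g l s'| ≤ _ := this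
      _ = _ := by ring
  -- initial constant
  set c₀ : ℝ := ∑ i, ∑ s ∈ tables ρ r, ∑ s' ∈ tables ρ r, |g i s - g i s'| with hc₀
  have hc₀0 : 0 ≤ c₀ :=
    sum_nonneg fun _ _ => sum_nonneg fun _ _ => sum_nonneg fun _ _ => abs_nonneg _
  have hL0 : Lip c₀ := by
    intro i s hs s' hs' hle
    rcases hle.eq_or_lt with h | h
    · rw [hlev i s hs s' hs' h.symm]
      simp [h]
    · have h1 : |g i s - g i s'| ≤ c₀ := by
        calc |g i s - g i s'| ≤ ∑ s' ∈ tables ρ r, |g i s - g i s'| :=
              single_le_sum (f := fun s' => |g i s - g i s'|) (fun _ _ => abs_nonneg _) hs'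
          _ ≤ ∑ s ∈ tables ρ r, ∑ s' ∈ tables ρ r, |g i s - g i s'| :=
              single_le_sum (f := fun s => ∑ s' ∈ tables ρ r, |g i s - g i s'|)
                (fun _ _ => sum_nonneg fun _ _ => abs_nonneg _) hs
          _ ≤ c₀ := single_le_sum (f := fun i => ∑ s ∈ tables ρ r, ∑ s' ∈ tables ρ r, |g i s - g i s'|)
                (fun _ _ => sum_nonneg fun _ _ => sum_nonneg fun _ _ => abs_nonneg _) (mem_univ i)
      have h2 : (1 : ℝ) ≤ (bS r (s i) : ℝ) - bS r (s' i) := by
        have : ((bS r (s' i) + 1 : ℕ) : ℝ) ≤ (bS r (s i) : ℝ) := by exact_mod_cast h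
        push_cast at this
        linarith
      nlinarith
  have hiter : ∀ k : ℕ, Lip (c₀ / (μ - 1) ^ k) := by
    intro k
    induction k with
    | zero => simpa using hL0
    | succ k ih =>
      have := hstep _ ih
      rwa [div_div, ← pow_succ] at this
  -- all `g i` are constant
  have hconst : ∀ i, ∀ s ∈ tables ρ r, ∀ s' ∈ tables ρ r, g i s = g i s' := by
    have hc : ∀ i, ∀ s ∈ tables ρ r, ∀ s' ∈ tables ρ r, bS r (s' i) ≤ bS r (s i) → g i s = g i s' := by
      intro i s hs s' hs' hle
      set Δ : ℝ := (bS r (s i) : ℝ) - bS r (s' i) with hΔ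
      have h1 : ∀ k : ℕ, |g i s - g i s'| ≤ c₀ * Δ / (μ - 1) ^ k := by
        intro k
        have := hiter k i s hs s' hs' hle
        calc |g i s - g i s'| ≤ _ := this
          _ = _ := by ring
      have h2 : Filter.Tendsto (fun k : ℕ => c₀ * Δ / (μ - 1) ^ k) Filter.atTop (nhds 0) :=
        Filter.Tendsto.div_atTop tendsto_const_nhds (tendsto_pow_atTop_atTop_of_one_lt hμ1)
      have h3 : |g i s - g i s'| ≤ 0 := ge_of_tendsto' h2 h1
      have h4 := abs_nonpos_iff.mp h3
      linarith
    intro i s hs s' hs'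
    rcases le_total (bS r (s' i)) (bS r (s i)) with h | h
    · exact hc i s hs s' hs' h
    · exact (hc i s' hs' s hs h).symm
  -- conclusion
  intro s hs
  have hμ0 : μ ≠ 0 := by linarith
  have hfc : ∀ t ∈ tables ρ r, f t = f s := by
    intro t ht
    have h1 := heig t ht
    have h2 := heig s hs
    have h3 : ∑ i, rowAvg ρ r i f t = ∑ i, rowAvg ρ r i f s :=
      sum_congr rfl fun i _ => hconst i t ht s hs
    rw [h1, h2] at h3
    exact mul_left_cancel₀ hμ0 h3
  rw [sum_congr rfl hfc, sum_const, nsmul_eq_mul] at hmean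
  have hne : ((tables ρ r).card : ℝ) ≠ 0 := by
    exact_mod_cast (card_pos.mpr ⟨s, hs⟩).ne'
  exact (mul_eq_zero.mp hmean).resolve_left hne

end Crest.Agent.Lib.S0453.Table3B
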