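/-
S0453 task TABLE3 (abstract, no graphs): helper4's 3-row lemma.
Tables: R : Fin 3 → Finset C with |R i| = ρ i and #{i : x ∈ R i} = r x.  For any row functions g_i: Var(∑ g_i(R_i)) ≤ 2 ∑ Var(g_i(R_i)).
PROOF (msg 91 [B], msg 314(3)).  Let T' = ∑ Π_i on functions on tables (Π_i = average over tables with the same row i).  Enough: every eigenvector of M = T' - 3·(global mean) has eigenvalue ≤ 2 (then use duality).
Let τ_{xx'} (r x = r x') act on tables by exchanging columns x, x'.  Table set invariant, R_i(τ s) = τ(R_i s), so τ commutes with Π_i.  Λ = ∑_{r x = r x'} (1 - τ_{xx'}) commutes with T'.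
At a table s, at most 2 rows have different entries on x,x' (3 rows only!), so (F(τ s)-F(s))² ≤ 2 ∑_i (g_i(τ s)-g_i(s))² for F=∑ g_i; hence ⟨T'f,ΛT'f⟩ ≤ 2⟨f,ΛT'f⟩.  If T'f = t f, t>0 and ⟨f,Λf⟩>0 then t ≤ 2.
Otherwise (symmetrise f: Sym f is again an eigenvector) f is invariant under all τ; then g_i = Π_i f is τ-invariant and R_i-measurable so g_i = ψ_i(b_i), b_i = #{x: r x = 2, x ∉ R_i} (a_i = #{x: r x=1, x∈R_i} = b_i + δ_i).  ∑ b_i = q := #{x: r x = 2}.
Scalar Lemma A (helper21 form): integer labels b_1,b_2,b_3 on a finite set with ∑ b_i const and negative regression: for i≠l, k ↦ P(b_l ≥ t | b_i = k) nonincreasing for each t.  Then (O ψ)_i = ∑_{l≠i} E[ψ_l(b_l)|b_i] has eigenvalues ≤ 1: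
take slopes c_i(s)= (ψ_i(s)-ψ_i(s'))/(s-s') between consecutive support points; O acts on slopes by a matrix -Ξ with Ξ ≥ 0 whose row sums are 1 (apply to ψ_i(s)=s and use conservation ∑_{l≠i}E[b_l|b_i=s] = q - s); maximum principle gives |β| ≤ 1.
Negative regression for tables: given row l, with U = #{x: r x=1, x∉R_l}, V = #{x: r x=2, x∈R_l} the number of tables with b_i = k is C(U,k+δ_i) C(V,k), and the ratio (k+1)/(k) term is ((U-k-δ_i)/(k+1+δ_i))((V-k)/(k+1)) which decreases when b_l grows (U,V decrease): MLR hence stochastic monotonicity.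
-/
import Crest.Agent.Lib.S0453.Table3A
import Crest.Agent.Lib.S0453.Table3B

set_option autoImplicit false
open Finset
open scoped Classical

namespace Crest.Agent.Lib.S0453.Table3

variable {C : Type*} [Fintype C]

/-- The 3-row lemma. -/
theorem three_row (ρ : Fin 3 → ℕ) (r : C → ℕ) (g : Fin 3 → Finset C → ℝ) :
    varS (tables ρ r) (fun R => ∑ i, g i (R i)) ≤
      2 * ∑ i, varS (tables ρ r) (fun R => g i (R i)) :=
  three_row_of_invariant ρ r
    (fun f μ hμ hmean heig hinv => Table3B.invariant_eig_zero ρ r f μ hμ hmean heig hinv) g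

end Crest.Agent.Lib.S0453.Table3
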